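import Vale.Agent.P137.Basic

open MeasureTheory Metric Set Filter
open scoped ENNReal NNReal Topology

namespace Vale.Agent.P137

namespace PLAux

variable {d : ℕ}

theorem int_smul {w : E d → E d} (hw : Integrable w) {ζ : E d → ℝ} {B : ℝ} (hζ : Measurable ζ)
    (hB : ∀ y, |ζ y| ≤ B) : Integrable fun y => ζ y • w y := by
  refine Integrable.mono' (hw.norm.const_mul B) (hζ.aestronglyMeasurable.smul hw.1)
    (Eventually.of_forall fun y => ?_)
  rw [norm_smul]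
  exact mul_le_mul_of_nonneg_right (hB y) (norm_nonneg _)

theorem int_mul {g : E d → ℝ} (hg : Integrable g) {ζ : E d → ℝ} {B : ℝ} (hζ : Measurable ζ)
    (hB : ∀ y, |ζ y| ≤ B) : Integrable fun y => ζ y * g y := by
  refine Integrable.mono' (hg.norm.const_mul B) (hζ.aestronglyMeasurable.mul hg.1)
    (Eventually.of_forall fun y => ?_)
  rw [norm_mul]
  exact mul_le_mul_of_nonneg_right (hB y) (norm_nonneg _)

theorem int_inner {w : E d → E d} (hw : Integrable w) {ζ : E d → ℝ} {B : ℝ} (hζ : Measurable ζ)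
    (hB : ∀ y, |ζ y| ≤ B) (v : E d) : Integrable fun y => ζ y * inner ℝ v (w y) :=
  int_mul (hw.const_inner v) hζ hB

theorem integral_inner_eq {w : E d → E d} (hw : Integrable w) {ζ : E d → ℝ} {B : ℝ}
    (hζ : Measurable ζ) (hB : ∀ y, |ζ y| ≤ B) (v : E d) :
    ∫ y, ζ y * inner ℝ v (w y) = inner ℝ v (∫ y, ζ y • w y) := by
  rw [← integral_inner (int_smul hw hζ hB)]
  simp only [real_inner_smul_right]

theorem int_dfc (e : E d) {w : E d → E d} (hw : Integrable w) :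
    Integrable fun y => dfc e (w y) := by
  refine Integrable.mono' (hw.norm.const_mul (1 + 2 * ‖e‖))
    ((continuous_dfc e).comp_aestronglyMeasurable hw.1) (Eventually.of_forall fun y => ?_)
  rw [Real.norm_eq_abs, abs_of_nonneg (dfc_nonneg _ _)]
  have h := abs_real_inner_le_norm e (w y)
  have h2 := neg_abs_le (inner ℝ e (w y))
  exact max_le (by nlinarith) (by positivity)

theorem dual_inner {m : ℕ → E d → E d} {μ : E d → E d} {ℓ : ℝ} {K : ℕ} (h : Lev m μ ℓ K)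
    (l : ℕ) {ζ : E d → ℝ} {B : ℝ} (hζ : Measurable ζ) (hB : ∀ y, |ζ y| ≤ B) :
    ∃ ζ' : E d → ℝ, Measurable ζ' ∧
      (∀ y a, (∀ y', ‖y' - y‖ ≤ ℓ / 4 ^ l → a ≤ ζ y') → a ≤ ζ' y) ∧
      (∀ y a, (∀ y', ‖y' - y‖ ≤ ℓ / 4 ^ l → ζ y' ≤ a) → ζ' y ≤ a) ∧
      (∀ y, |ζ' y| ≤ B) ∧
      ∀ v, ∫ y, ζ y * inner ℝ v (m l y) = ∫ y, ζ' y * inner ℝ v (m (l + 1) y) := by
  obtain ⟨ζ', h1, h2, h3, h4⟩ := h.dual l ζ B hζ hB
  have hB' : ∀ y, |ζ' y| ≤ B := fun y =>
    abs_le.2 ⟨h2 y _ fun y' _ => (abs_le.1 (hB y')).1, h3 y _ fun y' _ => (abs_le.1 (hB y')).2⟩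
  refine ⟨ζ', h1, h2, h3, hB', fun v => ?_⟩
  rw [integral_inner_eq (h.int l) hζ hB, integral_inner_eq (h.int (l + 1)) h1 hB', h4]

theorem cont_of_lip {a : E d → ℝ} {A : ℝ} (hA : 0 ≤ A)
    (ha : ∀ y y', |a y - a y'| ≤ A * ‖y - y'‖) : Continuous a :=
  (LipschitzWith.of_dist_le_mul (K := ⟨A, hA⟩) fun y y' => by
    rw [Real.dist_eq, dist_eq_norm]; exact ha y y').continuous

theorem step {m : ℕ → E d → E d} {μ : E d → E d} {K : ℕ} (h : Lev m μ 1 K) {e v : E d}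
    (hv : ∀ w, -dfc e w ≤ inner ℝ v w) {a : E d → ℝ} {A : ℝ} (hA : 0 ≤ A)
    (ha : ∀ y y', |a y - a y'| ≤ A * ‖y - y'‖) {ψ : ℝ → ℝ} {B : ℝ} (hψ : Monotone ψ)
    (hB : ∀ t, |ψ t| ≤ B) (l : ℕ) {o : E d → ℝ} (ho : Measurable o) {B' : ℝ}
    (hB' : ∀ y, |o y| ≤ B') (hol : ∀ y, ψ (a y) - ψ (a y - 3 * A / 4 ^ l) ≤ o y)
    {c : ℝ} (hc0 : 0 ≤ c) (hc : c ≤ A / 4 ^ l) :
    (∫ y, ψ (a y - 2 * A / 4 ^ l) * inner ℝ v (m l y)) - ∫ y, o y * dfc e (m (l + 1) y) ≤
      ∫ y, ψ (a y - c) * inner ℝ v (m (l + 1) y) := by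
  have hm : ∀ t : ℝ, Measurable fun y => ψ (a y - t) := fun t =>
    hψ.measurable.comp ((cont_of_lip hA ha).measurable.sub_const t)
  obtain ⟨ζ', h1, h2, h3, h4, h5⟩ := dual_inner h l (hm (2 * A / 4 ^ l)) fun y => hB _
  have near : ∀ y y' : E d, ‖y' - y‖ ≤ 1 / 4 ^ l → |a y' - a y| ≤ A / 4 ^ l := fun y y' hy =>
    (ha y' y).trans ((mul_le_mul_of_nonneg_left hy hA).trans_eq (by ring))
  have e2 : 2 * A / 4 ^ l = 2 * (A / 4 ^ l) := by ring
  have e3 : 3 * A / 4 ^ l = 3 * (A / 4 ^ l) := by ring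
  have lo : ∀ y, ψ (a y - 3 * A / 4 ^ l) ≤ ζ' y := fun y => h2 y _ fun y' hy =>
    hψ (by have := abs_le.1 (near y y' hy); linarith [this.1])
  have up : ∀ y, ζ' y ≤ ψ (a y - c) := fun y => h3 y _ fun y' hy =>
    hψ (by have := abs_le.1 (near y y' hy); linarith [this.2])
  rw [h5 v, ← integral_sub (int_inner (h.int _) h1 h4 v) (int_mul (int_dfc e (h.int _)) ho hB')]
  refine integral_mono ((int_inner (h.int _) h1 h4 v).sub (int_mul (int_dfc e (h.int _)) ho hB'))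
    (int_inner (h.int _) (hm c) (fun y => hB _) v) fun y => ?_
  have g1 : ψ (a y - c) ≤ ψ (a y) := hψ (by linarith)
  have g2 := mul_le_mul_of_nonneg_left (hv (m (l + 1) y)) (sub_nonneg.2 (up y))
  have g3 : (ψ (a y - c) - ζ' y) * dfc e (m (l + 1) y) ≤ o y * dfc e (m (l + 1) y) :=
    mul_le_mul_of_nonneg_right (by linarith [lo y, hol y]) (dfc_nonneg _ _)
  show ζ' y * inner ℝ v (m (l + 1) y) - o y * dfc e (m (l + 1) y) ≤
    ψ (a y - c) * inner ℝ v (m (l + 1) y)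
  linarith

theorem inner_sum (Y w : E d) :
    inner ℝ Y w = ∑ i, Y i * inner ℝ (EuclideanSpace.single i (1 : ℝ) : E d) w := by
  simp only [EuclideanSpace.inner_single_left, conj_trivial, one_mul]
  simp only [PiLp.inner_apply, RCLike.inner_apply, conj_trivial, mul_comm]

end PLAux

open PLAux

theorem pl (d : ℕ) (_hd : 1 ≤ d) : PLStmt d := by
  intro m μ K h e v hv a A hA ha ψ B hψ hB o ho hB' hol j N hjN hK
  have key : ∀ c : ℝ, 0 ≤ c → c ≤ A / 4 ^ N →
      (∫ y, ψ (a y - 2 * A / 4 ^ j) * inner ℝ v (m j y)) -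
          ∑ l ∈ Finset.Icc j N, ∫ y, o l y * dfc e (m (l + 1) y) ≤
        ∫ y, ψ (a y - c) * inner ℝ v (m (N + 1) y) := by
    clear hK
    induction N, hjN using Nat.le_induction with
    | base =>
      intro c hc0 hc
      obtain ⟨B', hb⟩ := hB' j
      rw [Finset.Icc_self, Finset.sum_singleton]
      exact step h hv hA ha hψ hB j (ho j) hb (hol j) hc0 hc
    | succ N hN ih =>
      intro c hc0 hc
      obtain ⟨B', hb⟩ := hB' (N + 1)
      have h1 := step h hv hA ha hψ hB (N + 1) (ho _) hb (hol _) hc0 hc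
      have h2 := ih (2 * A / 4 ^ (N + 1)) (by positivity) (by
        have h0 : 0 ≤ A / 4 ^ N := by positivity
        have e1 : 2 * A / 4 ^ (N + 1) = A / 4 ^ N / 2 := by rw [pow_succ]; field_simp; ring
        linarith)
      rw [Finset.sum_Icc_succ_top (by omega)]
      linarith
  have h1 := key 0 le_rfl (by positivity)
  simp only [sub_zero, h.top (N + 1) hK] at h1
  exact h1

theorem one (d : ℕ) (_hd : 1 ≤ d) : OneStmt d := by
  intro m μ ℓ K _ h l Y B hY hB o ho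
  have hm : ∀ i, Measurable fun y => Y y i := fun i => by fun_prop
  have hb : ∀ i y, |Y y i| ≤ B := fun i y =>
    (PiLp.norm_apply_le (Y y) i).trans (hB y)
  choose ζ h1 h2 h3 h4 h5 using fun i => dual_inner h l (hm i) (hb i)
  have e1 : ∀ k, ∫ y, inner ℝ (Y y) (m k y) =
      ∑ i, ∫ y, Y y i * inner ℝ (EuclideanSpace.single i (1 : ℝ) : E d) (m k y) := by
    intro k
    rw [← integral_finsetSum _ fun i _ => int_inner (h.int k) (hm i) (hb i) _]
    simp only [← inner_sum]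
  have close : ∀ i y, ‖ζ i y - Y y i‖ₑ ≤ o y := by
    intro i y
    rcases eq_or_ne (o y) ∞ with h0 | h0
    · rw [h0]; exact le_top
    have near : ∀ y', ‖y' - y‖ ≤ ℓ / 4 ^ l → |Y y' i - Y y i| ≤ (o y).toReal := by
      intro y' hy
      have g1 := ENNReal.toReal_mono h0 (ho y y' hy)
      rw [toReal_enorm] at g1
      exact (PiLp.norm_apply_le (Y y' - Y y) i).trans g1
    have g2 := h2 i y (Y y i - (o y).toReal) fun y' hy => by
      have := abs_le.1 (near y' hy); linarith [this.1]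
    have g3 := h3 i y (Y y i + (o y).toReal) fun y' hy => by
      have := abs_le.1 (near y' hy); linarith [this.2]
    rw [← ofReal_norm, ← ENNReal.ofReal_toReal h0]
    exact ENNReal.ofReal_le_ofReal (abs_le.2 ⟨by linarith, by linarith⟩)
  rw [e1, e1, ← Finset.sum_sub_distrib, ← Real.norm_eq_abs, ofReal_norm]
  refine (enorm_sum_le _ _).trans ?_
  have e2 : (d : ℝ≥0∞) * ∫⁻ y, o y * ‖m (l + 1) y‖ₑ =
      ∑ _i : Fin d, ∫⁻ y, o y * ‖m (l + 1) y‖ₑ := by
    simp only [Finset.sum_const, Finset.card_univ, Fintype.card_fin, nsmul_eq_mul]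
  rw [e2]
  refine Finset.sum_le_sum fun i _ => ?_
  rw [h5, ← integral_sub (int_inner (h.int _) (h1 i) (h4 i) _)
    (int_inner (h.int _) (hm i) (hb i) _)]
  refine (enorm_integral_le_lintegral_enorm _).trans (lintegral_mono fun y => ?_)
  rw [← sub_mul, enorm_mul]
  refine mul_le_mul' (close i y) ?_
  rw [← ofReal_norm, ← ofReal_norm]
  refine ENNReal.ofReal_le_ofReal ((norm_inner_le_norm _ _).trans_eq ?_)
  rw [PiLp.norm_single, norm_one, one_mul]

end Vale.Agent.P137
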