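import Vale.Agent.P137.Basic

open MeasureTheory Metric Set Filter
open scoped ENNReal NNReal Topology Pointwise

namespace Vale.Agent.P137

namespace ScaleAux

variable {d : ℕ} {ℓ : ℝ}

theorem norm_scale (hℓ : 0 < ℓ) (x z : E d) : ‖ℓ • x - z‖ = ℓ * ‖x - ℓ⁻¹ • z‖ := by
  rw [← smul_inv_smul₀ hℓ.ne' z, ← smul_sub, norm_smul, Real.norm_of_nonneg hℓ.le,
    inv_smul_smul₀ hℓ.ne']

theorem cond_scale (hℓ : 0 < ℓ) {x z : E d} {s R : ℝ} (h : ‖x - ℓ⁻¹ • z‖ + s ≤ R / ℓ) :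
    ‖ℓ • x - z‖ + ℓ * s ≤ R := by
  rw [norm_scale hℓ, ← mul_add, mul_comm]
  exact (le_div_iff₀ hℓ).1 h

theorem avg_scale (hℓ : 0 < ℓ) (μ : E d → E d) (x : E d) (s : ℝ) (P : E d → E d) :
    avg (fun y => μ (ℓ • y)) x s P = avg μ (ℓ • x) (ℓ * s) P := by
  rcases le_or_gt s 0 with hs | hs
  · unfold avg
    rw [ball_eq_empty.2 hs, ball_eq_empty.2 (mul_nonpos_of_nonneg_of_nonpos hℓ.le hs)]
    simp
  have h1 := Measure.setIntegral_comp_smul_of_pos volume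
    (fun y => inner ℝ (μ y) (P ((ℓ * s)⁻¹ • (y - ℓ • x)))) (ball x s) hℓ
  have h2 : ∀ y : E d, (ℓ * s)⁻¹ • (ℓ • y - ℓ • x) = s⁻¹ • (y - x) := by
    intro y
    rw [← smul_sub, smul_smul]
    congr 1
    field_simp
  simp only [h2] at h1
  rw [_root_.smul_ball hℓ.ne', Real.norm_of_nonneg hℓ.le, finrank_euclideanSpace,
    Fintype.card_fin] at h1
  unfold avg
  rw [h1, vb_mul hℓ hs, smul_eq_mul, mul_inv]
  ring

theorem avg_smul (μ : E d → E d) (x : E d) (s c : ℝ) (P : E d → E d) :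
    avg μ x s (fun w => c • P w) = c * avg μ x s P := by
  unfold avg
  simp only [real_inner_smul_right, integral_const_mul]
  ring

theorem calc_scale (hℓ : 0 < ℓ) {u : E d → ℝ → ℝ} {μ : E d → E d} {z : E d} {R : ℝ}
    (h : Calc u μ z R) :
    Calc (fun x s => ℓ⁻¹ * u (ℓ • x) (ℓ * s)) (fun y => μ (ℓ • y)) (ℓ⁻¹ • z) (R / ℓ) := by
  refine ⟨h.int.comp_smul hℓ.ne', fun x v s b hs hb h1 h2 => ?_, fun x s e hs h1 => ?_⟩
  · have h3 := h.path (ℓ • x) (ℓ • v) (ℓ * s) (ℓ * b) (by positivity)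
      (by rw [← mul_add]; positivity) (cond_scale hℓ h1)
      (by rw [← smul_add, ← mul_add]; exact cond_scale hℓ h2)
    have h4 : ∀ t : ℝ, avg μ (ℓ • x + t • ℓ • v) (ℓ * s + t * (ℓ * b)) (fun w => ℓ • v + (ℓ * b) • w) =
        ℓ * avg (fun y => μ (ℓ • y)) (x + t • v) (s + t * b) (fun w => v + b • w) := by
      intro t
      rw [avg_scale hℓ, ← avg_smul]
      congr 1
      · rw [smul_add, smul_comm]
      · ring
      · ext1 w
        rw [smul_add, smul_smul]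
    simp only [h4, intervalIntegral.integral_const_mul] at h3
    rw [← mul_sub, smul_add, mul_add, h3, ← mul_assoc, inv_mul_cancel₀ hℓ.ne', one_mul]
  · rw [avg_scale hℓ]
    exact h.curl _ _ e (by positivity) (cond_scale hℓ h1)

theorem lev_scale (hℓ : 0 < ℓ) {m : ℕ → E d → E d} {μ : E d → E d} {K : ℕ} (h : Lev m μ ℓ K) :
    Lev (fun l y => m l (ℓ • y)) (fun y => μ (ℓ • y)) 1 K := by
  refine ⟨fun l => (h.meas l).comp (measurable_const_smul ℓ), fun l => (h.int l).comp_smul hℓ.ne',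
    fun l hl => by rw [h.top l hl], fun l ζ B hζ hB => ?_⟩
  obtain ⟨ζ', h1, h2, h3, h4⟩ := h.dual l (fun y => ζ (ℓ⁻¹ • y)) B
    (hζ.comp (measurable_const_smul _)) (fun y => hB _)
  have key : ∀ y y' : E d, ‖y' - ℓ • y‖ ≤ ℓ / 4 ^ l → ‖ℓ⁻¹ • y' - y‖ ≤ 1 / 4 ^ l := by
    intro y y' hy
    rw [norm_sub_rev, norm_scale hℓ, norm_sub_rev, ← mul_one_div] at hy
    exact le_of_mul_le_mul_left hy hℓ
  refine ⟨fun y => ζ' (ℓ • y), h1.comp (measurable_const_smul _),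
    fun y a ha => h2 _ a fun y' hy' => ha _ (key y y' hy'),
    fun y a ha => h3 _ a fun y' hy' => ha _ (key y y' hy'), ?_⟩
  have h5 := Measure.integral_comp_smul volume (fun y => ζ (ℓ⁻¹ • y) • m l y) ℓ
  simp only [inv_smul_smul₀ hℓ.ne'] at h5
  rw [h5, h4]
  exact (Measure.integral_comp_smul volume (fun y => ζ' y • m (l + 1) y) ℓ).symm

theorem mm_scale (hℓ : 0 < ℓ) (u : E d → ℝ → ℝ) (x : E d) :
    MM (fun x s => ℓ⁻¹ * u (ℓ • x) (ℓ * s)) 1 4 x = ℓ⁻¹ * MM u ℓ (4 * ℓ) (ℓ • x) := by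
  unfold MM
  rw [← smul_eq_mul ℓ⁻¹ (sSup _), ← Real.sSup_smul_of_nonneg (inv_nonneg.2 hℓ.le)]
  congr 1
  ext a
  constructor
  · rintro ⟨s, hs, rfl⟩
    exact ⟨_, ⟨ℓ * s, ⟨by nlinarith [hs.1], by nlinarith [hs.2]⟩, rfl⟩, rfl⟩
  · rintro ⟨_, ⟨s, hs, rfl⟩, rfl⟩
    refine ⟨s / ℓ, ⟨(le_div_iff₀ hℓ).2 (by linarith [hs.1]), (div_le_iff₀ hℓ).2 hs.2⟩, ?_⟩
    simp only [mul_div_cancel₀ s hℓ.ne', smul_eq_mul]

theorem lint_scale (hℓ : 0 < ℓ) (g : E d → ℝ≥0∞) (z : E d) (R : ℝ) :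
    ∫⁻ y in ball z (R * ℓ), g y =
      ENNReal.ofReal (ℓ ^ d) * ∫⁻ y in ball (ℓ⁻¹ • z) R, g (ℓ • y) := by
  let e : E d ≃ᵐ E d := (Homeomorph.smul (Units.mk0 ℓ hℓ.ne')).toMeasurableEquiv
  have h1 : ∫⁻ y in ball (ℓ⁻¹ • z) R, g (ℓ • y) = ∫⁻ y, (ball z (R * ℓ)).indicator g (e y) := by
    rw [← lintegral_indicator measurableSet_ball]
    refine lintegral_congr fun y => ?_
    have : y ∈ ball (ℓ⁻¹ • z) R ↔ ℓ • y ∈ ball z (R * ℓ) := by
      rw [mem_ball_iff_norm, mem_ball_iff_norm, norm_scale hℓ, mul_comm, mul_lt_mul_iff_left₀ hℓ]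
    change _ = (ball z (R * ℓ)).indicator g (ℓ • y)
    by_cases hy : y ∈ ball (ℓ⁻¹ • z) R
    · rw [indicator_of_mem hy, indicator_of_mem (this.1 hy)]
    · rw [indicator_of_notMem hy, indicator_of_notMem (mt this.2 hy)]
  have h2 : Measure.map e volume = ENNReal.ofReal (ℓ ^ d)⁻¹ • (volume : Measure (E d)) := by
    have := Measure.map_addHaar_smul (volume : Measure (E d)) hℓ.ne'
    rw [finrank_euclideanSpace, Fintype.card_fin, abs_of_pos (by positivity)] at this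
    exact this
  rw [h1, ← lintegral_map_equiv, h2, lintegral_smul_measure, lintegral_indicator measurableSet_ball,
    smul_eq_mul, ← mul_assoc, ← ENNReal.ofReal_mul (by positivity), mul_inv_cancel₀ (by positivity),
    ENNReal.ofReal_one, one_mul]

theorem fatou {g : E d → ℝ} {L : ℝ≥0} {z e : E d} (hℓ : 0 < ℓ) (he : ‖e‖ = 1)
    (hg : LipschitzOnWith L g (ball z (10 * ℓ - 4 * ℓ))) {A : ℝ≥0∞}
    (h : ∀ σ : ℝ, 0 < σ → σ ≤ 1 → ∫⁻ x in ball z ℓ, ENNReal.ofReal (Dq e (ℓ * σ) g x) ≤ A) :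
    ∫⁻ x in ball z ℓ, ENNReal.ofReal (-(fderiv ℝ g x e)) ≤ A := by
  let σ : ℕ → ℝ := fun n => 1 / ((n : ℝ) + 1)
  have hσ0 : ∀ n, 0 < σ n := fun n => Nat.one_div_pos_of_nat
  have hσ1 : ∀ n, σ n ≤ 1 := fun n => by
    simp only [σ]
    rw [div_le_one (by positivity)]
    linarith [Nat.cast_nonneg (α := ℝ) n]
  have hσ : Tendsto (fun n => ℓ * σ n) atTop (𝓝[>] 0) := by
    refine tendsto_nhdsWithin_iff.2 ⟨?_, Eventually.of_forall fun n => mul_pos hℓ (hσ0 n)⟩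
    simpa [σ] using (tendsto_one_div_add_atTop_nhds_zero_nat (𝕜 := ℝ)).const_mul ℓ
  have hsub : ball z ℓ ⊆ ball z (10 * ℓ - 4 * ℓ) := ball_subset_ball (by linarith)
  have hm : ∀ n, AEMeasurable (fun x => ENNReal.ofReal (Dq e (ℓ * σ n) g x))
      (volume.restrict (ball z ℓ)) := by
    intro n
    refine ENNReal.measurable_ofReal.comp_aemeasurable
      (ContinuousOn.aemeasurable ?_ measurableSet_ball)
    refine ContinuousOn.div_const ((hg.continuousOn.mono hsub).sub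
      (hg.continuousOn.comp (by fun_prop) fun x hx => ?_)) _
    rw [mem_ball_iff_norm] at hx ⊢
    have h1 : ‖x + (ℓ * σ n) • e - z‖ ≤ ‖x - z‖ + ‖(ℓ * σ n) • e‖ := by
      rw [add_sub_right_comm]
      exact norm_add_le _ _
    rw [norm_smul, he, Real.norm_of_nonneg (mul_pos hℓ (hσ0 n)).le] at h1
    nlinarith [hσ1 n]
  have hae : ∀ᵐ x ∂(volume.restrict (ball z ℓ)), ENNReal.ofReal (-(fderiv ℝ g x e)) =
      liminf (fun n => ENNReal.ofReal (Dq e (ℓ * σ n) g x)) atTop := by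
    rw [ae_restrict_iff' measurableSet_ball]
    filter_upwards [hg.ae_differentiableWithinAt_of_mem (μ := volume)] with x hx hxb
    have hd := ((hx (hsub hxb)).differentiableAt (isOpen_ball.mem_nhds (hsub hxb))).hasFDerivAt
    have h1 := ((hd.hasLineDerivAt e).tendsto_slope_zero_right.comp hσ).neg
    refine (Tendsto.liminf_eq (ENNReal.tendsto_ofReal (h1.congr fun n => ?_))).symm
    simp only [Function.comp, Dq, smul_eq_mul]
    ring
  rw [lintegral_congr_ae hae]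
  refine (lintegral_liminf_le' hm).trans ?_
  exact liminf_le_of_frequently_le' (Frequently.of_forall fun n => h _ (hσ0 n) (hσ1 n))

end ScaleAux

open ScaleAux

set_option linter.unusedVariables false

theorem scale (d : ℕ) (hd : 1 ≤ d) : ScaleStmt d := fun _ hℓ =>
  ⟨fun _ _ _ _ h => calc_scale hℓ h, fun _ _ _ h => lev_scale hℓ h, mm_scale hℓ, lint_scale hℓ⟩

theorem hgen (d : ℕ) (hd : 1 ≤ d) (h : H1Stmt d) : HStmt d := by
  obtain ⟨C, hC⟩ := h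
  refine ⟨C, fun u m μ K z x ℓ R hℓ hm hu hx => ?_⟩
  have h1 := hC _ _ _ K _ (ℓ⁻¹ • x) _ (lev_scale hℓ hm) (calc_scale hℓ hu) (by
    rw [le_div_iff₀ hℓ, add_mul, mul_comm, ← norm_scale hℓ, smul_inv_smul₀ hℓ.ne']
    exact hx)
  have h2 : ∀ l, nm (m l) ℓ 6 x = mass (fun y => m l (ℓ • y)) (ℓ⁻¹ • x) 6 := by
    intro l
    unfold nm mass
    rw [lint_scale hℓ, ← mul_assoc,
      ENNReal.inv_mul_cancel (by simp; positivity) ENNReal.ofReal_ne_top, one_mul]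
  rw [mm_scale hℓ, smul_inv_smul₀ hℓ.ne', ← mul_sub, mul_comm ℓ 4] at h1
  simp only [h2]
  calc _ = ENNReal.ofReal ℓ * ENNReal.ofReal (ℓ⁻¹ * (MM u ℓ (4 * ℓ) x - u x (4 * ℓ))) := by
        rw [← ENNReal.ofReal_mul hℓ.le, ← mul_assoc, mul_inv_cancel₀ hℓ.ne', one_mul]
    _ ≤ ENNReal.ofReal ℓ * _ := mul_le_mul_right h1 _
    _ = _ := by ring

theorem t2g (d : ℕ) (hd : 1 ≤ d) (hc : ContStmt d) (h : T2Stmt d) : T2gStmt d := by
  obtain ⟨C, hC0, hC⟩ := h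
  refine ⟨C.toNNReal, fun u m μ K e z ℓ D hℓ he hm hu hD => ?_⟩
  rcases eq_or_ne D ∞ with rfl | hD0
  · rw [ENNReal.mul_top (by simpa using hC0)]
    exact le_top
  refine ENNReal.le_of_forall_pos_le_add fun ε hε _ => ?_
  have hp : 0 < ℓ ^ d := by positivity
  have hε' : (0 : ℝ) < ε := hε
  have hw : WinL (fun l y => m l (ℓ • y)) (fun y => μ (ℓ • y)) K e (ℓ⁻¹ • z)
      ((D.toReal + ε / C) / ℓ ^ d) := by
    refine ⟨he, lev_scale hℓ hm, by positivity, fun l => ?_⟩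
    have h1 := hD l
    rw [lint_scale hℓ] at h1
    have h2 := ENNReal.toReal_mono (ENNReal.mul_ne_top ENNReal.ofReal_ne_top hD0) h1
    rw [ENNReal.toReal_mul, ENNReal.toReal_mul, ENNReal.toReal_ofReal hp.le,
      ENNReal.toReal_ofReal (pow_pos lam_pos l).le] at h2
    rw [integral_eq_lintegral_of_nonneg_ae (Eventually.of_forall fun y => dfc_nonneg _ _)
      (integrable_dfc he ((lev_scale hℓ hm).int l)).1.restrict, ← mul_div_assoc, le_div_iff₀ hp,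
      mul_comm]
    refine h2.trans (mul_le_mul_of_nonneg_left ?_ (pow_pos lam_pos l).le)
    have : 0 ≤ ε / C := by positivity
    linarith
  have hu' := calc_scale hℓ hu
  rw [mul_div_cancel_right₀ _ hℓ.ne'] at hu'
  refine fatou hℓ he (hc.MM_lipschitzOnWith hu hℓ (by linarith)) fun σ h0 h1 => ?_
  have h2 := hC _ _ _ K e _ _ hw hu' σ h0 h1
  have h3 : ∀ x, Dq e σ (MM (fun x s => ℓ⁻¹ * u (ℓ • x) (ℓ * s)) 1 4) x =
      Dq e (ℓ * σ) (MM u ℓ (4 * ℓ)) (ℓ • x) := by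
    intro x
    unfold Dq
    rw [mm_scale hℓ, mm_scale hℓ, smul_add, smul_smul]
    field_simp
  simp only [h3] at h2
  have h4 := lint_scale hℓ (fun x => ENNReal.ofReal (Dq e (ℓ * σ) (MM u ℓ (4 * ℓ)) x)) z 1
  rw [one_mul] at h4
  rw [h4]
  refine (mul_le_mul_right h2 _).trans (le_of_eq ?_)
  rw [← ENNReal.ofReal_mul hp.le,
    show ℓ ^ d * (C * ((D.toReal + ε / C) / ℓ ^ d)) = C * D.toReal + ε by field_simp,
    ENNReal.ofReal_add (by positivity) hε'.le, ENNReal.ofReal_mul hC0.le,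
    ENNReal.ofReal_toReal hD0, ENNReal.ofReal_coe_nnreal]
  rfl

end Vale.Agent.P137
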