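import Vale.Agent.P137.UStmts
import Vale.Agent.P137.PL
import Vale.Agent.P137.Scale

open MeasureTheory Metric Set Filter
open scoped ENNReal NNReal Topology

namespace Vale.Agent.P137

namespace AMAux

variable {d : ℕ}

/-- indicator of the shell of outer radius `r` and width `ε` around `c` -/
noncomputable def sh (ε r : ℝ) (c y : E d) : ℝ := if r - ε ≤ ‖y - c‖ ∧ ‖y - c‖ < r then 1 else 0

theorem sh_nonneg (ε r : ℝ) (c y : E d) : 0 ≤ sh ε r c y := by
  unfold sh
  split_ifs <;> norm_num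

theorem abs_sh (ε r : ℝ) (c y : E d) : |sh ε r c y| ≤ 1 := by
  unfold sh
  split_ifs <;> norm_num

theorem measurable_sh {X : Type} [MeasurableSpace X] (ε r : ℝ) {c y : X → E d} (hc : Measurable c)
    (hy : Measurable y) : Measurable fun p => sh ε r (c p) (y p) := by
  have h1 : Measurable fun p => ‖y p - c p‖ := (hy.sub hc).norm
  exact Measurable.ite ((measurableSet_le measurable_const h1).inter
    (measurableSet_lt h1 measurable_const)) measurable_const measurable_const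

theorem dfc_le_inner {e b : E d} (hb : ‖b‖ ≤ 1) (w : E d) :
    -dfc e w ≤ inner ℝ ((2 : ℝ) • e + b) w := by
  rw [inner_add_left, real_inner_smul_left]
  have h1 := abs_real_inner_le_norm b w
  have h2 := neg_abs_le (inner ℝ b w)
  have h3 : ‖b‖ * ‖w‖ ≤ ‖w‖ := mul_le_of_le_one_left (norm_nonneg _) hb
  have h4 : ‖w‖ - 2 * inner ℝ e w ≤ dfc e w := le_max_left _ _
  linarith

theorem point (hd : 1 ≤ d) {m : ℕ → E d → E d} {μ : E d → E d} {K : ℕ} {e z : E d} {D : ℝ}
    (h : WinL m μ K e z D) {v : E d} (hv : ∀ w, -dfc e w ≤ inner ℝ v w) {c : E d} {r : ℝ}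
    (hc : ‖c - z‖ + r ≤ 10) :
    -∫ y in ball c r, inner ℝ v (μ y) ≤
      D + ∑ l ∈ Finset.range (K + 1), ∫ y, sh (3 / 4 ^ l) r c y * dfc e (m (l + 1) y) := by
  have hψ : Monotone fun t : ℝ => if -r < t then (1 : ℝ) else 0 := by
    intro a b hab
    beta_reduce
    split_ifs with h1 h2 h2
    · exact le_rfl
    · exact absurd (h1.trans_le hab) h2
    · norm_num
    · exact le_rfl
  have hB : ∀ t : ℝ, |if -r < t then (1 : ℝ) else 0| ≤ 1 := fun t => by
    split_ifs <;> norm_num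
  have h1 := pl d hd m μ K h.lev e v hv (fun y => -‖y - c‖) 1 zero_le_one
    (fun y y' => by
      rw [one_mul, neg_sub_neg, abs_sub_comm]
      simpa using abs_norm_sub_norm_le (y - c) (y' - c))
    _ 1 hψ hB (fun l y => sh (3 / 4 ^ l) r c y)
    (fun l => measurable_sh _ _ measurable_const measurable_id) (fun l => ⟨1, fun y => abs_sh _ _ _ _⟩)
    (fun l y => by
      have hp : (0 : ℝ) < 3 / 4 ^ l := by positivity
      unfold sh
      rw [mul_one]
      by_cases g1 : -r < -‖y - c‖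
      · by_cases g2 : -r < -‖y - c‖ - 3 / 4 ^ l
        · rw [if_pos g1, if_pos g2, sub_self]
          split_ifs <;> norm_num
        · rw [if_pos g1, if_neg g2, if_pos ⟨by linarith, by linarith⟩, sub_zero]
      · rw [if_neg g1, if_neg (by linarith), sub_self]
        split_ifs <;> norm_num)
    0 K (Nat.zero_le K) (Nat.le_succ K)
  have e1 : ∫ y, (if -r < -‖y - c‖ then (1 : ℝ) else 0) * inner ℝ v (μ y) =
      ∫ y in ball c r, inner ℝ v (μ y) := by
    rw [← integral_indicator measurableSet_ball]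
    refine integral_congr_ae (Eventually.of_forall fun y => ?_)
    beta_reduce
    split_ifs with g
    · rw [one_mul, indicator_of_mem (mem_ball_iff_norm.2 (by linarith))]
    · rw [zero_mul, indicator_of_notMem fun g' => g (by linarith [mem_ball_iff_norm.1 g'])]
  have hi := integrable_dfc h.unit (h.lev.int 0)
  have e2 : -∫ y in ball z 10, dfc e (m 0 y) ≤
      ∫ y, (if -r < -‖y - c‖ - 2 * 1 / 4 ^ 0 then (1 : ℝ) else 0) * inner ℝ v (m 0 y) := by
    rw [← integral_indicator measurableSet_ball, ← integral_neg]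
    refine integral_mono (hi.indicator measurableSet_ball).neg
      (PLAux.int_inner (h.lev.int 0) (hψ.measurable.comp (by fun_prop)) (fun y => hB _) v)
      fun y => ?_
    beta_reduce
    split_ifs with g
    · have g1 : y ∈ ball z 10 := by
        rw [mem_ball_iff_norm]
        have := norm_sub_le_norm_sub_add_norm_sub y c z
        norm_num at g
        linarith
      rw [indicator_of_mem g1, one_mul]
      exact hv _
    · rw [zero_mul, neg_nonpos]
      exact indicator_nonneg (fun _ _ => dfc_nonneg _ _) _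
  have e3 := h.dfc_le 0
  rw [pow_zero, one_mul] at e3
  rw [e1, ← Nat.range_succ_eq_Icc_zero K] at h1
  linarith

theorem close {p w : E d} {s ε r δ t0 t1 t2 : ℝ} (hs : 0 < s) (hw : s ≤ ‖w‖) (hr : 0 < r)
    (hδ : 0 ≤ δ) (hε : 2 * r * ε ≤ δ ^ 2) (h0 : inner ℝ p w = t0 * ‖w‖ ^ 2)
    (hsg : 0 ≤ (t1 - t0) * (t2 - t0))
    (a1 : r - ε ≤ ‖p - t1 • w‖) (b1 : ‖p - t1 • w‖ < r)
    (a2 : r - ε ≤ ‖p - t2 • w‖) (b2 : ‖p - t2 • w‖ < r) : dist t1 t2 ≤ δ / s := by
  have key : ∀ t : ℝ, ‖p - t • w‖ ^ 2 = ‖p‖ ^ 2 - t0 ^ 2 * ‖w‖ ^ 2 + (t - t0) ^ 2 * ‖w‖ ^ 2 := by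
    intro t
    rw [norm_sub_sq_real, real_inner_smul_right, norm_smul, mul_pow, Real.norm_eq_abs, sq_abs, h0]
    ring
  have bd : ∀ t : ℝ, r - ε ≤ ‖p - t • w‖ → ‖p - t • w‖ < r →
      r ^ 2 - δ ^ 2 ≤ ‖p - t • w‖ ^ 2 ∧ ‖p - t • w‖ ^ 2 ≤ r ^ 2 := by
    intro t a b
    have hn := norm_nonneg (p - t • w)
    refine ⟨?_, by nlinarith⟩
    rcases le_or_gt 0 (r - ε) with g | g
    · nlinarith [sq_nonneg ε]
    · nlinarith
  obtain ⟨c1, d1⟩ := bd t1 a1 b1
  obtain ⟨c2, d2⟩ := bd t2 a2 b2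
  rw [key] at c1 d1 c2 d2
  have hw2 : s ^ 2 ≤ ‖w‖ ^ 2 := by nlinarith
  have h1 : (t1 - t2) ^ 2 * ‖w‖ ^ 2 ≤ δ ^ 2 := by
    have hW : 0 ≤ ‖w‖ ^ 2 := sq_nonneg _
    rcases le_total ((t1 - t0) ^ 2) ((t2 - t0) ^ 2) with g | g
    · have g2 : (t1 - t0) ^ 2 ≤ (t1 - t0) * (t2 - t0) := by
        refine abs_le_of_sq_le_sq' ?_ hsg |>.2
        nlinarith [sq_nonneg (t1 - t0)]
      have g3 : (t1 - t2) ^ 2 ≤ (t2 - t0) ^ 2 - (t1 - t0) ^ 2 := by nlinarith
      nlinarith [mul_le_mul_of_nonneg_right g3 hW]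
    · have g2 : (t2 - t0) ^ 2 ≤ (t1 - t0) * (t2 - t0) := by
        refine abs_le_of_sq_le_sq' ?_ hsg |>.2
        nlinarith [sq_nonneg (t2 - t0)]
      have g3 : (t1 - t2) ^ 2 ≤ (t1 - t0) ^ 2 - (t2 - t0) ^ 2 := by nlinarith
      nlinarith [mul_le_mul_of_nonneg_right g3 hW]
  rw [Real.dist_eq, le_div_iff₀ hs]
  refine abs_le_of_sq_le_sq' ?_ hδ |>.2
  rw [mul_pow, sq_abs]
  nlinarith [mul_le_mul_of_nonneg_left hw2 (sq_nonneg (t1 - t2))]

theorem vol_shell (p : E d) {w : E d} {s ε r δ : ℝ} (hs : 0 < s) (hw : s ≤ ‖w‖) (hr : 0 < r)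
    (hδ : 0 ≤ δ) (hε : 2 * r * ε ≤ δ ^ 2) :
    volume {t : ℝ | r - ε ≤ ‖p - t • w‖ ∧ ‖p - t • w‖ < r} ≤ ENNReal.ofReal (2 * (δ / s)) := by
  have hw0 : 0 < ‖w‖ := hs.trans_le hw
  obtain ⟨t0, h0⟩ : ∃ t0 : ℝ, inner ℝ p w = t0 * ‖w‖ ^ 2 :=
    ⟨inner ℝ p w / ‖w‖ ^ 2, by field_simp⟩
  set T := {t : ℝ | r - ε ≤ ‖p - t • w‖ ∧ ‖p - t • w‖ < r} with hT
  have hsub : T ⊆ T ∩ Ici t0 ∪ T ∩ Iic t0 := fun t ht => by
    rcases le_total t0 t with g | g
    · exact Or.inl ⟨ht, g⟩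
    · exact Or.inr ⟨ht, g⟩
  have h1 : volume (T ∩ Ici t0) ≤ ENNReal.ofReal (δ / s) :=
    (Real.volume_le_diam _).trans (ediam_le_of_forall_dist_le fun x hx y hy =>
      close hs hw hr hδ hε h0 (mul_nonneg (sub_nonneg.2 hx.2) (sub_nonneg.2 hy.2))
        hx.1.1 hx.1.2 hy.1.1 hy.1.2)
  have h2 : volume (T ∩ Iic t0) ≤ ENNReal.ofReal (δ / s) :=
    (Real.volume_le_diam _).trans (ediam_le_of_forall_dist_le fun x hx y hy =>
      close hs hw hr hδ hε h0
        (mul_nonneg_of_nonpos_of_nonpos (sub_nonpos.2 hx.2) (sub_nonpos.2 hy.2))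
        hx.1.1 hx.1.2 hy.1.1 hy.1.2)
  have hq : 0 ≤ δ / s := by positivity
  refine (measure_mono hsub).trans ((measure_union_le _ _).trans ((add_le_add h1 h2).trans ?_))
  rw [← ENNReal.ofReal_add hq hq, two_mul]

theorem fubini {g : E d → ℝ} (hg : Integrable g) (hg0 : ∀ y, 0 ≤ g y) {y w z : E d}
    {s ε r δ : ℝ} (hs : 0 < s) (hw : s ≤ ‖w‖) (hr : 0 < r) (hδ : 0 ≤ δ) (hε : 2 * r * ε ≤ δ ^ 2)
    (hz : ∀ t ∈ Ioc (0 : ℝ) 1, ‖y + t • w - z‖ + r ≤ 10) :
    Integrable (fun t : ℝ => ∫ y', sh ε r (y + t • w) y' * g y') (volume.restrict (Ioc 0 1)) ∧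
    ∫ t in Ioc (0 : ℝ) 1, ∫ y', sh ε r (y + t • w) y' * g y' ≤
      2 * (δ / s) * ∫ y' in ball z 10, g y' := by
  have hm : Measurable fun q : ℝ × E d => sh ε r (y + q.1 • w) q.2 :=
    measurable_sh ε r (by fun_prop) measurable_snd
  have hI : Integrable (Function.uncurry fun (t : ℝ) (y' : E d) => sh ε r (y + t • w) y' * g y')
      ((volume.restrict (Ioc 0 1)).prod volume) := by
    refine Integrable.mono' (hg.comp_snd (volume.restrict (Ioc (0 : ℝ) 1)))
      (hm.aestronglyMeasurable.mul hg.1.comp_snd) (Eventually.of_forall fun q => ?_)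
    change ‖sh ε r (y + q.1 • w) q.2 * g q.2‖ ≤ g q.2
    rw [norm_mul, Real.norm_eq_abs, Real.norm_of_nonneg (hg0 _)]
    exact mul_le_of_le_one_left (hg0 _) (abs_sh _ _ _ _)
  refine ⟨hI.integral_prod_left, ?_⟩
  rw [integral_integral_swap hI, ← integral_const_mul, ← integral_indicator measurableSet_ball]
  refine integral_mono hI.integral_prod_right
    ((hg.const_mul _).indicator measurableSet_ball) fun y' => ?_
  beta_reduce
  rw [integral_mul_const]
  by_cases hy : y' ∈ ball z 10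
  · rw [indicator_of_mem hy]
    refine mul_le_mul_of_nonneg_right ?_ (hg0 _)
    have hT : MeasurableSet {t : ℝ | r - ε ≤ ‖y' - y - t • w‖ ∧ ‖y' - y - t • w‖ < r} := by
      have h1 : Measurable fun t : ℝ => ‖y' - y - t • w‖ := by fun_prop
      exact (measurableSet_le measurable_const h1).inter (measurableSet_lt h1 measurable_const)
    have e1 : (fun t : ℝ => sh ε r (y + t • w) y') =
        {t : ℝ | r - ε ≤ ‖y' - y - t • w‖ ∧ ‖y' - y - t • w‖ < r}.indicator 1 := by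
      funext t
      unfold sh
      rw [← sub_sub, indicator_apply]
      rfl
    rw [e1, integral_indicator_one hT, measureReal_restrict_apply hT]
    refine ENNReal.toReal_le_of_le_ofReal (by positivity) ?_
    exact (measure_mono inter_subset_left).trans (vol_shell _ hs hw hr hδ hε)
  · rw [indicator_of_notMem hy]
    refine le_of_eq (mul_eq_zero_of_left ?_ _)
    refine setIntegral_eq_zero_of_forall_eq_zero fun t ht => if_neg fun hc => hy ?_
    rw [mem_ball_iff_norm]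
    have := norm_sub_le_norm_sub_add_norm_sub y' (y + t • w) z
    linarith [hz t ht, hc.2]

theorem geo (n : ℕ) : ∑ l ∈ Finset.range n, (lam / 2) ^ l ≤ 3 - 3 * (lam / 2) ^ n := by
  induction n with
  | zero => simp
  | succ n ih =>
    have h1 : 0 ≤ (lam / 2) ^ n := pow_nonneg (by linarith [lam_pos]) n
    have h2 : lam / 2 ≤ 2 / 3 := by unfold lam; norm_num
    rw [Finset.sum_range_succ, pow_succ]
    nlinarith

end AMAux

open AMAux

theorem am (d : ℕ) (hd : 1 ≤ d) : AMStmt d := by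
  have hv1 : 0 < vb d 1 := vb_pos one_pos
  refine ⟨(vb d 1)⁻¹ * 61, by positivity, fun u m μ K e z D h hu b y r s hb hr1 hr4 hs0 hs1 hy => ?_⟩
  have hD := h.Dpos
  rcases hs0.eq_or_lt with rfl | hs
  · rw [zero_smul, add_zero, sub_self]
    positivity
  set v : E d := (2 : ℝ) • e + b with hv
  have hn2 : ‖(2 : ℝ) • e‖ = 2 := by rw [norm_smul, h.unit]; norm_num
  have hv3 : ‖v‖ ≤ 3 := by
    have := norm_add_le ((2 : ℝ) • e) b
    linarith
  have hv1' : 1 ≤ ‖v‖ := by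
    have := norm_sub_le ((2 : ℝ) • e + b) b
    rw [add_sub_cancel_right] at this
    linarith
  have hw : ‖s • v‖ = s * ‖v‖ := by rw [norm_smul, Real.norm_of_nonneg hs.le]
  have hz : ∀ t ∈ Icc (0 : ℝ) 1, ‖y + t • s • v - z‖ + r ≤ 10 := by
    intro t ht
    have h1 : ‖y + t • s • v - z‖ ≤ ‖y - z‖ + ‖t • s • v‖ := by
      rw [add_sub_right_comm]
      exact norm_add_le _ _
    rw [norm_smul, hw, Real.norm_of_nonneg ht.1] at h1
    have h2 : s * ‖v‖ ≤ 3 * s := by nlinarith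
    have h3 : t * (s * ‖v‖) ≤ s * ‖v‖ := mul_le_of_le_one_left (by positivity) ht.2
    linarith
  have hr : 0 < r := by linarith
  have hp := hu.path y (s • v) r 0 hr (by linarith) (by linarith)
    (by simpa using hz 1 ⟨zero_le_one, le_rfl⟩)
  have hvr : 0 < vb d r := vb_pos hr
  have e1 : ∀ t : ℝ, avg μ (y + t • s • v) (r + t * 0) (fun w => s • v + (0 : ℝ) • w) =
      (vb d r)⁻¹ * s * ∫ y' in ball (y + t • s • v) r, inner ℝ v (μ y') := by
    intro t
    unfold avg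
    simp only [mul_zero, add_zero, zero_smul, real_inner_smul_right, integral_const_mul,
      real_inner_comm v]
    ring
  simp only [e1] at hp
  rw [add_zero, intervalIntegral.integral_of_le zero_le_one, integral_const_mul] at hp
  have hF := fun l : ℕ => fubini (integrable_dfc h.unit (h.lev.int (l + 1)))
    (fun _ => dfc_nonneg _ _) (y := y) (w := s • v) (z := z) (ε := 3 / 4 ^ l) (δ := 5 / 2 ^ l) hs
    (by rw [hw]; nlinarith) hr (by positivity) (by
      have h4 : (4 : ℝ) ^ l = (2 ^ l) ^ 2 := by rw [← pow_mul, mul_comm, pow_mul]; norm_num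
      rw [div_pow, ← h4, ← mul_div_assoc]
      exact div_le_div_of_nonneg_right (by linarith) (by positivity))
    (fun t ht => hz t (Ioc_subset_Icc_self ht))
  have hI : Integrable (fun t : ℝ => D + ∑ l ∈ Finset.range (K + 1),
      ∫ y', sh (3 / 4 ^ l) r (y + t • s • v) y' * dfc e (m (l + 1) y'))
      (volume.restrict (Ioc 0 1)) :=
    (integrable_const D).add (integrable_finsetSum _ fun l _ => (hF l).1)
  have h1 : ∫ t in Ioc (0 : ℝ) 1, -∫ y' in ball (y + t • s • v) r, inner ℝ v (μ y') ≤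
      ∫ t in Ioc (0 : ℝ) 1, (D + ∑ l ∈ Finset.range (K + 1),
        ∫ y', sh (3 / 4 ^ l) r (y + t • s • v) y' * dfc e (m (l + 1) y')) := by
    by_cases hi : Integrable (fun t : ℝ => -∫ y' in ball (y + t • s • v) r, inner ℝ v (μ y'))
      (volume.restrict (Ioc 0 1))
    · exact setIntegral_mono_on hi hI measurableSet_Ioc fun t ht =>
        point hd h (dfc_le_inner hb) (hz t (Ioc_subset_Icc_self ht))
    · rw [integral_undef hi]
      exact integral_nonneg fun t => add_nonneg hD.le (Finset.sum_nonneg fun l _ =>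
        integral_nonneg fun y' => mul_nonneg (sh_nonneg _ _ _ _) (dfc_nonneg _ _))
  rw [integral_neg, integral_add (integrable_const D) (integrable_finsetSum _ fun l _ => (hF l).1),
    integral_finsetSum _ fun l _ => (hF l).1] at h1
  have h2 : ∫ _ in Ioc (0 : ℝ) 1, D = D := by simp
  have h3 : ∑ l ∈ Finset.range (K + 1), ∫ t in Ioc (0 : ℝ) 1,
      ∫ y', sh (3 / 4 ^ l) r (y + t • s • v) y' * dfc e (m (l + 1) y') ≤
      ∑ l ∈ Finset.range (K + 1), (lam / 2) ^ l * (20 * D / s) := by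
    refine Finset.sum_le_sum fun l _ => (hF l).2.trans ?_
    refine (mul_le_mul_of_nonneg_left (h.dfc_le (l + 1)) (by positivity)).trans ?_
    have hl : lam ≤ 2 := by unfold lam; norm_num
    have hq : 0 ≤ (lam / 2) ^ l * (10 * D / s) :=
      mul_nonneg (pow_nonneg (by linarith [lam_pos]) l) (by positivity)
    calc 2 * (5 / 2 ^ l / s) * (lam ^ (l + 1) * D) = lam * ((lam / 2) ^ l * (10 * D / s)) := by
          rw [div_pow, pow_succ]
          ring
      _ ≤ 2 * ((lam / 2) ^ l * (10 * D / s)) := mul_le_mul_of_nonneg_right hl hq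
      _ = _ := by ring
  rw [← Finset.sum_mul] at h3
  have h4 : (∑ l ∈ Finset.range (K + 1), (lam / 2) ^ l) * (20 * D / s) ≤ 3 * (20 * D / s) := by
    refine mul_le_mul_of_nonneg_right ((geo _).trans ?_) (by positivity)
    have : 0 ≤ (lam / 2) ^ (K + 1) := pow_nonneg (by linarith [lam_pos]) _
    linarith
  have h5 : -∫ t in Ioc (0 : ℝ) 1, ∫ y' in ball (y + t • s • v) r, inner ℝ v (μ y') ≤
      D + 60 * D / s := by
    rw [h2] at h1
    have : 3 * (20 * D / s) = 60 * D / s := by ring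
    linarith
  have h6 : (vb d r)⁻¹ ≤ (vb d 1)⁻¹ := inv_anti₀ hv1 (vb_mono hr1)
  have h7 : s * (D + 60 * D / s) ≤ 61 * D := by
    rw [mul_add, mul_div_cancel₀ _ hs.ne']
    nlinarith
  calc u y r - u (y + s • v) r
      = (vb d r)⁻¹ * (s * -∫ t in Ioc (0 : ℝ) 1,
          ∫ y' in ball (y + t • s • v) r, inner ℝ v (μ y')) := by linarith
    _ ≤ (vb d r)⁻¹ * (61 * D) :=
        mul_le_mul_of_nonneg_left ((mul_le_mul_of_nonneg_left h5 hs.le).trans h7) (by positivity)
    _ ≤ (vb d 1)⁻¹ * (61 * D) := mul_le_mul_of_nonneg_right h6 (by positivity)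
    _ = _ := by ring

theorem amg (d : ℕ) (hd : 1 ≤ d) : AMgStmt d := by
  obtain ⟨C, hC0, hC⟩ := am d hd
  refine ⟨C.toNNReal, fun u m μ K e z ℓ D hℓ he hm hu hD b y r s hb hr1 hr4 hs0 hs1 hy => ?_⟩
  have hp : 0 < ℓ ^ d := by positivity
  rcases eq_or_ne D ∞ with rfl | hD0
  · rw [ENNReal.mul_top]
    · exact le_top
    · refine mul_ne_zero (mul_ne_zero (by simpa using hC0) (by simpa using hℓ)) ?_
      exact ENNReal.inv_ne_zero.2 ENNReal.ofReal_ne_top
  refine ENNReal.le_of_forall_pos_le_add fun ε hε _ => ?_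
  have hε' : (0 : ℝ) < ε := hε
  have hw : WinL (fun l y => m l (ℓ • y)) (fun y => μ (ℓ • y)) K e (ℓ⁻¹ • z)
      (D.toReal / ℓ ^ d + ε / (C * ℓ)) := by
    refine ⟨he, ScaleAux.lev_scale hℓ hm, by positivity, fun l => ?_⟩
    have h1 := hD l
    rw [ScaleAux.lint_scale hℓ] at h1
    have h2 := ENNReal.toReal_mono (ENNReal.mul_ne_top ENNReal.ofReal_ne_top hD0) h1
    rw [ENNReal.toReal_mul, ENNReal.toReal_mul, ENNReal.toReal_ofReal hp.le,
      ENNReal.toReal_ofReal (pow_pos lam_pos l).le, mul_comm, ← le_div_iff₀ hp,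
      mul_div_assoc] at h2
    rw [integral_eq_lintegral_of_nonneg_ae (Eventually.of_forall fun y => dfc_nonneg _ _)
      (integrable_dfc he ((ScaleAux.lev_scale hℓ hm).int l)).1.restrict]
    refine h2.trans (mul_le_mul_of_nonneg_left ?_ (pow_pos lam_pos l).le)
    have : 0 ≤ ε / (C * ℓ) := by positivity
    linarith
  have hu' := ScaleAux.calc_scale hℓ hu
  rw [mul_div_cancel_right₀ _ hℓ.ne'] at hu'
  have h1 := hC _ _ _ K e _ _ hw hu' b (ℓ⁻¹ • y) (r / ℓ) (s / ℓ) hb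
    ((le_div_iff₀ hℓ).2 (by linarith)) ((div_le_iff₀ hℓ).2 hr4) (by positivity)
    ((div_le_iff₀ hℓ).2 (by linarith)) (by
      rw [← smul_sub, norm_smul, Real.norm_of_nonneg (inv_nonneg.2 hℓ.le), inv_mul_eq_div,
        ← mul_div_assoc, ← add_div, div_le_iff₀ hℓ]
      exact hy)
  rw [smul_add ℓ, smul_inv_smul₀ hℓ.ne', smul_smul, mul_div_cancel₀ _ hℓ.ne',
    mul_div_cancel₀ _ hℓ.ne', ← mul_sub, inv_mul_le_iff₀ hℓ] at h1
  refine (ENNReal.ofReal_le_ofReal h1).trans (le_of_eq ?_)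
  rw [show ℓ * (C * (D.toReal / ℓ ^ d + ε / (C * ℓ))) = C * ℓ * (ℓ ^ d)⁻¹ * D.toReal + ε by
      field_simp,
    ENNReal.ofReal_add (by positivity) hε'.le, ENNReal.ofReal_mul (by positivity),
    ENNReal.ofReal_mul (by positivity), ENNReal.ofReal_mul hC0.le, ENNReal.ofReal_inv_of_pos hp,
    ENNReal.ofReal_toReal hD0, ENNReal.ofReal_coe_nnreal]
  rfl

end Vale.Agent.P137
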