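import Vale.Agent.P137.Basic

open MeasureTheory Metric Set Filter
open scoped ENNReal NNReal Topology

namespace Vale.Agent.P137

namespace BfunAux

variable {d : ℕ}

theorem shell_vol (d : ℕ) : ∃ C : ℝ, 0 < C ∧ ∀ (y z : E d) (R W : ℝ), 1 ≤ R → R ≤ 4 → 0 < W →
    volume (ball z 3 ∩ {x | |‖y - x‖ - R| ≤ W}) ≤ ENNReal.ofReal (C * W) := by
  have h1 := vb_pos (d := d) (s := 1) one_pos
  have h3 := vb_pos (d := d) (s := 3) (by norm_num)
  refine ⟨4 * vb d 3 + 3 * d * 5 ^ d * vb d 1, by positivity, fun y z R W hR hR' hW => ?_⟩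
  have hp : 0 ≤ 3 * (d : ℝ) * 5 ^ d * vb d 1 := by positivity
  by_cases hW1 : 1 / 4 ≤ W
  · refine (measure_mono inter_subset_left).trans ?_
    rw [volume_ball_eq]
    refine ENNReal.ofReal_le_ofReal ?_
    nlinarith [mul_nonneg hp hW.le]
  push Not at hW1
  have hsub : ball z 3 ∩ {x | |‖y - x‖ - R| ≤ W} ⊆ ball y (R + 2 * W) \ ball y (R - W) := by
    rintro x ⟨-, hx⟩
    simp only [mem_ofPred_eq, abs_le] at hx
    simp only [Set.mem_sdiff, mem_ball, dist_comm x y, dist_eq_norm, not_lt]
    constructor <;> linarith [hx.1, hx.2]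
  refine (measure_mono hsub).trans ?_
  rw [measure_sdiff (ball_subset_ball (by linarith)) measurableSet_ball.nullMeasurableSet
    measure_ball_lt_top.ne, volume_ball_eq, volume_ball_eq,
    ← ENNReal.ofReal_sub _ (vb_nonneg _)]
  refine ENNReal.ofReal_le_ofReal ?_
  rw [vb_eq (s := R + 2 * W) (by linarith), vb_eq (s := R - W) (by linarith)]
  have h4 := abs_pow_sub_pow_le (a := R + 2 * W) (b := R - W) (n := d)
  have h5 : max |R + 2 * W| |R - W| ^ (d - 1) ≤ 5 ^ d := by
    refine le_trans (pow_le_pow_left₀ (le_max_of_le_left (abs_nonneg _)) (b := 5) ?_ _)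
      (pow_le_pow_right₀ (by norm_num) (Nat.sub_le _ _))
    refine max_le ?_ ?_ <;> rw [abs_le] <;> constructor <;> linarith
  have h6 : |R + 2 * W - (R - W)| = 3 * W := by
    rw [abs_of_nonneg (by linarith)]; ring
  rw [h6] at h4
  have h7 : (R + 2 * W) ^ d - (R - W) ^ d ≤ 3 * W * d * 5 ^ d :=
    (le_abs_self _).trans (h4.trans (mul_le_mul_of_nonneg_left h5 (by positivity)))
  nlinarith [mul_le_mul_of_nonneg_right h7 h1.le, mul_pos h3 hW]

/-- the double shell -/
def sh (d : ℕ) (w : ℝ) : Set (E d × E d) :=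
  {q | |‖q.2 - q.1‖ - 1| ≤ w ∨ |‖q.2 - q.1‖ - 4| ≤ w}

theorem meas_sh (w : ℝ) : MeasurableSet (sh d w) :=
  ((isClosed_le (f := fun q : E d × E d => |‖q.2 - q.1‖ - 1|) (by fun_prop)
      continuous_const).union
    (isClosed_le (f := fun q : E d × E d => |‖q.2 - q.1‖ - 4|) (by fun_prop)
      continuous_const)).measurableSet

/-- width of the shells -/
noncomputable def wd (l n : ℕ) : ℝ := 40000 * (3 / 5) ^ l - 2 * tau n

theorem tau_le {l n : ℕ} (h : l < lst n) : tau n ≤ 4096 * (3 / 5) ^ l := by
  rw [tau_succ]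
  refine mul_le_mul_of_nonneg_left ?_ (by norm_num)
  have h1 : tau (n + 1) = ((1 / 2) ^ 12) ^ (n + 1) := by
    unfold tau qq
    rw [← pow_mul, ← pow_mul, mul_comm]
  rw [h1]
  calc ((1 / 2 : ℝ) ^ 12) ^ (n + 1) ≤ ((3 / 5) ^ 14) ^ (n + 1) :=
        pow_le_pow_left₀ (by norm_num) (by norm_num) _
    _ = (3 / 5) ^ lst n := by rw [← pow_mul]; rfl
    _ ≤ _ := pow_le_pow_of_le_one (by norm_num) (by norm_num) h.le

theorem geo (N : ℕ) : ∑ l ∈ Finset.range N, (3 / 5 : ℝ) ^ l * lam ^ (l + 1) ≤ 3 := by
  have : ∀ N : ℕ, ∑ l ∈ Finset.range N, (3 / 5 : ℝ) ^ l * lam ^ (l + 1)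
      ≤ 3 - 3 * ((3 / 5 : ℝ) ^ N * lam ^ N) := by
    intro N
    induction N with
    | zero => simp
    | succ N ih =>
      rw [Finset.sum_range_succ, pow_succ lam N, pow_succ (3 / 5 : ℝ) N]
      have : 0 ≤ (3 / 5 : ℝ) ^ N * lam ^ N := by unfold lam; positivity
      have hl : lam = 29 / 28 := rfl
      generalize lam ^ N = a at *
      generalize (3 / 5 : ℝ) ^ N = b at *
      have h1 : a * lam = a * (29 / 28) := by rw [hl]
      rw [h1]
      nlinarith
  have h0 : 0 ≤ (3 / 5 : ℝ) ^ N * lam ^ N := by unfold lam; positivity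
  linarith [this N]

end BfunAux

open BfunAux in
theorem bfun (d : ℕ) (_hd : 1 ≤ d) : BStmt d := by
  obtain ⟨C, hC, hvol⟩ := shell_vol d
  refine ⟨240000 * C, by positivity, fun m μ K e z D h => ?_⟩
  have hg : ∀ l, Measurable fun y => ENNReal.ofReal (dfc e (m l y)) := fun l =>
    ((continuous_dfc e).measurable.comp (h.lev.meas l)).ennreal_ofReal
  have hF : ∀ l w, Measurable ((sh d w).indicator
      fun q : E d × E d => ENNReal.ofReal (dfc e (m l q.2))) := fun l w =>
    ((hg l).comp measurable_snd).indicator (meas_sh w)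
  have hI : ∀ l w, Measurable fun x => ∫⁻ y in ball z 10, (sh d w).indicator
      (fun q : E d × E d => ENNReal.ofReal (dfc e (m l q.2))) (x, y) := fun l w =>
    (hF l w).lintegral_prod_right'
  have hof : ∀ l (S : Set (E d)), ENNReal.ofReal (∫ y in S, dfc e (m l y))
      = ∫⁻ y in S, ENNReal.ofReal (dfc e (m l y)) := fun l S =>
    ofReal_integral_eq_lintegral_ofReal (integrable_dfc h.unit (h.lev.int l)).integrableOn
      (Eventually.of_forall fun y => dfc_nonneg _ _)
  refine ⟨fun n x => ∑ l ∈ Finset.range (14 * n), ∫⁻ y in ball z 10, (sh d (wd l n)).indicator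
      (fun q : E d × E d => ENNReal.ofReal (dfc e (m (l + 1) q.2))) (x, y),
    fun n => Finset.measurable_sum _ fun l _ => hI _ _, fun n => ?_, fun n x x' hx => ?_,
    fun n x r hr => ?_⟩
  · rw [lintegral_finsetSum _ fun l _ => hI _ _]
    have key : ∀ l ∈ Finset.range (14 * n), ∫⁻ x in ball z 3, ∫⁻ y in ball z 10,
        (sh d (wd l n)).indicator
          (fun q : E d × E d => ENNReal.ofReal (dfc e (m (l + 1) q.2))) (x, y)
        ≤ ENNReal.ofReal (80000 * C * D * ((3 / 5) ^ l * lam ^ (l + 1))) := by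
      intro l _
      rw [lintegral_lintegral_swap (f := fun x y => (sh d (wd l n)).indicator
        (fun q : E d × E d => ENNReal.ofReal (dfc e (m (l + 1) q.2))) (x, y))
        (hF _ _).aemeasurable]
      have hW : (0 : ℝ) < 40000 * (3 / 5) ^ l := by positivity
      have h1 : ∀ y, ∫⁻ x in ball z 3, (sh d (wd l n)).indicator
          (fun q : E d × E d => ENNReal.ofReal (dfc e (m (l + 1) q.2))) (x, y)
          ≤ ENNReal.ofReal (2 * (C * (40000 * (3 / 5) ^ l)))
            * ENNReal.ofReal (dfc e (m (l + 1) y)) := by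
        intro y
        have hS : MeasurableSet {x | (x, y) ∈ sh d (wd l n)} :=
          measurable_prodMk_right (meas_sh _)
        have h2 : ∀ x, (sh d (wd l n)).indicator
            (fun q : E d × E d => ENNReal.ofReal (dfc e (m (l + 1) q.2))) (x, y)
            = {x | (x, y) ∈ sh d (wd l n)}.indicator
              (fun _ => ENNReal.ofReal (dfc e (m (l + 1) y))) x := fun x => rfl
        simp_rw [h2]
        rw [lintegral_indicator hS, setLIntegral_const, Measure.restrict_apply hS, mul_comm]
        refine mul_le_mul_left ?_ _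
        have h3 : {x | (x, y) ∈ sh d (wd l n)} ∩ ball z 3 ⊆
            (ball z 3 ∩ {x | |‖y - x‖ - 1| ≤ 40000 * (3 / 5) ^ l}) ∪
            (ball z 3 ∩ {x | |‖y - x‖ - 4| ≤ 40000 * (3 / 5) ^ l}) := by
          have h4 : wd l n ≤ 40000 * (3 / 5) ^ l := by
            unfold wd; linarith [tau_pos n]
          rintro x ⟨hx | hx, hx'⟩
          · exact Or.inl ⟨hx', hx.trans h4⟩
          · exact Or.inr ⟨hx', hx.trans h4⟩
        refine (measure_mono h3).trans ((measure_union_le _ _).trans ?_)
        rw [two_mul, ENNReal.ofReal_add (by positivity) (by positivity)]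
        exact add_le_add (hvol y z 1 _ le_rfl (by norm_num) hW)
          (hvol y z 4 _ (by norm_num) le_rfl hW)
      refine (lintegral_mono h1).trans ?_
      rw [lintegral_const_mul _ (hg _), ← hof]
      refine (mul_le_mul_right (ENNReal.ofReal_le_ofReal (h.dfc_le (l + 1))) _).trans ?_
      rw [← ENNReal.ofReal_mul (by positivity)]
      exact le_of_eq (by congr 1; ring)
    refine (Finset.sum_le_sum key).trans ?_
    have hD := h.Dpos
    rw [← ENNReal.ofReal_sum_of_nonneg fun l _ => by unfold lam; positivity, ← Finset.mul_sum]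
    refine ENNReal.ofReal_le_ofReal ?_
    have := mul_le_mul_of_nonneg_left (geo (14 * n)) (by positivity : 0 ≤ 80000 * C * D)
    linarith
  · refine le_trans (Finset.sum_le_sum fun l _ => ?_)
      (Finset.sum_le_sum_of_subset (Finset.range_mono (by omega : 14 * n ≤ 14 * (n + 1))))
    refine lintegral_mono fun y => ?_
    by_cases hy : (x', y) ∈ sh d (wd l n)
    · have h1 : |‖y - x‖ - ‖y - x'‖| ≤ tau n := by
        refine (abs_norm_sub_norm_le _ _).trans ?_
        rwa [sub_sub_sub_cancel_left, norm_sub_rev]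
      have h2 : wd l n + tau n ≤ wd l (n + 1) := by
        unfold wd
        linarith [tau_succ n, tau_pos (n + 1)]
      have h3 : (x, y) ∈ sh d (wd l (n + 1)) := by
        rw [abs_le] at h1
        rcases hy with hy | hy
        · left
          simp only [abs_le] at hy ⊢
          constructor <;> linarith [hy.1, hy.2, h1.1, h1.2]
        · right
          simp only [abs_le] at hy ⊢
          constructor <;> linarith [hy.1, hy.2, h1.1, h1.2]
      rw [indicator_of_mem hy, indicator_of_mem h3]
    · rw [indicator_of_notMem hy]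
      exact zero_le
  · unfold shsum
    rw [ENNReal.ofReal_sum_of_nonneg fun l _ => integral_nonneg fun y => dfc_nonneg _ _]
    refine Finset.sum_le_sum fun l hl => ?_
    have hS : MeasurableSet {y : E d | |‖y - x‖ - r| ≤ 3 / 4 ^ l + dl (n + 1)} :=
      (isClosed_le (by fun_prop) continuous_const).measurableSet
    rw [hof, inter_comm, ← Measure.restrict_restrict hS, ← lintegral_indicator hS]
    refine lintegral_mono fun y => ?_
    by_cases hy : y ∈ {y : E d | |‖y - x‖ - r| ≤ 3 / 4 ^ l + dl (n + 1)}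
    · have h1 := tau_le (Finset.mem_range.1 hl)
      have h2 : (3 : ℝ) / 4 ^ l ≤ 3 * (3 / 5) ^ l := by
        rw [div_eq_mul_inv, ← inv_pow]
        exact mul_le_mul_of_nonneg_left (pow_le_pow_left₀ (by norm_num) (by norm_num) _)
          (by norm_num)
      have h4 : dl (n + 1) ≤ tau (n + 1) := by
        rw [dl_eq]
        exact mul_le_of_le_one_right (tau_pos _).le (pow_le_one₀ (qq_pos _).le (qq_le_one _))
      have h5 : 3 / 4 ^ l + dl (n + 1) + 3 * tau n ≤ wd l (n + 1) := by
        unfold wd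
        have : (0 : ℝ) < (3 / 5) ^ l := by positivity
        linarith [tau_succ n, tau_pos (n + 1)]
      have h3 : (x, y) ∈ sh d (wd l (n + 1)) := by
        simp only [mem_ofPred_eq, abs_le] at hy
        rcases hr with hr | hr
        · left
          simp only [abs_le] at hr ⊢
          constructor <;> linarith [hy.1, hy.2, hr.1, hr.2]
        · right
          simp only [abs_le] at hr ⊢
          constructor <;> linarith [hy.1, hy.2, hr.1, hr.2]
      rw [indicator_of_mem hy, indicator_of_mem h3]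
    · rw [indicator_of_notMem hy]
      exact zero_le

end Vale.Agent.P137
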