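import Vale.Agent.P137.Basic

open MeasureTheory Metric Set Filter
open scoped ENNReal NNReal Topology

namespace Vale.Agent.P137

namespace DirsAux

variable {d : ℕ}

/-- a Lipschitz kernel at scale `l` -/
structure Kn (l B : ℝ) (ψ : E d → ℝ) : Prop where
  pos : 0 < l
  cont : Continuous ψ
  nn : ∀ w, 0 ≤ ψ w
  le : ∀ w, ψ w ≤ B
  supp : ∀ w, l ≤ ‖w‖ → ψ w = 0
  lip : ∀ w w', |ψ w - ψ w'| ≤ B / l * ‖w - w'‖
  one : ∫ w, ψ w = 1

theorem int_of_supp {l : ℝ} {ψ : E d → ℝ} (hc : Continuous ψ) (hs : ∀ w, l ≤ ‖w‖ → ψ w = 0) :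
    Integrable ψ :=
  hc.integrable_of_hasCompactSupport (HasCompactSupport.intro (isCompact_closedBall 0 l)
    fun w hw => hs w (le_of_not_ge fun h => hw (mem_closedBall_zero_iff.2 h)))

theorem exists_kn {l : ℝ} (hl : 0 < l) : ∃ ψ : E d → ℝ, Kn l (2 ^ (d + 1) / vb d l) ψ := by
  let T : E d → ℝ := fun w => max (1 - ‖w‖ / l) 0
  have hc : Continuous T := by fun_prop
  have h0 : ∀ w, 0 ≤ T w := fun w => le_max_right _ _
  have h1 : ∀ w, T w ≤ 1 := fun w => max_le (sub_le_self _ (by positivity)) zero_le_one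
  have hs : ∀ w, l ≤ ‖w‖ → T w = 0 := fun w hw =>
    max_eq_right (sub_nonpos.2 ((one_le_div hl).2 hw))
  have hL : ∀ w w', |T w - T w'| ≤ 1 / l * ‖w - w'‖ := by
    intro w w'
    refine (abs_max_sub_max_le_abs _ _ _).trans ?_
    rw [show 1 - ‖w‖ / l - (1 - ‖w'‖ / l) = 1 / l * (‖w'‖ - ‖w‖) by ring, abs_mul,
      abs_of_pos (by positivity), abs_sub_comm]
    exact mul_le_mul_of_nonneg_left (abs_norm_sub_norm_le _ _) (by positivity)
  have hi := int_of_supp hc hs
  have hV := vb_pos (d := d) hl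
  have hI : vb d l / 2 ^ (d + 1) ≤ ∫ w, T w := by
    have a1 : 1 / 2 * volume.real (ball (0 : E d) (1 / 2 * l)) ≤
        ∫ w in ball (0 : E d) (1 / 2 * l), T w := by
      refine setIntegral_ge_of_const_le_real measurableSet_ball measure_ball_lt_top.ne
        (fun w hw => le_max_of_le_left ?_) hi.integrableOn
      rw [mem_ball_zero_iff] at hw
      have : ‖w‖ / l ≤ 1 / 2 := (div_le_iff₀ hl).2 hw.le
      linarith
    rw [volume_real_ball, vb_mul (by norm_num) hl] at a1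
    refine le_trans (le_of_eq ?_) (a1.trans (setIntegral_le_integral hi (Eventually.of_forall h0)))
    rw [one_div_pow]
    field_simp
    ring
  have hI0 : 0 < ∫ w, T w := lt_of_lt_of_le (by positivity) hI
  have hB : (∫ w, T w)⁻¹ ≤ 2 ^ (d + 1) / vb d l := by
    rw [← inv_div]
    exact inv_anti₀ (by positivity) hI
  refine ⟨fun w => (∫ w, T w)⁻¹ * T w, hl, continuous_const.mul hc,
    fun w => mul_nonneg (inv_nonneg.2 hI0.le) (h0 w),
    fun w => (mul_le_of_le_one_right (inv_nonneg.2 hI0.le) (h1 w)).trans hB,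
    fun w hw => by rw [hs w hw, mul_zero], fun w w' => ?_, ?_⟩
  · rw [← mul_sub, abs_mul, abs_of_pos (inv_pos.2 hI0)]
    refine (mul_le_mul hB (hL w w') (abs_nonneg _) (by positivity)).trans (le_of_eq (by ring))
  · rw [integral_const_mul, inv_mul_cancel₀ hI0.ne']

/-- the smoothed field -/
noncomputable def sm (ψ : E d → ℝ) (a : E d → E d) (x : E d) : E d := ∫ z, ψ (x - z) • a z

variable {l B : ℝ} {ψ : E d → ℝ} {a : E d → E d}

theorem Kn.nonneg (h : Kn l B ψ) : 0 ≤ B := (h.nn 0).trans (h.le 0)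

theorem Kn.int (h : Kn l B ψ) (x : E d) : Integrable fun z => ψ (x - z) :=
  (int_of_supp h.cont h.supp).comp_sub_left x

theorem Kn.one' (h : Kn l B ψ) (x : E d) : ∫ z, ψ (x - z) = 1 := by
  rw [integral_sub_left_eq_self ψ volume x, h.one]

theorem Kn.int_smul {F : Type} [NormedAddCommGroup F] [NormedSpace ℝ F] (h : Kn l B ψ)
    {f : E d → F} (hf : AEStronglyMeasurable f) {M : ℝ} (hM : ∀ z, ‖f z‖ ≤ M) (x : E d) :
    Integrable fun z => ψ (x - z) • f z := by
  refine ((h.int x).mul_const M).mono' ((h.int x).1.smul hf) (Eventually.of_forall fun z => ?_)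
  rw [norm_smul, Real.norm_of_nonneg (h.nn _)]
  exact mul_le_mul_of_nonneg_left (hM z) (h.nn _)

theorem Kn.norm_le (h : Kn l B ψ) (h1 : ∀ z, ‖a z‖ = 1) (x : E d) : ‖sm ψ a x‖ ≤ 1 := by
  refine (norm_integral_le_of_norm_le (h.int x) (Eventually.of_forall fun z => ?_)).trans
    (h.one' x).le
  rw [norm_smul, Real.norm_of_nonneg (h.nn _), h1, mul_one]

theorem intOn_sub (ha : Measurable a) (h1 : ∀ z, ‖a z‖ = 1) (a₀ x : E d) (R : ℝ) :
    IntegrableOn (fun z => ‖a z - a₀‖) (ball x R) := by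
  refine Measure.integrableOn_of_bounded (M := 1 + ‖a₀‖) measure_ball_lt_top.ne
    (ha.sub_const a₀).norm.aestronglyMeasurable (Eventually.of_forall fun z => ?_)
  rw [norm_norm, ← h1 z]
  exact norm_sub_le _ _

theorem Kn.diff (h : Kn l B ψ) (ha : Measurable a) (h1 : ∀ z, ‖a z‖ = 1) (a₀ : E d) {x y y' : E d}
    {R : ℝ} (hy : y ∈ ball x R) (hy' : y' ∈ ball x R) :
    ‖sm ψ a y - sm ψ a y'‖ ≤ B / l * ‖y - y'‖ * ∫ z in ball x (R + l), ‖a z - a₀‖ := by
  have hi := fun x => h.int_smul ha.aestronglyMeasurable (fun z => (h1 z).le) x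
  have e : ∀ y, ∫ z, ψ (y - z) • (a z - a₀) = sm ψ a y - a₀ := by
    intro y
    simp only [smul_sub]
    rw [integral_sub (hi y) ((h.int y).smul_const a₀), integral_smul_const, h.one', one_smul, sm]
  have hi' := fun x => h.int_smul (f := fun z => a z - a₀) (ha.sub_const a₀).aestronglyMeasurable
    (M := 1 + ‖a₀‖) (fun z => (norm_sub_le _ _).trans (by rw [h1])) x
  rw [← sub_sub_sub_cancel_right _ _ a₀, ← e, ← e, ← integral_sub (hi' y) (hi' y'),
    ← integral_const_mul, ← integral_indicator measurableSet_ball]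
  refine norm_integral_le_of_norm_le
    ((integrable_indicator_iff measurableSet_ball).2 ((intOn_sub ha h1 a₀ x _).const_mul _))
    (Eventually.of_forall fun z => ?_)
  rw [← sub_smul, norm_smul]
  by_cases hz : z ∈ ball x (R + l)
  · rw [indicator_of_mem hz]
    refine mul_le_mul_of_nonneg_right ((h.lip _ _).trans (le_of_eq ?_)) (norm_nonneg _)
    rw [sub_sub_sub_cancel_right]
  · have h0 : ∀ y ∈ ball x R, ψ (y - z) = 0 := by
      intro y hy
      refine h.supp _ (le_of_not_gt fun h' => hz ?_)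
      rw [← dist_eq_norm] at h'
      rw [mem_ball] at hy ⊢
      linarith [dist_triangle_left z x y]
    rw [indicator_of_notMem hz, h0 y hy, h0 y' hy']
    simp

theorem Kn.lipg (h : Kn l (2 ^ (d + 1) / vb d l) ψ) (ha : Measurable a) (h1 : ∀ z, ‖a z‖ = 1)
    (x y : E d) : ‖sm ψ a x - sm ψ a y‖ ≤ 2 ^ (d + 1) * 2 ^ d / l * ‖x - y‖ := by
  have hl := h.pos
  by_cases hxy : y ∈ ball x l
  · refine (h.diff ha h1 0 (mem_ball_self hl) hxy).trans (le_of_eq ?_)
    have hV := vb_pos (d := d) hl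
    simp only [sub_zero, h1]
    rw [setIntegral_const, volume_real_ball, ← two_mul, vb_mul two_pos hl, smul_eq_mul]
    field_simp
  · rw [mem_ball', not_lt, dist_eq_norm] at hxy
    have a1 : ‖sm ψ a x - sm ψ a y‖ ≤ 2 :=
      (norm_sub_le _ _).trans (by linarith [h.norm_le h1 x, h.norm_le h1 y])
    have a2 : (2 : ℝ) ≤ 2 ^ (d + 1) * 2 ^ d := by
      rw [pow_succ', mul_assoc]
      exact le_mul_of_one_le_right zero_le_two
        (one_le_mul_of_one_le_of_one_le (one_le_pow₀ one_le_two) (one_le_pow₀ one_le_two))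
    rw [div_mul_eq_mul_div, mul_div_assoc]
    exact (a1.trans a2).trans (le_mul_of_one_le_right (by positivity) ((one_le_div hl).2 hxy))

theorem def_nn {u : E d} (hu : ‖u‖ = 1) (w : E d) : 0 ≤ ‖w‖ - inner ℝ u w := by
  have := real_inner_le_norm u w
  rw [hu, one_mul] at this
  linarith

theorem Kn.defect (h : Kn l B ψ) (ha : Measurable a) (h1 : ∀ z, ‖a z‖ = 1) (x w : E d) :
    ENNReal.ofReal (‖w‖ - inner ℝ (sm ψ a x) w) ≤
      ENNReal.ofReal B * ∫⁻ z in ball x l, ENNReal.ofReal (‖w‖ - inner ℝ (a z) w) := by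
  have hi := h.int_smul ha.aestronglyMeasurable (fun z => (h1 z).le) x
  have hi2 : Integrable fun z => ψ (x - z) * inner ℝ (a z) w := by
    simpa only [real_inner_smul_left] using hi.inner_const (𝕜 := ℝ) w
  have e : ‖w‖ - inner ℝ (sm ψ a x) w = ∫ z, ψ (x - z) * (‖w‖ - inner ℝ (a z) w) := by
    simp only [mul_sub]
    rw [integral_sub ((h.int x).mul_const _) hi2, integral_mul_const, h.one', one_mul, sm,
      real_inner_comm, ← integral_inner hi]
    simp only [real_inner_smul_right, real_inner_comm]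
  have hi3 : Integrable fun z => ψ (x - z) * (‖w‖ - inner ℝ (a z) w) := by
    simp only [mul_sub]
    exact ((h.int x).mul_const ‖w‖).sub hi2
  rw [e, ofReal_integral_eq_lintegral_ofReal hi3
    (Eventually.of_forall fun z => mul_nonneg (h.nn _) (def_nn (h1 z) w)),
    ← lintegral_const_mul' _ _ ENNReal.ofReal_ne_top, ← lintegral_indicator measurableSet_ball]
  refine lintegral_mono fun z => ?_
  by_cases hz : z ∈ ball x l
  · rw [indicator_of_mem hz, ← ENNReal.ofReal_mul h.nonneg]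
    exact ENNReal.ofReal_le_ofReal (mul_le_mul_of_nonneg_right (h.le _) (def_nn (h1 z) w))
  · rw [mem_ball', not_lt, dist_eq_norm] at hz
    simp [h.supp _ hz]

theorem meas_def (ha : Measurable a) {m : E d → E d} (hm : Measurable m) :
    Measurable fun q : E d × E d => ENNReal.ofReal (‖m q.1‖ - inner ℝ (a q.2) (m q.1)) :=
  ((hm.comp measurable_fst).norm.sub
    ((ha.comp measurable_snd).inner (hm.comp measurable_fst))).ennreal_ofReal

theorem Kn.av (h : Kn l B ψ) (ha : Measurable a) (h1 : ∀ z, ‖a z‖ = 1) {m : E d → E d}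
    (hm : Measurable m) {X : E d → ℝ≥0∞} {R : ℝ}
    (hX : ∀ z, ∫⁻ y in ball z (R + l), ENNReal.ofReal (‖m y‖ - inner ℝ (a z) (m y)) ≤ X z)
    (x : E d) :
    ∫⁻ y in ball x R, ENNReal.ofReal (‖m y‖ - inner ℝ (sm ψ a x) (m y)) ≤
      ENNReal.ofReal B * ∫⁻ z in ball x l, X z := by
  refine (lintegral_mono fun y => h.defect ha h1 x (m y)).trans ?_
  rw [lintegral_const_mul' _ _ ENNReal.ofReal_ne_top,
    lintegral_lintegral_swap (meas_def ha hm).aemeasurable]
  refine mul_le_mul_right (setLIntegral_mono' measurableSet_ball fun z hz => ?_) _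
  refine (lintegral_mono_set (ball_subset_ball' ?_)).trans (hX z)
  linarith [mem_ball'.1 hz]

theorem Kn.av2 (h : Kn l B ψ) (ha : Measurable a) (h1 : ∀ z, ‖a z‖ = 1) {m : E d → E d}
    (hm : Measurable m) {X : E d → ℝ≥0∞}
    (hX : ∀ z, ∫⁻ y in ball z l, ENNReal.ofReal (‖m y‖ - inner ℝ (a z) (m y)) ≤ X z) :
    ∫⁻ y, ENNReal.ofReal (‖m y‖ - inner ℝ (sm ψ a y) (m y)) ≤ ENNReal.ofReal B * ∫⁻ z, X z := by
  refine (lintegral_mono fun y => h.defect ha h1 y (m y)).trans ?_
  rw [lintegral_const_mul' _ _ ENNReal.ofReal_ne_top]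
  refine mul_le_mul_right ?_ _
  have e : ∀ y, ∫⁻ z in ball y l, ENNReal.ofReal (‖m y‖ - inner ℝ (a z) (m y)) =
      ∫⁻ z, {q : E d × E d | q.2 ∈ ball q.1 l}.indicator
        (fun q => ENNReal.ofReal (‖m q.1‖ - inner ℝ (a q.2) (m q.1))) (y, z) := by
    intro y
    rw [← lintegral_indicator measurableSet_ball]
    rfl
  simp only [e]
  rw [lintegral_lintegral_swap (f := fun y z => {q : E d × E d | q.2 ∈ ball q.1 l}.indicator
    (fun q => ENNReal.ofReal (‖m q.1‖ - inner ℝ (a q.2) (m q.1))) (y, z))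
    ((meas_def ha hm).indicator (measurableSet_near l)).aemeasurable]
  refine lintegral_mono fun z => le_trans (le_of_eq ?_) (hX z)
  rw [← lintegral_indicator measurableSet_ball]
  refine lintegral_congr fun y => ?_
  by_cases hy : y ∈ ball z l
  · rw [indicator_of_mem hy, indicator_of_mem (by exact mem_ball_comm.1 hy)]
  · rw [indicator_of_notMem hy, indicator_of_notMem (by exact fun h => hy (mem_ball_comm.1 h))]

theorem sq_le (hd : 1 ≤ d) {u W : E d} (hu : ‖u‖ = 1) {M : ℝ} (hM : ‖W‖ ≤ M) :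
    ‖u - dir W‖ ^ 2 * M ≤ 6 * (M - inner ℝ u W) := by
  have h1 := norm_dir hd W
  have h2 : inner ℝ u W = ‖W‖ * inner ℝ u (dir W) := by
    unfold dir
    split_ifs with h
    · simp [h]
    · rw [real_inner_smul_right, ← mul_assoc, mul_inv_cancel₀ (norm_ne_zero_iff.2 h), one_mul]
  have h3 := abs_real_inner_le_norm u (dir W)
  rw [hu, h1, one_mul, abs_le] at h3
  rw [norm_sub_sq_real, hu, h1, h2]
  nlinarith [norm_nonneg W, mul_nonneg (sub_nonneg.2 hM) (sub_nonneg.2 h3.1),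
    mul_nonneg (norm_nonneg W) (sub_nonneg.2 h3.2)]

theorem cs {S : Set (E d)} {f : E d → ℝ≥0∞} (hf : Measurable f) :
    (∫⁻ z in S, f z) ^ 2 ≤ volume S * ∫⁻ z in S, f z ^ 2 := by
  have h := ENNReal.lintegral_mul_le_Lp_mul_Lq (volume.restrict S) Real.HolderConjugate.two_two
    hf.aemeasurable (g := fun _ => 1) aemeasurable_const
  simp only [Pi.mul_apply, mul_one, one_pow, setLIntegral_one, ENNReal.rpow_two] at h
  refine (pow_le_pow_left₀ zero_le h 2).trans (le_of_eq ?_)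
  rw [← ENNReal.mul_rpow_of_nonneg _ _ (by norm_num), ← ENNReal.rpow_two, ← ENNReal.rpow_mul,
    mul_comm]
  norm_num

theorem Kn.osc (hd : 1 ≤ d) (h : Kn l B ψ) (ha : Measurable a) (h1 : ∀ z, ‖a z‖ = 1)
    {m : E d → E d} (hm : Integrable m) {X : E d → ℝ≥0∞} {R : ℝ}
    (hX : ∀ z, ∫⁻ y in ball z (R + (R + l)), ENNReal.ofReal (‖m y‖ - inner ℝ (a z) (m y)) ≤ X z)
    (x : E d) :
    (ENNReal.ofReal l * P137.lip (sm ψ a) R x) ^ 2 * mass m x R ≤
      ENNReal.ofReal B ^ 2 * volume (ball x (R + l)) * 6 * ∫⁻ z in ball x (R + l), X z := by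
  have hl := h.pos
  have hB := h.nonneg
  obtain ⟨W, hW⟩ : ∃ W, W = ∫ y in ball x R, m y := ⟨_, rfl⟩
  have hI : 0 ≤ ∫ z in ball x (R + l), ‖a z - dir W‖ := integral_nonneg fun _ => norm_nonneg _
  have a1 : P137.lip (sm ψ a) R x ≤
      ENNReal.ofReal (B / l * ∫ z in ball x (R + l), ‖a z - dir W‖) := by
    refine lip_le fun y hy y' hy' => ENNReal.ofReal_le_ofReal ?_
    refine div_le_of_le_mul₀ (norm_nonneg _) (by positivity) ?_
    exact (h.diff ha h1 (dir W) hy hy').trans (le_of_eq (by ring))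
  have a2 : ENNReal.ofReal l * P137.lip (sm ψ a) R x ≤
      ENNReal.ofReal B * ∫⁻ z in ball x (R + l), ENNReal.ofReal ‖a z - dir W‖ := by
    rw [← ofReal_integral_eq_lintegral_ofReal (intOn_sub ha h1 _ x _)
      (Eventually.of_forall fun _ => norm_nonneg _), ← ENNReal.ofReal_mul hB]
    refine (mul_le_mul_right a1 _).trans (le_of_eq ?_)
    rw [← ENNReal.ofReal_mul hl.le, ← mul_assoc, mul_div_cancel₀ _ hl.ne']
  have hf : Measurable fun z => ENNReal.ofReal ‖a z - dir W‖ :=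
    (ha.sub_const _).norm.ennreal_ofReal
  have a3 : mass m x R = ENNReal.ofReal (∫ y in ball x R, ‖m y‖) :=
    (ofReal_integral_norm_eq_lintegral_enorm hm.integrableOn).symm
  have a4 : ∀ z ∈ ball x (R + l), ENNReal.ofReal ‖a z - dir W‖ ^ 2 * mass m x R ≤ 6 * X z := by
    intro z hz
    have b1 : IntegrableOn (fun y => inner ℝ (a z) (m y)) (ball x R) :=
      (hm.const_inner (𝕜 := ℝ) (a z)).integrableOn
    have b2 : ENNReal.ofReal ((∫ y in ball x R, ‖m y‖) - inner ℝ (a z) W) ≤ X z := by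
      rw [hW, ← integral_inner hm.integrableOn, ← integral_sub hm.norm.integrableOn b1,
        ofReal_integral_eq_lintegral_ofReal (f := fun y => ‖m y‖ - inner ℝ (a z) (m y))
          (hm.norm.integrableOn.sub b1)
          (Eventually.of_forall fun y => def_nn (h1 z) (m y))]
      refine (lintegral_mono_set (ball_subset_ball' ?_)).trans (hX z)
      linarith [mem_ball'.1 hz]
    rw [a3, ← ENNReal.ofReal_pow (norm_nonneg _), ← ENNReal.ofReal_mul (sq_nonneg _)]
    refine (ENNReal.ofReal_le_ofReal (sq_le hd (h1 z) ?_)).trans ?_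
    · rw [hW]; exact norm_integral_le_integral_norm _
    · rw [ENNReal.ofReal_mul (by norm_num), ENNReal.ofReal_ofNat]
      exact mul_le_mul_right b2 _
  have a5 : (∫⁻ z in ball x (R + l), ENNReal.ofReal ‖a z - dir W‖ ^ 2) * mass m x R ≤
      6 * ∫⁻ z in ball x (R + l), X z := by
    rw [← lintegral_mul_const _ (hf.pow_const 2), ← lintegral_const_mul' _ _ (by norm_num)]
    exact setLIntegral_mono' measurableSet_ball a4
  refine (mul_le_mul_left (pow_le_pow_left₀ zero_le a2 2) _).trans ?_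
  rw [mul_pow]
  refine (mul_le_mul_left (mul_le_mul_right (cs hf) _) _).trans ?_
  rw [mul_assoc, mul_assoc, mul_assoc, mul_assoc]
  exact mul_le_mul_right (mul_le_mul_right a5 _) _

end DirsAux

open DirsAux in
theorem dirs (d : ℕ) (hd : 1 ≤ d) : DirsStmt d := by
  obtain ⟨C, hC0, hC1, hC2, hC3⟩ : ∃ C : ℝ, 0 ≤ C ∧ 2 ^ (d + 1) * 2 ^ d ≤ C ∧
      2 ^ (d + 1) * 64 ^ d ≤ C ∧ (2 ^ (d + 1)) ^ 2 * 17 ^ d * 6 * 64 ^ d ≤ C :=
    ⟨2 ^ (d + 1) * 2 ^ d + 2 ^ (d + 1) * 64 ^ d + (2 ^ (d + 1)) ^ 2 * 17 ^ d * 6 * 64 ^ d,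
      by positivity, by rw [add_assoc]; exact le_add_of_nonneg_right (by positivity),
      by rw [add_right_comm]; exact le_add_of_nonneg_left (by positivity),
      le_add_of_nonneg_left (by positivity)⟩
  lift C to ℝ≥0 using hC0
  have hC0 := C.coe_nonneg
  refine ⟨C, fun μ ℓ K m D hℓ hF => ?_⟩
  have hCe : (C : ℝ≥0∞) = ENNReal.ofReal C := ENNReal.ofReal_coe_nnreal.symm
  have hl := sc_pos hℓ
  choose ψ hψ using fun k => exists_kn (d := d) (hl k)
  have ha : ∀ k, Measurable fun z => dir (m k z) := fun k => measurable_dir.comp (hF.lev.meas k)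
  have h1 : ∀ k z, ‖dir (m k z)‖ = 1 := fun k z => norm_dir hd _
  have hL : ∀ k x y, ‖sm (ψ k) (fun z => dir (m k z)) x - sm (ψ k) (fun z => dir (m k z)) y‖ ≤
      C / sc ℓ k * ‖x - y‖ := fun k x y => ((hψ k).lipg (ha k) (h1 k) x y).trans
    (mul_le_mul_of_nonneg_right (div_le_div_of_nonneg_right hC1 (hl k).le) (norm_nonneg _))
  have hX : ∀ k j, k ≤ K → k < j → ∀ R, R ≤ 42 * sc ℓ k → ∀ z,
      ∫⁻ y in ball z R, ENNReal.ofReal (‖m j y‖ - inner ℝ (dir (m k z)) (m j y)) ≤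
        ENNReal.ofReal (64 ^ d * vb d (sc ℓ k)) * D k j z := by
    intro k j hk hj R hR z
    have h := hF.D2 k j z (by omega) hj
    rw [sc_level0, volume_ball_eq, vb_mul (by norm_num) (hl k)] at h
    exact (lintegral_mono_set (ball_subset_ball (by linarith [hl k]))).trans h
  have hc : ∀ k (I : ℝ≥0∞), ENNReal.ofReal (2 ^ (d + 1) / vb d (sc ℓ k)) *
      (ENNReal.ofReal (64 ^ d * vb d (sc ℓ k)) * I) ≤ ENNReal.ofReal C * I := by
    intro k I
    have hV := vb_pos (d := d) (hl k)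
    rw [← mul_assoc, ← ENNReal.ofReal_mul (by positivity)]
    refine mul_le_mul_left (ENNReal.ofReal_le_ofReal (le_trans (le_of_eq ?_) hC2)) _
    field_simp
  refine ⟨fun k => sm (ψ k) fun z => dir (m k z), fun k => ?_, fun k => (hψ k).norm_le (h1 k),
    hL, fun k j x hk hj => ?_, fun k j x hk hj => ?_, fun k j hk hj => ?_⟩
  · refine (LipschitzWith.of_dist_le_mul (K := ⟨C / sc ℓ k, div_nonneg hC0 (hl k).le⟩)
      fun x y => ?_).continuous
    rw [dist_eq_norm, dist_eq_norm]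
    exact hL k x y
  · have h := (hψ k).osc hd (ha k) (h1 k) (hF.lev.int j) (R := 16 * sc ℓ k)
      (hX k j hk hj _ (by linarith [hl k])) x
    have hV := vb_pos (d := d) (hl k)
    rw [show 16 * sc ℓ k + sc ℓ k = 17 * sc ℓ k by ring,
      lintegral_const_mul' _ _ ENNReal.ofReal_ne_top, volume_ball_eq, vb_mul (by norm_num) (hl k),
      ← mul_assoc, ← ENNReal.ofReal_pow (by positivity), ← ENNReal.ofReal_ofNat 6,
      ← ENNReal.ofReal_mul (by positivity), ← ENNReal.ofReal_mul (by positivity),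
      ← ENNReal.ofReal_mul (by positivity)] at h
    rw [hCe]
    refine h.trans (mul_le_mul_left (ENNReal.ofReal_le_ofReal (le_trans (le_of_eq ?_) hC3)) _)
    field_simp
  · have h := (hψ k).av (ha k) (h1 k) (hF.lev.meas j) (R := 12 * sc ℓ k)
      (hX k j hk hj _ (by linarith [hl k])) x
    rw [lintegral_const_mul' _ _ ENNReal.ofReal_ne_top] at h
    rw [hCe]
    exact h.trans (hc k _)
  · have h := (hψ k).av2 (ha k) (h1 k) (hF.lev.meas j) (hX k j hk hj _ (by linarith [hl k]))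
    rw [lintegral_const_mul' _ _ ENNReal.ofReal_ne_top] at h
    rw [hCe]
    exact h.trans (hc k _)

end Vale.Agent.P137
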