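import Vale.Agent.P137.Basic

open MeasureTheory Metric Set Filter
open scoped ENNReal NNReal Topology

namespace Vale.Agent.P137

variable {d : ℕ}

namespace FinAAux

theorem ua_lip (hw : WCalcStmt d) (hc : ContStmt d) {f : E d → ℝ} {F : E d → E d}
    (hf : Integrable f) (hF : Integrable F) (h : IsWeakGrad f F) {a : ℝ} (ha : 0 < a)
    (x x' : E d) {s : ℝ} (hs : a ≤ s) :
    |ua f x s - ua f x' s| ≤ (vb d a)⁻¹ * (∫ y, ‖F y‖) * ‖x - x'‖ := by
  have h1 := hc _ _ _ _ (hw f F hf.locallyIntegrable hF.locallyIntegrable h 0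
    (‖x - 0‖ + ‖x' - 0‖ + s)) a x' x s s ha hs hs (by linarith [norm_nonneg (x - 0)])
    (by linarith [norm_nonneg (x' - 0)])
  rw [sub_self, abs_zero, add_zero] at h1
  refine h1.trans (mul_le_mul_of_nonneg_right (mul_le_mul_of_nonneg_left ?_
    (inv_nonneg.2 (vb_nonneg _))) (norm_nonneg _))
  exact integral_mono (hF.indicator measurableSet_ball).norm hF.norm
    fun y => norm_indicator_le_norm_self _ _

theorem ua_cont (hw : WCalcStmt d) (hc : ContStmt d) {f : E d → ℝ} {F : E d → E d}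
    (hf : LocallyIntegrable f) (hF : LocallyIntegrable F) (h : IsWeakGrad f F) {a : ℝ} (ha : 0 < a)
    (b : ℝ) (x : E d) : ContinuousOn (ua f x) (Icc a b) :=
  hc.continuousOn (hw f F hf hF h 0 (‖x - 0‖ + b)) ha le_rfl

theorem MM_lipschitz (hw : WCalcStmt d) (hc : ContStmt d) {f : E d → ℝ} {F : E d → E d}
    (hf : Integrable f) (hF : Integrable F) (h : IsWeakGrad f F) {a b : ℝ} (ha : 0 < a)
    (hab : a ≤ b) : ∃ L : ℝ≥0, LipschitzWith L (MM (ua f) a b) := by
  have hL : 0 ≤ (vb d a)⁻¹ * ∫ y, ‖F y‖ :=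
    mul_nonneg (inv_nonneg.2 (vb_nonneg _)) (integral_nonneg fun _ => norm_nonneg _)
  refine ⟨⟨_, hL⟩, LipschitzWith.of_dist_le_mul fun x x' => ?_⟩
  rw [Real.dist_eq, dist_eq_norm]
  exact MM_sub_le hab (ua_cont hw hc hf.locallyIntegrable hF.locallyIntegrable h ha b x)
    (ua_cont hw hc hf.locallyIntegrable hF.locallyIntegrable h ha b x')
    fun s hs => ua_lip hw hc hf hF h ha x x' hs.1

theorem hK_lipschitz (hw : WCalcStmt d) (hc : ContStmt d) {f : E d → ℝ} {F : E d → E d}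
    (hf : Integrable f) (hF : Integrable F) (h : IsWeakGrad f F) (K t : ℕ) :
    ∃ L : ℝ≥0, LipschitzWith L (hK f K t) := by
  have h1 := sc_pos one_pos K
  exact MM_lipschitz hw hc hf hF h (sc_pos h1 t) ((sc_le h1 t).trans (by linarith))

theorem ua_le {f : E d → ℝ} (h0 : ∀ x, 0 ≤ f x) (hf : Integrable f) (x : E d) {a s : ℝ}
    (ha : 0 < a) (hs : a ≤ s) : ua f x s ≤ (vb d a)⁻¹ * ∫ y, f y :=
  mul_le_mul (inv_anti₀ (vb_pos ha) (vb_mono hs))
    (setIntegral_le_integral hf (Eventually.of_forall h0))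
    (integral_nonneg fun y => h0 y) (inv_nonneg.2 (vb_nonneg _))

theorem bdd {f : E d → ℝ} (h0 : ∀ x, 0 ≤ f x) (hf : Integrable f) (x : E d) {a : ℝ}
    (ha : 0 < a) : BddAbove (ua f x '' Ici a) :=
  ⟨_, forall_mem_image.2 fun _ hs => ua_le h0 hf x ha hs⟩

theorem exists_half {f : E d → ℝ} (h0 : ∀ x, 0 ≤ f x) (hf : Integrable f) :
    ∃ R : ℝ, 1 ≤ R ∧ ∫ y, f y ≤ 2 * ∫ y in ball (0 : E d) R, f y := by
  rcases (integral_nonneg (μ := volume) h0 : 0 ≤ ∫ y, f y).eq_or_lt with h | h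
  · refine ⟨1, le_rfl, ?_⟩
    rw [← h]
    exact mul_nonneg zero_le_two (integral_nonneg fun y => h0 y)
  · have h1 := tendsto_setIntegral_of_monotone (μ := volume) (f := f)
      (s := fun n : ℕ => ball (0 : E d) (n + 1)) (fun _ => measurableSet_ball)
      (fun n m hnm => ball_subset_ball (by simpa using hnm)) hf.integrableOn
    rw [iUnion_ball_nat_succ, Measure.restrict_univ] at h1
    obtain ⟨n, hn⟩ := (h1.eventually (lt_mem_nhds (half_lt_self h))).exists
    exact ⟨n + 1, by simp, by linarith⟩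

theorem gK_eq (hd : 1 ≤ d) {f : E d → ℝ} (h0 : ∀ x, 0 ≤ f x) (hf : Integrable f) {R0 : ℝ}
    (h1 : 1 ≤ R0) (h2 : ∫ y, f y ≤ 2 * ∫ y in ball (0 : E d) R0, f y) (K : ℕ) {R b : ℝ}
    (hb : 2 * (R + R0) ≤ b) {x : E d} (hx : x ∈ ball (0 : E d) R) :
    gK f K x = MM (ua f) (sc 1 K) b x := by
  have ha := sc_pos one_pos K
  have ha1 := sc_le one_pos K
  have hR : 0 < R := pos_of_mem_ball hx
  have hB := bdd h0 hf x ha
  have hB' : BddAbove (ua f x '' Icc (sc 1 K) b) := hB.mono (image_mono Icc_subset_Ici_self)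
  refine le_antisymm (csSup_le (nonempty_Ici.image _) (forall_mem_image.2 fun s hs => ?_))
    (csSup_le_csSup hB ((nonempty_Icc.2 (by linarith)).image _) (image_mono Icc_subset_Ici_self))
  by_cases hsb : s ≤ b
  · exact le_csSup hB' (mem_image_of_mem _ ⟨hs, hsb⟩)
  refine le_trans ?_ (le_csSup hB' (mem_image_of_mem _
    (show R + R0 ∈ Icc (sc 1 K) b from ⟨by linarith, by linarith⟩)))
  have hp : 0 < R + R0 := by linarith
  have h3 := ua_le h0 hf x (mul_pos two_pos hp) (show 2 * (R + R0) ≤ s by linarith)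
  have h4 : ∫ y in ball (0 : E d) R0, f y ≤ ∫ y in ball x (R + R0), f y := by
    refine setIntegral_mono_set hf.integrableOn (Eventually.of_forall h0)
      (LE.le.eventuallyLE (ball_subset_ball' ?_))
    rw [mem_ball, dist_comm] at hx
    linarith
  have h5 : 2 * vb d (R + R0) ≤ vb d (2 * (R + R0)) := by
    rw [vb_mul two_pos hp]
    exact mul_le_mul_of_nonneg_right (le_self_pow₀ one_le_two (by omega)) (vb_nonneg _)
  have h6 := vb_pos (d := d) hp
  have h7 : 0 ≤ ∫ y, f y := integral_nonneg h0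
  refine h3.trans ((mul_le_mul (inv_anti₀ (by linarith) h5) (h2.trans
    (mul_le_mul_of_nonneg_left h4 zero_le_two)) h7 (by positivity)).trans (le_of_eq ?_))
  rw [ua]
  field_simp

end FinAAux

open FinAAux in
theorem finA (d : ℕ) (hd : 1 ≤ d) (hm : MainStmt d) (hw : WCalcStmt d) (hc : ContStmt d) :
    FinAStmt d := by
  obtain ⟨C, hC⟩ := hm
  refine ⟨C, fun f F h0 hf hF hFm h K => ⟨?_, ?_, fun t => ⟨hK_lipschitz hw hc hf hF h K t, ?_⟩⟩⟩
  · have ha := sc_pos one_pos K
    have hL : 0 ≤ (vb d (sc 1 K))⁻¹ * ∫ y, ‖F y‖ :=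
      mul_nonneg (inv_nonneg.2 (vb_nonneg _)) (integral_nonneg fun _ => norm_nonneg _)
    refine ⟨⟨_, hL⟩, LipschitzWith.of_le_add_mul _ fun x x' => ?_⟩
    refine csSup_le (nonempty_Ici.image _) (forall_mem_image.2 fun s hs => ?_)
    have h1 := (abs_le.1 (ua_lip hw hc hf hF h ha x x' hs)).2
    have h2 : ua f x' s ≤ gK f K x' := le_csSup (bdd h0 hf x' ha) (mem_image_of_mem _ hs)
    rw [dist_eq_norm]
    change _ ≤ _ + (vb d (sc 1 K))⁻¹ * (∫ y, ‖F y‖) * ‖x - x'‖
    linarith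
  · obtain ⟨R0, h1, h2⟩ := exists_half h0 hf
    rw [← setLIntegral_univ, ← iUnion_ball_nat (0 : E d), setLIntegral_iUnion_of_directed _
      (Monotone.directed_le fun n m hnm => ball_subset_ball (by simpa using hnm))]
    refine iSup_le fun n => ?_
    obtain ⟨j, hj⟩ := pow_unbounded_of_one_lt ((n : ℝ) + R0) (show (1 : ℝ) < 4 by norm_num)
    have hn : (0 : ℝ) ≤ n := Nat.cast_nonneg n
    have hℓ : (0 : ℝ) < 4 ^ j := by positivity
    have h3 := hC (ua f) _ 0 (4 ^ j) (j + K) hℓ (hFm.indicator measurableSet_ball)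
      (hw f F hf.locallyIntegrable hF.locallyIntegrable h 0 _)
    have e : sc (4 ^ j) (j + K) = sc 1 K := by
      unfold sc; rw [pow_add]; field_simp
    rw [e] at h3
    have h4 : VV ((ball (0 : E d) (13 * 4 ^ j)).indicator F) ≤ VV F :=
      lintegral_mono fun y => enorm_indicator_le_enorm_self _ _
    refine le_trans ?_ (h3.trans (mul_le_mul_right h4 _))
    refine le_trans (le_of_eq ?_) (lintegral_mono_set (ball_subset_ball
      (show (n : ℝ) ≤ 4 ^ j by linarith)))
    refine setLIntegral_congr_fun measurableSet_ball fun x hx => ?_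
    have h5 : gK f K =ᶠ[𝓝 x] MM (ua f) (sc 1 K) (4 * 4 ^ j) := by
      filter_upwards [isOpen_ball.mem_nhds hx] with y hy
      exact gK_eq hd h0 hf h1 h2 K (by linarith) hy
    rw [← h5.fderiv_eq, ← ofReal_norm, ← ofReal_norm, norm_gradient_eq]
  · intro x
    have ha := sc_pos one_pos K
    have hs : sc (sc 1 K) t = sc 1 (K + t) := (sc_add 1 K t).symm
    have ha' := sc_pos one_pos (K + t)
    have hle := sc_le ha t
    have e : Ici (sc 1 (K + t)) = Ici (sc 1 K) ∪ Icc (sc (sc 1 K) t) (4 * sc 1 K) := by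
      rw [← hs]
      ext s
      simp only [mem_Ici, mem_union, mem_Icc]
      constructor
      · intro h1
        by_cases h2 : sc 1 K ≤ s
        · exact Or.inl h2
        · exact Or.inr ⟨h1, by linarith⟩
      · rintro (h1 | h1)
        · linarith
        · exact h1.1
    rw [gK, e, image_union, csSup_union (bdd h0 hf x ha) (nonempty_Ici.image _)
      ((bdd h0 hf x (sc_pos ha t)).mono (image_mono Icc_subset_Ici_self))
      ((nonempty_Icc.2 (by linarith)).image _)]
    rfl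

end Vale.Agent.P137
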