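import Vale.Agent.P137.Basic

open MeasureTheory Metric Set Filter
open scoped ENNReal NNReal Topology

namespace Vale.Agent.P137

variable {d : ℕ}

namespace LimAux

theorem tendsto_anti {Φ : E d → ℝ≥0∞} (hΦ : ∫⁻ x, Φ x ≠ ∞) {B : ℕ → Set (E d)}
    (hB : ∀ n, MeasurableSet (B n)) (ha : Antitone B) (he : ⋂ n, B n = ∅) :
    Tendsto (fun n => ∫⁻ x in B n, Φ x) atTop (𝓝 0) := by
  have h := tendsto_measure_iInter_atTop (μ := volume.withDensity Φ)
    (fun n => (hB n).nullMeasurableSet) ha ⟨0, by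
      rw [withDensity_apply _ (hB 0)]
      exact ne_top_of_le_ne_top hΦ (setLIntegral_le_lintegral _ _)⟩
  rw [he, measure_empty] at h
  exact h.congr fun n => withDensity_apply _ (hB n)

theorem grad_touch {g G : E d → ℝ} {x : E d} (hg : DifferentiableAt ℝ g x)
    (hG : DifferentiableAt ℝ G x) (hle : ∀ y, g y ≤ G y) (heq : g x = G x) :
    gradient g x = gradient G x := by
  rw [gradient, gradient, fderiv_eq_of_touch hg hG (Eventually.of_forall hle) heq]

theorem enorm_sub_le' (a b : E d) : ‖a - b‖ₑ ≤ ‖a‖ₑ + ‖b‖ₑ := enorm_sub_le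

end LimAux

open LimAux in
theorem lim (d : ℕ) (_hd : 1 ≤ d) : LimStmt d := by
  classical
  intro g h F A hA hFm hFi hg hh hmax hgA hhF
  have hgc : ∀ K, Continuous (g K) := fun K => (hg K).choose_spec.continuous
  have hmono : ∀ K K', K ≤ K' → ∀ x, g K x ≤ g K' x := by
    intro K K' hK x
    obtain ⟨t, rfl⟩ := Nat.exists_eq_add_of_le hK
    rw [hmax]
    exact le_max_left _ _
  set S : ℕ → Set (E d) := fun K => {x | ∀ t, g (K + t) x = g K x} with hS
  have hSm : ∀ K, MeasurableSet (S K) := fun K => by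
    simp only [hS, ofPred_forall]
    exact MeasurableSet.iInter fun t => (isClosed_eq (hgc _) (hgc _)).measurableSet
  have hSmono : Monotone S := by
    intro K K' hK x hx t
    obtain ⟨s, rfl⟩ := Nat.exists_eq_add_of_le hK
    rw [add_assoc, hx, hx]
  set T : Set (E d) := ⋃ K, S K with hT
  have hTm : MeasurableSet T := MeasurableSet.iUnion hSm
  have hex : ∀ x, ∃ n, x ∈ S n ∨ x ∉ T := fun x => by
    by_cases hx : x ∈ T
    · obtain ⟨n, hn⟩ := mem_iUnion.1 hx
      exact ⟨n, Or.inl hn⟩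
    · exact ⟨0, Or.inr hx⟩
  set G : E d → E d := T.piecewise (fun x => gradient (g (Nat.find (hex x))) x) F with hG
  have hGm : Measurable G := Measurable.piecewise hTm
    (Measurable.find (f := fun n => gradient (g n)) (p := fun n x => x ∈ S n ∨ x ∉ T)
      (fun n => measurable_gradient _) (fun n => (hSm n).union hTm.compl) hex) hFm
  have hdiff : ∀ᵐ x, (∀ K, DifferentiableAt ℝ (g K) x) ∧ ∀ K t, DifferentiableAt ℝ (h K t) x :=
    (ae_all_iff.2 fun K => (hg K).choose_spec.ae_differentiableAt).and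
      (ae_all_iff.2 fun K => ae_all_iff.2 fun t => (hh K t).choose_spec.ae_differentiableAt)
  have hGS : ∀ x, (∀ K, DifferentiableAt ℝ (g K) x) → ∀ K, x ∈ S K → G x = gradient (g K) x := by
    intro x hx K hK
    have hxT : x ∈ T := mem_iUnion.2 ⟨K, hK⟩
    have h1 : x ∈ S (Nat.find (hex x)) := (Nat.find_spec (hex x)).resolve_right (not_not.2 hxT)
    have h2 : Nat.find (hex x) ≤ K := Nat.find_min' _ (Or.inl hK)
    rw [hG, piecewise_eq_of_mem _ _ _ hxT]
    refine grad_touch (hx _) (hx _) (hmono _ _ h2) ?_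
    obtain ⟨t, ht⟩ := Nat.exists_eq_add_of_le h2
    rw [← h1 t, ← ht]
  have hFfin : ∫⁻ x, ‖F x‖ₑ ≠ ∞ := hFi.2.ne
  have hGfin : ∫⁻ x, ‖G x‖ₑ ≠ ∞ := by
    rw [← lintegral_add_compl _ hTm]
    refine ENNReal.add_ne_top.2 ⟨ne_top_of_le_ne_top hA ?_, ne_top_of_le_ne_top hFfin ?_⟩
    · rw [hT, setLIntegral_iUnion_of_directed _ hSmono.directed_le]
      refine iSup_le fun K => le_trans (le_of_eq ?_) ((setLIntegral_le_lintegral (S K) _).trans (hgA K))
      refine setLIntegral_congr_fun_ae (hSm K) ?_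
      filter_upwards [hdiff] with x hx hxK
      rw [hGS x hx.1 K hxK]
    · refine le_trans (le_of_eq ?_) (setLIntegral_le_lintegral Tᶜ _)
      refine setLIntegral_congr_fun hTm.compl fun x hx => ?_
      simp only [hG, piecewise_eq_of_notMem _ _ _ hx]
  have hlim : Tendsto (fun K => ∫⁻ x, ‖gradient (g K) x - G x‖ₑ) atTop (𝓝 0) := by
    rw [ENNReal.tendsto_atTop_zero]
    intro ε hε
    have hε3 : 0 < ε / 3 := ENNReal.div_pos hε.ne' (by norm_num)
    obtain ⟨K1, hK1⟩ := hhF _ hε3
    have t1 := tendsto_anti (Φ := fun x => ‖F x‖ₑ + ‖G x‖ₑ)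
      (by rw [lintegral_add_left hFm.enorm]; exact ENNReal.add_ne_top.2 ⟨hFfin, hGfin⟩)
      (B := fun K => T \ S K) (fun K => hTm.diff (hSm K))
      (fun K K' hK => sdiff_subset_sdiff_right (hSmono hK))
      (by rw [← sdiff_iUnion, Set.sdiff_self])
    obtain ⟨K2, hK2⟩ := ENNReal.tendsto_atTop_zero.1 t1 _ hε3
    set K0 := max K1 K2
    set B : ℕ → Set (E d) := fun t => {x | g (K0 + t) x = g K0 x} \ S K0 with hB
    have hBm : ∀ t, MeasurableSet (B t) := fun t =>
      (isClosed_eq (hgc _) (hgc _)).measurableSet.diff (hSm _)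
    have t2 := tendsto_anti (Φ := fun x => ‖gradient (g K0) x‖ₑ + ‖G x‖ₑ)
      (by
        rw [lintegral_add_left (measurable_gradient _).enorm]
        exact ENNReal.add_ne_top.2 ⟨ne_top_of_le_ne_top hA (hgA _), hGfin⟩)
      hBm (fun t t' ht => sdiff_subset_sdiff_left fun x hx => le_antisymm
        ((hmono _ _ (by omega) x).trans_eq hx) (hmono _ _ (by omega) x))
      (eq_empty_of_forall_notMem fun x hx =>
        (mem_iInter.1 hx 0).2 fun t => (mem_iInter.1 hx t).1)
    obtain ⟨t0, ht0⟩ := ENNReal.tendsto_atTop_zero.1 t2 _ hε3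
    refine ⟨K0 + t0, fun K hK => ?_⟩
    obtain ⟨t, rfl⟩ := Nat.exists_eq_add_of_le (le_of_add_le_left hK)
    have key : ∀ᵐ x, ‖gradient (g (K0 + t)) x - G x‖ₑ ≤
        (B t).indicator (fun x => ‖gradient (g K0) x‖ₑ + ‖G x‖ₑ) x +
          ‖gradient (h K0 t) x - F x‖ₑ + (T \ S K0).indicator (fun x => ‖F x‖ₑ + ‖G x‖ₑ) x := by
      filter_upwards [hdiff] with x hx
      by_cases h1 : x ∈ S K0
      · rw [hGS x hx.1 _ (hSmono (Nat.le_add_right _ t) h1)]
        simp
      by_cases h2 : g (K0 + t) x = g K0 x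
      · rw [indicator_of_mem (show x ∈ B t from ⟨h2, h1⟩),
          ← grad_touch (hx.1 K0) (hx.1 _) (hmono _ _ (Nat.le_add_right _ t)) h2.symm]
        exact (enorm_sub_le' _ _).trans (le_add_right le_self_add)
      · have h3 : h K0 t x = g (K0 + t) x := by
          rw [hmax] at h2 ⊢
          exact ((max_choice _ _).resolve_left h2).symm
        rw [← grad_touch (hx.2 K0 t) (hx.1 _) (fun y => by rw [hmax]; exact le_max_right _ _) h3]
        by_cases h4 : x ∈ T
        · rw [indicator_of_mem (show x ∈ T \ S K0 from ⟨h4, h1⟩)]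
          have e : gradient (h K0 t) x - G x = (gradient (h K0 t) x - F x) + (F x - G x) := by abel
          rw [e]
          exact (enorm_add_le _ _).trans (add_le_add le_add_self (enorm_sub_le' _ _))
        · rw [hG, piecewise_eq_of_notMem _ _ _ h4]
          exact le_add_right le_add_self
    refine (lintegral_mono_ae key).trans ?_
    have m1 : Measurable fun x => ‖F x‖ₑ + ‖G x‖ₑ := hFm.enorm.add hGm.enorm
    have m2 : Measurable fun x => ‖gradient (h K0 t) x - F x‖ₑ :=
      ((measurable_gradient _).sub hFm).enorm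
    rw [lintegral_add_right _ (m1.indicator (hTm.diff (hSm _))),
      lintegral_add_right _ m2, lintegral_indicator (hBm t),
      lintegral_indicator (hTm.diff (hSm _)), ← ENNReal.add_thirds ε]
    exact add_le_add (add_le_add (ht0 t (by omega)) (hK1 _ (le_max_left _ _) t))
      (hK2 _ (le_max_right _ _))
  refine ⟨G, hGm, ?_, hlim⟩
  have h1 : Tendsto (fun K => A + ∫⁻ x, ‖gradient (g K) x - G x‖ₑ) atTop (𝓝 (A + 0)) :=
    tendsto_const_nhds.add hlim
  rw [add_zero] at h1
  refine ge_of_tendsto' h1 fun K => le_trans ?_ (add_le_add (hgA K) le_rfl)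
  rw [← lintegral_add_left (measurable_gradient _).enorm]
  refine lintegral_mono fun x => ?_
  have := enorm_sub_le' (gradient (g K) x) (gradient (g K) x - G x)
  rwa [sub_sub_cancel] at this

theorem ibp (d : ℕ) (_hd : 1 ≤ d) : IBPStmt d := by
  intro g L hg φ hφ hcs v
  obtain ⟨D, hD⟩ := ContDiff.lipschitzWith_of_hasCompactSupport hcs hφ (by simp)
  have h := hg.integral_lineDeriv_mul_eq (μ := volume) hD hcs v
  simp_rw [(hφ.differentiable (by simp)).differentiableAt.lineDeriv_eq_fderiv, map_neg, neg_mul,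
    integral_neg] at h
  have h2 : ∫ x, inner ℝ (gradient g x) v * φ x = ∫ x, lineDeriv ℝ g x v * φ x := by
    refine integral_congr_ae ?_
    filter_upwards [hg.ae_differentiableAt (μ := volume)] with x hx
    rw [hx.lineDeriv_eq_fderiv, gradient, InnerProductSpace.toDual_symm_apply]
  rw [h2, h, neg_neg]
  exact integral_congr_ae (Eventually.of_forall fun x => mul_comm _ _)

end Vale.Agent.P137
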