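import Vale.Agent.P137.FinA
import Vale.Agent.P137.Lim

open MeasureTheory Metric Set Filter
open scoped ENNReal NNReal Topology

namespace Vale.Agent.P137

variable {d : ℕ}

namespace FinBAux

theorem translate {F : E d → E d} (hF : Integrable F) {δ : ℝ≥0∞} (hδ : 0 < δ) :
    ∃ r : ℝ, 0 < r ∧ ∀ y : E d, ‖y‖ < r → ∫⁻ x, ‖F (x + y) - F x‖ₑ ≤ δ := by
  have hF' := memLp_one_iff_integrable.2 hF
  let g : E d → C(E d, E d) := fun y => ⟨fun x => x + y, by fun_prop⟩
  have hg : Continuous g := ContinuousMap.continuous_of_continuous_uncurry _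
    (continuous_snd.add continuous_fst)
  have hgm : ∀ y, MeasurePreserving (g y) volume volume := fun y =>
    measurePreserving_add_right volume y
  have h1 := (continuous_const (y := hF'.toLp F)).compMeasurePreservingLp hg hgm ENNReal.one_ne_top
  have h2 : Continuous fun y => ‖Lp.compMeasurePreserving (g y) (hgm y) (hF'.toLp F) -
      hF'.toLp F‖ₑ := (h1.sub continuous_const).enorm
  have h3 : ∀ y, ‖Lp.compMeasurePreserving (g y) (hgm y) (hF'.toLp F) - hF'.toLp F‖ₑ =
      ∫⁻ x, ‖F (x + y) - F x‖ₑ := by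
    intro y
    rw [Lp.enorm_def, eLpNorm_one_eq_lintegral_enorm]
    refine lintegral_congr_ae ?_
    filter_upwards [Lp.coeFn_sub (Lp.compMeasurePreserving (g y) (hgm y) (hF'.toLp F)) (hF'.toLp F),
      Lp.coeFn_compMeasurePreserving (hF'.toLp F) (hgm y), hF'.coeFn_toLp,
      (hgm y).quasiMeasurePreserving.ae hF'.coeFn_toLp] with x e1 e2 e3 e4
    rw [e1, Pi.sub_apply, e2, e3, Function.comp_apply, e4]
    rfl
  simp only [h3] at h2
  have h4 := h2.tendsto 0
  simp only [add_zero, sub_self, enorm_zero, lintegral_zero] at h4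
  obtain ⟨r, hr, h5⟩ := Metric.eventually_nhds_iff.1 (h4.eventually (ge_mem_nhds hδ))
  exact ⟨r, hr, fun y hy => h5 (by simpa using hy)⟩

theorem ua_inner (a x : E d) {s : ℝ} (hs : 0 < s) : ua (fun y => inner ℝ a y) x s = inner ℝ a x := by
  have h1 := integral_sub_left_eq_self
    ((ball x s).indicator fun y => inner ℝ a (y - x)) volume (x + x)
  have h2 : ∀ y, (ball x s).indicator (fun y => inner ℝ a (y - x)) (x + x - y) =
      -(ball x s).indicator (fun y => inner ℝ a (y - x)) y := by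
    intro y
    have e : x + x - y - x = -(y - x) := by abel
    have h3 : x + x - y ∈ ball x s ↔ y ∈ ball x s := by
      rw [mem_ball_iff_norm, mem_ball_iff_norm, e, norm_neg]
    by_cases hy : y ∈ ball x s
    · rw [indicator_of_mem hy, indicator_of_mem (h3.2 hy), e, inner_neg_right]
    · rw [indicator_of_notMem hy, indicator_of_notMem (h3.not.2 hy), neg_zero]
  simp only [h2, integral_neg, integral_indicator measurableSet_ball] at h1
  have h4 : ∫ y in ball x s, inner ℝ a (y - x) = 0 := by linarith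
  have h5 : IntegrableOn (fun y => inner ℝ a y) (ball x s) :=
    ((continuous_const.inner continuous_id).continuousOn.integrableOn_compact
      (isCompact_closedBall x s)).mono_set ball_subset_closedBall
  simp only [inner_sub_right] at h4
  rw [integral_sub h5 (integrableOn_const measure_ball_lt_top.ne), setIntegral_const,
    volume_real_ball, smul_eq_mul, sub_eq_zero] at h4
  rw [ua, h4, ← mul_assoc, inv_mul_cancel₀ (vb_pos hs).ne', one_mul]

theorem weak_sub (hd : 1 ≤ d) {f : E d → ℝ} {F : E d → E d} (hf : Integrable f) (hF : Integrable F)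
    (h : IsWeakGrad f F) (a : E d) :
    IsWeakGrad (fun y => f y - inner ℝ a y) fun y => F y - a := by
  intro φ hφ hcs v
  have h1 := ibp d hd _ _ (innerSL ℝ a).lipschitz φ hφ hcs v
  have h2 : ∀ x, gradient (innerSL ℝ a) x = a := fun x => by
    rw [gradient, ContinuousLinearMap.fderiv]
    exact (InnerProductSpace.toDual ℝ (E d)).symm_apply_apply a
  simp only [h2, innerSL_apply_apply] at h1
  have hφc : Continuous φ := hφ.continuous
  have hdc : Continuous fun x => fderiv ℝ φ x v :=
    (hφ.continuous_fderiv (by simp)).clm_apply continuous_const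
  have hds : HasCompactSupport fun x => fderiv ℝ φ x v := hcs.fderiv_apply ℝ v
  obtain ⟨B, hB⟩ := hcs.exists_bound_of_continuous hφc
  obtain ⟨B', hB'⟩ := hds.exists_bound_of_continuous hdc
  have i1 : Integrable fun x => inner ℝ a x * fderiv ℝ φ x v :=
    ((continuous_const.inner continuous_id).mul hdc).integrable_of_hasCompactSupport hds.mul_left
  have i2 : Integrable fun x => inner ℝ a v * φ x :=
    (continuous_const.mul hφc).integrable_of_hasCompactSupport hcs.mul_left
  simp only [sub_mul, inner_sub_left]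
  rw [integral_sub (hf.mul_bdd hdc.aestronglyMeasurable (Eventually.of_forall hB')) i1,
    integral_sub ((hF.inner_const v).mul_bdd hφc.aestronglyMeasurable (Eventually.of_forall hB)) i2,
    h φ hφ hcs v, h1]
  ring

theorem MM_shift {u u' : E d → ℝ → ℝ} {a b c : ℝ} (hab : a ≤ b) {x : E d}
    (hc : ContinuousOn (u x) (Icc a b)) (h : ∀ s ∈ Icc a b, u' x s = u x s - c) :
    MM u' a b x = MM u a b x - c := by
  have hc' : ContinuousOn (u' x) (Icc a b) := (hc.sub continuousOn_const).congr h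
  obtain ⟨⟨r, hr, e⟩, h1⟩ := MM_spec hab hc
  obtain ⟨⟨r', hr', e'⟩, h2⟩ := MM_spec hab hc'
  have a1 := h1 r' hr'
  have a2 := h2 r hr
  rw [h r hr] at a2
  rw [h r' hr'] at e'
  linarith

theorem loc (hd : 1 ≤ d) (hw : WCalcStmt d) (hc : ContStmt d) {C : ℝ≥0}
    (hC : ∀ (u : E d → ℝ → ℝ) (μ : E d → E d) (x₀ : E d) (ℓ : ℝ) (K : ℕ), 0 < ℓ →
      Measurable μ → Calc u μ x₀ (13 * ℓ) →
      ∫⁻ x in ball x₀ ℓ, ‖fderiv ℝ (MM u (sc ℓ K) (4 * ℓ)) x‖ₑ ≤ C * VV μ)
    {f : E d → ℝ} {F : E d → E d} (hf : Integrable f) (hF : Integrable F) (hFm : Measurable F)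
    (h : IsWeakGrad f F) (K t : ℕ) (x₀ : E d) :
    ∫⁻ x in ball x₀ (sc 1 K), ‖gradient (hK f K t) x - F x‖ₑ ≤
      (C + 1) * ∫⁻ y in ball (0 : E d) (13 * sc 1 K), ‖F (x₀ + y) - F x₀‖ₑ := by
  have hℓ := sc_pos one_pos K
  have hic : Continuous fun y : E d => inner ℝ (F x₀) y := continuous_const.inner continuous_id
  have h1 := hC _ _ x₀ (sc 1 K) t hℓ ((hFm.sub_const (F x₀)).indicator measurableSet_ball)
    (hw (fun y => f y - inner ℝ (F x₀) y) _ (hf.locallyIntegrable.sub hic.locallyIntegrable)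
      (hF.locallyIntegrable.sub (locallyIntegrable_const _)) (weak_sub hd hf hF h (F x₀)) x₀ _)
  have h2 : MM (ua fun y => f y - inner ℝ (F x₀) y) (sc (sc 1 K) t) (4 * sc 1 K) =
      fun x => hK f K t x - innerSL ℝ (F x₀) x := by
    funext x
    refine MM_shift ((sc_le hℓ t).trans (by linarith))
      (FinAAux.ua_cont hw hc hf.locallyIntegrable hF.locallyIntegrable h (sc_pos hℓ t) _ x)
      fun s hs => ?_
    rw [innerSL_apply_apply, ← ua_inner (F x₀) x ((sc_pos hℓ t).trans_le hs.1), ua, ua, ua,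
      integral_sub hf.integrableOn ((hic.continuousOn.integrableOn_compact
        (isCompact_closedBall x s)).mono_set ball_subset_closedBall), mul_sub]
  have h3 : VV ((ball x₀ (13 * sc 1 K)).indicator fun y => F y - F x₀) =
      ∫⁻ y in ball x₀ (13 * sc 1 K), ‖F y - F x₀‖ₑ := by
    rw [VV, ← lintegral_indicator measurableSet_ball]
    exact lintegral_congr fun y => enorm_indicator_eq_indicator_enorm _ _
  have h4 : ∫⁻ y in ball (0 : E d) (13 * sc 1 K), ‖F (x₀ + y) - F x₀‖ₑ =
      ∫⁻ y in ball x₀ (13 * sc 1 K), ‖F y - F x₀‖ₑ := by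
    have := (measurePreserving_add_left volume x₀).setLIntegral_comp_preimage
      (measurableSet_ball (x := x₀) (ε := 13 * sc 1 K)) (hFm.sub_const (F x₀)).enorm
    rw [← this]
    congr 2
    ext y
    simp
  obtain ⟨L, hL⟩ := FinAAux.hK_lipschitz hw hc hf hF h K t
  have h5 : ∫⁻ x in ball x₀ (sc 1 K), ‖gradient (hK f K t) x - F x‖ₑ ≤
      ∫⁻ x in ball x₀ (sc 1 K),
        (‖fderiv ℝ (fun x => hK f K t x - innerSL ℝ (F x₀) x) x‖ₑ + ‖F x - F x₀‖ₑ) := by
    refine lintegral_mono_ae (ae_restrict_of_ae ?_)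
    filter_upwards [hL.ae_differentiableAt (μ := volume)] with x hx
    have e1 : ‖fderiv ℝ (fun x => hK f K t x - innerSL ℝ (F x₀) x) x‖ₑ =
        ‖gradient (hK f K t) x - F x₀‖ₑ := by
      rw [fderiv_fun_sub hx (innerSL ℝ (F x₀)).differentiableAt, ContinuousLinearMap.fderiv,
        ← (InnerProductSpace.toDual ℝ (E d)).symm.enorm_map, map_sub, gradient]
      congr 2
      exact (InnerProductSpace.toDual ℝ (E d)).symm_apply_apply (F x₀)
    have e2 : gradient (hK f K t) x - F x = (gradient (hK f K t) x - F x₀) - (F x - F x₀) := by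
      abel
    rw [e1, e2]
    exact enorm_sub_le
  rw [h2, h3] at h1
  rw [lintegral_add_right _ (hFm.sub_const (F x₀)).enorm] at h5
  rw [h4, add_mul, one_mul]
  exact h5.trans (add_le_add h1 (lintegral_mono_set (ball_subset_ball (by linarith))))

end FinBAux

open FinBAux in
theorem finB (d : ℕ) (hd : 1 ≤ d) (hm : MainStmt d) (hw : WCalcStmt d) (hc : ContStmt d) :
    FinBStmt d := by
  obtain ⟨C, hC⟩ := hm
  intro f F hf hF hFm h ε hε
  set A : ℝ≥0∞ := (C + 1) * ENNReal.ofReal (13 ^ d) with hA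
  have hA' : A ≠ ∞ := ENNReal.mul_ne_top (by simp) ENNReal.ofReal_ne_top
  obtain ⟨r, hr, hδ⟩ := translate hF (ENNReal.div_pos hε.ne' hA')
  obtain ⟨K0, hK0⟩ := pow_unbounded_of_one_lt (13 / r) (show (1 : ℝ) < 4 by norm_num)
  refine ⟨K0, fun K hKK t => ?_⟩
  have hℓ := sc_pos one_pos K
  have hℓr : 13 * sc 1 K ≤ r := by
    have h1 := sc_anti one_pos hKK
    have h2 : 13 * sc 1 K0 ≤ r := by
      rw [div_lt_iff₀ hr] at hK0
      rw [sc, mul_one_div, div_le_iff₀ (by positivity)]
      linarith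
    linarith
  have hm1 : Measurable fun x => ‖gradient (hK f K t) x - F x‖ₑ :=
    ((measurable_gradient _).sub hFm).enorm
  have h1 := lintegral_mono (μ := volume) fun x₀ => loc hd hw hc hC hf hF hFm h K t x₀
  have hm2 : Measurable (Function.uncurry fun x y : E d => ‖F (x + y) - F x‖ₑ) :=
    ((hFm.comp measurable_add).sub (hFm.comp measurable_fst)).enorm
  rw [lintegral_ballInt hm1, lintegral_const_mul' _ _ (by simp),
    lintegral_lintegral_swap hm2.aemeasurable] at h1
  have h2 : ∫⁻ y in ball (0 : E d) (13 * sc 1 K), ∫⁻ x, ‖F (x + y) - F x‖ₑ ≤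
      ε / A * volume (ball (0 : E d) (13 * sc 1 K)) := by
    rw [← setLIntegral_const]
    exact setLIntegral_mono' measurableSet_ball fun y hy =>
      hδ y ((mem_ball_zero_iff.1 hy).trans_le hℓr)
  have h3 : volume (ball (0 : E d) (13 * sc 1 K)) =
      ENNReal.ofReal (13 ^ d) * volume (ball (0 : E d) (sc 1 K)) := by
    rw [volume_ball_eq, volume_ball_eq, vb_mul (by norm_num) hℓ,
      ENNReal.ofReal_mul (by positivity)]
  have h4 := h1.trans (mul_le_mul_right h2 _)
  have h5 : ((C : ℝ≥0∞) + 1) * (ε / A * volume (ball (0 : E d) (13 * sc 1 K))) ≤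
      volume (ball (0 : E d) (sc 1 K)) * ε := by
    calc _ = volume (ball (0 : E d) (sc 1 K)) * (A * (ε / A)) := by rw [h3, hA]; ring
      _ ≤ _ := mul_le_mul_right ENNReal.mul_div_le _
  exact (ENNReal.mul_le_mul_iff_right (measure_ball_pos _ _ hℓ).ne' measure_ball_lt_top.ne).1
    (h4.trans h5)

end Vale.Agent.P137
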