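import Vale.Agent.P137.Basic

open MeasureTheory Metric Set Filter
open scoped ENNReal NNReal Topology

namespace Vale.Agent.P137

variable {d : ℕ}

namespace FinalAux

theorem M_abs (f : E d → ℝ) : M (fun x => |f x|) = M f := by
  funext x
  simp [M]

theorem weak_limit {g : ℕ → E d → ℝ} {g' : E d → ℝ} {Gs : ℕ → E d → E d} {G : E d → E d}
    (hw : ∀ K, IsWeakGrad (g K) (Gs K)) (hgc : ∀ K, Continuous (g K))
    (hg' : LocallyIntegrable g') (hle : ∀ K, ∀ᵐ x, |g K x| ≤ g' x)
    (hlim : ∀ᵐ x, Tendsto (fun K => g K x) atTop (𝓝 (g' x)))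
    (hGs : ∀ K, Integrable (Gs K)) (hG : Integrable G)
    (hL : Tendsto (fun K => ∫⁻ x, ‖Gs K x - G x‖ₑ) atTop (𝓝 0)) : IsWeakGrad g' G := by
  intro φ hφ hcs v
  have hφc : Continuous φ := hφ.continuous
  have hdc : Continuous fun x => fderiv ℝ φ x v :=
    (hφ.continuous_fderiv (by simp)).clm_apply continuous_const
  have hds : HasCompactSupport fun x => fderiv ℝ φ x v := hcs.fderiv_apply ℝ v
  obtain ⟨B, hB⟩ := hcs.exists_bound_of_continuous hφc
  have t1 : Tendsto (fun K => ∫ x, g K x * fderiv ℝ φ x v) atTop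
      (𝓝 (∫ x, g' x * fderiv ℝ φ x v)) := by
    refine tendsto_integral_of_dominated_convergence (fun x => ‖fderiv ℝ φ x v‖ • g' x)
      (fun K => ((hgc K).mul hdc).aestronglyMeasurable)
      (hg'.integrable_smul_left_of_hasCompactSupport hdc.norm hds.norm) (fun K => ?_) ?_
    · filter_upwards [hle K] with x hx
      rw [norm_mul, mul_comm, smul_eq_mul]
      exact mul_le_mul_of_nonneg_left hx (norm_nonneg _)
    · filter_upwards [hlim] with x hx
      exact hx.mul_const _
  have hint : ∀ H : E d → E d, Integrable H → Integrable fun x => inner ℝ (H x) v * φ x := by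
    intro H hH
    exact (hH.inner_const v).mul_bdd hφc.aestronglyMeasurable (Eventually.of_forall hB)
  have t2 : Tendsto (fun K => ∫ x, inner ℝ (Gs K x) v * φ x) atTop
      (𝓝 (∫ x, inner ℝ (G x) v * φ x)) := by
    refine tendsto_integral_of_L1 _ (hint G hG).1 (Eventually.of_forall fun K => hint _ (hGs K)) ?_
    have hc : ENNReal.ofReal (‖v‖ * B) ≠ ∞ := ENNReal.ofReal_ne_top
    have := ENNReal.Tendsto.const_mul (a := ENNReal.ofReal (‖v‖ * B)) hL (Or.inr hc)
    rw [mul_zero] at this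
    refine tendsto_of_tendsto_of_tendsto_of_le_of_le tendsto_const_nhds this
      (fun _ => zero_le) fun K => ?_
    simp only
    rw [← lintegral_const_mul' _ _ hc]
    refine lintegral_mono fun x => ?_
    rw [← ofReal_norm, ← ofReal_norm, ← ENNReal.ofReal_mul
      (mul_nonneg (norm_nonneg _) ((norm_nonneg _).trans (hB x)))]
    refine ENNReal.ofReal_le_ofReal ?_
    rw [← sub_mul, ← inner_sub_left, norm_mul]
    have h1 := norm_inner_le_norm (𝕜 := ℝ) (Gs K x - G x) v
    calc _ ≤ (‖Gs K x - G x‖ * ‖v‖) * B :=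
          mul_le_mul h1 (hB x) (norm_nonneg _) (by positivity)
      _ = _ := by ring
  have t3 := t2.neg
  simp_rw [← hw _ φ hφ hcs v] at t3
  exact tendsto_nhds_unique t1 t3

end FinalAux

open FinalAux in
theorem final (d : ℕ) (ha : AbsStmt d) (hA : FinAStmt d) (hB : FinBStmt d) (hl : LimStmt d)
    (hm : MBStmt d) (hi : IBPStmt d) : FinalStmt d := by
  obtain ⟨C, hC⟩ := hA
  refine ⟨C, fun f F hf hF hw => ?_⟩
  obtain ⟨F', hF'm, hF'i, hF'le, hw'⟩ := ha f F hf hF hw
  rw [← M_abs f]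
  set f' : E d → ℝ := fun x => |f x| with hf'
  have hf0 : ∀ x, 0 ≤ f' x := fun x => abs_nonneg _
  have hfi : Integrable f' := hf.abs
  have hA' := hC f' F' hf0 hfi hF'i hF'm hw'
  obtain ⟨hmono, hsup, A, Φ, hΦm, hΦi, hΦ⟩ := hm f' F' hf0 hfi hF'i hF'm hw'
  have hV : VV F' ≠ ∞ := hF'i.2.ne
  have hCV : (C : ℝ≥0∞) * VV F' ≠ ∞ := ENNReal.mul_ne_top ENNReal.coe_ne_top hV
  obtain ⟨G, hGm, hGle, hGlim⟩ := hl (gK f') (hK f') F' (C * VV F') hCV hF'm hF'i
    (fun K => (hA' K).1) (fun K t => ((hA' K).2.2 t).1) (fun K t => ((hA' K).2.2 t).2)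
    (fun K => (hA' K).2.1) (hB f' F' hfi hF'i hF'm hw')
  have hgc : ∀ K, Continuous (gK f' K) := fun K => (hA' K).1.choose_spec.continuous
  have hMm : Measurable (M f') := by
    have : M f' = fun x => ⨆ K, ENNReal.ofReal (gK f' K x) := funext hsup
    rw [this]
    exact Measurable.iSup fun K => (hgc K).measurable.ennreal_ofReal
  have hfin : ∀ᵐ x, M f' x < ∞ := by
    filter_upwards [ae_lt_top hΦm hΦi.ne] with x hx
    exact (hΦ x).trans_lt (ENNReal.add_lt_top.2 ⟨ENNReal.coe_lt_top, hx⟩)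
  have hloc : LocallyIntegrable (fun x => (M f' x).toReal) := by
    have h1 : Integrable fun x => (Φ x).toReal :=
      integrable_toReal_of_lintegral_ne_top hΦm.aemeasurable hΦi.ne
    have h2 : LocallyIntegrable (fun x => (A : ℝ) + (Φ x).toReal) :=
      (locallyIntegrable_const (A : ℝ)).add h1.locallyIntegrable
    refine h2.mono hMm.ennreal_toReal.aestronglyMeasurable ?_
    filter_upwards [ae_lt_top hΦm hΦi.ne] with x hx
    rw [Real.norm_of_nonneg ENNReal.toReal_nonneg, Real.norm_of_nonneg (by positivity)]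
    have := ENNReal.toReal_mono (ENNReal.add_ne_top.2 ⟨ENNReal.coe_ne_top, hx.ne⟩) (hΦ x)
    rwa [ENNReal.toReal_add ENNReal.coe_ne_top hx.ne, ENNReal.coe_toReal] at this
  have hGi : Integrable G := ⟨hGm.aestronglyMeasurable, hGle.trans_lt hCV.lt_top⟩
  refine ⟨hfin, hloc, G, ?_, hGi, ?_⟩
  · refine weak_limit (g := gK f') (Gs := fun K => gradient (gK f' K))
      (fun K => hi _ _ (hA' K).1.choose_spec) hgc hloc (fun K => ?_) ?_
      (fun K => ⟨(measurable_gradient _).aestronglyMeasurable,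
        (hA' K).2.1.trans_lt hCV.lt_top⟩) hGi hGlim
    · filter_upwards [hfin] with x hx
      rw [abs_of_nonneg (hmono K x).1, ← ENNReal.ofReal_le_iff_le_toReal hx.ne, hsup x]
      exact le_iSup (fun K => ENNReal.ofReal (gK f' K x)) K
    · filter_upwards [hfin] with x hx
      have hmn : Monotone fun K => ENNReal.ofReal (gK f' K x) :=
        monotone_nat_of_le_succ fun K => ENNReal.ofReal_le_ofReal (hmono K x).2
      have h1 := tendsto_atTop_iSup hmn
      rw [← hsup x] at h1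
      have h2 := (ENNReal.tendsto_toReal hx.ne).comp h1
      refine h2.congr fun K => ?_
      simp [ENNReal.toReal_ofReal (hmono K x).1]
  · have e1 : ∫ x, ‖G x‖ = (∫⁻ x, ‖G x‖ₑ).toReal := integral_norm_eq_lintegral_enorm hGi.1
    have e2 : ∫ x, ‖F' x‖ = (VV F').toReal := integral_norm_eq_lintegral_enorm hF'i.1
    have e3 : ∫ x, ‖F' x‖ ≤ ∫ x, ‖F x‖ := integral_mono_ae hF'i.norm hF.norm hF'le
    have := ENNReal.toReal_mono hCV hGle
    rw [ENNReal.toReal_mul, ENNReal.coe_toReal, ← e1, ← e2] at this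
    exact this.trans (mul_le_mul_of_nonneg_left e3 C.2)

end Vale.Agent.P137
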