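import Vale.Agent.P137.Basic

/-! P137: the focusing estimate for smoothed ball fields. -/

open MeasureTheory Metric Set Filter
open scoped ENNReal NNReal Topology

namespace Vale.Agent.P137

namespace FocusAux

variable {d : ℕ}

theorem norm_Pf_le {e w : E d} (b : ℝ) (he : ‖e‖ = 1) (hw : ‖w‖ ≤ 1) :
    ‖Pf e b w‖ ≤ (d + 1) * (1 - ‖w‖) + |inner ℝ w e + b| := by
  have h0 := norm_nonneg w
  have h1 : 0 ≤ 1 - ‖w‖ ^ 2 := by nlinarith
  have hd : (0 : ℝ) ≤ d := Nat.cast_nonneg d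
  rw [Pf_eq]
  refine (norm_add_le _ _).trans (add_le_add ?_ ?_)
  · rw [norm_smul, he, mul_one, Real.norm_of_nonneg (by positivity)]
    have h2 : 1 - ‖w‖ ^ 2 ≤ 2 * (1 - ‖w‖) := by nlinarith
    nlinarith
  · rw [norm_smul, Real.norm_eq_abs]
    exact mul_le_of_le_one_right (abs_nonneg _) hw

theorem abs_inner_le {e : E d} (he : ‖e‖ = 1) (w : E d) : |inner ℝ w e| ≤ ‖w‖ := by
  simpa [he] using abs_real_inner_le_norm w e

theorem norm_Pf_bd {e w : E d} {b : ℝ} (he : ‖e‖ = 1) (hw : ‖w‖ ≤ 1) (hb : |b| ≤ 3) :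
    ‖Pf e b w‖ ≤ d + 5 := by
  have h1 := norm_Pf_le b he hw
  have h2 := abs_add_le (inner ℝ w e) b
  have h3 := abs_inner_le he w
  have hd : (0 : ℝ) ≤ d := Nat.cast_nonneg d
  nlinarith [norm_nonneg w]

theorem Pf_lip {e w w' : E d} {b b' : ℝ} (he : ‖e‖ = 1) (hw : ‖w‖ ≤ 1) (hw' : ‖w'‖ ≤ 1)
    (hb : |b| ≤ 3) : ‖Pf e b w - Pf e b' w'‖ ≤ (d + 6) * ‖w - w'‖ + |b - b'| := by
  have hd : (0 : ℝ) ≤ d := Nat.cast_nonneg d
  have h1 : Pf e b w - Pf e b' w' = (((d : ℝ) + 1) / 2 * (‖w'‖ ^ 2 - ‖w‖ ^ 2)) • e +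
      (inner ℝ w e + b) • (w - w') + (inner ℝ (w - w') e + (b - b')) • w' := by
    rw [Pf_eq, Pf_eq, inner_sub_left]
    module
  have h2 : |‖w'‖ ^ 2 - ‖w‖ ^ 2| ≤ 2 * ‖w - w'‖ := by
    have h3 : |‖w'‖ - ‖w‖| ≤ ‖w - w'‖ := by
      rw [norm_sub_rev]
      exact abs_norm_sub_norm_le w' w
    rw [sq_sub_sq, abs_mul, abs_of_nonneg (by positivity)]
    exact mul_le_mul (by linarith) h3 (abs_nonneg _) (by norm_num)
  have h4 : |inner ℝ w e + b| ≤ 4 := by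
    linarith [abs_add_le (inner ℝ w e) b, abs_inner_le he w]
  have h5 : |inner ℝ (w - w') e + (b - b')| ≤ ‖w - w'‖ + |b - b'| :=
    (abs_add_le _ _).trans (add_le_add (abs_inner_le he _) le_rfl)
  rw [h1]
  refine (norm_add₃_le).trans ?_
  simp only [norm_smul, he, mul_one, Real.norm_eq_abs]
  rw [abs_mul, abs_of_nonneg (by positivity : (0 : ℝ) ≤ (d + 1) / 2)]
  have h6 := mul_le_mul_of_nonneg_left h2 (by positivity : (0 : ℝ) ≤ (d + 1) / 2)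
  have h7 := mul_le_mul_of_nonneg_right h4 (norm_nonneg (w - w'))
  have h8 := mul_le_of_le_one_right (abs_nonneg (inner ℝ (w - w') e + (b - b'))) hw'
  linarith

theorem norm_w_le {v : E d} {s : ℝ} (h : ‖v‖ < s) : ‖s⁻¹ • v‖ ≤ 1 := by
  have hs : 0 < s := (norm_nonneg v).trans_lt h
  rw [norm_smul, norm_inv, Real.norm_of_nonneg hs.le, inv_mul_le_iff₀ hs, mul_one]
  exact h.le

theorem w_lip {v v' : E d} {s s' : ℝ} (hs : 1 ≤ s) (hs' : 1 ≤ s') (h' : ‖v'‖ < s') :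
    ‖s⁻¹ • v - s'⁻¹ • v'‖ ≤ ‖v - v'‖ + |s - s'| := by
  have h0 : 0 < s := by linarith
  have h0' : 0 < s' := by linarith
  have h1 : s⁻¹ • v - s'⁻¹ • v' = s⁻¹ • ((v - v') + (s' - s) • (s'⁻¹ • v')) := by
    rw [smul_add, smul_smul, smul_smul, smul_sub]
    have : s⁻¹ * (s' - s) * s'⁻¹ = s⁻¹ - s'⁻¹ := by field_simp
    rw [this, sub_smul]
    abel
  rw [h1, norm_smul, norm_inv, Real.norm_of_nonneg h0.le]
  refine (mul_le_of_le_one_left (norm_nonneg _) (inv_le_one_of_one_le₀ hs)).trans ?_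
  refine (norm_add_le _ _).trans (add_le_add le_rfl ?_)
  rw [norm_smul, Real.norm_eq_abs, abs_sub_comm]
  exact mul_le_of_le_one_right (abs_nonneg _) (norm_w_le h')

theorem inv_pow_lip {s s' : ℝ} (hs : 1 ≤ s) (hs' : 1 ≤ s') (h4 : s ≤ 4) (h4' : s' ≤ 4) :
    |(s ^ d)⁻¹ - (s' ^ d)⁻¹| ≤ |s - s'| * d * 4 ^ (d - 1) := by
  have h1 : 1 ≤ s ^ d := one_le_pow₀ hs
  have h2 : 1 ≤ s' ^ d := one_le_pow₀ hs'
  have h3 := abs_pow_sub_pow_le s s' d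
  have h5 : (max |s| |s'|) ^ (d - 1) ≤ 4 ^ (d - 1) := by
    refine pow_le_pow_left₀ (le_max_of_le_left (abs_nonneg _)) (max_le ?_ ?_) _
    · rwa [abs_of_nonneg (by linarith)]
    · rwa [abs_of_nonneg (by linarith)]
  rw [inv_sub_inv (by positivity) (by positivity), abs_div, abs_sub_comm,
    abs_of_pos (by positivity : 0 < s ^ d * s' ^ d)]
  refine (div_le_self (abs_nonneg _) (one_le_mul_of_one_le_of_one_le h1 h2)).trans ?_
  exact h3.trans (mul_le_mul_of_nonneg_left h5 (by positivity))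

/-- the integrand of the ball field -/
noncomputable def Jf (e : E d) (s b : ℝ) (v : E d) : E d :=
  if ‖v‖ < s then (vb d s)⁻¹ • Pf e b (s⁻¹ • v) else 0

theorem inv_vb_le {s : ℝ} (hs : 1 ≤ s) : (vb d s)⁻¹ ≤ (vb d 1)⁻¹ :=
  inv_anti₀ (vb_pos one_pos) (vb_mono hs)

theorem Jf_le {e v : E d} {s b M : ℝ} (hs : 1 ≤ s) (hM : 0 ≤ M)
    (h : ‖v‖ < s → ‖Pf e b (s⁻¹ • v)‖ ≤ M) : ‖Jf e s b v‖ ≤ (vb d 1)⁻¹ * M := by
  have h0 : 0 ≤ (vb d 1)⁻¹ := inv_nonneg.2 (vb_nonneg _)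
  unfold Jf
  split_ifs with hv
  · rw [norm_smul, Real.norm_of_nonneg (inv_nonneg.2 (vb_nonneg _))]
    exact mul_le_mul (inv_vb_le hs) (h hv) (norm_nonneg _) h0
  · rw [norm_zero]
    positivity

theorem Jf_small {e v : E d} {s b a₁ a₂ : ℝ} (he : ‖e‖ = 1) (hs : 1 ≤ s) (h1 : 0 ≤ a₁)
    (h2 : s - ‖v‖ ≤ a₁) (h3 : |inner ℝ v e + b * s| ≤ a₂) :
    ‖Jf e s b v‖ ≤ (vb d 1)⁻¹ * ((d + 1) * a₁ + a₂) := by
  have h0 : 0 < s := by linarith
  have h4 : 0 ≤ a₂ := (abs_nonneg _).trans h3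
  refine Jf_le hs (by positivity) fun hv => (norm_Pf_le b he (norm_w_le hv)).trans ?_
  refine add_le_add (mul_le_mul_of_nonneg_left ?_ (by positivity)) ?_
  · have : 1 - ‖s⁻¹ • v‖ = s⁻¹ * (s - ‖v‖) := by
      rw [norm_smul, norm_inv, Real.norm_of_nonneg h0.le]
      field_simp
    rw [this]
    exact (mul_le_of_le_one_left (by linarith) (inv_le_one_of_one_le₀ hs)).trans h2
  · have : inner ℝ (s⁻¹ • v) e + b = s⁻¹ * (inner ℝ v e + b * s) := by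
      rw [real_inner_smul_left]
      field_simp
    rw [this, abs_mul, abs_of_pos (inv_pos.2 h0)]
    exact (mul_le_of_le_one_left (abs_nonneg _) (inv_le_one_of_one_le₀ hs)).trans h3

theorem Jf_cmp {e v v' : E d} {s s' b b' a : ℝ} (he : ‖e‖ = 1) (hs : 1 ≤ s) (hs' : 1 ≤ s')
    (h4 : s ≤ 4) (h4' : s' ≤ 4) (hv : ‖v‖ < s) (hv' : ‖v'‖ < s') (hb : |b| ≤ 3) (hb' : |b'| ≤ 3)
    (h1 : |s - s'| ≤ a) (h2 : ‖v - v'‖ ≤ a) (h3 : |b - b'| ≤ a) :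
    ‖Jf e s b v - Jf e s' b' v'‖ ≤
      (vb d 1)⁻¹ * ((2 * (d + 6) + 1 + d * 4 ^ (d - 1) * (d + 5)) * a) := by
  have hd : (0 : ℝ) ≤ d := Nat.cast_nonneg d
  have ha : 0 ≤ a := (abs_nonneg _).trans h1
  unfold Jf
  rw [if_pos hv, if_pos hv', vb_eq (by linarith : 0 < s), vb_eq (by linarith : 0 < s')]
  have h5 : (s ^ d * vb d 1)⁻¹ • Pf e b (s⁻¹ • v) - (s' ^ d * vb d 1)⁻¹ • Pf e b' (s'⁻¹ • v') =
      (vb d 1)⁻¹ • ((s ^ d)⁻¹ • (Pf e b (s⁻¹ • v) - Pf e b' (s'⁻¹ • v')) +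
        ((s ^ d)⁻¹ - (s' ^ d)⁻¹) • Pf e b' (s'⁻¹ • v')) := by
    rw [mul_inv, mul_inv]
    module
  rw [h5, norm_smul, Real.norm_of_nonneg (inv_nonneg.2 (vb_nonneg _))]
  refine mul_le_mul_of_nonneg_left ((norm_add_le _ _).trans ?_) (inv_nonneg.2 (vb_nonneg _))
  rw [norm_smul, norm_smul, Real.norm_eq_abs, Real.norm_eq_abs]
  have h6 := Pf_lip (b' := b') he (norm_w_le hv) (norm_w_le hv') hb
  have h7 := w_lip (v := v) hs hs' hv'
  have h8 : |(s ^ d)⁻¹| ≤ 1 := by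
    rw [abs_of_nonneg (by positivity)]
    exact inv_le_one_of_one_le₀ (one_le_pow₀ hs)
  have h9 := mul_le_of_le_one_left (norm_nonneg (Pf e b (s⁻¹ • v) - Pf e b' (s'⁻¹ • v'))) h8
  have h10 : |(s ^ d)⁻¹ - (s' ^ d)⁻¹| ≤ a * d * 4 ^ (d - 1) :=
    (inv_pow_lip hs hs' h4 h4').trans (by gcongr)
  have h11 := mul_le_mul h10 (norm_Pf_bd he (norm_w_le hv') hb') (norm_nonneg _) (by positivity)
  have h12 : ((d : ℝ) + 6) * ‖s⁻¹ • v - s'⁻¹ • v'‖ ≤ (d + 6) * (2 * a) :=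
    mul_le_mul_of_nonneg_left (by linarith) (by positivity)
  linarith

theorem meas_vb : Measurable (vb d) := Monotone.measurable fun _ _ h => vb_mono h

theorem intInt {F : Type} [NormedAddCommGroup F] {f : ℝ → F} (hf : AEStronglyMeasurable f)
    {M : ℝ} (h : ∀ θ ∈ Ioc (0 : ℝ) 1, ‖f θ‖ ≤ M) : IntervalIntegrable f volume 0 1 := by
  rw [intervalIntegrable_iff_integrableOn_Ioc_of_le zero_le_one]
  exact Measure.integrableOn_of_bounded measure_Ioc_lt_top.ne hf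
    ((ae_restrict_iff' measurableSet_Ioc).2 (Eventually.of_forall h))

theorem Jf_int {e v : E d} (he : ‖e‖ = 1) {s b : ℝ → ℝ} (hs : Continuous s) (hb : Continuous b)
    (h1 : ∀ θ ∈ Ioc (0 : ℝ) 1, 1 ≤ s θ) (h2 : ∀ θ ∈ Ioc (0 : ℝ) 1, |b θ| ≤ 3) :
    IntervalIntegrable (fun θ => Jf e (s θ) (b θ) v) volume 0 1 := by
  refine intInt (M := (vb d 1)⁻¹ * (d + 5)) (Measurable.aestronglyMeasurable ?_) fun θ hθ =>
    Jf_le (h1 θ hθ) (by positivity) fun hv => norm_Pf_bd he (norm_w_le hv) (h2 θ hθ)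
  have hP : Continuous fun p : ℝ × E d => Pf e p.1 p.2 := by
    unfold Pf Wf
    fun_prop
  refine Measurable.ite (measurableSet_lt measurable_const hs.measurable) ?_ measurable_const
  exact (meas_vb.comp hs.measurable).inv.smul
    (hP.measurable.comp (hb.measurable.prodMk (hs.measurable.inv.smul measurable_const)))

theorem norm_add_bds {e : E d} (he : ‖e‖ = 1) (v : E d) {a : ℝ} (ha : 0 ≤ a) :
    ‖v + a • e‖ ≤ ‖v‖ + a ∧ ‖v‖ - a ≤ ‖v + a • e‖ ∧ ‖a • e‖ = a := by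
  have hae : ‖a • e‖ = a := by rw [norm_smul, he, mul_one, Real.norm_of_nonneg ha]
  refine ⟨(norm_add_le _ _).trans (by linarith), ?_, hae⟩
  have := norm_sub_le (v + a • e) (a • e)
  rw [add_sub_cancel_right] at this
  linarith

theorem imp {e v : E d} {β a g s₀ : ℝ} (ha : 0 ≤ a) (hv : 0 < ‖v‖)
    (h1 : g * ‖v‖ ≤ inner ℝ v e + β * ‖v‖) (h : ‖v + a • e‖ < s₀ - a * (β - g)) : ‖v‖ < s₀ := by
  have h6 := real_inner_le_norm v (v + a • e)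
  rw [inner_add_right, real_inner_smul_right, real_inner_self_eq_norm_sq] at h6
  have h7 := mul_lt_mul_of_pos_left h hv
  have h9 := mul_le_mul_of_nonneg_left h1 ha
  refine lt_of_mul_lt_mul_left ?_ hv.le
  linarith

theorem shell {e v : E d} {r τ φ β a g s : ℝ} (he : ‖e‖ = 1) (hτ : 0 < τ) (hτ' : τ ≤ φ / 100)
    (hφ' : φ ≤ 1 / 4) (hβ0 : -1 ≤ β) (hβ1 : β ≤ 2) (ha0 : 0 ≤ a) (ha1 : a ≤ τ) (hg0 : 0 ≤ g)
    (hg1 : g ≤ φ) (hr : r ≤ 4) (hs0 : 1 ≤ s) (hs4 : s ≤ 4) (hs1 : r - 2 * τ ≤ s)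
    (hs2 : s ≤ r + 2 * τ) (hC : |‖v‖ - r| ≤ 4 * τ) (h1 : 0 ≤ inner ℝ v e + β * ‖v‖)
    (h2 : inner ℝ v e + β * ‖v‖ ≤ 7 * φ * ‖v‖) :
    ‖Jf e s (β - g) (v + a • e)‖ ≤ (vb d 1)⁻¹ * ((d + 41) * φ) := by
  obtain ⟨h5, h6⟩ := abs_le.1 hC
  have hφ : 0 ≤ φ := by linarith
  have h8 : 7 * φ * ‖v‖ ≤ 7 * φ * 5 := mul_le_mul_of_nonneg_left (by linarith) (by positivity)
  have h9 : |β * (s - ‖v‖)| ≤ 2 * (6 * τ) := by
    rw [abs_mul]
    exact mul_le_mul (abs_le.2 ⟨by linarith, hβ1⟩) (abs_le.2 ⟨by linarith, by linarith⟩)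
      (abs_nonneg _) (by norm_num)
  have h11 : 0 ≤ g * s := mul_nonneg hg0 (by linarith)
  have h12 : g * s ≤ φ * 4 := mul_le_mul hg1 hs4 (by linarith) hφ
  obtain ⟨h13, h14⟩ := abs_le.1 h9
  have hin : inner ℝ (v + a • e) e = inner ℝ v e + a := by
    rw [inner_add_left, real_inner_smul_left, real_inner_self_eq_norm_sq, he]
    ring
  have hn := (norm_add_bds he v ha0).2.1
  refine (Jf_small (a₁ := φ) (a₂ := 40 * φ) he hs0 hφ (by linarith) ?_).trans_eq (by ring)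
  rw [hin]
  exact abs_le.2 ⟨by linarith, by linarith⟩

theorem core {e v : E d} {r τ φ β a g s₀ s₁ : ℝ} (he : ‖e‖ = 1) (hτ : 0 < τ) (hτ' : τ ≤ φ / 100)
    (hφ' : φ ≤ 1 / 4) (hβ0 : -1 ≤ β) (hβ1 : β ≤ 2) (ha0 : 0 ≤ a) (ha1 : a ≤ τ) (hg0 : 0 ≤ g)
    (hg1 : g ≤ φ) (hr : 1 + 3 * τ ≤ r) (hr' : r ≤ 4 - 3 * τ) (hs0 : r ≤ s₀) (hs0' : s₀ ≤ r + τ / 4)
    (hs : s₁ = s₀ - a * (β - g)) (hs1 : s₀ - 2 * τ ≤ s₁) (hs1' : s₁ ≤ s₀ + 5 / 4 * τ)
    (h1 : |‖v‖ - r| ≤ 4 * τ → φ * ‖v‖ ≤ inner ℝ v e + β * ‖v‖)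
    (h2 : |‖v‖ - r| ≤ 4 * τ → inner ℝ v e + β * ‖v‖ ≤ 7 * φ * ‖v‖) :
    ‖Jf e s₁ (β - g) (v + a • e) - Jf e s₀ β v‖ ≤
      4 ^ d * (2 * (d + 41) + (2 * (d + 6) + 1 + d * 4 ^ (d - 1) * (d + 5))) * φ *
        (if ‖v‖ < s₀ then (vb d s₀)⁻¹ else 0) := by
  have hφ : 0 < φ := by linarith
  obtain ⟨hn1, hn2, hae⟩ := norm_add_bds he v ha0
  have hV : 0 ≤ (vb d 1)⁻¹ := inv_nonneg.2 (vb_nonneg _)
  have himp : ‖v + a • e‖ < s₁ → ‖v‖ < s₀ := by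
    intro h
    by_cases hC : |‖v‖ - r| ≤ 4 * τ
    · have h4 := (abs_le.1 hC).1
      exact imp ha0 (by linarith) ((mul_le_mul_of_nonneg_right hg1 (norm_nonneg _)).trans (h1 hC))
        (hs ▸ h)
    · rcases lt_abs.1 (not_le.1 hC) with h3 | h3 <;> linarith
  clear hs
  split_ifs with hon
  swap
  · unfold Jf
    rw [if_neg hon, if_neg fun h => hon (himp h), sub_zero, norm_zero, mul_zero]
  have hbd : ‖Jf e s₁ (β - g) (v + a • e) - Jf e s₀ β v‖ ≤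
      (vb d 1)⁻¹ * ((2 * (d + 41) + (2 * (d + 6) + 1 + d * 4 ^ (d - 1) * (d + 5))) * φ) := by
    by_cases hC : |‖v‖ - r| ≤ 4 * τ
    · have h3 := (mul_nonneg hφ.le (norm_nonneg v)).trans (h1 hC)
      have k1 := shell (s := s₁) he hτ hτ' hφ' hβ0 hβ1 ha0 ha1 hg0 hg1 (by linarith) (by linarith)
        (by linarith) (by linarith) (by linarith) hC h3 (h2 hC)
      have k2 := shell (s := s₀) he hτ hτ' hφ' hβ0 hβ1 le_rfl hτ.le le_rfl hφ.le (by linarith)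
        (by linarith) (by linarith) (by linarith) (by linarith) hC h3 (h2 hC)
      rw [zero_smul, add_zero, sub_zero] at k2
      refine (norm_sub_le _ _).trans ((add_le_add k1 k2).trans ?_)
      rw [← mul_add, add_mul (2 * ((d : ℝ) + 41)), mul_assoc 2, two_mul (((d : ℝ) + 41) * φ)]
      exact mul_le_mul_of_nonneg_left (le_add_of_nonneg_right (by positivity)) hV
    · have h3 : ‖v‖ < r - 4 * τ := by
        rcases lt_abs.1 (not_le.1 hC) with h3 | h3 <;> linarith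
      clear h1 h2 himp hC
      refine (Jf_cmp (a := φ) he (by linarith) (by linarith) (by linarith) (by linarith)
        (by linarith) hon (abs_le.2 ⟨by linarith, by linarith⟩)
        (abs_le.2 ⟨by linarith, by linarith⟩) (abs_le.2 ⟨by linarith, by linarith⟩) ?_
        (abs_le.2 ⟨by linarith, by linarith⟩)).trans (mul_le_mul_of_nonneg_left ?_ hV)
      · rw [add_sub_cancel_left, hae]
        linarith
      · exact mul_le_mul_of_nonneg_right (le_add_of_nonneg_left (by positivity)) hφ.le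
  refine hbd.trans ?_
  have hv4 : (vb d 1)⁻¹ ≤ 4 ^ d * (vb d s₀)⁻¹ := by
    have h3 : vb d s₀ ≤ 4 ^ d * vb d 1 := by
      rw [← vb_eq (by norm_num)]
      exact vb_mono (by linarith)
    rw [← div_eq_mul_inv, le_div_iff₀ (vb_pos (by linarith)), inv_mul_le_iff₀ (vb_pos one_pos),
      mul_comm]
    exact h3
  refine (mul_le_mul_of_nonneg_right hv4 (by positivity)).trans_eq ?_
  ring

theorem pointwise {e v : E d} {r τ φ δ δ' c t θ : ℝ} (he : ‖e‖ = 1) (hφ : 0 < φ)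
    (hφ' : φ ≤ 1 / 4) (hτ : 0 < τ) (hτ' : τ ≤ φ / 100) (hδ' : 0 < δ') (hδ : δ' ≤ δ)
    (hδτ : δ ≤ τ * φ) (hr : 1 + 3 * τ ≤ r) (hr' : r ≤ 4 - 3 * τ) (hc : -1 - φ ≤ c) (hc' : c ≤ 1)
    (ht : 0 ≤ t) (ht' : t ≤ 1) (hθ : θ ∈ Ioc (0 : ℝ) 1)
    (h1 : |‖v‖ - r| ≤ 4 * τ → (c - φ) * ‖v‖ < inner ℝ v e)
    (h2 : |‖v‖ - r| ≤ 4 * τ → inner ℝ v e < (c + 5 * φ) * ‖v‖) :
    (1 ≤ r - t * ((2 * φ - c) * τ) + θ * (δ' + t * (δ - δ')) ∧
      |2 * φ - c - θ * ((δ - δ') / τ)| ≤ 3 ∧ 1 ≤ r + θ * δ' ∧ |2 * φ - c| ≤ 3) ∧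
    ‖Jf e (r - t * ((2 * φ - c) * τ) + θ * (δ' + t * (δ - δ'))) (2 * φ - c - θ * ((δ - δ') / τ))
        (v + (t * τ) • e) - Jf e (r + θ * δ') (2 * φ - c) v‖ ≤
      4 ^ d * (2 * (d + 41) + (2 * (d + 6) + 1 + d * 4 ^ (d - 1) * (d + 5))) * φ *
        (if ‖v‖ < r + θ * δ' then (vb d (r + θ * δ'))⁻¹ else 0) := by
  obtain ⟨hθ0, hθ1⟩ := hθ
  have hγ0 : 0 ≤ (δ - δ') / τ := div_nonneg (by linarith) hτ.le
  have hγ1 : (δ - δ') / τ ≤ φ := by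
    rw [div_le_iff₀ hτ]
    linarith
  have hδ4 : δ ≤ τ * (1 / 4) := hδτ.trans (mul_le_mul_of_nonneg_left hφ' hτ.le)
  have ha0 : 0 ≤ t * τ := mul_nonneg ht hτ.le
  have ha1 : t * τ ≤ τ := mul_le_of_le_one_left hτ.le ht'
  have hg0 : 0 ≤ θ * ((δ - δ') / τ) := mul_nonneg hθ0.le hγ0
  have hg1 : θ * ((δ - δ') / τ) ≤ φ := (mul_le_of_le_one_left hγ0 hθ1).trans hγ1
  have hs0 : r ≤ r + θ * δ' := le_add_of_nonneg_right (mul_nonneg hθ0.le hδ'.le)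
  have hs0' : r + θ * δ' ≤ r + τ / 4 := by
    have := mul_le_of_le_one_left hδ'.le hθ1
    linarith
  have hs1 : r - t * ((2 * φ - c) * τ) + θ * (δ' + t * (δ - δ')) =
      r + θ * δ' - t * τ * (2 * φ - c - θ * ((δ - δ') / τ)) := by
    field_simp
    ring
  generalize θ * ((δ - δ') / τ) = g at *
  generalize t * τ = a at *
  have hab : a * (2 * φ - c - g) ≤ τ * 2 :=
    (mul_le_mul_of_nonneg_left (show 2 * φ - c - g ≤ 2 by linarith) ha0).trans (by linarith)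
  have hab' : -(5 / 4 * τ) ≤ a * (2 * φ - c - g) :=
    le_trans (by linarith) (mul_le_mul_of_nonneg_left (show -(5 / 4) ≤ 2 * φ - c - g by linarith) ha0)
  refine ⟨⟨by linarith, abs_le.2 ⟨by linarith, by linarith⟩, by linarith,
    abs_le.2 ⟨by linarith, by linarith⟩⟩, ?_⟩
  exact core he hτ hτ' hφ' (by linarith) (by linarith) ha0 ha1 hg0 hg1 hr hr' hs0 hs0' hs1
    (by linarith) (by linarith) (fun h => by linarith [h1 h]) fun h => by linarith [h2 h]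

end FocusAux

open FocusAux in
theorem focus (d : ℕ) (_hd : 1 ≤ d) (_hk : KerStmt d) : FocusStmt d := by
  refine ⟨4 ^ d * (2 * (d + 41) + (2 * (d + 6) + 1 + d * 4 ^ (d - 1) * (d + 5))), by positivity,
    fun e x r τ φ δ δ' c t he hφ hφ' hτ hτ' hδ' hδ hδτ hr hr' hc hc' ht ht' y hy1 hy2 => ?_⟩
  have hp := fun θ (hθ : θ ∈ Ioc (0 : ℝ) 1) => pointwise (v := y - x) he hφ hφ' hτ hτ' hδ' hδ hδτ
    hr hr' hc hc' ht ht' hθ (fun h => not_le.1 fun h' => hy1 ⟨h, h'⟩) fun h => by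
      refine not_le.1 fun h' => hy2 ⟨h, ?_⟩
      rw [inner_neg_right]
      linarith
  have hv : y - (x - (t * τ) • e) = y - x + (t * τ) • e := by abel
  have i1 := Jf_int (v := y - x + (t * τ) • e) he
    (s := fun θ => r - t * ((2 * φ - c) * τ) + θ * (δ' + t * (δ - δ')))
    (b := fun θ => 2 * φ - c - θ * ((δ - δ') / τ)) (by fun_prop) (by fun_prop)
    (fun θ hθ => (hp θ hθ).1.1) fun θ hθ => (hp θ hθ).1.2.1
  have i0 := Jf_int (v := y - x) he (s := fun θ => r + θ * δ') (b := fun _ => 2 * φ - c)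
    (by fun_prop) (by fun_prop) (fun θ hθ => (hp θ hθ).1.2.2.1) fun θ hθ => (hp θ hθ).1.2.2.2
  have ik : IntervalIntegrable
      (fun θ => if ‖y - x‖ < r + θ * δ' then (vb d (r + θ * δ'))⁻¹ else 0) volume 0 1 := by
    have hs : Measurable fun θ : ℝ => r + θ * δ' := by fun_prop
    refine intInt (M := (vb d 1)⁻¹) (Measurable.aestronglyMeasurable ?_) fun θ hθ => ?_
    · exact Measurable.ite (measurableSet_lt measurable_const hs) (meas_vb.comp hs).inv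
        measurable_const
    · split_ifs
      · rw [Real.norm_of_nonneg (inv_nonneg.2 (vb_nonneg _))]
        exact inv_vb_le (hp θ hθ).1.2.2.1
      · rw [norm_zero]
        exact inv_nonneg.2 (vb_nonneg _)
  unfold Fld kp
  rw [hv, ← intervalIntegral.integral_const_mul]
  refine le_trans (le_of_eq (congrArg norm (intervalIntegral.integral_sub i1 i0).symm)) ?_
  exact intervalIntegral.norm_integral_le_of_norm_le zero_le_one
    (Eventually.of_forall fun θ hθ => (hp θ hθ).2) (ik.const_mul _)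

end Vale.Agent.P137
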