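import Vale.Agent.P137.Basic

open MeasureTheory Metric Set Filter
open scoped ENNReal NNReal Topology

namespace Vale.Agent.P137

namespace GGAux

theorem mem_Icc' {r ω θ : ℝ} (hω : 0 ≤ ω) (hr : r ∈ Icc (1 : ℝ) (4 - ω))
    (hθ : θ ∈ Icc (0 : ℝ) 1) : r + θ * ω ∈ Icc (1 : ℝ) 4 :=
  ⟨by nlinarith [hr.1, hθ.1], by nlinarith [hr.2, hθ.2]⟩

theorem intg {f : ℝ → ℝ} (hf : ContinuousOn f (Icc 1 4)) {r ω : ℝ} (hω : 0 ≤ ω)
    (hr : r ∈ Icc (1 : ℝ) (4 - ω)) :
    IntervalIntegrable (fun θ => f (r + θ * ω)) volume 0 1 := by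
  refine ContinuousOn.intervalIntegrable_of_Icc zero_le_one ?_
  exact hf.comp (f := fun θ => r + θ * ω) (by fun_prop) fun θ hθ => mem_Icc' hω hr hθ

theorem sub_le {f g : ℝ → ℝ} (hf : IntervalIntegrable f volume 0 1)
    (hg : IntervalIntegrable g volume 0 1) {c : ℝ}
    (h : ∀ θ ∈ Icc (0 : ℝ) 1, |f θ - g θ| ≤ c) :
    |(∫ θ in (0 : ℝ)..1, f θ) - ∫ θ in (0 : ℝ)..1, g θ| ≤ c := by
  rw [← intervalIntegral.integral_sub hf hg]
  have := intervalIntegral.norm_integral_le_of_norm_le_const (a := 0) (b := 1) (C := c)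
    (f := fun θ => f θ - g θ) fun θ hθ => by
      rw [uIoc_of_le zero_le_one] at hθ
      exact h θ ⟨hθ.1.le, hθ.2⟩
  simpa using this

theorem mul_U (f : ℝ → ℝ) (r ω : ℝ) :
    ω * ∫ θ in (0 : ℝ)..1, f (r + θ * ω) = ∫ s in r..r + ω, f s := by
  simp only [fun θ => mul_comm θ ω]
  rw [intervalIntegral.mul_integral_comp_add_mul]
  simp

theorem chain {f : ℝ → ℝ} (hf : ContinuousOn f (Icc 1 4)) {δ G r : ℝ} (hδ : 0 ≤ δ) (hr : 1 ≤ r)
    (hG : ∀ s ∈ Icc (1 : ℝ) (4 - δ), ∫ θ in (0 : ℝ)..1, f (s + θ * δ) ≤ G) (j : ℕ)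
    (hj : r + j * δ ≤ 4) : ∫ s in r..r + j * δ, f s ≤ j * δ * G := by
  induction j with
  | zero => simp
  | succ j ih =>
    push_cast at hj ⊢
    have h0 : 0 ≤ (j : ℝ) * δ := by positivity
    have i1 : IntervalIntegrable f volume r (r + j * δ) :=
      (hf.mono (Icc_subset_Icc hr (by linarith))).intervalIntegrable_of_Icc (by linarith)
    have i2 : IntervalIntegrable f volume (r + j * δ) (r + j * δ + δ) :=
      (hf.mono (Icc_subset_Icc (by linarith) (by linarith))).intervalIntegrable_of_Icc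
        (by linarith)
    have e : r + (j + 1) * δ = r + j * δ + δ := by ring
    rw [e, ← intervalIntegral.integral_add_adjacent_intervals i1 i2, ← mul_U f (r + j * δ) δ]
    have h1 := ih (by linarith)
    have h2 := mul_le_mul_of_nonneg_left (hG (r + j * δ) ⟨by linarith, by linarith⟩) hδ
    linarith

end GGAux

open GGAux in
theorem ggs (d : ℕ) (_hd : 1 ≤ d) (hc : ContStmt d) : GGStmt d := by
  intro u μ z h
  set L : ℝ := (vb d 1)⁻¹ * ∫ y, ‖μ y‖ with hL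
  have hL0 : 0 ≤ L :=
    mul_nonneg (inv_nonneg.2 (vb_nonneg _)) (integral_nonneg fun _ => norm_nonneg _)
  have hlip : ∀ x x' : E d, ‖x - z‖ ≤ 5 → ‖x' - z‖ ≤ 5 → ∀ s ∈ Icc (1 : ℝ) 4,
      ∀ s' ∈ Icc (1 : ℝ) 4, |u x s - u x' s'| ≤ L * (‖x - x'‖ + |s - s'|) :=
    fun x x' hx hx' s hs s' hs' => hc u μ z 10 h 1 x' x s' s one_pos hs'.1 hs.1
      (by linarith [hs'.2]) (by linarith [hs.2])
  have hcu : ∀ x : E d, ‖x - z‖ ≤ 5 → ContinuousOn (u x) (Icc 1 4) := fun x hx =>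
    hc.continuousOn h one_pos (by linarith)
  have hU : ∀ (n : ℕ) (x x' : E d), ‖x - z‖ ≤ 5 → ‖x' - z‖ ≤ 5 → ∀ r ∈ Icc (1 : ℝ) (4 - dl n),
      ∀ r' ∈ Icc (1 : ℝ) (4 - dl n),
      |UU u (dl n) x r - UU u (dl n) x' r'| ≤ L * (‖x - x'‖ + |r - r'|) := by
    intro n x x' hx hx' r hr r' hr'
    have hδ := (dl_pos n).le
    refine sub_le (intg (hcu x hx) hδ hr) (intg (hcu x' hx') hδ hr') fun θ hθ => ?_
    have := hlip x x' hx hx' _ (mem_Icc' hδ hr hθ) _ (mem_Icc' hδ hr' hθ)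
    rwa [add_sub_add_right_eq_sub] at this
  have hab : ∀ n, (1 : ℝ) ≤ 4 - dl n := fun n => by linarith [dl_le_one n]
  have hcU : ∀ (n : ℕ) (x : E d), ‖x - z‖ ≤ 5 →
      ContinuousOn (UU u (dl n) x) (Icc 1 (4 - dl n)) := by
    intro n x hx
    refine (LipschitzOnWith.of_dist_le_mul (K := ⟨L, hL0⟩) fun s hs s' hs' => ?_).continuousOn
    have := hU n x x hx hx s hs s' hs'
    rwa [sub_self, norm_zero, zero_add] at this
  intro n x hx
  have hδ := dl_pos n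
  obtain ⟨⟨r, hr, e⟩, hle⟩ := MM_spec (hab n) (hcU n x hx)
  refine ⟨⟨r, hr, e⟩, hle, ?_, fun x' hx' => ?_, ?_⟩
  · have h1 := chain (hcu x hx) (dl_pos (n + 1)).le hr.1
      (MM_spec (hab (n + 1)) (hcU (n + 1) x hx)).2 (2 ^ 14)
      (by push_cast; linarith [dl_succ n, hr.2])
    have e2 : ((2 ^ 14 : ℕ) : ℝ) * dl (n + 1) = dl n := by
      rw [dl_succ n]
      push_cast
      ring
    rw [e2, ← mul_U] at h1
    rw [gg, e]
    exact le_of_mul_le_mul_left h1 hδ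
  · refine MM_sub_le (hab n) (hcU n x hx) (hcU n x' hx') fun s hs => ?_
    simpa using hU n x x' hx hx' s hs s hs
  · obtain ⟨⟨s, hs, e'⟩, hle'⟩ := MM_spec (u := u) (by norm_num : (1 : ℝ) ≤ 4) (hcu x hx)
    have key : ∀ r ∈ Icc (1 : ℝ) (4 - dl n), ∀ s ∈ Icc (1 : ℝ) 4, r ≤ s → s ≤ r + dl n →
        |UU u (dl n) x r - u x s| ≤ L * dl n := by
      intro r hr s hs h1 h2
      have := sub_le (intg (hcu x hx) hδ.le hr) (intervalIntegrable_const (c := u x s))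
        (c := L * dl n) fun θ hθ => by
          have h3 := hlip x x hx hx _ (mem_Icc' hδ.le hr hθ) s hs
          rw [sub_self, norm_zero, zero_add] at h3
          refine h3.trans (mul_le_mul_of_nonneg_left (abs_le.2 ⟨?_, ?_⟩) hL0)
          · nlinarith [hθ.1]
          · nlinarith [hθ.2]
      simpa [UU] using this
    have a1 := abs_le.1 (key r hr r ⟨hr.1, by linarith [hr.2]⟩ le_rfl (by linarith))
    have a2 := hle' r ⟨hr.1, by linarith [hr.2]⟩
    have hm : min s (4 - dl n) ∈ Icc (1 : ℝ) (4 - dl n) := ⟨le_min hs.1 (hab n), min_le_right _ _⟩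
    have a3 := abs_le.1 (key _ hm s hs (min_le_left _ _) (by
      rcases min_cases s (4 - dl n) with h1 | h1 <;> linarith [h1.1, hs.2]))
    have a4 := hle _ hm
    rw [gg, abs_le]
    constructor <;> linarith [a1.2, a3.1]

end Vale.Agent.P137
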