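import Vale.Agent.P137.Basic

open MeasureTheory Metric Set Filter
open scoped ENNReal NNReal Topology

namespace Vale.Agent.P137

namespace H1Aux

variable {d : ℕ}

theorem good_lin {ω : ℝ} (hω : 0 ≤ ω) : Good (d := d) (fun _ w => ω • w) ω := by
  refine ⟨?_, fun θ _ w hw => ?_, fun θ _ w w' _ _ => ?_⟩
  · exact (continuous_snd.const_smul ω : Continuous fun q : ℝ × E d => ω • q.2)
  · rw [norm_smul, Real.norm_eq_abs, abs_of_nonneg hω]
    nlinarith
  · rw [← smul_sub, norm_smul, Real.norm_eq_abs, abs_of_nonneg hω]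

theorem tele (a : ℕ → ℝ) (K : ℕ) :
    |a K| ≤ |a 0| + ∑ l ∈ Finset.range K, |a l - a (l + 1)| := by
  induction K with
  | zero => simp
  | succ K ih =>
    rw [Finset.sum_range_succ]
    have : |a (K + 1)| ≤ |a K| + |a K - a (K + 1)| := by
      have h := abs_sub (a K) (a K - a (K + 1))
      simpa using h
    linarith

theorem base {Y w : E d → E d} {x : E d} {B : ℝ} (hB : ∀ y, ‖Y y‖ ≤ B)
    (h0 : ∀ y, y ∉ ball x 6 → Y y = 0) :
    ENNReal.ofReal |∫ y, inner ℝ (Y y) (w y)| ≤ ENNReal.ofReal B * mass w x 6 := by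
  have h1 : ENNReal.ofReal |∫ y, inner ℝ (Y y) (w y)| ≤ ∫⁻ y, ‖inner ℝ (Y y) (w y)‖ₑ := by
    rw [← Real.norm_eq_abs, ofReal_norm]
    exact enorm_integral_le_lintegral_enorm _
  refine h1.trans ?_
  rw [mass, ← lintegral_const_mul' _ _ ENNReal.ofReal_ne_top,
    ← lintegral_indicator measurableSet_ball]
  refine lintegral_mono fun y => ?_
  by_cases hy : y ∈ ball x 6
  · rw [indicator_of_mem hy, ← ofReal_norm, ← ofReal_norm,
      ← ENNReal.ofReal_mul ((norm_nonneg _).trans (hB y))]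
    refine ENNReal.ofReal_le_ofReal ((norm_inner_le_norm _ _).trans ?_)
    exact mul_le_mul_of_nonneg_right (hB y) (norm_nonneg _)
  · simp [h0 y hy]

theorem geo (n : ℕ) :
    ∑ l ∈ Finset.range n, ((4 : ℝ≥0∞) ^ l)⁻¹ * ((l : ℝ≥0∞) + 1) ≤ 2 := by
  have h1 : ∀ l : ℕ, ((4 : ℝ≥0∞) ^ l)⁻¹ * ((l : ℝ≥0∞) + 1) ≤ (2⁻¹ : ℝ≥0∞) ^ l := by
    intro l
    have h2 : ((l : ℝ≥0∞) + 1) ≤ 2 ^ l := by
      have : l + 1 ≤ 2 ^ l := Nat.lt_two_pow_self
      exact_mod_cast this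
    have h4 : (4 : ℝ≥0∞) ^ l = 2 ^ l * 2 ^ l := by
      rw [← mul_pow]; norm_num
    have h5 : (2 : ℝ≥0∞) ^ l ≠ 0 := pow_ne_zero _ (by norm_num)
    have h6 : (2 : ℝ≥0∞) ^ l ≠ ∞ := ENNReal.pow_ne_top (by norm_num)
    calc ((4 : ℝ≥0∞) ^ l)⁻¹ * ((l : ℝ≥0∞) + 1) ≤ ((4 : ℝ≥0∞) ^ l)⁻¹ * 2 ^ l := by gcongr
      _ = (2⁻¹ : ℝ≥0∞) ^ l := by
        rw [h4, ENNReal.mul_inv (Or.inl h5) (Or.inl h6), mul_assoc,
          ENNReal.inv_mul_cancel h5 h6, mul_one, ENNReal.inv_pow]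
  calc ∑ l ∈ Finset.range n, ((4 : ℝ≥0∞) ^ l)⁻¹ * ((l : ℝ≥0∞) + 1)
      ≤ ∑ l ∈ Finset.range n, (2⁻¹ : ℝ≥0∞) ^ l := Finset.sum_le_sum fun l _ => h1 l
    _ ≤ ∑' l : ℕ, (2⁻¹ : ℝ≥0∞) ^ l := ENNReal.sum_le_tsum _
    _ = 2 := by rw [ENNReal.tsum_geometric, ENNReal.one_sub_inv_two, inv_inv]

end H1Aux

open H1Aux

theorem h1 (d : ℕ) (_hd : 1 ≤ d) (hc : ContStmt d) (hf : FubStmt d) (hl : FldStmt d)
    (ho : OneStmt d) : H1Stmt d := by
  obtain ⟨C, hC, hl⟩ := hl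
  refine ⟨Real.toNNReal (3 * C + 4 * d * C), ?_⟩
  intro u m μ K z x R hlev hcalc hx
  obtain ⟨⟨s, hs, hMM⟩, -⟩ := MM_spec (u := u) (a := 1) (b := 4) (by norm_num) (x := x)
    (hc.continuousOn hcalc one_pos hx)
  rw [hMM]
  rcases eq_or_lt_of_le hs.2 with h4 | h4
  · simp [h4]
  set ω : ℝ := 4 - s with hω
  have hω0 : 0 < ω := by linarith
  have hω3 : ω ≤ 3 := by linarith [hs.1]
  have hsω : s + ω = 4 := by ring
  have hs0 : 0 < s := by linarith [hs.1]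
  set Y : E d → E d := Fld x s ω (fun _ w => ω • w) with hY
  have hg : Good (d := d) (fun _ w => ω • w) ω := good_lin hω0.le
  obtain ⟨hY1, hY2, hY3⟩ := hl x s ω _ ω hg (by linarith [hs.1]) hω0 (by linarith)
  have hlip : ∀ y y', ‖Y y - Y y'‖ ≤ C * ‖y - y'‖ := by
    intro y y'
    have := hY3 x s y y' (by linarith [hs.1]) (by linarith)
    simp only [sub_self, norm_zero, abs_zero, zero_add] at this
    rwa [mul_div_assoc, div_self hω0.ne', mul_one] at this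
  have hYc : Continuous Y := by
    refine (LipschitzWith.of_dist_le_mul (K := ⟨C, hC.le⟩) fun y y' => ?_).continuous
    rw [dist_eq_norm, dist_eq_norm]
    exact hlip y y'
  have hYB : ∀ y, ‖Y y‖ ≤ 3 * C := fun y => (hY1 y).trans (by nlinarith)
  have hY0 : ∀ y, 4 ≤ ‖y - x‖ → Y y = 0 := fun y hy => hY2 y (by linarith)
  set a : ℕ → ℝ := fun l => ∫ y, inner ℝ (Y y) (m l y) with ha
  have hpath : u x 4 - u x s = a K := by
    have h1 := hcalc.path x 0 s ω hs0 (by linarith) (by linarith) (by simpa [hsω] using hx)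
    have h2 := hf μ hcalc.int x s ω (fun _ w => ω • w) hg.cont hs0 hω0.le
    simp only [add_zero, smul_zero, zero_add, hsω] at h1
    rw [h1, ← h2, ha]
    simp only [hlev.top K le_rfl]
    exact integral_congr_ae (Eventually.of_forall fun y => real_inner_comm _ _)
  have hstep : ∀ l, ENNReal.ofReal |a l - a (l + 1)| ≤
      ENNReal.ofReal (4 * d * C) * (((4 : ℝ≥0∞) ^ (l + 1))⁻¹ * mass (m (l + 1)) x 6) := by
    intro l
    have h1 := ho m μ 1 K one_pos hlev l Y (3 * C) hYc.measurable hYB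
      ((ball x 6).indicator fun _ => ENNReal.ofReal (C / 4 ^ l)) (fun y y' hyy => by
        have h41 : (1 : ℝ) / 4 ^ l ≤ 1 :=
          div_le_self zero_le_one (one_le_pow₀ (by norm_num))
        by_cases hy : y ∈ ball x 6
        · rw [indicator_of_mem hy, ← ofReal_norm]
          refine ENNReal.ofReal_le_ofReal ((hlip y' y).trans ?_)
          rw [div_eq_mul_one_div C]
          exact mul_le_mul_of_nonneg_left hyy hC.le
        · rw [mem_ball_iff_norm, not_lt] at hy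
          have h2 := norm_sub_le_norm_sub_add_norm_sub y y' x
          rw [norm_sub_rev y y'] at h2
          rw [hY0 y (by linarith), hY0 y' (by linarith)]
          simp)
    refine h1.trans (le_of_eq ?_)
    have h2 : ∫⁻ y, (ball x 6).indicator (fun _ => ENNReal.ofReal (C / 4 ^ l)) y *
        ‖m (l + 1) y‖ₑ = ENNReal.ofReal (C / 4 ^ l) * mass (m (l + 1)) x 6 := by
      rw [mass, ← lintegral_const_mul' _ _ ENNReal.ofReal_ne_top,
        ← lintegral_indicator measurableSet_ball]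
      refine lintegral_congr fun y => ?_
      by_cases hy : y ∈ ball x 6 <;> simp [hy]
    rw [h2, ← mul_assoc, ← mul_assoc]
    congr 1
    have h3 : ((4 : ℝ≥0∞) ^ (l + 1))⁻¹ = ENNReal.ofReal (((4 : ℝ) ^ (l + 1))⁻¹) := by
      rw [ENNReal.ofReal_inv_of_pos (by positivity), ENNReal.ofReal_pow (by norm_num)]
      simp
    rw [h3, ← ENNReal.ofReal_mul (by positivity), ← ENNReal.ofReal_natCast,
      ← ENNReal.ofReal_mul (by positivity)]
    congr 1
    rw [pow_succ]; field_simp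
  have hbase : ENNReal.ofReal |a 0| ≤ ENNReal.ofReal (3 * C) * mass (m 0) x 6 :=
    base hYB fun y hy => hY0 y (by rw [mem_ball_iff_norm, not_lt] at hy; linarith)
  have hle : u x s - u x 4 ≤ |a 0| + ∑ l ∈ Finset.range K, |a l - a (l + 1)| := by
    refine le_trans ?_ (tele a K)
    rw [← hpath, abs_sub_comm]
    exact le_abs_self _
  have hd0 : (0 : ℝ) ≤ d := Nat.cast_nonneg d
  have e1 : ENNReal.ofReal (3 * C) ≤ ENNReal.ofReal (3 * C + 4 * d * C) :=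
    ENNReal.ofReal_le_ofReal (by nlinarith [mul_nonneg hd0 hC.le])
  have e2 : ENNReal.ofReal (4 * d * C) ≤ ENNReal.ofReal (3 * C + 4 * d * C) :=
    ENNReal.ofReal_le_ofReal (by linarith)
  calc ENNReal.ofReal (u x s - u x 4)
      ≤ ENNReal.ofReal (|a 0| + ∑ l ∈ Finset.range K, |a l - a (l + 1)|) :=
        ENNReal.ofReal_le_ofReal hle
    _ = ENNReal.ofReal |a 0| + ∑ l ∈ Finset.range K, ENNReal.ofReal |a l - a (l + 1)| := by
        rw [ENNReal.ofReal_add (abs_nonneg _) (Finset.sum_nonneg fun _ _ => abs_nonneg _),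
          ENNReal.ofReal_sum_of_nonneg fun _ _ => abs_nonneg _]
    _ ≤ ENNReal.ofReal (3 * C + 4 * d * C) * mass (m 0) x 6 + ∑ l ∈ Finset.range K,
          ENNReal.ofReal (3 * C + 4 * d * C) *
            (((4 : ℝ≥0∞) ^ (l + 1))⁻¹ * mass (m (l + 1)) x 6) := by
        refine add_le_add (hbase.trans (by gcongr)) (Finset.sum_le_sum fun l _ => ?_)
        exact (hstep l).trans (by gcongr)
    _ = _ := by
        rw [Finset.sum_range_succ', ← Finset.mul_sum, ← mul_add, pow_zero, inv_one, one_mul,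
          add_comm (mass (m 0) x 6)]
        rfl

theorem second (d : ℕ) (_hd : 1 ≤ d) (hH : HStmt d) (hs : SumStmt d) : SecondStmt d := by
  intro C₀ C₁
  obtain ⟨C, hH⟩ := hH
  obtain ⟨C', hs⟩ := hs C₀ C₁
  refine ⟨C * C' * 2, ?_⟩
  intro ℓ K x₀ μ m D n ζ p hctx u hcalc
  have hℓ := hctx.pos
  have hbm : ∀ k, Measurable (bet 1 ℓ n p k) :=
    measurable_bet 1 ℓ hctx.dirs.cont hctx.wts.cont
  have hnm : ∀ k l, Measurable (nm (m (k + 3 + l)) (sc ℓ k) 6) := fun k l =>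
    measurable_nm (hctx.fam.lev.meas _) _ _
  have hk : ∀ k, ∫⁻ x in ball x₀ (3 * ℓ),
      ((ENNReal.ofReal (sc ℓ k))⁻¹ * bet 1 ℓ n p k x) *
        ENNReal.ofReal (MM u (sc ℓ k) (4 * sc ℓ k) x - u x (4 * sc ℓ k)) ≤
      C * ∑ l ∈ Finset.range (K + 3 + 1), ((4 : ℝ≥0∞) ^ l)⁻¹ *
        ∫⁻ x, bet 1 ℓ n p k x * nm (m (k + 3 + l)) (sc ℓ k) 6 x := by
    intro k
    have hsc := sc_pos hℓ k
    have hsl := sc_le hℓ k
    have h0 : ENNReal.ofReal (sc ℓ k) ≠ 0 := by simpa using hsc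
    have hmeas : ∀ l, Measurable fun x => ((4 : ℝ≥0∞) ^ l)⁻¹ *
        (bet 1 ℓ n p k x * nm (m (k + 3 + l)) (sc ℓ k) 6 x) := fun l =>
      ((hbm k).mul (hnm k l)).const_mul _
    have hm2 : Measurable fun x => (C : ℝ≥0∞) * ∑ l ∈ Finset.range (K + 3 + 1),
        ((4 : ℝ≥0∞) ^ l)⁻¹ * (bet 1 ℓ n p k x * nm (m (k + 3 + l)) (sc ℓ k) 6 x) :=
      (Finset.measurable_sum _ fun l _ => hmeas l).const_mul _
    refine (setLIntegral_mono hm2 fun x hx => ?_).trans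
      ((setLIntegral_le_lintegral _ _).trans (le_of_eq ?_))
    · rw [mem_ball_iff_norm] at hx
      have h1 := hH u (fun l => m (k + 3 + l)) μ (K + 3) x₀ x (sc ℓ k) (13 * ℓ) hsc
        (hctx.fam.lev_shift k) hcalc (by linarith)
      refine (mul_le_mul_right h1 _).trans (le_of_eq ?_)
      have h2 : ∑ l ∈ Finset.range (K + 3 + 1),
          ((4 : ℝ≥0∞) ^ l)⁻¹ * (bet 1 ℓ n p k x * nm (m (k + 3 + l)) (sc ℓ k) 6 x) =
          bet 1 ℓ n p k x * ∑ l ∈ Finset.range (K + 3 + 1),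
            ((4 : ℝ≥0∞) ^ l)⁻¹ * nm (m (k + 3 + l)) (sc ℓ k) 6 x := by
        rw [Finset.mul_sum]
        exact Finset.sum_congr rfl fun l _ => by ring
      rw [h2]
      calc _ = ((ENNReal.ofReal (sc ℓ k))⁻¹ * ENNReal.ofReal (sc ℓ k)) * (C * (bet 1 ℓ n p k x *
            ∑ l ∈ Finset.range (K + 3 + 1),
              ((4 : ℝ≥0∞) ^ l)⁻¹ * nm (m (k + 3 + l)) (sc ℓ k) 6 x)) := by ring
        _ = _ := by rw [ENNReal.inv_mul_cancel h0 ENNReal.ofReal_ne_top, one_mul]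
    · rw [lintegral_const_mul _ (Finset.measurable_sum _ fun l _ => hmeas l),
        lintegral_finsetSum _ fun l _ => hmeas l]
      congr 1
      exact Finset.sum_congr rfl fun l _ => lintegral_const_mul _ ((hbm k).mul (hnm k l))
  have hl : ∀ l : ℕ, ∑ k ∈ Finset.range (K + 1),
      ∫⁻ x, bet 1 ℓ n p k x * nm (m (k + 3 + l)) (sc ℓ k) 6 x ≤
      ((l : ℝ≥0∞) + 1) * (C' * (SS ℓ K m p + VV μ)) := by
    intro l
    have h1 := hs ℓ K x₀ μ m D n ζ p hctx 1 one_pos le_rfl l 6 (Or.inl (by norm_num))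
    refine h1.trans ?_
    simp only [ENNReal.coe_one, one_mul, inv_one]
    have h2 : SS ℓ K m p ≤ ((l : ℝ≥0∞) + 1) * SS ℓ K m p :=
      le_mul_of_one_le_left (zero_le) le_add_self
    calc (C' : ℝ≥0∞) * (SS ℓ K m p + ((l : ℝ≥0∞) + 1) * VV μ)
        ≤ C' * (((l : ℝ≥0∞) + 1) * SS ℓ K m p + ((l : ℝ≥0∞) + 1) * VV μ) := by gcongr
      _ = _ := by ring
  calc _ ≤ ∑ k ∈ Finset.range (K + 1), (C : ℝ≥0∞) * ∑ l ∈ Finset.range (K + 3 + 1),
        ((4 : ℝ≥0∞) ^ l)⁻¹ * ∫⁻ x, bet 1 ℓ n p k x * nm (m (k + 3 + l)) (sc ℓ k) 6 x :=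
        Finset.sum_le_sum fun k _ => hk k
    _ = C * ∑ l ∈ Finset.range (K + 3 + 1), ((4 : ℝ≥0∞) ^ l)⁻¹ * ∑ k ∈ Finset.range (K + 1),
        ∫⁻ x, bet 1 ℓ n p k x * nm (m (k + 3 + l)) (sc ℓ k) 6 x := by
        rw [← Finset.mul_sum, Finset.sum_comm]
        congr 1
        exact Finset.sum_congr rfl fun l _ => (Finset.mul_sum _ _ _).symm
    _ ≤ C * ∑ l ∈ Finset.range (K + 3 + 1), (((4 : ℝ≥0∞) ^ l)⁻¹ * ((l : ℝ≥0∞) + 1)) *
        (C' * (SS ℓ K m p + VV μ)) := by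
        refine mul_le_mul_right (Finset.sum_le_sum fun l _ => ?_) _
        rw [mul_assoc]
        exact mul_le_mul_right (hl l) _
    _ ≤ C * (2 * (C' * (SS ℓ K m p + VV μ))) := by
        rw [← Finset.sum_mul]
        exact mul_le_mul_right (mul_le_mul_left (geo _) _) _
    _ = _ := by push_cast; ring

end Vale.Agent.P137
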