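import Vale.Agent.P137.Basic

open MeasureTheory Metric Set Filter
open scoped ENNReal NNReal Topology

namespace Vale.Agent.P137

namespace KerAux

variable {F : Type*} [NormedAddCommGroup F]

theorem ii {G : ℝ → F} (hG : ContinuousOn G (Icc 0 1)) (a ρ ω : ℝ) :
    IntervalIntegrable (fun θ => if a < ρ + θ * ω then G θ else 0) volume 0 1 := by
  have h1 : IntegrableOn G (Ioc 0 1) volume := hG.integrableOn_Icc.mono_set Ioc_subset_Icc_self
  have hm : MeasurableSet {θ : ℝ | a < ρ + θ * ω} :=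
    measurableSet_lt measurable_const (by fun_prop)
  have h2 : (fun θ => if a < ρ + θ * ω then G θ else 0) = {θ : ℝ | a < ρ + θ * ω}.indicator G := by
    funext θ
    by_cases h : a < ρ + θ * ω
    · rw [if_pos h, indicator_of_mem (by exact h)]
    · rw [if_neg h, indicator_of_notMem (by exact h)]
  rw [intervalIntegrable_iff_integrableOn_Ioc_of_le zero_le_one, h2]
  exact h1.indicator hm

theorem ii_ind (α β : ℝ) :
    IntervalIntegrable ((Ioc α β).indicator fun _ => (1 : ℝ)) volume 0 1 := by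
  rw [intervalIntegrable_iff_integrableOn_Ioc_of_le zero_le_one]
  exact (integrableOn_const (by simp)).indicator measurableSet_Ioc

theorem int_ind {α β : ℝ} (h : α ≤ β) :
    ∫ θ in (0 : ℝ)..1, (Ioc α β).indicator (fun _ => (1 : ℝ)) θ ≤ β - α := by
  rw [intervalIntegral.integral_of_le zero_le_one, integral_indicator measurableSet_Ioc,
    setIntegral_const, smul_eq_mul, mul_one, ← Real.volume_real_Ioc_of_le h]
  exact ENNReal.toReal_mono (by simp) (Measure.restrict_le_self _)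

theorem key [NormedSpace ℝ F] {G G' : ℝ → F} (hG : ContinuousOn G (Icc 0 1))
    (hG' : ContinuousOn G' (Icc 0 1)) {a a' ρ ρ' ω c₁ c₂ : ℝ} (hω : 0 < ω) (hc₁ : 0 ≤ c₁)
    (hc₂ : 0 ≤ c₂) (h1 : ∀ θ ∈ Icc (0 : ℝ) 1, a < ρ + θ * ω → ‖G θ‖ ≤ c₁)
    (h2 : ∀ θ ∈ Icc (0 : ℝ) 1, a' < ρ' + θ * ω → ‖G' θ‖ ≤ c₁)
    (h3 : ∀ θ ∈ Icc (0 : ℝ) 1, a < ρ + θ * ω → a' < ρ' + θ * ω → ‖G θ - G' θ‖ ≤ c₂) :
    ‖(∫ θ in (0 : ℝ)..1, if a < ρ + θ * ω then G θ else 0) -
      ∫ θ in (0 : ℝ)..1, if a' < ρ' + θ * ω then G' θ else 0‖ ≤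
      c₁ * (|(a - ρ) - (a' - ρ')| / ω) + c₂ := by
  set α := min (a - ρ) (a' - ρ') / ω with hα
  set β := max (a - ρ) (a' - ρ') / ω with hβ
  have hαβ : α ≤ β := div_le_div_of_nonneg_right min_le_max hω.le
  have hd : β - α = |(a - ρ) - (a' - ρ')| / ω := by
    rw [hα, hβ, ← sub_div, max_sub_min_eq_abs']
  rw [← intervalIntegral.integral_sub (ii hG _ _ _) (ii hG' _ _ _)]
  have hb : IntervalIntegrable
      (fun θ => c₁ * (Ioc α β).indicator (fun _ => (1 : ℝ)) θ + c₂) volume 0 1 :=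
    ((ii_ind α β).const_mul c₁).add intervalIntegrable_const
  refine (intervalIntegral.norm_integral_le_of_norm_le zero_le_one
    (Eventually.of_forall fun θ hθ => ?_) hb).trans ?_
  · have hθ' : θ ∈ Icc (0 : ℝ) 1 := Ioc_subset_Icc_self hθ
    have h0 : 0 ≤ c₁ * (Ioc α β).indicator (fun _ => (1 : ℝ)) θ :=
      mul_nonneg hc₁ (indicator_nonneg (fun _ _ => zero_le_one) _)
    by_cases p : a < ρ + θ * ω <;> by_cases q : a' < ρ' + θ * ω
    · rw [if_pos p, if_pos q]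
      linarith [h3 θ hθ' p q]
    · have hm : θ ∈ Ioc α β := by
        constructor
        · rw [hα, div_lt_iff₀ hω]
          exact (min_le_left _ _).trans_lt (by linarith)
        · rw [hβ, le_div_iff₀ hω]
          exact le_trans (by linarith) (le_max_right _ _)
      rw [if_pos p, if_neg q, sub_zero, indicator_of_mem hm]
      linarith [h1 θ hθ' p]
    · have hm : θ ∈ Ioc α β := by
        constructor
        · rw [hα, div_lt_iff₀ hω]
          exact (min_le_right _ _).trans_lt (by linarith)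
        · rw [hβ, le_div_iff₀ hω]
          exact le_trans (by linarith) (le_max_left _ _)
      rw [if_neg p, if_pos q, zero_sub, norm_neg, indicator_of_mem hm]
      linarith [h2 θ hθ' q]
    · rw [if_neg p, if_neg q, sub_zero, norm_zero]
      linarith
  · rw [intervalIntegral.integral_add ((ii_ind α β).const_mul c₁) intervalIntegrable_const,
      intervalIntegral.integral_const_mul, intervalIntegral.integral_const, ← hd]
    have := mul_le_mul_of_nonneg_left (int_ind hαβ) hc₁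
    simp only [sub_zero, smul_eq_mul, one_mul]
    linarith

variable {d : ℕ}

theorem rad_mem {ρ ω θ : ℝ} (hρ : 1 / 2 ≤ ρ) (hω : 0 < ω) (h5 : ρ + ω ≤ 5)
    (hθ : θ ∈ Icc (0 : ℝ) 1) : ρ + θ * ω ∈ Icc (1 / 2 : ℝ) 5 := by
  constructor <;> nlinarith [hθ.1, hθ.2]

theorem iv_le {s : ℝ} (hs : s ∈ Icc (1 / 2 : ℝ) 5) : (vb d s)⁻¹ ≤ (vb d (1 / 2))⁻¹ :=
  inv_anti₀ (vb_pos (by norm_num)) (vb_mono hs.1)

theorem le_iv {s : ℝ} (hs : s ∈ Icc (1 / 2 : ℝ) 5) : (vb d 5)⁻¹ ≤ (vb d s)⁻¹ :=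
  inv_anti₀ (vb_pos (by linarith [hs.1])) (vb_mono hs.2)

theorem iv_nonneg (s : ℝ) : 0 ≤ (vb d s)⁻¹ := inv_nonneg.2 (vb_nonneg s)

theorem iv_smooth : ContDiffOn ℝ 1 (fun s => (vb d s)⁻¹) (Icc (1 / 2 : ℝ) 5) := by
  have h1 : ContDiffOn ℝ 1 (fun s : ℝ => (s ^ d * vb d 1)⁻¹) (Icc (1 / 2 : ℝ) 5) := by
    refine ContDiffOn.inv (by fun_prop) fun s hs => ?_
    have : 0 < s := by linarith [hs.1]
    have := vb_pos (d := d) one_pos
    positivity
  exact h1.congr fun s hs => by rw [vb_eq (by linarith [hs.1])]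

theorem iv_lip : ∃ L : ℝ, 0 ≤ L ∧ ∀ s ∈ Icc (1 / 2 : ℝ) 5, ∀ s' ∈ Icc (1 / 2 : ℝ) 5,
    |(vb d s)⁻¹ - (vb d s')⁻¹| ≤ L * |s - s'| := by
  obtain ⟨K, hK⟩ := (iv_smooth (d := d)).exists_lipschitzOnWith one_ne_zero (convex_Icc _ _)
    isCompact_Icc
  exact ⟨K, K.2, fun s hs s' hs' => hK.dist_le_mul s hs s' hs'⟩

theorem iv_cont {ρ ω : ℝ} (hρ : 1 / 2 ≤ ρ) (hω : 0 < ω) (h5 : ρ + ω ≤ 5) :
    ContinuousOn (fun θ : ℝ => (vb d (ρ + θ * ω))⁻¹) (Icc 0 1) :=
  iv_smooth.continuousOn.comp (f := fun θ : ℝ => ρ + θ * ω) (by fun_prop)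
    fun _ hθ => rad_mem hρ hω h5 hθ

theorem fi_cont {P : ℝ → E d → E d} (hP : Continuous (Function.uncurry P)) {ρ ω : ℝ}
    (hρ : 1 / 2 ≤ ρ) (hω : 0 < ω) (h5 : ρ + ω ≤ 5) (v : E d) :
    ContinuousOn (fun θ : ℝ => (vb d (ρ + θ * ω))⁻¹ • P θ ((ρ + θ * ω)⁻¹ • v)) (Icc 0 1) := by
  refine (iv_cont hρ hω h5).smul ?_
  have h1 : ContinuousOn (fun θ : ℝ => (ρ + θ * ω)⁻¹) (Icc 0 1) :=
    ContinuousOn.inv₀ (by fun_prop) fun θ hθ => by linarith [(rad_mem hρ hω h5 hθ).1]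
  exact hP.comp_continuousOn (f := fun θ : ℝ => (θ, (ρ + θ * ω)⁻¹ • v))
    (continuousOn_id.prodMk (h1.smul continuousOn_const))

theorem norm_sc {s : ℝ} {v : E d} (h : ‖v‖ < s) : ‖s⁻¹ • v‖ ≤ 1 := by
  have hs : 0 < s := (norm_nonneg v).trans_lt h
  rw [norm_smul, norm_inv, Real.norm_eq_abs, abs_of_pos hs, inv_mul_le_iff₀ hs, mul_one]
  exact h.le

theorem sc_lip {s s' : ℝ} {v v' : E d} (hs : 1 / 2 ≤ s) (h' : ‖v'‖ < s') :
    ‖s⁻¹ • v - s'⁻¹ • v'‖ ≤ 2 * ‖v - v'‖ + 2 * |s - s'| := by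
  have hs0 : 0 < s := by linarith
  have hs' : 0 < s' := (norm_nonneg v').trans_lt h'
  have e : s⁻¹ • v - s'⁻¹ • v' = s⁻¹ • ((v - v') - (s - s') • (s'⁻¹ • v')) := by
    have h1 : s'⁻¹ = s⁻¹ + s⁻¹ * ((s - s') * s'⁻¹) := by
      field_simp
      ring
    have h2 : s'⁻¹ • v' = (s⁻¹ + s⁻¹ * ((s - s') * s'⁻¹)) • v' := by rw [← h1]
    nth_rewrite 1 [h2]
    module
  have h2 : s⁻¹ ≤ 2 := by
    rw [inv_le_comm₀ hs0 (by norm_num)]
    linarith
  have h3 : ‖(v - v') - (s - s') • (s'⁻¹ • v')‖ ≤ ‖v - v'‖ + |s - s'| := by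
    refine (norm_sub_le _ _).trans ?_
    rw [norm_smul, Real.norm_eq_abs]
    have := mul_le_mul_of_nonneg_left (norm_sc h') (abs_nonneg (s - s'))
    linarith
  rw [e, norm_smul, Real.norm_eq_abs, abs_of_pos (inv_pos.2 hs0)]
  calc _ ≤ 2 * (‖v - v'‖ + |s - s'|) := mul_le_mul h2 h3 (norm_nonneg _) (by norm_num)
    _ = _ := by ring

theorem fi_le {P : ℝ → E d → E d} {B : ℝ} (hP : Good P B) {s θ : ℝ} (hs : s ∈ Icc (1 / 2 : ℝ) 5)
    (hθ : θ ∈ Icc (0 : ℝ) 1) {v : E d} (h : ‖v‖ < s) :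
    ‖(vb d s)⁻¹ • P θ (s⁻¹ • v)‖ ≤ (vb d (1 / 2))⁻¹ * B := by
  rw [norm_smul, Real.norm_eq_abs, abs_of_nonneg (iv_nonneg _)]
  exact mul_le_mul (iv_le hs) (hP.bdd θ hθ _ (norm_sc h)) (norm_nonneg _) (iv_nonneg _)

theorem good_nonneg {P : ℝ → E d → E d} {B : ℝ} (hP : Good P B) : 0 ≤ B :=
  (norm_nonneg _).trans (hP.bdd 0 ⟨le_rfl, zero_le_one⟩ 0 (by simp))

theorem wf_le (hd : 1 ≤ d) {e w : E d} (he : ‖e‖ = 1) (hw : ‖w‖ ≤ 1) : ‖Wf e w‖ ≤ d + 2 := by
  have hd' : (1 : ℝ) ≤ d := by exact_mod_cast hd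
  have h1 : |inner ℝ w e| ≤ 1 := (abs_real_inner_le_norm w e).trans (by rw [he, mul_one]; exact hw)
  have h2 : ‖w‖ ^ 2 ≤ 1 := pow_le_one₀ (norm_nonneg _) hw
  have h3 : |((d : ℝ) - 1) / 2 - ((d : ℝ) + 1) / 2 * ‖w‖ ^ 2| ≤ (d : ℝ) + 1 := by
    rw [abs_le]
    constructor <;> nlinarith [sq_nonneg ‖w‖]
  refine (norm_add_le _ _).trans ?_
  rw [norm_smul, norm_smul, he, Real.norm_eq_abs, Real.norm_eq_abs]
  have := mul_le_one₀ h1 (norm_nonneg w) hw
  linarith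

theorem wf_lip {e w w' : E d} (he : ‖e‖ = 1) (hw : ‖w‖ ≤ 1) (hw' : ‖w'‖ ≤ 1) :
    ‖Wf e w - Wf e w'‖ ≤ (d + 3) * ‖w - w'‖ := by
  have e1 : Wf e w - Wf e w' = (((d : ℝ) + 1) / 2 * (‖w'‖ ^ 2 - ‖w‖ ^ 2)) • e +
      (inner ℝ w e • (w - w') + inner ℝ (w - w') e • w') := by
    rw [inner_sub_left, Wf, Wf]
    module
  have h1 : |inner ℝ w e| ≤ 1 := (abs_real_inner_le_norm w e).trans (by rw [he, mul_one]; exact hw)
  have h2 : |inner ℝ (w - w') e| ≤ ‖w - w'‖ :=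
    (abs_real_inner_le_norm _ e).trans (by rw [he, mul_one])
  have h3 : |‖w'‖ ^ 2 - ‖w‖ ^ 2| ≤ 2 * ‖w - w'‖ := by
    rw [sq_sub_sq, abs_mul, abs_of_nonneg (add_nonneg (norm_nonneg _) (norm_nonneg _))]
    refine mul_le_mul (by linarith) ?_ (abs_nonneg _) (by norm_num)
    rw [norm_sub_rev]
    exact abs_norm_sub_norm_le _ _
  have hd : (0 : ℝ) ≤ ((d : ℝ) + 1) / 2 := by positivity
  rw [e1]
  refine (norm_add_le _ _).trans ((add_le_add_right (norm_add_le _ _) _).trans ?_)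
  rw [norm_smul, norm_smul, norm_smul, he, Real.norm_eq_abs, Real.norm_eq_abs, Real.norm_eq_abs,
    abs_mul, abs_of_nonneg hd]
  have h4 := mul_le_mul_of_nonneg_left h3 hd
  have h5 := mul_le_mul_of_nonneg_right h1 (norm_nonneg (w - w'))
  have h6 := mul_le_mul h2 hw' (norm_nonneg _) (norm_nonneg _)
  linarith

end KerAux

open KerAux

theorem ker (d : ℕ) (hd : 1 ≤ d) : KerStmt d := by
  have _ := hd
  refine ⟨(vb d 5)⁻¹, (vb d (1 / 2))⁻¹, inv_pos.2 (vb_pos (by norm_num)),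
    inv_pos.2 (vb_pos (by norm_num)), fun ρ ω hρ hω h5 => ?_⟩
  have hc := iv_cont (d := d) hρ hω h5
  refine ⟨fun t t' htt => ?_, fun t => ⟨?_, ?_⟩, fun t ht => ?_, fun t t' ht ht' => ?_,
    fun t ht => ?_, fun t t' => ?_, fun x y e => ?_⟩
  · refine intervalIntegral.integral_mono_on zero_le_one (ii hc _ _ _) (ii hc _ _ _) fun θ _ => ?_
    by_cases p : t' < ρ + θ * ω
    · rw [if_pos p, if_pos (htt.trans_lt p)]
    · rw [if_neg p]
      split_ifs
      · exact iv_nonneg _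
      · exact le_rfl
  · refine intervalIntegral.integral_nonneg zero_le_one fun θ _ => ?_
    split_ifs
    · exact iv_nonneg _
    · exact le_rfl
  · refine (intervalIntegral.integral_mono_on zero_le_one (ii hc _ _ _)
      (intervalIntegrable_const (c := (vb d (1 / 2))⁻¹)) fun θ hθ => ?_).trans (by simp)
    split_ifs
    · exact iv_le (rad_mem hρ hω h5 hθ)
    · exact iv_nonneg _
  · refine le_trans (by simp) (intervalIntegral.integral_mono_on zero_le_one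
      (intervalIntegrable_const (c := (vb d 5)⁻¹)) (ii hc _ _ _) fun θ hθ => ?_)
    rw [if_pos (by nlinarith [hθ.1])]
    exact le_iv (rad_mem hρ hω h5 hθ)
  · refine intervalIntegral.integral_congr fun θ hθ => ?_
    rw [uIcc_of_le zero_le_one] at hθ
    rw [if_pos (by nlinarith [hθ.1]), if_pos (by nlinarith [hθ.1])]
  · refine (intervalIntegral.integral_congr (g := fun _ => 0) fun θ hθ => ?_).trans (by simp)
    rw [uIcc_of_le zero_le_one] at hθ
    exact if_neg (by nlinarith [hθ.2])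
  · have h1 : ∀ θ ∈ Icc (0 : ℝ) 1, ‖(vb d (ρ + θ * ω))⁻¹‖ ≤ (vb d (1 / 2))⁻¹ := fun θ hθ => by
      rw [Real.norm_eq_abs, abs_of_nonneg (iv_nonneg _)]
      exact iv_le (rad_mem hρ hω h5 hθ)
    have h := key (a := t) (a' := t') (ρ := ρ) (ρ' := ρ) hc hc hω (iv_nonneg (d := d) (1 / 2))
      le_rfl (fun θ hθ _ => h1 θ hθ) (fun θ hθ _ => h1 θ hθ) (fun θ _ _ _ => by simp)
    rw [sub_sub_sub_cancel_right, add_zero, Real.norm_eq_abs] at h
    exact h.trans_eq (by ring)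
  · rw [Fld, kp, ← intervalIntegral.integral_smul_const]
    refine intervalIntegral.integral_congr fun θ _ => ?_
    beta_reduce
    split_ifs
    · rfl
    · rw [zero_smul]

theorem fld (d : ℕ) (hd : 1 ≤ d) : FldStmt d := by
  have _ := hd
  obtain ⟨L, hL, hlip⟩ := iv_lip (d := d)
  have hC : 0 < (vb d (1 / 2))⁻¹ := inv_pos.2 (vb_pos (by norm_num))
  set C₀ := (vb d (1 / 2))⁻¹ with hC₀
  refine ⟨C₀ + 5 * (L + 2 * C₀), by positivity, fun x ρ ω P B hP hρ hω h5 => ?_⟩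
  have hB := good_nonneg hP
  refine ⟨fun y => ?_, fun y hy => ?_, fun x' ρ' y y' hρ' h5' => ?_⟩
  · have h := intervalIntegral.norm_integral_le_of_norm_le_const (a := 0) (b := 1) (C := C₀ * B)
      (f := fun θ : ℝ => if ‖y - x‖ < ρ + θ * ω then
        (vb d (ρ + θ * ω))⁻¹ • P θ ((ρ + θ * ω)⁻¹ • (y - x)) else 0) (fun θ hθ => by
      rw [uIoc_of_le zero_le_one] at hθ
      have hθ' : θ ∈ Icc (0 : ℝ) 1 := Ioc_subset_Icc_self hθ
      split_ifs with p
      · exact fi_le hP (rad_mem hρ hω h5 hθ') hθ' p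
      · rw [norm_zero]
        positivity)
    rw [sub_zero, abs_one, mul_one] at h
    refine le_trans h (mul_le_mul_of_nonneg_right ?_ hB)
    have : 0 ≤ 5 * (L + 2 * C₀) := by positivity
    linarith
  · refine (intervalIntegral.integral_congr (g := fun _ => 0) fun θ hθ => ?_).trans (by simp)
    rw [uIcc_of_le zero_le_one] at hθ
    exact if_neg (by nlinarith [hθ.2])
  · set T := ‖x - x'‖ + |ρ - ρ'| + ‖y - y'‖ with hT
    have hT0 : 0 ≤ T := by positivity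
    have hv : ‖(y - x) - (y' - x')‖ ≤ ‖x - x'‖ + ‖y - y'‖ := by
      rw [show (y - x) - (y' - x') = (y - y') - (x - x') by abel, add_comm]
      exact norm_sub_le _ _
    have h := key (a := ‖y - x‖) (a' := ‖y' - x'‖) (ρ := ρ) (ρ' := ρ') (c₁ := C₀ * B)
      (c₂ := (L + 2 * C₀) * B * T) (fi_cont hP.cont hρ hω h5 (y - x))
      (fi_cont hP.cont hρ' hω h5' (y' - x')) hω (by positivity) (by positivity)
      (fun θ hθ p => fi_le hP (rad_mem hρ hω h5 hθ) hθ p)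
      (fun θ hθ p => fi_le hP (rad_mem hρ' hω h5' hθ) hθ p) (fun θ hθ p q => by
        have hs := rad_mem hρ hω h5 hθ
        have hs' := rad_mem hρ' hω h5' hθ
        have e0 : ρ + θ * ω - (ρ' + θ * ω) = ρ - ρ' := by ring
        have h1 := hlip _ hs _ hs'
        have h2 := sc_lip (v := y - x) hs.1 q
        have h3 := hP.lip θ hθ _ _ (norm_sc p) (norm_sc q)
        have h4 := hP.bdd θ hθ _ (norm_sc q)
        have h6 := iv_le (d := d) hs
        have h7 := iv_nonneg (d := d) (ρ + θ * ω)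
        rw [e0] at h1 h2
        generalize P θ ((ρ + θ * ω)⁻¹ • (y - x)) = A at h3 ⊢
        generalize P θ ((ρ' + θ * ω)⁻¹ • (y' - x')) = A' at h3 h4 ⊢
        generalize (vb d (ρ + θ * ω))⁻¹ = c at h1 h6 h7 ⊢
        generalize (vb d (ρ' + θ * ω))⁻¹ = c' at h1 ⊢
        have e1 : c • A - c' • A' = c • (A - A') + (c - c') • A' := by module
        rw [e1]
        refine (norm_add_le _ _).trans ?_
        rw [norm_smul, norm_smul, Real.norm_eq_abs, Real.norm_eq_abs, abs_of_nonneg h7]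
        have h8 : ‖A - A'‖ ≤ B * (2 * T) :=
          h3.trans (mul_le_mul_of_nonneg_left (by linarith) hB)
        have h9 : |c - c'| ≤ L * T := h1.trans (mul_le_mul_of_nonneg_left (by
          linarith [norm_nonneg (x - x'), norm_nonneg (y - y')]) hL)
        have h10 := mul_le_mul h6 h8 (norm_nonneg _) hC.le
        have h11 := mul_le_mul h9 h4 (norm_nonneg _) (by positivity)
        linarith)
    refine le_trans h ?_
    have h1 : |‖y - x‖ - ρ - (‖y' - x'‖ - ρ')| ≤ T := by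
      rw [show ‖y - x‖ - ρ - (‖y' - x'‖ - ρ') = (‖y - x‖ - ‖y' - x'‖) - (ρ - ρ') by ring]
      refine (abs_sub _ _).trans ?_
      linarith [abs_norm_sub_norm_le (y - x) (y' - x')]
    have h2 : C₀ * B * (|‖y - x‖ - ρ - (‖y' - x'‖ - ρ')| / ω) ≤ C₀ * B * (T / ω) :=
      mul_le_mul_of_nonneg_left (div_le_div_of_nonneg_right h1 hω.le) (by positivity)
    have h3 : T ≤ 5 * (T / ω) := by
      rw [← mul_div_assoc, le_div_iff₀ hω]
      nlinarith
    have h4 := mul_le_mul_of_nonneg_left h3 (show 0 ≤ (L + 2 * C₀) * B by positivity)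
    have e : (C₀ + 5 * (L + 2 * C₀)) * B / ω * T =
        C₀ * B * (T / ω) + (L + 2 * C₀) * B * (5 * (T / ω)) := by ring
    rw [e]
    linarith

theorem good (d : ℕ) (hd : 1 ≤ d) : GoodStmt d := by
  refine ⟨d + 6, by positivity, fun e β γ κ he hβ hγ hκ => ⟨?_, fun θ hθ w hw => ?_,
    fun θ hθ w w' hw hw' => ?_⟩⟩
  · change Continuous fun q : ℝ × E d => e + (β - q.1 * γ) • q.2 + κ • Wf e q.2
    unfold Wf
    fun_prop
  all_goals
    have h1 : |β - θ * γ| ≤ 3 := by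
      have h2 : |θ * γ| ≤ 1 := by
        rw [abs_mul, abs_of_nonneg hθ.1]
        exact mul_le_one₀ hθ.2 (abs_nonneg _) hγ
      linarith [abs_sub β (θ * γ)]
  · refine (norm_add_le _ _).trans ((add_le_add_left (norm_add_le _ _) _).trans ?_)
    rw [norm_smul, norm_smul, he, Real.norm_eq_abs, Real.norm_eq_abs]
    have h2 := mul_le_mul h1 hw (norm_nonneg _) (by norm_num)
    have h3 := mul_le_mul hκ (wf_le hd he hw) (norm_nonneg _) (by norm_num)
    linarith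
  · have e1 : e + (β - θ * γ) • w + κ • Wf e w - (e + (β - θ * γ) • w' + κ • Wf e w') =
        (β - θ * γ) • (w - w') + κ • (Wf e w - Wf e w') := by module
    rw [e1]
    refine (norm_add_le _ _).trans ?_
    rw [norm_smul, norm_smul, Real.norm_eq_abs, Real.norm_eq_abs]
    have h2 := mul_le_mul_of_nonneg_right h1 (norm_nonneg (w - w'))
    have h3 := mul_le_mul hκ (wf_lip he hw hw') (norm_nonneg _) (by norm_num)
    linarith

end Vale.Agent.P137
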