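import Vale.Agent.P137.Basic

open MeasureTheory Metric Set Filter
open scoped ENNReal NNReal Topology

namespace Vale.Agent.P137

namespace MBAux

variable {d : ℕ} {f : E d → ℝ} {F : E d → E d}

theorem ua_nonneg (h0 : ∀ x, 0 ≤ f x) (x : E d) (r : ℝ) : 0 ≤ ua f x r :=
  mul_nonneg (inv_nonneg.2 (vb_nonneg _)) (integral_nonneg h0)

theorem ua_le (h0 : ∀ x, 0 ≤ f x) (hf : Integrable f) (x : E d) {a r : ℝ} (ha : 0 < a)
    (har : a ≤ r) : ua f x r ≤ (vb d a)⁻¹ * ∫ y, f y :=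
  mul_le_mul (inv_anti₀ (vb_pos ha) (vb_mono har))
    (setIntegral_le_integral hf (Eventually.of_forall h0)) (integral_nonneg h0)
    (inv_nonneg.2 (vb_nonneg _))

theorem bdd (h0 : ∀ x, 0 ≤ f x) (hf : Integrable f) (x : E d) {a : ℝ} (ha : 0 < a) :
    BddAbove (ua f x '' Ici a) :=
  ⟨_, by rintro _ ⟨r, hr, rfl⟩; exact ua_le h0 hf x ha hr⟩

theorem M_eq (h0 : ∀ x, 0 ≤ f x) (hf : Integrable f) (x : E d) :
    M f x = ⨆ (r : ℝ) (_ : 0 < r), ENNReal.ofReal (ua f x r) := by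
  refine iSup_congr fun r => iSup_congr fun hr => ?_
  rw [← ofReal_integral_norm_eq_lintegral_enorm hf.integrableOn, volume_ball_eq,
    ← ENNReal.ofReal_div_of_pos (vb_pos hr), ua, inv_mul_eq_div]
  simp only [Real.norm_of_nonneg (h0 _)]

/-- the normalised mass of `F` in a ball -/
noncomputable def H (F : E d → E d) (x : E d) (s : ℝ) : ℝ≥0∞ :=
  ENNReal.ofReal (vb d s)⁻¹ * ∫⁻ y in ball x s, ‖F y‖ₑ

theorem meas_H (hF : Measurable F) : Measurable fun q : E d × ℝ => H F q.1 q.2 := by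
  have h1 : Measurable (vb d) := (show Monotone (vb d) from fun _ _ h => vb_mono h).measurable
  have h2 : MeasurableSet {p : (E d × ℝ) × E d | p.2 ∈ ball p.1.1 p.1.2} := by
    simp only [mem_ball]
    exact (isOpen_lt (by fun_prop) (by fun_prop)).measurableSet
  have h3 : ∀ q : E d × ℝ, ∫⁻ y in ball q.1 q.2, ‖F y‖ₑ = ∫⁻ y,
      {p : (E d × ℝ) × E d | p.2 ∈ ball p.1.1 p.1.2}.indicator (fun p => ‖F p.2‖ₑ) (q, y) := by
    intro q
    rw [← lintegral_indicator measurableSet_ball]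
    rfl
  simp only [H, h3]
  exact (h1.comp measurable_snd).inv.ennreal_ofReal.mul
    ((hF.comp measurable_snd).enorm.indicator h2).lintegral_prod_right'

theorem int_H (hF : Measurable F) (s : ℝ) : ∫⁻ x, H F x s ≤ ∫⁻ y, ‖F y‖ₑ := by
  simp only [H]
  rw [lintegral_const_mul' _ _ ENNReal.ofReal_ne_top, lintegral_ballInt hF.enorm, ← mul_assoc,
    volume_ball_eq, ← ENNReal.ofReal_mul (inv_nonneg.2 (vb_nonneg _))]
  exact mul_le_of_le_one_left' (ENNReal.ofReal_le_one.2 inv_mul_le_one)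

theorem avg_le {μ : E d → E d} (hμ : ∀ y, ‖μ y‖ ≤ ‖F y‖) (x : E d) {s : ℝ} (hs : 0 < s) :
    ‖avg μ x s fun w => w‖ₑ ≤ H F x s := by
  rw [avg, enorm_mul, Real.enorm_of_nonneg (inv_nonneg.2 (vb_nonneg _)), H]
  refine mul_le_mul_right ((enorm_integral_le_lintegral_enorm _).trans
    (setLIntegral_mono' measurableSet_ball fun y hy => ?_)) _
  rw [← ofReal_norm, ← ofReal_norm]
  refine ENNReal.ofReal_le_ofReal ((norm_inner_le_norm _ _).trans ?_)
  refine (mul_le_of_le_one_right (norm_nonneg _) ?_).trans (hμ y)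
  rw [norm_smul, norm_inv, Real.norm_of_nonneg hs.le, inv_mul_le_iff₀ hs, mul_one]
  exact (mem_ball_iff_norm.1 hy).le

theorem small {u : E d → ℝ → ℝ} {μ : E d → E d} {x : E d} (hc : Calc u μ x 1)
    (hμ : ∀ y, ‖μ y‖ ≤ ‖F y‖) {r : ℝ} (hr : 0 < r) (hr1 : r ≤ 1) :
    ‖u x 1 - u x r‖ₑ ≤ ∫⁻ s in Ioc (0 : ℝ) 1, H F x s := by
  have h := hc.path x 0 r (1 - r) hr (by linarith) (by simpa using hr1) (by simp)
  have e : ∀ s, avg μ x s (fun w => (1 - r) • w) = (1 - r) * avg μ x s fun w => w := by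
    intro s
    simp only [avg, real_inner_smul_right (r := 1 - r), integral_const_mul]
    ring
  simp only [add_zero, smul_zero, zero_add, add_sub_cancel, e, mul_comm _ (1 - r)] at h
  have h2 := intervalIntegral.smul_integral_comp_add_mul (a := 0) (b := 1)
    (fun s => avg μ x s fun w => w) (1 - r) r
  rw [smul_eq_mul, ← intervalIntegral.integral_const_mul, mul_zero, add_zero, mul_one,
    add_sub_cancel] at h2
  have h3 : u x 1 - u x r = ∫ s in r..1, avg μ x s fun w => w := by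
    rw [h, ← h2]
  rw [h3, intervalIntegral.integral_of_le hr1]
  refine (enorm_integral_le_lintegral_enorm _).trans ?_
  refine (setLIntegral_mono' measurableSet_Ioc fun s hs => avg_le hμ x (hr.trans hs.1)).trans ?_
  exact lintegral_mono_set (Ioc_subset_Ioc_left hr.le)

end MBAux

open MBAux in
theorem mb (d : ℕ) (_hd : 1 ≤ d) (hw : WCalcStmt d) : MBStmt d := by
  intro f F h0 hf hF hFm hwg
  have hs := sc_pos one_pos
  have hle : ∀ K x r, sc 1 K ≤ r → ua f x r ≤ gK f K x := fun K x r hr =>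
    le_csSup (bdd h0 hf x (hs K)) ⟨r, hr, rfl⟩
  have hne : ∀ K x, (ua f x '' Ici (sc 1 K)).Nonempty := fun K x => nonempty_Ici.image _
  have hA : 0 ≤ (vb d 1)⁻¹ * ∫ y, f y :=
    mul_nonneg (inv_nonneg.2 (vb_nonneg _)) (integral_nonneg h0)
  refine ⟨fun K x => ⟨(ua_nonneg h0 x _).trans (hle K x _ le_rfl), ?_⟩, fun x => ?_,
    ((vb d 1)⁻¹ * ∫ y, f y).toNNReal, fun x => ∫⁻ s in Ioc (0 : ℝ) 1, H F x s,
    (meas_H hFm).lintegral_prod_right', ?_, fun x => ?_⟩
  · exact csSup_le_csSup (bdd h0 hf x (hs _)) (hne K x)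
      (image_mono (Ici_subset_Ici.2 (sc_anti one_pos (Nat.le_succ K))))
  · refine le_antisymm ?_ (iSup_le fun K => ?_)
    · rw [M_eq h0 hf]
      refine iSup₂_le fun r hr => ?_
      obtain ⟨K, hK⟩ := exists_pow_lt_of_lt_one hr (show (1 / 4 : ℝ) < 1 by norm_num)
      rw [one_div_pow] at hK
      exact le_iSup_of_le K (ENNReal.ofReal_le_ofReal (hle K x r hK.le))
    · by_cases hM : M f x = ∞
      · rw [hM]; exact le_top
      · refine ENNReal.ofReal_le_of_le_toReal (csSup_le (hne K x) ?_)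
        rintro _ ⟨r, hr, rfl⟩
        rw [← ENNReal.ofReal_le_iff_le_toReal hM, M_eq h0 hf]
        exact le_iSup₂_of_le r ((hs K).trans_le hr) le_rfl
  · rw [lintegral_lintegral_swap (meas_H hFm).aemeasurable]
    refine (lintegral_mono fun s => int_H hFm s).trans_lt ?_
    rw [setLIntegral_const]
    exact ENNReal.mul_lt_top hF.2 measure_Ioc_lt_top
  · rw [M_eq h0 hf]
    refine iSup₂_le fun r hr => ?_
    rcases le_total 1 r with h1 | h1
    · exact (ENNReal.ofReal_le_ofReal (ua_le h0 hf x one_pos h1)).trans le_self_add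
    · have h2 := small (F := F) (hw f F hf.locallyIntegrable hF.locallyIntegrable hwg x 1)
        (norm_indicator_le_norm_self F) hr h1
      have h3 : ua f x r ≤ (vb d 1)⁻¹ * (∫ y, f y) + ‖ua f x 1 - ua f x r‖ := by
        linarith [ua_le h0 hf x one_pos le_rfl, neg_abs_le (ua f x 1 - ua f x r),
          Real.norm_eq_abs (ua f x 1 - ua f x r)]
      refine (ENNReal.ofReal_le_ofReal h3).trans ?_
      rw [ENNReal.ofReal_add hA (norm_nonneg _), ofReal_norm]
      exact add_le_add le_rfl h2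

end Vale.Agent.P137
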