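import Vale.Agent.P137.Basic

open MeasureTheory Metric Set Filter
open scoped ENNReal NNReal Topology

namespace Vale.Agent.P137

variable {d : ℕ}

namespace MainAux

theorem cover (ℓ : ℝ) (K : ℕ) {s : ℝ} (hs : s ∈ Icc (sc ℓ K) (4 * ℓ)) :
    ∃ k, k ≤ K ∧ s ∈ Icc (sc ℓ k) (4 * sc ℓ k) := by
  induction K with
  | zero => exact ⟨0, le_rfl, by simpa [sc] using hs⟩
  | succ K ih =>
    by_cases h : sc ℓ K ≤ s
    · obtain ⟨k, hk, h'⟩ := ih ⟨h, hs.2⟩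
      exact ⟨k, by omega, h'⟩
    · exact ⟨K + 1, le_rfl, hs.1, by rw [sc_succ]; linarith⟩

noncomputable def zeta (x₀ : E d) (ℓ : ℝ) (x : E d) : ℝ := max 0 (min 1 (2 - ‖x - x₀‖ / ℓ))

theorem zeta_lip (x₀ : E d) {ℓ : ℝ} (hℓ : 0 < ℓ) (x y : E d) :
    |zeta x₀ ℓ x - zeta x₀ ℓ y| ≤ ‖x - y‖ / ℓ := by
  unfold zeta
  have h1 : |‖x - x₀‖ - ‖y - x₀‖| ≤ ‖x - y‖ := by
    have := abs_norm_sub_norm_le (x - x₀) (y - x₀)
    simpa using this
  have h2 : |(2 - ‖x - x₀‖ / ℓ) - (2 - ‖y - x₀‖ / ℓ)| ≤ ‖x - y‖ / ℓ := by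
    rw [show (2 - ‖x - x₀‖ / ℓ) - (2 - ‖y - x₀‖ / ℓ) = -((‖x - x₀‖ - ‖y - x₀‖) / ℓ) by ring,
      abs_neg, abs_div, abs_of_pos hℓ]
    exact div_le_div_of_nonneg_right h1 hℓ.le
  refine le_trans ?_ h2
  rw [max_comm 0, max_comm 0]
  refine (abs_max_sub_max_le_abs _ _ _).trans ?_
  rw [min_comm 1, min_comm 1]
  simpa using abs_min_sub_min_le_max (2 - ‖x - x₀‖ / ℓ) 1 (2 - ‖y - x₀‖ / ℓ) 1

end MainAux

open MainAux in
theorem main (d : ℕ) (hd : 1 ≤ d) (hc : ContStmt d) (hfam : FamStmt d) (hdirs : DirsStmt d)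
    (hwts : WtsStmt d) (hbeta : BetaStmt d) (hpack : PackStmt d) (htree : TreeStmt d)
    (herr : ErrStmt d) (hfirst : FirstStmt d) (hsecond : SecondStmt d) : MainStmt d := by
  have hd' : (1 : ℝ) ≤ d := by exact_mod_cast hd
  have hcc : 0 < cc d := by unfold cc; positivity
  have hcc1 : cc d / 3 ≤ 1 := by
    have : cc d ≤ 1 := by
      unfold cc; rw [div_le_one (by positivity)]; linarith
    linarith
  obtain ⟨C₀, hC₀⟩ := hdirs
  obtain ⟨C₁, hC₁⟩ := hwts (cc d / 3) (by positivity) hcc1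
  obtain ⟨Cb, hCb⟩ := hbeta C₀ C₁
  obtain ⟨Cp, hCp⟩ := hpack C₀ C₁
  obtain ⟨Ce, hCe⟩ := herr C₀ C₁
  obtain ⟨Cf, hCf⟩ := hfirst C₀ C₁
  obtain ⟨Cs, hCs⟩ := hsecond C₀ C₁
  refine ⟨(Real.toNNReal (cc d))⁻¹ * ((Cf + d * Cb * Cs) * (Cp + 1) + 2 * Ce), ?_⟩
  intro u μ x₀ ℓ K hℓ hμ hu
  obtain ⟨m, D, hF⟩ := hfam μ (64 * ℓ) (K + 3) hμ hu.int (by positivity)
  obtain ⟨n, hn⟩ := hC₀ μ ℓ K m D hℓ hF
  have hzc : Continuous (zeta x₀ ℓ) := by unfold zeta; fun_prop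
  have hz01 : ∀ x, 0 ≤ zeta x₀ ℓ x ∧ zeta x₀ ℓ x ≤ 1 := fun x =>
    ⟨le_max_left _ _, max_le zero_le_one (min_le_left _ _)⟩
  have hzs : ∀ x, zeta x₀ ℓ x ≠ 0 → x ∈ ball x₀ (2 * ℓ) := by
    intro x hx
    by_contra h
    rw [mem_ball_iff_norm, not_lt] at h
    have : 2 ≤ ‖x - x₀‖ / ℓ := by rwa [le_div_iff₀ hℓ]
    exact hx (max_eq_left ((min_le_right _ _).trans (by linarith)))
  obtain ⟨p, hp⟩ := hC₁ (zeta x₀ ℓ) n hzc hz01 hn.cont hn.norm_le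
  have ctx : Ctx C₀ C₁ ℓ K x₀ μ m D n (zeta x₀ ℓ) p :=
    ⟨hℓ, hF, hn, zeta_lip x₀ hℓ, hz01, hzs, hp⟩
  set g0 : ℕ → E d → ℝ := fun k => MM u (sc ℓ k) (4 * sc ℓ k) with hg0
  set Lg : ℝ≥0 := Real.toNNReal ((vb d (sc ℓ K))⁻¹ * ∫ y, ‖μ y‖) with hLg
  have hM : 0 ≤ ∫ y, ‖μ y‖ := integral_nonneg fun _ => norm_nonneg _
  have hlip : ∀ k, LipschitzOnWith Lg (g0 (min k K)) (ball x₀ (9 * ℓ)) := by
    intro k
    have hs := sc_pos hℓ (min k K)
    have h1 := hc.MM_lipschitzOnWith hu hs (b := 4 * sc ℓ (min k K)) (by linarith)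
    have h2 := sc_le hℓ (min k K)
    refine (h1.mono (ball_subset_ball (by linarith))).weaken (Real.toNNReal_le_toNNReal ?_)
    refine mul_le_mul_of_nonneg_right ?_ hM
    exact inv_anti₀ (vb_pos (sc_pos hℓ K)) (vb_mono (sc_anti hℓ (min_le_right k K)))
  choose g hgl hge using fun k => (hlip k).extend_real
  have hge' : ∀ k, k ≤ K → EqOn (g0 k) (g k) (ball x₀ (9 * ℓ)) := by
    intro k hk
    have := hge k
    rwa [min_eq_left hk] at this
  set G : E d → ℝ := fun x => (Finset.range (K + 1)).sup' Finset.nonempty_range_add_one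
    (fun k => g k x) with hG
  have hGs : ∀ x, (∀ k, k ≤ K → g k x ≤ G x) ∧ ∃ k, k ≤ K ∧ G x = g k x := by
    intro x
    refine ⟨fun k hk => Finset.le_sup' (fun k => g k x) (Finset.mem_range.2 (by omega)), ?_⟩
    obtain ⟨k, hk, e⟩ := Finset.exists_mem_eq_sup' (Finset.nonempty_range_add_one (n := K))
      (fun k => g k x)
    exact ⟨k, by have := Finset.mem_range.1 hk; omega, e⟩
  have hspec : ∀ x ∈ ball x₀ (9 * ℓ), ∀ a b : ℝ, 0 < a → a ≤ b → b ≤ 4 * ℓ →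
      (∃ r ∈ Icc a b, MM u a b x = u x r) ∧ ∀ s ∈ Icc a b, u x s ≤ MM u a b x := by
    intro x hx a b ha hab hb
    rw [mem_ball_iff_norm] at hx
    exact MM_spec hab (hc.continuousOn hu ha (by linarith))
  have hGe : EqOn (MM u (sc ℓ K) (4 * ℓ)) G (ball x₀ (9 * ℓ)) := by
    intro x hx
    have hK := hspec x hx (sc ℓ K) (4 * ℓ) (sc_pos hℓ K) (by linarith [sc_le hℓ K]) le_rfl
    have hk : ∀ k, (∃ r ∈ Icc (sc ℓ k) (4 * sc ℓ k), g0 k x = u x r) ∧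
        ∀ s ∈ Icc (sc ℓ k) (4 * sc ℓ k), u x s ≤ g0 k x := fun k =>
      hspec x hx _ _ (sc_pos hℓ k) (by linarith [sc_pos hℓ k]) (by linarith [sc_le hℓ k])
    apply le_antisymm
    · obtain ⟨r, hr, e⟩ := hK.1
      obtain ⟨k, hkK, hr'⟩ := cover ℓ K hr
      rw [e]
      exact ((hk k).2 r hr').trans ((hge' k hkK hx).le.trans ((hGs x).1 k hkK))
    · obtain ⟨k, hkK, e⟩ := (hGs x).2
      obtain ⟨r, hr, e'⟩ := (hk k).1
      rw [e, ← hge' k hkK hx, e']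
      exact hK.2 r ⟨(sc_anti hℓ hkK).trans hr.1, by linarith [hr.2, sc_le hℓ k]⟩
  have hfd : ∀ {a b : E d → ℝ}, EqOn a b (ball x₀ (9 * ℓ)) → ∀ x ∈ ball x₀ (9 * ℓ),
      fderiv ℝ a x = fderiv ℝ b x := fun h x hx =>
    (h.eventuallyEq_of_mem (isOpen_ball.mem_nhds hx)).fderiv_eq
  have sub29 : ball x₀ (2 * ℓ) ⊆ ball x₀ (9 * ℓ) := ball_subset_ball (by linarith)
  have T := htree K (cc d) (sc ℓ K) (ball x₀ (3 * ℓ)) (zeta x₀ ℓ) n p g G
    (fun k x => ENNReal.ofReal (g0 k x - u x (4 * sc ℓ k)))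
    (fun k x => Cb * ((ENNReal.ofReal (sc ℓ k))⁻¹ * bet 1 ℓ n p k x)) Lg hcc.le (sc_pos hℓ K)
    measurableSet_ball isBounded_ball hgl hGs hn.cont hn.norm_le hp.cont hp.nonneg hp.sum hp.anti
    (fun k i x hi h => by have := hp.near k i x hi h; linarith)
    (fun x hx h hh => by
      have h1 := hzs x hx
      rw [mem_ball_iff_norm] at h1 ⊢
      have := norm_add_le (x - x₀) h
      rw [show x + h - x₀ = x - x₀ + h by abel]
      linarith [sc_le hℓ K])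
    (fun k x hk hx => by
      have hx9 : x ∈ ball x₀ (9 * ℓ) := ball_subset_ball (by linarith) hx
      refine ENNReal.ofReal_le_ofReal ?_
      rw [← hge' (k + 1) hk hx9, ← hge' k hk.le hx9, sc_succ]
      have := (hspec x hx9 _ _ (sc_pos hℓ k) (by linarith [sc_pos hℓ k] : sc ℓ k ≤ 4 * sc ℓ k)
        (by linarith [sc_le hℓ k])).2 (sc ℓ k) ⟨le_rfl, by linarith [sc_pos hℓ k]⟩
      simp only [hg0]
      linarith)
    (fun k x h hk hh => by
      have hs := sc_pos hℓ k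
      have h1 : ‖h‖ < 16 * sc ℓ k := by linarith [sc_anti hℓ hk]
      have := hCb ℓ K x₀ μ m D n _ p ctx 1 one_pos le_rfl k x (x + h) x
        (by simpa [mem_ball_iff_norm] using h1) (mem_ball_self (by positivity))
      refine this.trans (le_of_eq ?_)
      rw [add_sub_cancel_left, div_eq_mul_inv, ENNReal.ofReal_mul (norm_nonneg _),
        ENNReal.ofReal_inv_of_pos hs]
      ring)
  have hS := hCp ℓ K x₀ μ m D n _ p ctx
  have hSV : SS ℓ K m p + VV μ ≤ (Cp + 1) * VV μ := by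
    rw [add_mul, one_mul]; gcongr
  have T1 : ∑ k ∈ Finset.range (K + 1), ∫⁻ x, ENNReal.ofReal (p k k x) * ‖fderiv ℝ (g k) x‖ₑ ≤
      Cf * ((Cp + 1) * VV μ) := by
    refine le_trans (le_of_eq ?_) ((hCf ℓ K x₀ μ m D n _ p ctx u hu).trans (by gcongr))
    refine Finset.sum_congr rfl fun k hk => lintegral_congr fun x => ?_
    have hkK : k ≤ K := by have := Finset.mem_range.1 hk; omega
    by_cases hx : zeta x₀ ℓ x = 0
    · have : p k k x ≤ 0 := hx ▸ (ctx.p_le_one le_rfl x).1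
      simp [ENNReal.ofReal_of_nonpos this]
    · rw [hfd (hge' k hkK) x (sub29 (hzs x hx))]
  have T2 : ∑ k ∈ Finset.range (K + 1), ∫⁻ x in ball x₀ (3 * ℓ),
      Cb * ((ENNReal.ofReal (sc ℓ k))⁻¹ * bet 1 ℓ n p k x) *
        ENNReal.ofReal (g0 k x - u x (4 * sc ℓ k)) ≤ Cb * (Cs * ((Cp + 1) * VV μ)) := by
    have := (hCs ℓ K x₀ μ m D n _ p ctx u hu).trans (mul_le_mul_right hSV _)
    refine le_trans (le_of_eq ?_) (mul_le_mul_right this Cb)
    rw [Finset.mul_sum]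
    refine Finset.sum_congr rfl fun k _ => ?_
    rw [← lintegral_const_mul' _ _ ENNReal.coe_ne_top]
    simp only [mul_assoc, hg0]
  have T3 : ∑ k ∈ Finset.range (K + 1), ∫⁻ x, ENNReal.ofReal (zeta x₀ ℓ x) *
      ENNReal.ofReal (2 * cc d * ‖fderiv ℝ (g k) x‖ - fderiv ℝ (g k) x (n k x)) ≤ Ce * VV μ := by
    refine le_trans ?_ (hCe ℓ K x₀ μ m D n _ p ctx u hu)
    refine Finset.sum_le_sum fun k hk => ?_
    have hkK : k ≤ K := by have := Finset.mem_range.1 hk; omega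
    rw [← lintegral_indicator measurableSet_ball]
    refine lintegral_mono fun x => ?_
    by_cases hx : zeta x₀ ℓ x = 0
    · simp [hx]
    · rw [indicator_of_mem (hzs x hx), ← hfd (hge' k hkK) x (sub29 (hzs x hx))]
      exact mul_le_of_le_one_left' (ENNReal.ofReal_le_one.2 (hz01 x).2)
  have T0 : ∫⁻ x in ball x₀ ℓ, ‖fderiv ℝ (MM u (sc ℓ K) (4 * ℓ)) x‖ₑ ≤
      ∫⁻ x, ENNReal.ofReal (zeta x₀ ℓ x) * ‖fderiv ℝ G x‖ₑ := by
    rw [← lintegral_indicator measurableSet_ball]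
    refine lintegral_mono fun x => ?_
    by_cases hx : x ∈ ball x₀ ℓ
    · have h1 : zeta x₀ ℓ x = 1 := by
        rw [mem_ball_iff_norm] at hx
        have : ‖x - x₀‖ / ℓ ≤ 1 := by rw [div_le_one hℓ]; exact hx.le
        unfold zeta
        rw [min_eq_left (by linarith), max_eq_right zero_le_one]
      rw [indicator_of_mem hx, h1, hfd hGe x (ball_subset_ball (by linarith) hx)]
      simp
    · simp [hx]
  have hc0 : (Real.toNNReal (cc d)) ≠ 0 := by simpa using hcc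
  have fin : ENNReal.ofReal (cc d) * ∫⁻ x in ball x₀ ℓ, ‖fderiv ℝ (MM u (sc ℓ K) (4 * ℓ)) x‖ₑ ≤
      ((Cf + d * Cb * Cs) * (Cp + 1) + 2 * Ce) * VV μ := by
    refine (mul_le_mul_right T0 _).trans (T.trans ?_)
    calc _ ≤ Cf * ((Cp + 1) * VV μ) + d * (Cb * (Cs * ((Cp + 1) * VV μ))) + 2 * (Ce * VV μ) := by
          exact add_le_add (add_le_add T1 (mul_le_mul_right T2 _)) (mul_le_mul_right T3 _)
      _ = _ := by ring
  push_cast [ENNReal.coe_inv hc0]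
  rw [mul_assoc]
  have h1 : ENNReal.ofReal (cc d) ≠ 0 := by simpa using hcc
  have := mul_le_mul_right fin (ENNReal.ofReal (cc d))⁻¹
  rwa [← mul_assoc, ENNReal.inv_mul_cancel h1 ENNReal.ofReal_ne_top, one_mul] at this

end Vale.Agent.P137
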