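import Vale.Agent.P137.Basic

open MeasureTheory Metric Set Filter
open scoped ENNReal NNReal Topology

namespace Vale.Agent.P137

variable {d : ℕ}

namespace PackAux

theorem le_inv_mul {c : ℝ≥0} (hc : 0 < c) {x y : ℝ≥0∞} (h : c * x ≤ y) :
    x ≤ ((c⁻¹ : ℝ≥0) : ℝ≥0∞) * y := by
  calc x = ((c⁻¹ : ℝ≥0) : ℝ≥0∞) * (c * x) := by
        rw [← mul_assoc, ← ENNReal.coe_mul, inv_mul_cancel₀ hc.ne', ENNReal.coe_one, one_mul]
    _ ≤ _ := mul_le_mul_right h _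

theorem absorb (a b : ℝ≥0) : ∃ η C : ℝ≥0, 0 < η ∧ η ≤ 1 ∧ ∀ S V : ℝ≥0∞, S ≠ ∞ → V ≠ ∞ →
    S ≤ a * V + b * (η * S + (η : ℝ≥0∞)⁻¹ * 2 * V) → S ≤ C * V := by
  have hb : (0 : ℝ≥0) < 2 * (b + 1) := by positivity
  refine ⟨(2 * (b + 1))⁻¹, 2 * (a + b * (2 * (b + 1)) * 2), inv_pos.2 hb,
    inv_le_one_of_one_le₀ ?_, fun S V hS hV h => ?_⟩
  · have : (0 : ℝ) ≤ b := b.2
    rw [← NNReal.coe_le_coe]
    push_cast
    linarith
  lift S to ℝ≥0 using hS
  lift V to ℝ≥0 using hV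
  rw [← ENNReal.coe_inv (inv_pos.2 hb).ne', inv_inv] at h
  norm_cast at h ⊢
  rw [← NNReal.coe_le_coe] at h ⊢
  push_cast at h ⊢
  have h0 : (0 : ℝ) ≤ b := b.2
  have h1 : (0 : ℝ) ≤ S := S.2
  have h2 : (b : ℝ) * (2 * ((b : ℝ) + 1))⁻¹ ≤ 1 / 2 := by
    rw [← div_eq_mul_inv, div_le_iff₀ (by positivity)]
    linarith
  have h3 := mul_le_mul_of_nonneg_right h2 h1
  linarith

theorem arith (E2 c1 c16 C0 Cb Cs dd : ℝ≥0) (hE : 0 < E2) (hc : 0 < c1) :
    ∃ η C : ℝ≥0, 0 < η ∧ η ≤ 1 ∧ ∀ S V T X B1 B0 : ℝ≥0∞, S ≠ ∞ → V ≠ ∞ →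
      E2 * T ≤ (E2 + 2 + 6 * C0) * V + dd * X → c1 * X ≤ Cb * B1 →
      B1 ≤ Cs * (η * S + (η : ℝ≥0∞)⁻¹ * 2 * V) → S ≤ c16 * T + 32 * Cb * B0 →
      B0 ≤ Cs * (η * S + (η : ℝ≥0∞)⁻¹ * 2 * V) → S ≤ C * V := by
  obtain ⟨η, C, h0, h1, H⟩ := absorb (c16 * E2⁻¹ * (E2 + 2 + 6 * C0))
    (c16 * E2⁻¹ * dd * c1⁻¹ * Cb * Cs + 32 * Cb * Cs)
  refine ⟨η, C, h0, h1, fun S V T X B1 B0 hS hV a1 a2 a3 a4 a5 => H S V hS hV ?_⟩
  generalize η * S + (η : ℝ≥0∞)⁻¹ * 2 * V = Y at a3 a5 ⊢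
  have b1 := le_inv_mul hE a1
  have b2 := le_inv_mul hc a2
  calc S ≤ c16 * T + 32 * Cb * B0 := a4
    _ ≤ c16 * (((E2⁻¹ : ℝ≥0) : ℝ≥0∞) * ((E2 + 2 + 6 * C0) * V +
          dd * (((c1⁻¹ : ℝ≥0) : ℝ≥0∞) * (Cb * (Cs * Y))))) + 32 * Cb * (Cs * Y) := by
        gcongr
        refine b1.trans ?_
        gcongr
        refine b2.trans ?_
        gcongr
    _ = _ := by
        simp only [ENNReal.coe_add, ENNReal.coe_mul, ENNReal.coe_ofNat]
        ring

/-- localisation in terms of the normalised mass -/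
theorem loc {a a' : E d → ℝ≥0∞} (ha' : Measurable a') {w : E d → E d} (hw : Measurable w)
    {ℓ : ℝ} (hℓ : 0 < ℓ) (h : ∀ x y, y ∈ ball x ℓ → a y ≤ a' x) :
    ENNReal.ofReal (vb d 1) * ∫⁻ y, a y * ‖w y‖ₑ ≤ ∫⁻ x, a' x * nm w ℓ 1 x := by
  have h1 := av_loc ha' hw.enorm h
  have h0 : ENNReal.ofReal (ℓ ^ d) ≠ 0 := by simp; positivity
  have h2 : ∫⁻ x, a' x * nm w ℓ 1 x =
      (ENNReal.ofReal (ℓ ^ d))⁻¹ * ∫⁻ x, a' x * ∫⁻ y in ball x ℓ, ‖w y‖ₑ := by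
    rw [← lintegral_const_mul' _ _ (ENNReal.inv_ne_top.2 h0)]
    refine lintegral_congr fun x => ?_
    rw [nm, mass, one_mul, mul_left_comm]
  have h3 := volume_ball_mul (0 : E d) one_pos hℓ
  rw [one_mul, one_pow, one_mul] at h3
  rw [h2]
  refine le_trans (le_of_eq ?_) (mul_le_mul_right h1 _)
  rw [h3, mul_comm (ENNReal.ofReal (vb d 1)) (ENNReal.ofReal (ℓ ^ d)), ← mul_assoc, ← mul_assoc,
    ENNReal.inv_mul_cancel h0 ENNReal.ofReal_ne_top, one_mul]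

theorem integrable_inner {Y w : E d → E d} (hY : Continuous Y) (hY1 : ∀ y, ‖Y y‖ ≤ 1)
    (hw : Integrable w) : Integrable fun y => inner ℝ (Y y) (w y) := by
  refine Integrable.mono' hw.norm (hY.aestronglyMeasurable.inner hw.1)
    (Eventually.of_forall fun y => ?_)
  exact (norm_inner_le_norm _ _).trans (mul_le_of_le_one_left (norm_nonneg _) (hY1 y))

theorem abs_inner_le {Y w : E d → E d} (hY1 : ∀ y, ‖Y y‖ ≤ 1) (hw : Integrable w) :
    |∫ y, inner ℝ (Y y) (w y)| ≤ (VV w).toReal := by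
  rw [VV, ← integral_norm_eq_lintegral_enorm hw.1, ← Real.norm_eq_abs]
  refine norm_integral_le_of_norm_le hw.norm (Eventually.of_forall fun y => ?_)
  exact (norm_inner_le_norm _ _).trans (mul_le_of_le_one_left (norm_nonneg _) (hY1 y))

theorem NN_sub_le (p : ℕ → ℕ → E d → ℝ) (n : ℕ → E d → E d) (k : ℕ) (x y : E d) :
    ‖NN p n k x - NN p n k y‖ ≤ dif p n k x y := by
  rw [NN, NN, ← Finset.sum_sub_distrib]
  exact (norm_sum_le _ _).trans
    (Finset.sum_le_sum fun i _ => le_add_of_nonneg_left (abs_nonneg _))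

theorem p_sub_le (p : ℕ → ℕ → E d → ℝ) (n : ℕ → E d → E d) (k : ℕ) (x y : E d) :
    |p k k x - p k k y| ≤ dif p n k x y :=
  (le_add_of_nonneg_right (norm_nonneg _)).trans (Finset.single_le_sum
    (f := fun i => |p k i x - p k i y| + ‖p k i x • n i x - p k i y • n i y‖)
    (fun _ _ => add_nonneg (abs_nonneg _) (norm_nonneg _)) (Finset.self_mem_range_succ k))

section Ctx

variable {C₀ C₁ : ℝ≥0} {ℓ : ℝ} {K : ℕ} {x₀ : E d} {μ : E d → E d} {m : ℕ → E d → E d}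
  {D : ℕ → ℕ → E d → ℝ≥0∞} {n : ℕ → E d → E d} {ζ : E d → ℝ} {p : ℕ → ℕ → E d → ℝ}

theorem NN_cont (h : Ctx C₀ C₁ ℓ K x₀ μ m D n ζ p) (k : ℕ) : Continuous (NN p n k) :=
  continuous_finsetSum _ fun i _ => (h.wts.cont k i).smul (h.dirs.cont i)

theorem NN_le (h : Ctx C₀ C₁ ℓ K x₀ μ m D n ζ p) (k : ℕ) (x : E d) : ‖NN p n k x‖ ≤ 1 := by
  refine (norm_sum_le _ _).trans (le_trans (Finset.sum_le_sum fun i _ => ?_)
    ((h.wts.sum k x).le.trans (h.zmem x).2))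
  rw [norm_smul, Real.norm_of_nonneg (h.wts.nonneg k i x)]
  exact mul_le_of_le_one_right (h.wts.nonneg k i x) (h.dirs.norm_le i x)

theorem V_ne (h : Ctx C₀ C₁ ℓ K x₀ μ m D n ζ p) : VV μ ≠ ∞ := by
  have := (h.fam.lev.int (K + 3)).2
  rw [h.fam.lev.top _ le_rfl] at this
  exact this.ne

theorem S_ne (h : Ctx C₀ C₁ ℓ K x₀ μ m D n ζ p) : SS ℓ K m p ≠ ∞ := by
  refine ENNReal.sum_ne_top.2 fun k _ => ne_top_of_le_ne_top
    (b := ∫⁻ x, nm (m (k + 3)) (sc ℓ k) 16 x) ?_ (lintegral_mono fun x => ?_)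
  · rw [lintegral_nm (h.fam.lev.meas _) (sc_pos h.pos k) (by norm_num)]
    exact ENNReal.mul_ne_top ENNReal.ofReal_ne_top
      (ne_top_of_le_ne_top (V_ne h) (h.fam.massle _))
  · refine mul_le_of_le_one_left zero_le (supf_le fun y _ => ?_)
    exact ENNReal.ofReal_le_one.2 (h.p_le_one le_rfl y).2

theorem int_rho (h : Ctx C₀ C₁ ℓ K x₀ μ m D n ζ p) (k j : ℕ) :
    Integrable fun y => p k k y * ‖m j y‖ := by
  refine Integrable.mono' (h.fam.lev.int j).norm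
    ((h.wts.cont k k).aestronglyMeasurable.mul (h.fam.lev.int j).norm.1)
    (Eventually.of_forall fun y => ?_)
  rw [norm_mul, norm_norm, Real.norm_of_nonneg (h.wts.nonneg k k y)]
  exact mul_le_of_le_one_left (norm_nonneg _) (h.p_le_one le_rfl y).2

theorem ofReal_rho (h : Ctx C₀ C₁ ℓ K x₀ μ m D n ζ p) (k j : ℕ) :
    ENNReal.ofReal (∫ y, p k k y * ‖m j y‖) = ∫⁻ y, ENNReal.ofReal (p k k y) * ‖m j y‖ₑ := by
  rw [ofReal_integral_eq_lintegral_ofReal (int_rho h k j) (Eventually.of_forall fun y =>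
    mul_nonneg (h.wts.nonneg k k y) (norm_nonneg _))]
  refine lintegral_congr fun y => ?_
  rw [ENNReal.ofReal_mul (h.wts.nonneg k k y), ofReal_norm]

theorem def_nonneg (h : Ctx C₀ C₁ ℓ K x₀ μ m D n ζ p) (k : ℕ) (y w : E d) :
    0 ≤ ‖w‖ - inner ℝ (n k y) w :=
  sub_nonneg.2 ((real_inner_le_norm _ _).trans
    (mul_le_of_le_one_left (norm_nonneg _) (h.dirs.norm_le k y)))

/-- one step of the potential -/
theorem step (h : Ctx C₀ C₁ ℓ K x₀ μ m D n ζ p) (k : ℕ) :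
    (cc d / 3) ^ 2 * ∫ y, p (k + 1) (k + 1) y * ‖m (k + 1 + 3) y‖ ≤
      ((∫ y, inner ℝ (NN p n (k + 1) y) (m (k + 1 + 3) y)) -
        ∫ y, inner ℝ (NN p n k y) (m (k + 3) y)) +
      2 * (∫ y, (‖m (k + 1 + 3) y‖ - inner ℝ (n (k + 1) y) (m (k + 1 + 3) y))) +
      |(∫ y, inner ℝ (NN p n k y) (m (k + 3) y)) - ∫ y, inner ℝ (NN p n k y) (m (k + 3 + 1) y)| := by
  have hw := h.fam.lev.int (k + 1 + 3)
  have i1 := integrable_inner (NN_cont h (k + 1)) (NN_le h (k + 1)) hw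
  have i2 := integrable_inner (NN_cont h k) (NN_le h k) hw
  have i3 : Integrable fun y => ‖m (k + 1 + 3) y‖ - inner ℝ (n (k + 1) y) (m (k + 1 + 3) y) :=
    hw.norm.sub (integrable_inner (h.dirs.cont (k + 1)) (h.dirs.norm_le (k + 1)) hw)
  have i4 := int_rho h (k + 1) (k + 1 + 3)
  have key := integral_mono ((i4.const_mul ((cc d / 3) ^ 2)).sub (i3.const_mul 2)) (i1.sub i2)
    fun y => by
      have := h.wts.pot k y (m (k + 1 + 3) y)
      rw [inner_sub_left] at this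
      simp only [Pi.sub_apply]
      linarith
  simp only [Pi.sub_apply] at key
  rw [integral_sub (i4.const_mul _) (i3.const_mul 2), integral_sub i1 i2, integral_const_mul,
    integral_const_mul] at key
  have h2 := le_abs_self ((∫ y, inner ℝ (NN p n k y) (m (k + 3) y)) -
    ∫ y, inner ℝ (NN p n k y) (m (k + 3 + 1) y))
  have h3 := neg_abs_le ((∫ y, inner ℝ (NN p n k y) (m (k + 3) y)) -
    ∫ y, inner ℝ (NN p n k y) (m (k + 3 + 1) y))
  have e : k + 3 + 1 = k + 1 + 3 := by omega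
  rw [e] at h2 h3 ⊢
  linarith

/-- the telescoped potential bound -/
theorem tele (h : Ctx C₀ C₁ ℓ K x₀ μ m D n ζ p) {E2 : ℝ≥0} (hE : (E2 : ℝ) = (cc d / 3) ^ 2) :
    E2 * ∑ k ∈ Finset.range (K + 1), ∫⁻ y, ENNReal.ofReal (p k k y) * ‖m (k + 3) y‖ₑ ≤
      (E2 + 2 + 6 * C₀) * VV μ + ∑ k ∈ Finset.range (K + 1), ENNReal.ofReal
        |(∫ y, inner ℝ (NN p n k y) (m (k + 3) y)) -
          ∫ y, inner ℝ (NN p n k y) (m (k + 3 + 1) y)| := by
  have hV := V_ne h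
  have hΦ : ∀ k, |∫ y, inner ℝ (NN p n k y) (m (k + 3) y)| ≤ (VV μ).toReal := fun k =>
    (abs_inner_le (NN_le h k) (h.fam.lev.int _)).trans (ENNReal.toReal_mono hV (h.fam.massle _))
  have h1 := Finset.sum_le_sum (s := Finset.range K) fun k _ => step h k
  rw [Finset.sum_add_distrib, Finset.sum_add_distrib,
    Finset.sum_range_sub (fun k => ∫ y, inner ℝ (NN p n k y) (m (k + 3) y)), ← Finset.mul_sum,
    ← Finset.mul_sum, ← hE] at h1
  set e : ℕ → ℝ := fun k => ∫ y, (‖m (k + 3) y‖ - inner ℝ (n k y) (m (k + 3) y)) with he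
  set s : ℕ → ℝ := fun k => |(∫ y, inner ℝ (NN p n k y) (m (k + 3) y)) -
    ∫ y, inner ℝ (NN p n k y) (m (k + 3 + 1) y)| with hs
  set t : ℕ → ℝ := fun k => ∫ y, p k k y * ‖m (k + 3) y‖ with ht
  have e0 : ∀ k, 0 ≤ e k := fun k => integral_nonneg fun y => def_nonneg h k y _
  have s0 : ∀ k, 0 ≤ s k := fun k => abs_nonneg _
  have t0 : ∀ k, 0 ≤ t k := fun k => integral_nonneg fun y =>
    mul_nonneg (h.wts.nonneg k k y) (norm_nonneg _)
  have h2 : (E2 : ℝ) * ∑ k ∈ Finset.range K, t (k + 1) ≤ 2 * (VV μ).toReal +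
      2 * ∑ k ∈ Finset.range (K + 1), e k + ∑ k ∈ Finset.range (K + 1), s k := by
    rw [Finset.sum_range_succ' e, Finset.sum_range_succ s]
    have a1 := abs_le.1 (hΦ K)
    have a2 := abs_le.1 (hΦ 0)
    have a3 := e0 0
    have a4 := s0 K
    linarith [a1.2, a2.1]
  have h3 := ENNReal.ofReal_le_ofReal h2
  have se := Finset.sum_nonneg (s := Finset.range (K + 1)) fun k _ => e0 k
  have ss := Finset.sum_nonneg (s := Finset.range (K + 1)) fun k _ => s0 k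
  rw [ENNReal.ofReal_mul E2.coe_nonneg, ENNReal.ofReal_add (by positivity) ss,
    ENNReal.ofReal_add (by positivity) (by positivity), ENNReal.ofReal_mul zero_le_two,
    ENNReal.ofReal_mul zero_le_two, ENNReal.ofReal_toReal hV,
    ENNReal.ofReal_sum_of_nonneg fun k _ => t0 _, ENNReal.ofReal_sum_of_nonneg fun k _ => e0 _,
    ENNReal.ofReal_sum_of_nonneg fun k _ => s0 _, ENNReal.ofReal_ofNat,
    ENNReal.ofReal_coe_nnreal] at h3
  have h4 : ∑ k ∈ Finset.range (K + 1), ENNReal.ofReal (e k) ≤ C₀ * (3 * VV μ) := by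
    refine le_trans ?_ (mul_le_mul_right (h.fam.sumD 3 (K + 1)) _)
    rw [Finset.mul_sum]
    refine Finset.sum_le_sum fun k hk => ?_
    have hw := h.fam.lev.int (k + 3)
    refine le_trans (le_of_eq ?_)
      (h.dirs.av2 k (k + 3) (Nat.lt_succ_iff.1 (Finset.mem_range.1 hk)) (by omega))
    exact ofReal_integral_eq_lintegral_ofReal
      (hw.norm.sub (integrable_inner (h.dirs.cont k) (h.dirs.norm_le k) hw))
      (Eventually.of_forall fun y => def_nonneg h k y _)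
  have h5 : ∫⁻ y, ENNReal.ofReal (p 0 0 y) * ‖m (0 + 3) y‖ₑ ≤ VV μ := by
    refine le_trans (lintegral_mono fun y => ?_) (h.fam.massle (0 + 3))
    exact mul_le_of_le_one_left zero_le (ENNReal.ofReal_le_one.2 (h.p_le_one le_rfl y).2)
  rw [Finset.sum_range_succ', mul_add]
  simp only [← ofReal_rho h] at h5 ⊢
  calc _ ≤ (2 * VV μ + 2 * (C₀ * (3 * VV μ)) + ∑ k ∈ Finset.range (K + 1), ENNReal.ofReal (s k)) +
        E2 * VV μ := add_le_add (h3.trans (by gcongr)) (mul_le_mul_right h5 _)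
    _ = _ := by ring

/-- the upgrade from the weight to its local supremum -/
theorem upgrade (h : Ctx C₀ C₁ ℓ K x₀ μ m D n ζ p) {Cb : ℝ≥0} {b : E d → ℝ≥0∞}
    (hb : Measurable b) (k : ℕ)
    (H : ∀ x y y' : E d, y ∈ ball x (16 * sc ℓ k) → y' ∈ ball x (16 * sc ℓ k) →
      ENNReal.ofReal (dif p n k y y') ≤ Cb * ENNReal.ofReal (‖y - y'‖ / sc ℓ k) * b x) :
    ∫⁻ x, supf (p k k) (16 * sc ℓ k) x * nm (m (k + 3)) (sc ℓ k) 16 x ≤
      ENNReal.ofReal (16 ^ d * vb d 1) * (∫⁻ y, ENNReal.ofReal (p k k y) * ‖m (k + 3) y‖ₑ) +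
        32 * Cb * ∫⁻ x, b x * nm (m (k + 3)) (sc ℓ k) 16 x := by
  have hl := sc_pos h.pos k
  have hw := h.fam.lev.meas (k + 3)
  have hw' : Measurable fun y => p k k y • m (k + 3) y := (h.wts.cont k k).measurable.smul hw
  have en : ∀ y, ‖p k k y • m (k + 3) y‖ₑ = ENNReal.ofReal (p k k y) * ‖m (k + 3) y‖ₑ := fun y => by
    rw [enorm_smul, Real.enorm_eq_ofReal (h.wts.nonneg k k y)]
  have h1 := lintegral_nm hw' hl (show (0 : ℝ) < 16 by norm_num)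
  simp only [VV, en] at h1
  have hsup : ∀ x, ∀ y ∈ ball x (16 * sc ℓ k),
      supf (p k k) (16 * sc ℓ k) x ≤ ENNReal.ofReal (p k k y) + 32 * Cb * b x := by
    intro x y hy
    refine supf_le fun y' hy' => ?_
    have a1 : p k k y' ≤ p k k y + dif p n k y' y := by
      linarith [le_abs_self (p k k y' - p k k y), p_sub_le p n k y' y]
    have a2 : ‖y' - y‖ / sc ℓ k ≤ 32 := by
      rw [div_le_iff₀ hl, ← dist_eq_norm]
      linarith [dist_triangle_right y' y x, mem_ball.1 hy, mem_ball.1 hy']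
    have a3 : ENNReal.ofReal (‖y' - y‖ / sc ℓ k) ≤ 32 := by
      exact (ENNReal.ofReal_le_ofReal a2).trans (ENNReal.ofReal_ofNat 32).le
    refine (ENNReal.ofReal_le_ofReal a1).trans (ENNReal.ofReal_add_le.trans ?_)
    refine add_le_add_right ((H x y' y hy' hy).trans ?_) _
    rw [mul_comm 32]
    gcongr
  rw [← h1, ← lintegral_const_mul _ (hb.fun_mul (measurable_nm hw _ _)),
    ← lintegral_add_left (measurable_nm hw' _ _)]
  refine lintegral_mono fun x => ?_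
  simp only [nm, mass, en]
  rw [mul_left_comm, mul_left_comm (b x), mul_left_comm (32 * (Cb : ℝ≥0∞)), ← mul_add,
    ← mul_assoc (32 * (Cb : ℝ≥0∞)), ← lintegral_const_mul _ hw.enorm,
    ← lintegral_const_mul _ hw.enorm, ← lintegral_add_right _ (hw.enorm.const_mul _)]
  refine mul_le_mul_right (setLIntegral_mono' measurableSet_ball fun y hy => ?_) _
  rw [← add_mul]
  exact mul_le_mul_left (hsup x y hy) _

end Ctx

end PackAux

open PackAux in
theorem pack (d : ℕ) (hd : 1 ≤ d) (ho : OneStmt d) (hb : BetaStmt d) (hs : SumStmt d) :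
    PackStmt d := by
  intro C₀ C₁
  obtain ⟨Cb, hb⟩ := hb C₀ C₁
  obtain ⟨Cs, hs⟩ := hs C₀ C₁
  have hd0 : (0 : ℝ) < d := by exact_mod_cast hd
  have hE : 0 < (cc d / 3) ^ 2 := by unfold cc; positivity
  have hv : 0 < vb d 1 := vb_pos one_pos
  obtain ⟨η, C, hη0, hη1, H⟩ := arith ⟨_, hE.le⟩ ⟨_, hv.le⟩ ⟨16 ^ d * vb d 1, by positivity⟩ C₀ Cb Cs
    d hE hv
  refine ⟨C, fun ℓ K x₀ μ m D n ζ p h => ?_⟩
  have hbm := measurable_bet η ℓ h.dirs.cont h.wts.cont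
  have hb' := hb ℓ K x₀ μ m D n ζ p h η hη0 hη1
  have hs' := hs ℓ K x₀ μ m D n ζ p h η hη0 hη1
  set o : ℕ → E d → ℝ≥0∞ := fun k y => ⨅ x ∈ ball y (sc ℓ k), Cb * bet η ℓ n p k x with hodef
  refine H _ _ (∑ k ∈ Finset.range (K + 1), ∫⁻ y, ENNReal.ofReal (p k k y) * ‖m (k + 3) y‖ₑ)
    (∑ k ∈ Finset.range (K + 1), ∫⁻ y, o k y * ‖m (k + 3 + 1) y‖ₑ) _ _ (S_ne h) (V_ne h) ?_ ?_
    ((hs' 1 1 (Or.inl (by norm_num))).trans ?_) ?_ ((hs' 0 16 (Or.inr ⟨rfl, le_rfl⟩)).trans ?_)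
  · refine (tele h rfl).trans (add_le_add_right ?_ _)
    rw [Finset.mul_sum]
    refine Finset.sum_le_sum fun k _ => ?_
    have hl := sc_pos h.pos k
    refine ho m μ (64 * ℓ) (K + 3) (by linarith [h.pos]) h.fam.lev (k + 3) (NN p n k) 1
      (NN_cont h k).measurable (NN_le h k) (o k) fun y y' hy => le_iInf₂ fun x hx => ?_
    rw [sc_level] at hy
    have a1 : y ∈ ball x (16 * sc ℓ k) := by
      rw [mem_ball, dist_comm]
      linarith [mem_ball.1 hx]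
    have a2 : y' ∈ ball x (16 * sc ℓ k) := by
      rw [← dist_eq_norm] at hy
      rw [mem_ball]
      linarith [mem_ball.1 hx, dist_triangle_right y' x y]
    have a3 : ENNReal.ofReal (‖y' - y‖ / sc ℓ k) ≤ 1 :=
      ENNReal.ofReal_le_one.2 ((div_le_one hl).2 hy)
    rw [← ofReal_norm]
    refine (ENNReal.ofReal_le_ofReal (NN_sub_le p n k y' y)).trans ((hb' k x y' y a2 a1).trans ?_)
    exact mul_le_mul_left (mul_le_of_le_one_right zero_le a3) _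
  · rw [Finset.mul_sum, Finset.mul_sum]
    refine Finset.sum_le_sum fun k _ => ?_
    have := loc (a := o k) ((hbm k).const_mul (Cb : ℝ≥0∞)) (h.fam.lev.meas (k + 3 + 1))
      (sc_pos h.pos k) fun x y hy => iInf₂_le x (mem_ball_comm.1 hy)
    rw [ENNReal.ofReal_eq_coe_nnreal hv.le] at this
    refine this.trans (le_of_eq ?_)
    rw [← lintegral_const_mul' _ _ ENNReal.coe_ne_top]
    simp only [mul_assoc]
  · rw [Nat.cast_one, one_add_one_eq_two]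
  · rw [Finset.mul_sum, Finset.mul_sum, ← Finset.sum_add_distrib]
    refine Finset.sum_le_sum fun k _ => ?_
    have := upgrade h (hbm k) k (hb' k)
    rw [ENNReal.ofReal_eq_coe_nnreal (by positivity)] at this
    exact this
  · gcongr
    rw [Nat.cast_zero, zero_add]
    exact one_le_two

end Vale.Agent.P137
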