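import Vale.Agent.P137.Basic

open MeasureTheory Metric Set Filter
open scoped ENNReal NNReal Topology

namespace Vale.Agent.P137

namespace PathAux

variable {d : ℕ} {X : Type} [MeasurableSpace X]

/-- the normalised rescaled field on the ball with centre `c p` and radius `r p` -/
noncomputable def ker (c : X → E d) (r : X → ℝ) (Q : X → E d → E d) (p : X) (y : E d) : E d :=
  if ‖y - c p‖ < r p then (vb d (r p))⁻¹ • Q p ((r p)⁻¹ • (y - c p)) else 0

theorem measurable_vb : Measurable (vb d) := Monotone.measurable fun _ _ h => vb_mono h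

theorem measurable_ker {c : X → E d} {r : X → ℝ} {Q : X → E d → E d} (hc : Measurable c)
    (hr : Measurable r) (hQ : Measurable (Function.uncurry Q)) :
    Measurable fun q : X × E d => ker c r Q q.1 q.2 := by
  have h1 : Measurable fun q : X × E d => q.2 - c q.1 := measurable_snd.sub (hc.comp measurable_fst)
  have h2 : Measurable fun q : X × E d => r q.1 := hr.comp measurable_fst
  exact Measurable.ite (measurableSet_lt h1.norm h2)
    ((measurable_vb.comp h2).inv.smul (hQ.comp (measurable_fst.prodMk (h2.inv.smul h1))))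
    measurable_const

omit [MeasurableSpace X] in
theorem norm_ker_le {c : X → E d} {r : X → ℝ} {Q : X → E d → E d} {p : X} {a B : ℝ} (ha : 0 < a)
    (hr : a ≤ r p) (hB : ∀ w, ‖w‖ ≤ 1 → ‖Q p w‖ ≤ B) (y : E d) :
    ‖ker c r Q p y‖ ≤ (vb d a)⁻¹ * B := by
  have h0 : 0 ≤ B := (norm_nonneg _).trans (hB 0 (by simp))
  have h1 : 0 < vb d a := vb_pos ha
  have h2 : 0 < r p := ha.trans_le hr
  rw [ker]
  split_ifs with h
  · rw [norm_smul, Real.norm_of_nonneg (inv_nonneg.2 (vb_nonneg _))]
    refine mul_le_mul (inv_anti₀ h1 (vb_mono hr)) (hB _ ?_) (norm_nonneg _) (by positivity)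
    rw [norm_smul, Real.norm_of_nonneg (inv_nonneg.2 h2.le), inv_mul_le_iff₀ h2, mul_one]
    exact h.le
  · rw [norm_zero]
    positivity

omit [MeasurableSpace X] in
theorem avg_eq (μ : E d → E d) (c : X → E d) (r : X → ℝ) (Q : X → E d → E d) (p : X) :
    avg μ (c p) (r p) (Q p) = ∫ y, inner ℝ (μ y) (ker c r Q p y) := by
  rw [avg, ← integral_const_mul, ← integral_indicator measurableSet_ball]
  refine integral_congr_ae (Eventually.of_forall fun y => ?_)
  beta_reduce
  rw [ker]
  split_ifs with h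
  · rw [indicator_of_mem (mem_ball_iff_norm.2 h), real_inner_smul_right]
  · rw [indicator_of_notMem fun h' => h (mem_ball_iff_norm.1 h'), inner_zero_right]

theorem integrable_ker (ν : Measure X) [IsFiniteMeasure ν] {μ : E d → E d} (hμ : Integrable μ)
    {c : X → E d} {r : X → ℝ} {Q : X → E d → E d} (hc : Measurable c) (hr : Measurable r)
    (hQ : Measurable (Function.uncurry Q)) {a B : ℝ} (ha : 0 < a)
    (hb : ∀ᵐ p ∂ν, a ≤ r p ∧ ∀ w, ‖w‖ ≤ 1 → ‖Q p w‖ ≤ B) :
    Integrable (fun q : X × E d => inner ℝ (μ q.2) (ker c r Q q.1 q.2)) (ν.prod volume) := by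
  refine Integrable.mono' ((hμ.norm.mul_const ((vb d a)⁻¹ * B)).comp_snd ν)
    (hμ.1.comp_snd.inner (measurable_ker hc hr hQ).aestronglyMeasurable) ?_
  filter_upwards [Measure.quasiMeasurePreserving_fst.ae hb] with q hq
  exact (norm_inner_le_norm _ _).trans
    (mul_le_mul_of_nonneg_left (norm_ker_le ha hq.1 hq.2 _) (norm_nonneg _))

theorem abs_avg_le {μ : E d → E d} (hμ : Integrable μ) (x : E d) {s a B : ℝ} {P : E d → E d}
    (ha : 0 < a) (hs : a ≤ s) (hB : ∀ w, ‖w‖ ≤ 1 → ‖P w‖ ≤ B) :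
    ‖avg μ x s P‖ ≤ (vb d a)⁻¹ * (∫ y, ‖μ y‖) * B := by
  have h := avg_eq μ (fun _ : Unit => x) (fun _ => s) (fun _ => P) ()
  beta_reduce at h
  rw [h, mul_right_comm, mul_comm, ← integral_mul_const]
  refine norm_integral_le_of_norm_le (hμ.norm.mul_const _) (Eventually.of_forall fun y => ?_)
  exact (norm_inner_le_norm _ _).trans
    (mul_le_mul_of_nonneg_left (norm_ker_le (c := fun _ : Unit => x) (r := fun _ => s)
      (Q := fun _ => P) (p := ()) ha hs hB y) (norm_nonneg _))

theorem integrableOn_avg {μ : E d → E d} (hμ : Integrable μ) (x : E d) (s : ℝ) {P : E d → E d}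
    (hP : Continuous P) :
    IntegrableOn (fun y => inner ℝ (μ y) (P (s⁻¹ • (y - x)))) (ball x s) := by
  have h1 : Continuous fun y : E d => P (s⁻¹ • (y - x)) := by fun_prop
  obtain ⟨B, hB⟩ := (isCompact_closedBall x s).exists_bound_of_continuousOn h1.continuousOn
  refine Integrable.mono' (hμ.norm.mul_const B).restrict
    (hμ.1.inner h1.aestronglyMeasurable).restrict
    (ae_restrict_of_forall_mem measurableSet_ball fun y hy => ?_)
  exact (norm_inner_le_norm _ _).trans
    (mul_le_mul_of_nonneg_left (hB y (ball_subset_closedBall hy)) (norm_nonneg _))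

theorem avg_add_smul {μ : E d → E d} (hμ : Integrable μ) (x : E d) (s κ : ℝ) {P W : E d → E d}
    (hP : Continuous P) (hW : Continuous W) :
    avg μ x s (fun w => P w + κ • W w) = avg μ x s P + κ * avg μ x s W := by
  simp only [avg, inner_add_right, real_inner_smul_right]
  rw [integral_add (integrableOn_avg hμ x s hP) ((integrableOn_avg hμ x s hW).const_mul κ),
    integral_const_mul]
  ring

theorem continuous_Wf (e : E d) : Continuous (Wf e) := by
  unfold Wf
  fun_prop

theorem exists_bound {P : ℝ → E d → E d} (hP : Continuous (Function.uncurry P)) :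
    ∃ B, ∀ θ ∈ Icc (0 : ℝ) 1, ∀ w, ‖w‖ ≤ 1 → ‖P θ w‖ ≤ B := by
  obtain ⟨B, hB⟩ := ((isCompact_Icc (a := (0 : ℝ)) (b := 1)).prod
    (isCompact_closedBall (0 : E d) 1)).exists_bound_of_continuousOn hP.continuousOn
  exact ⟨B, fun θ hθ w hw => hB (θ, w) ⟨hθ, mem_closedBall_zero_iff.2 hw⟩⟩

theorem measurable_fst_param {P : ℝ → E d → E d} (hP : Continuous (Function.uncurry P)) :
    Measurable (Function.uncurry fun p : ℝ × ℝ => P p.1) :=
  hP.measurable.comp (f := fun q : (ℝ × ℝ) × E d => (q.1.1, q.2))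
    ((measurable_fst.comp measurable_fst).prodMk measurable_snd)

end PathAux

open PathAux

theorem cont (d : ℕ) (_hd : 1 ≤ d) : ContStmt d := by
  intro u μ z R h a x x' s s' ha hs hs' hx hx'
  have h1 := h.path x (x' - x) s (s' - s) (by linarith) (by linarith) hx
    (by rwa [add_sub_cancel, add_sub_cancel])
  rw [add_sub_cancel, add_sub_cancel] at h1
  rw [h1]
  have h2 := intervalIntegral.norm_integral_le_of_norm_le_const (a := 0) (b := 1)
    (f := fun t => avg μ (x + t • (x' - x)) (s + t * (s' - s)) fun w => x' - x + (s' - s) • w)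
    (C := (vb d a)⁻¹ * (∫ y, ‖μ y‖) * (‖x' - x‖ + |s' - s|)) fun t ht => by
      rw [uIoc_of_le zero_le_one] at ht
      refine abs_avg_le h.int _ ha (by nlinarith [ht.1, ht.2]) fun w hw => ?_
      refine (norm_add_le _ _).trans (add_le_add_right ?_ _)
      rw [norm_smul, Real.norm_eq_abs]
      exact mul_le_of_le_one_right (abs_nonneg _) hw
  rwa [sub_zero, abs_one, mul_one] at h2

theorem fub (d : ℕ) (_hd : 1 ≤ d) : FubStmt d := by
  intro μ hμ x ρ ω P hP hρ hω
  obtain ⟨B, hB⟩ := exists_bound hP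
  have hr : Measurable fun θ : ℝ => ρ + θ * ω := by fun_prop
  have hb : ∀ᵐ θ ∂volume.restrict (Ioc (0 : ℝ) 1),
      ρ ≤ ρ + θ * ω ∧ ∀ w, ‖w‖ ≤ 1 → ‖P θ w‖ ≤ B :=
    ae_restrict_of_forall_mem measurableSet_Ioc fun θ hθ =>
      ⟨by nlinarith [hθ.1], hB θ (Ioc_subset_Icc_self hθ)⟩
  have h1 := integrable_ker (volume.restrict (Ioc (0 : ℝ) 1)) hμ (c := fun _ => x)
    measurable_const hr hP.measurable hρ hb
  have h2 : ∀ y, inner ℝ (μ y) (Fld x ρ ω P y) = ∫ θ in Ioc (0 : ℝ) 1,
      inner ℝ (μ y) (ker (fun _ => x) (fun θ => ρ + θ * ω) P θ y) := by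
    intro y
    rw [Fld, intervalIntegral.integral_of_le zero_le_one]
    refine (integral_inner ?_ _).symm
    refine Integrable.of_bound (((measurable_ker (c := fun _ : ℝ => x) measurable_const hr
      hP.measurable).comp (measurable_id.prodMk measurable_const)).aestronglyMeasurable)
      ((vb d ρ)⁻¹ * B) ?_
    filter_upwards [hb] with θ hθ
    exact norm_ker_le (c := fun _ : ℝ => x) (r := fun θ => ρ + θ * ω) hρ hθ.1 hθ.2 y
  simp only [h2]
  rw [intervalIntegral.integral_of_le zero_le_one, ← integral_integral_swap h1]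
  exact integral_congr_ae (Eventually.of_forall fun θ =>
    (avg_eq μ (fun _ => x) (fun θ => ρ + θ * ω) P θ).symm)

theorem path (d : ℕ) (hd : 1 ≤ d) : PathStmt d := by
  intro u μ z R H x h e ρ ω b ω' κ hρ hρb hω hω' hx hx' A hA
  set P : ℝ → E d → E d := fun θ w => h + (b + θ * (ω' - ω)) • w + κ • Wf e w with hPdef
  have hW := continuous_Wf e
  have hP : Continuous (Function.uncurry P) := by
    refine Continuous.add ?_ ((hW.comp continuous_snd).const_smul κ)
    fun_prop
  obtain ⟨B, hB⟩ := exists_bound hP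
  set F : ℝ → ℝ → ℝ := fun θ t =>
    avg μ (x + t • h) (ρ + t * b + θ * (ω + t * (ω' - ω))) (P θ) with hF
  have hω2 : ∀ t ∈ Icc (0 : ℝ) 1, 0 ≤ ω + t * (ω' - ω) := fun t ht => by nlinarith [ht.1, ht.2]
  have hρ2 : ∀ t ∈ Icc (0 : ℝ) 1, min ρ (ρ + b) ≤ ρ + t * b := fun t ht => by
    nlinarith [ht.1, ht.2, min_le_left ρ (ρ + b), min_le_right ρ (ρ + b)]
  have ha : 0 < min ρ (ρ + b) := lt_min hρ hρb
  have hint : Integrable (Function.uncurry F)
      ((volume.restrict (Ioc (0 : ℝ) 1)).prod (volume.restrict (Ioc (0 : ℝ) 1))) := by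
    have h1 := integrable_ker
      ((volume.restrict (Ioc (0 : ℝ) 1)).prod (volume.restrict (Ioc (0 : ℝ) 1))) H.int
      (c := fun p : ℝ × ℝ => x + p.2 • h)
      (r := fun p => ρ + p.2 * b + p.1 * (ω + p.2 * (ω' - ω))) (Q := fun p => P p.1)
      (by fun_prop) (by fun_prop) (measurable_fst_param hP) (B := B) ha (by
        rw [Measure.prod_restrict]
        refine ae_restrict_of_forall_mem (measurableSet_Ioc.prod measurableSet_Ioc) fun p hp => ?_
        have k1 := Ioc_subset_Icc_self hp.1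
        have k2 := Ioc_subset_Icc_self hp.2
        exact ⟨(hρ2 _ k2).trans (le_add_of_nonneg_right (mul_nonneg k1.1 (hω2 _ k2))), hB _ k1⟩)
    refine h1.integral_prod_left.congr (Eventually.of_forall fun p => ?_)
    exact (avg_eq μ (fun p : ℝ × ℝ => x + p.2 • h)
      (fun p => ρ + p.2 * b + p.1 * (ω + p.2 * (ω' - ω))) (fun p => P p.1) p).symm
  have hθ : ∀ θ ∈ Icc (0 : ℝ) 1,
      u (x + h) (ρ + b + θ * ω') - u x (ρ + θ * ω) = ∫ t in (0 : ℝ)..1, F θ t := by
    intro θ hθ
    have e1 : ρ + θ * ω + (b + θ * (ω' - ω)) = ρ + b + θ * ω' := by ring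
    have p1 : 0 < ρ + θ * ω := by nlinarith [hθ.1]
    have p2 : 0 < ρ + b + θ * ω' := by nlinarith [hθ.1]
    have q1 : ‖x - z‖ + (ρ + θ * ω) ≤ R := by nlinarith [hθ.2]
    have q2 : ‖x + h - z‖ + (ρ + b + θ * ω') ≤ R := by nlinarith [hθ.2]
    have h1 := H.path x h (ρ + θ * ω) (b + θ * (ω' - ω)) p1 (e1 ▸ p2) q1 (e1 ▸ q2)
    rw [e1] at h1
    rw [h1]
    refine intervalIntegral.integral_congr fun t ht => ?_
    rw [uIcc_of_le zero_le_one] at ht
    have e2 : ρ + θ * ω + t * (b + θ * (ω' - ω)) = ρ + t * b + θ * (ω + t * (ω' - ω)) := by ring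
    have e3 : x + t • h - z = (1 - t) • (x - z) + t • (x + h - z) := by module
    have q3 : ‖x + t • h - z‖ ≤ (1 - t) * ‖x - z‖ + t * ‖x + h - z‖ := by
      rw [e3]
      refine (norm_add_le _ _).trans_eq ?_
      rw [norm_smul, norm_smul, Real.norm_of_nonneg (sub_nonneg.2 ht.2), Real.norm_of_nonneg ht.1]
    have h2 := H.curl (x + t • h) (ρ + t * b + θ * (ω + t * (ω' - ω))) e
      ((ha.trans_le (hρ2 t ht)).trans_le (le_add_of_nonneg_right (mul_nonneg hθ.1 (hω2 t ht))))
      (by
        have k1 := mul_le_mul_of_nonneg_left q1 (sub_nonneg.2 ht.2)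
        have k2 := mul_le_mul_of_nonneg_left q2 ht.1
        linarith)
    simp only [hF, hPdef]
    rw [avg_add_smul H.int _ _ κ (P := fun w => h + (b + θ * (ω' - ω)) • w) (by fun_prop) hW, h2,
      mul_zero, add_zero, e2]
  have hc : ∀ (y : E d) (r o : ℝ), 0 < r → 0 < o → ‖y - z‖ + r + o ≤ R →
      IntervalIntegrable (fun θ => u y (r + θ * o)) volume 0 1 := by
    intro y r o hr ho hy
    refine ContinuousOn.intervalIntegrable_of_Icc zero_le_one ?_
    exact ((cont d hd).continuousOn H (b := r + o) hr (by linarith)).comp (by fun_prop)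
      fun θ hθ => ⟨by nlinarith [hθ.1], by nlinarith [hθ.2]⟩
  rw [UU, UU, ← intervalIntegral.integral_sub (hc _ _ _ hρb hω' hx') (hc _ _ _ hρ hω hx),
    intervalIntegral.integral_congr (g := fun θ => ∫ t in (0 : ℝ)..1, F θ t)
      fun θ h1 => hθ θ (by rwa [uIcc_of_le zero_le_one] at h1)]
  simp only [intervalIntegral.integral_of_le zero_le_one]
  rw [integral_integral_swap hint]
  have h3 : A = ∫ _t in Ioc (0 : ℝ) 1, A := by simp
  rw [h3]
  refine setIntegral_mono_on (integrableOn_const (by simp)) hint.integral_prod_right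
    measurableSet_Ioc fun t ht => ?_
  have k2 := Ioc_subset_Icc_self ht
  have h4 := hA t k2
  rwa [fub d hd μ H.int _ _ _ P hP (ha.trans_le (hρ2 t k2)) (hω2 t k2),
    intervalIntegral.integral_of_le zero_le_one] at h4

end Vale.Agent.P137
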