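import Vale.Agent.P137.Basic

open MeasureTheory Metric Set Filter
open scoped ENNReal NNReal Topology

namespace Vale.Agent.P137

namespace RadAux

variable {d : ℕ}

theorem dfc_nonneg (e w : E d) : 0 ≤ dfc e w := le_max_right _ _

theorem le_dfc (e w : E d) : ‖w‖ - 2 * inner ℝ e w ≤ dfc e w := le_max_left _ _

theorem integrable_dfc (e : E d) {w : E d → E d} (hw : Integrable w) :
    Integrable fun y => dfc e (w y) :=
  (hw.norm.sub ((hw.const_inner e).const_mul 2)).pos_part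

theorem inner_two (e w : E d) : inner ℝ ((2 : ℝ) • e) w = 2 * inner ℝ e w :=
  real_inner_smul_left _ _ _

theorem tail_sum (J N : ℕ) : ∑ l ∈ Finset.Ico J N, (lam / 4) ^ l * lam ≤ 2 * (lam / 4) ^ J := by
  rw [← Finset.sum_mul]
  have h1 := geom_sum_Ico_le_of_lt_one (x := lam / 4) (m := J) (n := N)
    (by norm_num [lam]) (by norm_num [lam])
  have h2 : 0 ≤ (lam / 4) ^ J := by unfold lam; positivity
  have h3 : (lam / 4) ^ J / (1 - lam / 4) * lam ≤ 2 * (lam / 4) ^ J := by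
    rw [div_mul_eq_mul_div, div_le_iff₀ (by norm_num [lam])]
    have : lam = 29 / 28 := rfl
    nlinarith
  exact (mul_le_mul_of_nonneg_right h1 (by norm_num [lam])).trans h3

/-- The properties of the kernel that are used. -/
structure Kr (k : ℝ → ℝ) (c₀ C₀ r ω : ℝ) : Prop where
  anti : Antitone k
  bd : ∀ t, 0 ≤ k t ∧ k t ≤ C₀
  low : ∀ t, t < r → c₀ ≤ k t
  flat : ∀ t t', t < r → t' < r → k t = k t'
  zero : ∀ t, r + ω ≤ t → k t = 0
  lip : ∀ t t', |k t - k t'| ≤ C₀ / ω * |t - t'|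

theorem far {x z y : E d} {r ω : ℝ} (hx : ‖x - z‖ ≤ 3) (hr : r + ω ≤ 4) (hy : y ∉ ball z 10) :
    r + ω ≤ ‖y - x‖ := by
  rw [mem_ball_iff_norm, not_lt] at hy
  have := norm_add_le (y - x) (x - z)
  rw [sub_add_sub_cancel] at this
  linarith

/-- The telescoping inequality for the radial kernel. -/
theorem master (hp : PLStmt d) {m : ℕ → E d → E d} {μ : E d → E d} {K : ℕ} {e z : E d} {D : ℝ}
    (hw : WinL m μ K e z D) {k : ℝ → ℝ} {c₀ C₀ r ω : ℝ} (hk : Kr k c₀ C₀ r ω)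
    {x : E d} (hx : ‖x - z‖ ≤ 3) (hr : r + ω ≤ 4)
    (o : ℕ → E d → ℝ) (ho1 : ∀ l, Measurable (o l)) (ho2 : ∀ l, ∃ B', ∀ y, |o l y| ≤ B')
    (ho3 : ∀ l y, k ‖y - x‖ - k (‖y - x‖ + 3 / 4 ^ l) ≤ o l y) (j N : ℕ) (hj : j ≤ N)
    (hK : K ≤ N) :
    c₀ * (∫ y in ball x (r - 2 / 4 ^ j), ‖m j y‖) - C₀ * (lam ^ j * D) -
        ∑ l ∈ Finset.Ico j (N + 1), ∫ y, o l y * dfc e (m (l + 1) y) ≤
      2 * ∫ y, k ‖y - x‖ * inner ℝ e (μ y) := by
  have hC₀ : 0 ≤ C₀ := (hk.bd 0).1.trans (hk.bd 0).2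
  have h1 := hp m μ K hw.lev e ((2 : ℝ) • e)
    (fun w => by rw [inner_two]; linarith [le_dfc e w, norm_nonneg w])
    (fun y => -‖y - x‖) 1 zero_le_one
    (fun y y' => by
      have := abs_norm_sub_norm_le (y' - x) (y - x)
      rw [sub_sub_sub_cancel_right, norm_sub_rev y' y] at this
      rw [one_mul, neg_sub_neg]
      exact this)
    (fun t => k (-t)) C₀ (fun s t hst => hk.anti (neg_le_neg hst))
    (fun t => by rw [abs_of_nonneg (hk.bd _).1]; exact (hk.bd _).2) o ho1 ho2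
    (fun l y => by
      have := ho3 l y
      rwa [neg_neg, show -(-‖y - x‖ - 3 * 1 / 4 ^ l) = ‖y - x‖ + 3 / 4 ^ l by ring])
    j N hj (hK.trans (Nat.le_succ N))
  have e1 : ∫ y, k (-(-‖y - x‖)) * inner ℝ ((2 : ℝ) • e) (μ y) =
      2 * ∫ y, k ‖y - x‖ * inner ℝ e (μ y) := by
    rw [← integral_const_mul]
    refine integral_congr_ae (Eventually.of_forall fun y => ?_)
    simp only [neg_neg, inner_two]
    ring
  rw [e1, ← Finset.Ico_add_one_right_eq_Icc] at h1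
  refine le_trans ?_ h1
  have hm := hw.lev.int j
  have i1 : Integrable ((ball x (r - 2 / 4 ^ j)).indicator fun y => ‖m j y‖) :=
    hm.norm.indicator measurableSet_ball
  have i2 : Integrable ((ball z 10).indicator fun y => dfc e (m j y)) :=
    (integrable_dfc e hm).indicator measurableSet_ball
  have i3 : Integrable fun y => k (-(-‖y - x‖ - 2 * 1 / 4 ^ j)) * inner ℝ ((2 : ℝ) • e) (m j y) := by
    refine (hm.const_inner _).bdd_mul (c := C₀) ?_ (Eventually.of_forall fun y => ?_)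
    · exact (hk.anti.measurable.comp (by fun_prop)).aestronglyMeasurable
    · rw [Real.norm_of_nonneg (hk.bd _).1]; exact (hk.bd _).2
  have h2 := integral_mono ((i1.const_mul c₀).sub (i2.const_mul C₀)) i3 fun y => by
    have hs : (0 : ℝ) < 2 / 4 ^ j := by positivity
    have q0 := hk.bd (‖y - x‖ + 2 / 4 ^ j)
    have q1 : c₀ * (ball x (r - 2 / 4 ^ j)).indicator (fun y => ‖m j y‖) y ≤
        k (‖y - x‖ + 2 / 4 ^ j) * ‖m j y‖ := by
      by_cases hy : y ∈ ball x (r - 2 / 4 ^ j)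
      · rw [indicator_of_mem hy]
        rw [mem_ball_iff_norm] at hy
        exact mul_le_mul_of_nonneg_right (hk.low _ (by linarith)) (norm_nonneg _)
      · rw [indicator_of_notMem hy, mul_zero]
        exact mul_nonneg q0.1 (norm_nonneg _)
    have q2 : k (‖y - x‖ + 2 / 4 ^ j) * dfc e (m j y) ≤
        C₀ * (ball z 10).indicator (fun y => dfc e (m j y)) y := by
      by_cases hy : y ∈ ball z 10
      · rw [indicator_of_mem hy]
        exact mul_le_mul_of_nonneg_right q0.2 (dfc_nonneg _ _)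
      · rw [indicator_of_notMem hy, hk.zero _ (by linarith [far hx hr hy])]
        simp
    have q3 := mul_le_mul_of_nonneg_left (le_dfc e (m j y)) q0.1
    simp only [Pi.sub_apply, inner_two]
    rw [show -(-‖y - x‖ - 2 * 1 / 4 ^ j) = ‖y - x‖ + 2 / 4 ^ j by ring]
    nlinarith
  have e2 := integral_sub (i1.const_mul c₀) (i2.const_mul C₀)
  rw [integral_const_mul, integral_const_mul, integral_indicator measurableSet_ball,
    integral_indicator measurableSet_ball] at e2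
  have h3 := mul_le_mul_of_nonneg_left (hw.dfc_le j) hC₀
  have h4 : c₀ * (∫ y in ball x (r - 2 / 4 ^ j), ‖m j y‖) -
      C₀ * (∫ y in ball z 10, dfc e (m j y)) ≤
      ∫ y, k (-(-‖y - x‖ - 2 * 1 / 4 ^ j)) * inner ℝ ((2 : ℝ) • e) (m j y) := e2 ▸ h2
  linarith

theorem ind_meas {S : Set (E d)} (hS : MeasurableSet S) (c : ℝ) :
    Measurable (S.indicator fun _ => c) := measurable_const.indicator hS

theorem ind_bd (S : Set (E d)) (c : ℝ) : ∃ B', ∀ y, |S.indicator (fun _ => c) y| ≤ B' :=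
  ⟨|c|, fun y => by by_cases hy : y ∈ S <;> simp [hy]⟩

theorem ind_int {S : Set (E d)} (hS : MeasurableSet S) (c : ℝ) (f : E d → ℝ) :
    ∫ y, S.indicator (fun _ => c) y * f y = c * ∫ y in S, f y := by
  rw [← integral_const_mul, ← integral_indicator hS]
  refine integral_congr_ae (Eventually.of_forall fun y => ?_)
  by_cases hy : y ∈ S <;> simp [hy]

theorem tail_ok {k : ℝ → ℝ} {c₀ C₀ r ω : ℝ} (hk : Kr k c₀ C₀ r ω) {x z : E d}
    (hx : ‖x - z‖ ≤ 3) (hr : r + ω ≤ 4) (l : ℕ) (y : E d) :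
    k ‖y - x‖ - k (‖y - x‖ + 3 / 4 ^ l) ≤
      (ball z 10).indicator (fun _ => C₀ / ω * (3 / 4 ^ l)) y := by
  have hs : (0 : ℝ) < 3 / 4 ^ l := by positivity
  by_cases hy : y ∈ ball z 10
  · rw [indicator_of_mem hy]
    have := hk.lip ‖y - x‖ (‖y - x‖ + 3 / 4 ^ l)
    rw [sub_add_cancel_left, abs_neg, abs_of_pos hs] at this
    exact (le_abs_self _).trans this
  · rw [indicator_of_notMem hy, hk.zero _ (far hx hr hy)]
    linarith [(hk.bd (‖y - x‖ + 3 / 4 ^ l)).1]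

theorem shell_ok {k : ℝ → ℝ} {c₀ C₀ r ω : ℝ} (hk : Kr k c₀ C₀ r ω) {x z : E d}
    (hx : ‖x - z‖ ≤ 3) (hr : r + ω ≤ 4) (hω : 0 < ω) (l : ℕ) (y : E d) :
    k ‖y - x‖ - k (‖y - x‖ + 3 / 4 ^ l) ≤
      (ball z 10 ∩ {y | |‖y - x‖ - r| ≤ 3 / 4 ^ l + ω}).indicator (fun _ => C₀) y := by
  have hs : (0 : ℝ) < 3 / 4 ^ l := by positivity
  have q0 := (hk.bd (‖y - x‖ + 3 / 4 ^ l)).1
  by_cases hy : y ∈ ball z 10 ∩ {y | |‖y - x‖ - r| ≤ 3 / 4 ^ l + ω}
  · rw [indicator_of_mem hy]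
    linarith [(hk.bd ‖y - x‖).2]
  · rw [indicator_of_notMem hy]
    by_cases h1 : r + ω ≤ ‖y - x‖
    · rw [hk.zero _ h1]
      linarith
    · have h2 : y ∈ ball z 10 := by
        by_contra h2
        exact h1 (far hx hr h2)
      have h3 : 3 / 4 ^ l + ω < |‖y - x‖ - r| := not_le.1 fun h => hy ⟨h2, h⟩
      rcases lt_abs.1 h3 with h4 | h4
      · exact absurd (by linarith) h1
      · rw [hk.flat _ (‖y - x‖ + 3 / 4 ^ l) (by linarith) (by linarith), sub_self]

theorem tail_le {m : ℕ → E d → E d} {μ : E d → E d} {K : ℕ} {e z : E d} {D : ℝ}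
    (hw : WinL m μ K e z D) {C₀ ω : ℝ} (hC₀ : 0 < C₀) (hω : 0 < ω) (J N : ℕ) :
    ∑ l ∈ Finset.Ico J N, ∫ y, (ball z 10).indicator (fun _ => C₀ / ω * (3 / 4 ^ l)) y *
      dfc e (m (l + 1) y) ≤ 6 * C₀ * ((lam / 4) ^ J / ω * D) := by
  have hD := hw.Dpos
  have h1 : ∀ l ∈ Finset.Ico J N, ∫ y, (ball z 10).indicator (fun _ => C₀ / ω * (3 / 4 ^ l)) y *
      dfc e (m (l + 1) y) ≤ 3 * C₀ / ω * D * ((lam / 4) ^ l * lam) := by
    intro l _
    rw [ind_int measurableSet_ball]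
    refine (mul_le_mul_of_nonneg_left (hw.dfc_le (l + 1)) (by positivity)).trans_eq ?_
    rw [div_pow, pow_succ]
    ring
  refine (Finset.sum_le_sum h1).trans ?_
  rw [← Finset.mul_sum]
  refine (mul_le_mul_of_nonneg_left (tail_sum J N) (by positivity)).trans_eq ?_
  ring

end RadAux

open RadAux in
theorem rad (d : ℕ) (hd : 1 ≤ d) (hp : PLStmt d) (hk : KerStmt d) : RadStmt d := by
  obtain ⟨c₀, C₀, hc₀, hC₀, hk⟩ := hk
  refine ⟨6 * C₀ + 6 * C₀ / c₀, by positivity, ?_⟩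
  intro m μ K e z D hw x r ω J hx hr1 hω hr
  obtain ⟨k1, k2, k3, k4, k5, k6, -⟩ := hk r ω (by linarith) hω (by linarith)
  have hkr : Kr (kp d r ω) c₀ C₀ r ω := ⟨k1, k2, k3, k4, k5, k6⟩
  have hD := hw.Dpos
  have hlam : 0 < lam := by norm_num [lam]
  have hq : 0 < 6 * C₀ / c₀ := by positivity
  have hA : 0 < lam ^ J * D := by positivity
  have hB : 0 < (lam / 4) ^ J / ω * D := by positivity
  have m1 := master hp hw hkr hx hr
    (fun l => (ball z 10).indicator fun _ => C₀ / ω * (3 / 4 ^ l))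
    (fun l => ind_meas measurableSet_ball _) (fun l => ind_bd _ _) (tail_ok hkr hx hr)
    J (max J K) (le_max_left _ _) (le_max_right _ _)
  have t1 := tail_le hw hC₀ hω J (max J K + 1)
  have hI : ∀ j, 0 ≤ ∫ y in ball x (r - 2 / 4 ^ j), ‖m j y‖ := fun j =>
    integral_nonneg fun y => norm_nonneg _
  have hG : G0 μ e x r ω = ∫ y, kp d r ω ‖y - x‖ * inner ℝ e (μ y) := rfl
  rw [← hG] at m1
  refine ⟨?_, fun h0 => ?_, ?_⟩
  · have := mul_nonneg hc₀.le (hI J)
    have e1 : (6 * C₀ + 6 * C₀ / c₀) * (lam ^ J + (lam / 4) ^ J / ω) * D =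
        6 * C₀ * (lam ^ J * D) + 6 * C₀ * ((lam / 4) ^ J / ω * D) +
          6 * C₀ / c₀ * (lam ^ J * D + (lam / 4) ^ J / ω * D) := by ring
    rw [e1]
    nlinarith [mul_pos hq (add_pos hA hB), mul_pos hC₀ hA, mul_pos hC₀ hB]
  · have h1 : c₀ * (∫ y in ball x (r - 2 / 4 ^ J), ‖m J y‖) ≤
        6 * C₀ * (lam ^ J * D + (lam / 4) ^ J / ω * D) := by
      nlinarith [mul_pos hC₀ hA]
    have h2 : ∫ y in ball x (r - 2 / 4 ^ J), ‖m J y‖ ≤
        6 * C₀ / c₀ * (lam ^ J * D + (lam / 4) ^ J / ω * D) := by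
      rw [div_mul_eq_mul_div, le_div_iff₀ hc₀]
      linarith
    have e1 : (6 * C₀ + 6 * C₀ / c₀) * (lam ^ J + (lam / 4) ^ J / ω) * D =
        6 * C₀ * (lam ^ J * D + (lam / 4) ^ J / ω * D) +
          6 * C₀ / c₀ * (lam ^ J * D + (lam / 4) ^ J / ω * D) := by ring
    rw [e1]
    nlinarith [mul_pos hC₀ (add_pos hA hB)]
  · have hS : ∀ l : ℕ, MeasurableSet (ball z 10 ∩ {y : E d | |‖y - x‖ - r| ≤ 3 / 4 ^ l + ω}) :=
      fun l => measurableSet_ball.inter (measurableSet_le (by fun_prop) measurable_const)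
    have m2 := master hp hw hkr hx hr
      (fun l => if l < J then
        (ball z 10 ∩ {y | |‖y - x‖ - r| ≤ 3 / 4 ^ l + ω}).indicator fun _ => C₀
        else (ball z 10).indicator fun _ => C₀ / ω * (3 / 4 ^ l))
      (fun l => by
        split_ifs
        · exact ind_meas (hS l) _
        · exact ind_meas measurableSet_ball _)
      (fun l => by split_ifs <;> exact ind_bd _ _)
      (fun l y => by
        split_ifs
        · exact shell_ok hkr hx hr hω l y
        · exact tail_ok hkr hx hr l y)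
      0 (max J K) (Nat.zero_le _) (le_max_right _ _)
    rw [← hG, ← Finset.sum_Ico_consecutive _ (Nat.zero_le J)
      ((le_max_left J K).trans (Nat.le_succ _)), ← Finset.range_eq_Ico,
      Finset.sum_congr rfl fun l hl => by rw [if_pos (Finset.mem_range.1 hl), ind_int (hS l)],
      Finset.sum_congr (s₁ := Finset.Ico J _) rfl fun l hl => by
        rw [if_neg (not_lt.2 (Finset.mem_Ico.1 hl).1)], ← Finset.mul_sum] at m2
    have hsh : 0 ≤ shsum m e z x r ω J :=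
      Finset.sum_nonneg fun l _ => integral_nonneg fun y => dfc_nonneg _ _
    have m3 : c₀ * (∫ y in ball x (r - 2 / 4 ^ 0), ‖m 0 y‖) - C₀ * D -
        (C₀ * shsum m e z x r ω J + 6 * C₀ * ((lam / 4) ^ J / ω * D)) ≤ 2 * G0 μ e x r ω := by
      rw [pow_zero lam, one_mul] at m2
      unfold shsum
      linarith
    have := mul_nonneg hc₀.le (hI 0)
    have e1 : (6 * C₀ + 6 * C₀ / c₀) * (1 + (lam / 4) ^ J / ω) * D +
        (6 * C₀ + 6 * C₀ / c₀) * shsum m e z x r ω J =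
        6 * C₀ * D + 6 * C₀ * ((lam / 4) ^ J / ω * D) + 6 * C₀ * shsum m e z x r ω J +
          6 * C₀ / c₀ * (D + (lam / 4) ^ J / ω * D + shsum m e z x r ω J) := by ring
    rw [e1]
    nlinarith [mul_nonneg hq.le (add_nonneg (add_pos hD hB).le hsh), mul_pos hC₀ hD,
      mul_pos hC₀ hB, mul_nonneg hC₀.le hsh]

end Vale.Agent.P137
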