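import Vale.Agent.P137.Basic

/-! Centres of balls with little mass inside and two heavy caps are rare. -/

open MeasureTheory Metric Set Filter
open scoped ENNReal NNReal Topology

namespace Vale.Agent.P137

namespace RareAux

variable {d : ℕ}

/-- Height above the cone of slope `a`. -/
noncomputable def ht (e : E d) (a : ℝ) (u : E d) : ℝ := inner ℝ u e - a * ‖u‖

/-- The region above the cone with vertex `x`. -/
def cone (e : E d) (a φ : ℝ) (x : E d) : Set (E d) := {y | φ / 2 ≤ ht e a (y - x)}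

/-- The part of a shell well above the cone. -/
def top (e : E d) (a φ w : ℝ) (x : E d) (ρ : ℝ) : Set (E d) :=
  {y | ρ ≤ ‖y - x‖ ∧ ‖y - x‖ ≤ ρ + w ∧ 3 / 4 * φ ≤ ht e a (y - x)}

/-- Bad centres for the slope `a` and the radius `ρ`. -/
def bad (ν : Measure (E d)) (e : E d) (Λ H a φ w ρ : ℝ) : Set (E d) :=
  {x | ν.real (ball x ρ) ≤ Λ ∧ H ≤ ν.real (top e a φ w x ρ) ∧ H ≤ ν.real (top (-e) (-a) φ w x ρ)}

/-- Bad centres for the slope `a`. -/
def badA (ν : Measure (E d)) (e : E d) (Λ H a φ w : ℝ) : Set (E d) :=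
  ⋃ (ρ : ℚ) (_ : (ρ : ℝ) ≤ 4), bad ν e Λ H a φ w ρ

variable {e : E d} {a φ w : ℝ}

theorem ht_sub_le (he : ‖e‖ = 1) (ha : |a| ≤ 1) (y x x' : E d) :
    ht e a (y - x) - 2 * ‖x - x'‖ ≤ ht e a (y - x') := by
  have e1 : y - x - (y - x') = x' - x := by abel
  have h1 : inner ℝ (y - x) e - inner ℝ (y - x') e ≤ ‖x - x'‖ := by
    rw [← inner_sub_left, e1, norm_sub_rev]
    simpa [he] using real_inner_le_norm (x' - x) e
  have h2 : |‖y - x‖ - ‖y - x'‖| ≤ ‖x - x'‖ := by
    rw [norm_sub_rev x, ← e1]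
    exact abs_norm_sub_norm_le _ _
  have h3 : |a * (‖y - x‖ - ‖y - x'‖)| ≤ ‖x - x'‖ := by
    rw [abs_mul]
    exact (mul_le_of_le_one_left (abs_nonneg _) ha).trans h2
  unfold ht
  linarith [neg_abs_le (a * (‖y - x‖ - ‖y - x'‖))]

theorem geo {t δ ρ ρ' : ℝ} {u : E d} (ht0 : 0 ≤ t) (hw : 0 ≤ w) (h1 : δ ≤ ht e a u)
    (h2 : ‖u + t • e‖ ≤ ρ + w) (h3 : ρ ≤ ρ' + a * t) (h4 : ρ' ≤ ‖u‖) (h5 : ‖u‖ ≤ 5) :
    t * δ ≤ 5 * w := by
  have h6 := real_inner_le_norm (u + t • e) u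
  rw [inner_add_left, real_inner_smul_left, real_inner_self_eq_norm_sq, real_inner_comm] at h6
  have h7 := mul_le_mul_of_nonneg_left h1 ht0
  have h8 : ‖u‖ * (‖u + t • e‖ - ‖u‖ - a * t) ≤ ‖u‖ * w :=
    mul_le_mul_of_nonneg_left (by linarith) (norm_nonneg _)
  unfold ht at h7
  nlinarith

theorem measurableSet_top (x : E d) (ρ : ℝ) : MeasurableSet (top e a φ w x ρ) := by
  unfold top ht
  measurability

theorem jump (ν : Measure (E d)) [IsFiniteMeasure ν] (he : ‖e‖ = 1) (ha : |a| ≤ 1) (h0 : 0 < φ)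
    (h1 : φ ≤ 1 / 4) (hw : 0 ≤ w) (hw' : w ≤ 1 / 2) {x0 x x' : E d} {t ρ ρ' : ℝ}
    (hx : x' = x + t • e) (n1 : ‖x - x0‖ ≤ φ / 16) (n2 : ‖x' - x0‖ ≤ φ / 16) (hρ : ρ ≤ 4)
    (hr : ρ ≤ ρ' + a * t) (htt : 14 * w / φ < t) :
    ν.real (ball x ρ ∩ cone e a φ x0) + ν.real (top e a φ w x ρ) ≤
      ν.real (ball x' ρ' ∩ cone e a φ x0) := by
  have t0 : 0 ≤ t := le_trans (by positivity) htt.le
  have key : ∀ y ∈ cone e a φ x0, ‖y - x‖ ≤ ρ + w → y ∈ ball x' ρ' := by
    intro y hy h2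
    by_contra h3
    rw [mem_ball_iff_norm, not_lt] at h3
    have h4 := ht_sub_le he ha y x0 x'
    rw [norm_sub_rev x0] at h4
    have h5 : φ / 2 ≤ ht e a (y - x0) := hy
    have e1 : y - x' + t • e = y - x := by rw [hx]; abel
    have h6 : ‖y - x'‖ ≤ 5 := by
      have a1 := norm_sub_le_norm_sub_add_norm_sub y x x'
      have a2 := norm_sub_le_norm_sub_add_norm_sub x x0 x'
      rw [norm_sub_rev x0] at a2
      linarith
    have h7 := geo (δ := 3 / 8 * φ) t0 hw (by linarith) (e1 ▸ h2) hr h3 h6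
    rw [div_lt_iff₀ h0] at htt
    linarith
  rw [← measureReal_union ?_ (measurableSet_top x ρ)]
  · refine measureReal_mono (union_subset (fun y hy => ⟨key y hy.2 ?_, hy.2⟩) fun y hy => ?_)
    · linarith [mem_ball_iff_norm.1 hy.1]
    · have h2 : y ∈ cone e a φ x0 := by
        have h3 := ht_sub_le he ha y x x0
        change φ / 2 ≤ _
        linarith [hy.2.2]
      exact ⟨key y h2 hy.2.1, h2⟩
  · exact disjoint_left.2 fun y hy hy' => (mem_ball_iff_norm.1 hy.1).not_ge hy'.1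

/-- Counting labels. -/
theorem vol_le {T : Set ℝ} {α β : ℝ → ℝ} {Λ H D : ℝ} (hΛ : 0 ≤ Λ) (hH : 0 < H)
    (hα : ∀ s ∈ T, 0 ≤ α s ∧ α s ≤ Λ) (hβ : ∀ s ∈ T, 0 ≤ β s ∧ β s ≤ Λ)
    (h : ∀ s ∈ T, ∀ s' ∈ T, s + D < s' → α s + H ≤ α s' ∨ β s' + H ≤ β s) :
    volume T ≤ ENNReal.ofReal ((Λ / H + 1) ^ 2 * D) := by
  set n := ⌊Λ / H⌋₊ + 1 with hn
  have fl : ∀ u v : ℝ, 0 ≤ u → u + H ≤ v → ⌊u / H⌋₊ ≠ ⌊v / H⌋₊ := by
    intro u v hu huv
    have h1 : u / H + 1 ≤ v / H := by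
      rw [← div_self hH.ne', ← add_div]
      gcongr
    have h2 := Nat.floor_mono h1
    rw [Nat.floor_add_one (by positivity)] at h2
    omega
  have cover : T ⊆ ⋃ q ∈ Finset.range n ×ˢ Finset.range n,
      {s ∈ T | ⌊α s / H⌋₊ = q.1 ∧ ⌊β s / H⌋₊ = q.2} := by
    intro s hs
    refine mem_biUnion (x := (⌊α s / H⌋₊, ⌊β s / H⌋₊)) ?_ ⟨hs, rfl, rfl⟩
    simp only [Finset.mem_coe, Finset.mem_product, hn, Finset.mem_range_succ_iff]
    exact ⟨Nat.floor_mono (by gcongr; exact (hα s hs).2),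
      Nat.floor_mono (by gcongr; exact (hβ s hs).2)⟩
  have piece : ∀ q : ℕ × ℕ, volume {s ∈ T | ⌊α s / H⌋₊ = q.1 ∧ ⌊β s / H⌋₊ = q.2} ≤
      ENNReal.ofReal D := by
    intro q
    have h1 : ∀ s ∈ {s ∈ T | ⌊α s / H⌋₊ = q.1 ∧ ⌊β s / H⌋₊ = q.2},
        ∀ s' ∈ {s ∈ T | ⌊α s / H⌋₊ = q.1 ∧ ⌊β s / H⌋₊ = q.2}, s' - s ≤ D := by
      intro s hs s' hs'
      by_contra h2
      rcases h s hs.1 s' hs'.1 (by linarith) with h3 | h3
      · exact fl _ _ (hα s hs.1).1 h3 (hs.2.1.trans hs'.2.1.symm)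
      · exact fl _ _ (hβ s' hs'.1).1 h3 (hs'.2.2.trans hs.2.2.symm)
    refine (Real.volume_le_diam _).trans (ediam_le fun s hs s' hs' => ?_)
    rw [edist_dist, Real.dist_eq]
    exact ENNReal.ofReal_le_ofReal (abs_sub_le_iff.2 ⟨h1 s' hs' s hs, h1 s hs s' hs'⟩)
  refine (measure_mono cover).trans ((measure_biUnion_finset_le _ _).trans
    ((Finset.sum_le_card_nsmul _ _ _ fun q _ => piece q).trans ?_))
  rw [Finset.card_product, Finset.card_range, nsmul_eq_mul, ENNReal.ofReal_mul (by positivity),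
    ← ENNReal.ofReal_natCast]
  refine mul_le_mul_left (ENNReal.ofReal_le_ofReal ?_) _
  have h1 : (n : ℝ) ≤ Λ / H + 1 := by
    rw [hn]
    push_cast
    linarith [Nat.floor_le (show 0 ≤ Λ / H by positivity)]
  rw [Nat.cast_mul, sq]
  exact mul_self_le_mul_self (by positivity) h1

/-- The line lemma. -/
theorem line (ν : Measure (E d)) [IsFiniteMeasure ν] (he : ‖e‖ = 1) (ha : |a| ≤ 1) (h0 : 0 < φ)
    (h1 : φ ≤ 1 / 4) (hw : 0 ≤ w) (hw' : w ≤ 1 / 2) {Λ H : ℝ} (hΛ : 0 ≤ Λ) (hH : 0 < H)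
    (x0 : E d) : volume {s ∈ Icc 0 (φ / 16) | x0 + s • e ∈ badA ν e Λ H a φ w} ≤
      ENNReal.ofReal ((Λ / H + 1) ^ 2 * (14 * w / φ)) := by
  have ex : ∀ s : ℝ, ∃ ρ : ℝ, x0 + s • e ∈ badA ν e Λ H a φ w →
      ρ ≤ 4 ∧ x0 + s • e ∈ bad ν e Λ H a φ w ρ := by
    intro s
    by_cases hs : x0 + s • e ∈ badA ν e Λ H a φ w
    · obtain ⟨ρ, h2, h3⟩ := mem_iUnion₂.1 hs
      exact ⟨ρ, fun _ => ⟨h2, h3⟩⟩
    · exact ⟨0, fun h => (hs h).elim⟩
  choose ρ hρ using ex
  have nn : ∀ s ∈ Icc 0 (φ / 16), ‖x0 + s • e - x0‖ ≤ φ / 16 := fun s hs => by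
    rw [add_sub_cancel_left, norm_smul, he, mul_one, Real.norm_eq_abs, abs_of_nonneg hs.1]
    exact hs.2
  refine vol_le (α := fun s => ν.real (ball (x0 + s • e) (ρ s) ∩ cone e a φ x0))
    (β := fun s => ν.real (ball (x0 + s • e) (ρ s) ∩ cone (-e) (-a) φ x0)) hΛ hH
    (fun s hs => ⟨measureReal_nonneg, (measureReal_mono inter_subset_left).trans (hρ s hs.2).2.1⟩)
    (fun s hs => ⟨measureReal_nonneg, (measureReal_mono inter_subset_left).trans (hρ s hs.2).2.1⟩)
    fun s hs s' hs' hss => ?_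
  rcases le_total (ρ s) (ρ s' + a * (s' - s)) with h2 | h2
  · have := jump ν he ha h0 h1 hw hw' (x := x0 + s • e) (x' := x0 + s' • e) (t := s' - s)
      (by module) (nn s hs.1) (nn s' hs'.1) (hρ s hs.2).1 h2 (by linarith)
    exact Or.inl (by linarith [(hρ s hs.2).2.2.1])
  · have := jump ν (e := -e) (a := -a) (by rwa [norm_neg]) (by rwa [abs_neg]) h0 h1 hw hw'
      (x := x0 + s' • e) (x' := x0 + s • e) (t := s' - s) (ρ' := ρ s)
      (by module) (nn s' hs'.1) (nn s hs.1) (hρ s' hs'.2).1 (by linarith) (by linarith)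
    exact Or.inr (by linarith [(hρ s' hs'.2).2.2.2])

theorem tonelli {R : Set (E d)} (hR : MeasurableSet R) (he : ‖e‖ = 1) {L : ℝ} (hL : L ≤ 1)
    {B : ℝ≥0∞} (h : ∀ x0 : E d, volume {s ∈ Icc 0 L | x0 + s • e ∈ R} ≤ B) (z : E d) :
    volume (R ∩ ball z 3) * ENNReal.ofReal L ≤ B * volume (ball z 4) := by
  set W : Set (ℝ × E d) := {q | q.1 ∈ Icc 0 L ∧ q.2 ∈ ball z 4 ∧ q.2 + q.1 • e ∈ R} with hW
  have hm : MeasurableSet W :=
    (measurable_fst measurableSet_Icc).inter ((measurable_snd measurableSet_ball).inter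
      ((by fun_prop : Measurable fun q : ℝ × E d => q.2 + q.1 • e) hR))
  calc volume (R ∩ ball z 3) * ENNReal.ofReal L
      = ∫⁻ s, (Icc 0 L).indicator (fun _ => volume (R ∩ ball z 3)) s := by
        rw [lintegral_indicator_const measurableSet_Icc, Real.volume_Icc, sub_zero]
    _ ≤ ∫⁻ s, volume (Prod.mk s ⁻¹' W) := by
        refine lintegral_mono fun s => ?_
        by_cases hs : s ∈ Icc 0 L
        · rw [indicator_of_mem hs, ← measure_preimage_add_right volume (s • e)]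
          refine measure_mono fun y hy => ⟨hs, ?_, hy.1⟩
          have h1 := mem_ball_iff_norm.1 hy.2
          have h2 : ‖s • e‖ ≤ 1 := by
            rw [norm_smul, he, mul_one, Real.norm_eq_abs, abs_of_nonneg hs.1]
            exact hs.2.trans hL
          have h3 := norm_sub_le (y + s • e - z) (s • e)
          rw [show y + s • e - z - s • e = y - z by abel] at h3
          exact mem_ball_iff_norm.2 (by linarith)
        · rw [indicator_of_notMem hs]
          exact zero_le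
    _ = ∫⁻ y, volume ((fun s => (s, y)) ⁻¹' W) :=
        (Measure.prod_apply hm).symm.trans (Measure.prod_apply_symm hm)
    _ ≤ ∫⁻ y, (ball z 4).indicator (fun _ => B) y := by
        refine lintegral_mono fun y => ?_
        by_cases hy : y ∈ ball z 4
        · rw [indicator_of_mem hy]
          refine le_trans (measure_mono fun s hs => ?_) (h y)
          exact ⟨hs.1, hs.2.2⟩
        · rw [indicator_of_notMem hy, eq_empty_of_forall_notMem
            (s := (fun s => (s, y)) ⁻¹' W) fun s hs => hy hs.2.1, measure_empty]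
    _ = B * volume (ball z 4) := lintegral_indicator_const measurableSet_ball _

theorem measurable_top (ν : Measure (E d)) [IsFiniteMeasure ν] (ρ : ℝ) :
    Measurable fun x => ν.real (top e a φ w x ρ) := by
  have : MeasurableSet {q : E d × E d | q.2 ∈ top e a φ w q.1 ρ} := by
    simp only [top, ht, mem_ofPred_eq]
    measurability
  exact (measurable_measure_prodMk_left this).ennreal_toReal

theorem measurableSet_badA (ν : Measure (E d)) [IsFiniteMeasure ν] (Λ H : ℝ) :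
    MeasurableSet (badA ν e Λ H a φ w) := by
  refine MeasurableSet.iUnion fun ρ => MeasurableSet.iUnion fun _ => ?_
  have h1 : Measurable fun x : E d => ν.real (ball x ρ) :=
    (measurable_measure_prodMk_left (measurableSet_near (ρ : ℝ))).ennreal_toReal
  exact (measurableSet_le h1 measurable_const).inter
    ((measurableSet_le measurable_const (measurable_top ν _)).inter
      (measurableSet_le measurable_const (measurable_top ν _)))

theorem cap_sub {x : E d} {r τ c ρ : ℝ} (h0 : 0 < φ) (hr : 3 / 4 ≤ r - 5 * τ)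
    (h1 : r - 6 * τ ≤ ρ) (h2 : ρ ≤ r - 5 * τ) (hc : a + φ ≤ -c) :
    cap (-e) x r (5 * τ) c ⊆ top e a φ (11 * τ) x ρ := by
  intro y hy
  obtain ⟨h3, h4⟩ := hy
  rw [inner_neg_right] at h4
  rw [abs_le] at h3
  refine ⟨by linarith, by linarith, ?_⟩
  have h5 := mul_le_mul_of_nonneg_right hc (norm_nonneg (y - x))
  have h6 : φ * (3 / 4) ≤ φ * ‖y - x‖ := mul_le_mul_of_nonneg_left (by linarith) h0.le
  unfold ht
  linarith

theorem neg_one_le {ν : Measure (E d)} (he : ‖e‖ = 1) {x : E d} {r c H : ℝ} (hr : w < r)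
    (hH : 0 < H) (h : H ≤ ν.real (cap e x r w c)) : -1 ≤ c := by
  obtain ⟨y, h1, h2⟩ := nonempty_of_measureReal_ne_zero (hH.trans_le h).ne'
  have h3 := abs_real_inner_le_norm (y - x) e
  rw [he, mul_one, abs_le] at h3
  rw [abs_le] at h1
  by_contra h4
  have h5 : 0 < ‖y - x‖ := by linarith
  nlinarith [h3.1]

end RareAux

open RareAux in
theorem rare (d : ℕ) (_hd : 1 ≤ d) : RareStmt d := by
  have v4 := vb_pos (d := d) (s := 4) (by norm_num)
  refine ⟨3 * (16 * 154 * vb d 4), by positivity, ?_⟩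
  intro e z ν Λ H τ φ hν he hΛ hH h0 h1 hτ hτ'
  set M := ⌊1 / φ⌋ with hM
  have hM1 : (M : ℝ) * φ ≤ 1 := (le_div_iff₀ h0).1 (Int.floor_le _)
  have hM0 : 0 ≤ M := Int.floor_nonneg.2 (by positivity)
  refine ⟨⋃ k ∈ Finset.Icc (-M) M, badA ν e Λ H (k * φ) φ (11 * τ),
    Finset.measurableSet_biUnion _ fun k _ => measurableSet_badA ν Λ H, ?_, ?_⟩
  · have piece : ∀ k ∈ Finset.Icc (-M) M, volume (badA ν e Λ H (k * φ) φ (11 * τ) ∩ ball z 3) ≤
        ENNReal.ofReal (16 * 154 * vb d 4 * (Λ / H + 1) ^ 2 * τ / φ ^ 2) := by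
      intro k hk
      have h2 : |(k : ℝ) * φ| ≤ 1 := by
        have h3 : |(k : ℝ)| ≤ M := by exact_mod_cast abs_le.2 (Finset.mem_Icc.1 hk)
        rw [abs_mul, abs_of_pos h0]
        exact (mul_le_mul_of_nonneg_right h3 h0.le).trans hM1
      have h4 := tonelli (measurableSet_badA ν Λ H) he (by linarith)
        (line ν he h2 h0 h1 (w := 11 * τ) (by positivity) (by linarith) hΛ hH) z
      rw [volume_ball_eq, ← ENNReal.ofReal_mul (by positivity),
        ← ENNReal.le_div_iff_mul_le (Or.inl (by simpa using h0)) (Or.inl ENNReal.ofReal_ne_top),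
        ← ENNReal.ofReal_div_of_pos (by positivity)] at h4
      refine h4.trans (le_of_eq (congrArg _ ?_))
      field_simp
      ring
    rw [iUnion₂_inter]
    refine (measure_biUnion_finset_le _ _).trans ((Finset.sum_le_card_nsmul _ _ _ piece).trans ?_)
    rw [nsmul_eq_mul, ← ENNReal.ofReal_natCast, ← ENNReal.ofReal_mul (by positivity)]
    refine ENNReal.ofReal_le_ofReal ?_
    have h2 : ((Finset.Icc (-M) M).card : ℝ) ≤ 3 / φ := by
      have h3 : ((Finset.Icc (-M) M).card : ℤ) = M + 1 - -M := Int.card_Icc_of_le _ _ (by omega)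
      have h4 : ((Finset.Icc (-M) M).card : ℝ) = M + 1 - -M := by exact_mod_cast h3
      rw [h4, le_div_iff₀ h0]
      linarith
    refine (mul_le_mul_of_nonneg_right h2 (by positivity)).trans (le_of_eq ?_)
    field_simp
  · intro x r c r1 r4 m1 m2 m3
    obtain ⟨ρ, q1, q2⟩ := exists_rat_btwn (show r - 6 * τ < r - 5 * τ by linarith)
    have c1 := neg_one_le he (by linarith) hH m2
    have c2 := neg_one_le (by rwa [norm_neg]) (by linarith) hH m3
    set k := ⌈c / φ⌉ + 1 with hk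
    have k1 : c + φ ≤ k * φ := by
      have := (div_le_iff₀ h0).1 (Int.le_ceil (c / φ))
      rw [hk]
      push_cast
      linarith
    have k2 : k * φ ≤ c + 2 * φ := by
      have h2 := Int.ceil_lt_add_one (c / φ)
      rw [← sub_lt_iff_lt_add, lt_div_iff₀ h0] at h2
      rw [hk]
      push_cast
      linarith
    refine mem_biUnion (x := k) (Finset.mem_coe.2 (Finset.mem_Icc.2 ⟨neg_le.1 ?_, ?_⟩))
      (mem_iUnion₂.2 ⟨ρ, by linarith, ?_, ?_, ?_⟩)
    · rw [hM, Int.le_floor, le_div_iff₀ h0]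
      push_cast
      linarith
    · rw [hM, Int.le_floor, le_div_iff₀ h0]
      linarith
    · exact (measureReal_mono (ball_subset_ball (by linarith))).trans m1
    · exact m3.trans (measureReal_mono (cap_sub h0 (by linarith) q1.le q2.le (by linarith)))
    · rw [← neg_neg e] at m2
      exact m2.trans (measureReal_mono (cap_sub h0 (by linarith) q1.le q2.le (by linarith)))

end Vale.Agent.P137
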