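import Vale.Agent.P137.Basic

open MeasureTheory Metric Set Filter
open scoped ENNReal NNReal Topology

namespace Vale.Agent.P137

namespace S5Aux

variable {d : ℕ}

theorem fld_smul (x : E d) (ρ ω c : ℝ) (P : ℝ → E d → E d) (y : E d) :
    Fld x ρ ω (fun θ w => c • P θ w) y = c • Fld x ρ ω P y := by
  unfold Fld
  rw [← intervalIntegral.integral_smul]
  congr 1
  funext θ
  split_ifs
  · rw [smul_comm]
  · rw [smul_zero]

theorem cont_of_lip {Y : E d → E d} {L : ℝ} (h : ∀ y y', ‖Y y - Y y'‖ ≤ L * ‖y - y'‖) :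
    Continuous Y := by
  refine (LipschitzWith.of_dist_le' (K := L) fun y y' => ?_).continuous
  rw [dist_eq_norm, dist_eq_norm]
  exact h y y'

theorem int_inner {μ Y : E d → E d} (hμ : Integrable μ) (hY : Continuous Y) {B : ℝ}
    (hB : ∀ y, ‖Y y‖ ≤ B) : Integrable (fun y => inner ℝ (μ y) (Y y)) := by
  refine Integrable.mono' (hμ.norm.mul_const B) (hμ.1.inner hY.aestronglyMeasurable)
    (Eventually.of_forall fun y => ?_)
  exact (norm_inner_le_norm _ _).trans (mul_le_mul_of_nonneg_left (hB y) (norm_nonneg _))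

theorem int_sub {μ Y Y' : E d → E d} (hμ : Integrable μ) (hY : Continuous Y) (hY' : Continuous Y')
    {B B' : ℝ} (hB : ∀ y, ‖Y y‖ ≤ B) (hB' : ∀ y, ‖Y' y‖ ≤ B') :
    ∫ y, inner ℝ (μ y) (Y y - Y' y) = (∫ y, inner ℝ (μ y) (Y y)) - ∫ y, inner ℝ (μ y) (Y' y) := by
  simp only [inner_sub_right]
  exact integral_sub (int_inner hμ hY hB) (int_inner hμ hY' hB')

theorem int_le {μ Y : E d → E d} (hμ : Integrable μ) {a : ℝ} (hB : ∀ y, ‖Y y‖ ≤ a) :
    |∫ y, inner ℝ (μ y) (Y y)| ≤ a * ∫ y, ‖μ y‖ := by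
  rw [← integral_const_mul, ← Real.norm_eq_abs]
  refine norm_integral_le_of_norm_le (hμ.norm.const_mul a) (Eventually.of_forall fun y => ?_)
  rw [mul_comm]
  exact (norm_inner_le_norm _ _).trans (mul_le_mul_of_nonneg_left (hB y) (norm_nonneg _))

theorem measurableSet_cap (e x : E d) (r w c : ℝ) : MeasurableSet (cap e x r w c) := by
  have h1 : IsClosed {y : E d | |‖y - x‖ - r| ≤ w} := isClosed_le (by fun_prop) continuous_const
  have h2 : IsClosed {y : E d | inner ℝ (y - x) e ≤ c * ‖y - x‖} :=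
    isClosed_le (by fun_prop) (by fun_prop)
  exact (h1.inter h2).measurableSet

theorem cap_nhd {e x y y' : E d} {r τ φ c ε : ℝ} (he : ‖e‖ = 1) (hc : |c| ≤ 2) (h1 : ε ≤ τ)
    (h2 : 6 * ε ≤ φ) (hr : 1 / 2 ≤ r - 4 * τ) (hy : y ∈ cap e x r (4 * τ) (c - φ))
    (hy' : ‖y' - y‖ ≤ ε) : y' ∈ cap e x r (5 * τ) c := by
  obtain ⟨ha, hb⟩ := hy
  have hε : 0 ≤ ε := (norm_nonneg _).trans hy'
  have h3 : |‖y' - x‖ - ‖y - x‖| ≤ ε := by
    refine (abs_norm_sub_norm_le _ _).trans ?_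
    rwa [sub_sub_sub_cancel_right]
  have h4 : inner ℝ (y' - x) e ≤ inner ℝ (y - x) e + ε := by
    have : y' - x = (y - x) + (y' - y) := by abel
    rw [this, inner_add_left]
    have := real_inner_le_norm (y' - y) e
    rw [he, mul_one] at this
    linarith
  have h5 : |c * (‖y' - x‖ - ‖y - x‖)| ≤ 2 * ε := by
    rw [abs_mul]
    exact mul_le_mul hc h3 (abs_nonneg _) (by norm_num)
  rw [abs_le] at ha h3 h5
  refine ⟨abs_le.2 ⟨by linarith [ha.1, h3.1], by linarith [ha.2, h3.2]⟩, ?_⟩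
  have h6 : φ * (1 / 2) ≤ φ * ‖y - x‖ :=
    mul_le_mul_of_nonneg_left (by linarith [ha.1]) (by linarith)
  nlinarith [h5.1]

theorem cap_sub {e x z : E d} {r w c : ℝ} (hx : ‖x - z‖ ≤ 3) (hr : r + w ≤ 6) :
    cap e x r w c ⊆ ball z 10 := by
  intro y hy
  have h1 := (abs_le.1 hy.1).2
  rw [mem_ball, dist_eq_norm]
  have : ‖y - z‖ ≤ ‖y - x‖ + ‖x - z‖ := norm_sub_le_norm_sub_add_norm_sub _ _ _
  linarith

theorem int_union_le {f : E d → ℝ} (hf : Integrable f) (h0 : ∀ y, 0 ≤ f y) {A B : Set (E d)}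
    (hA : MeasurableSet A) (hB : MeasurableSet B) :
    ∫ y in A ∪ B, f y ≤ (∫ y in A, f y) + ∫ y in B, f y := by
  rw [← Set.union_sdiff_self, setIntegral_union disjoint_sdiff_right (hB.diff hA)
    hf.integrableOn hf.integrableOn]
  have : ∫ y in B \ A, f y ≤ ∫ y in B, f y :=
    setIntegral_mono_set hf.integrableOn (Eventually.of_forall h0)
      (LE.le.eventuallyLE sdiff_subset)
  linarith

end S5Aux

open S5Aux

theorem s1 (d : ℕ) (_hd : 1 ≤ d) (hf : FldStmt d) (hg : GoodStmt d) (hp : PathStmt d) :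
    S1Stmt d := by
  obtain ⟨Cf, hCf, hf⟩ := hf
  obtain ⟨B, hB, hg⟩ := hg
  refine ⟨3 * Cf * B, by positivity, ?_⟩
  intro u μ z hc e x r ω σ β κ he hx hω hσ hσ1 hr hrω hr' hrω' hβ hκ
  have hG : Good (fun (_ : ℝ) w => e + β • w + κ • Wf e w) B := by
    simpa only [mul_zero, sub_zero] using hg e β 0 κ he hβ (by simp) hκ
  set P : ℝ → E d → E d := fun _ w => e + β • w + κ • Wf e w with hP
  set M1 : ℝ := ∫ y, ‖μ y‖ with hM1
  have hn : ‖x + σ • e - z‖ ≤ 4 := by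
    have : x + σ • e - z = (x - z) + σ • e := by abel
    rw [this]
    refine (norm_add_le _ _).trans ?_
    rw [norm_smul, he, Real.norm_eq_abs, abs_of_pos hσ]
    linarith
  obtain ⟨hb0, -, hl0⟩ := hf x r ω P B hG (by linarith) hω (by linarith)
  have hc0 : Continuous (Fld x r ω P) := cont_of_lip (L := Cf * B / ω) fun y y' => by
    simpa using hl0 x r y y' (by linarith) (by linarith)
  have key := hp u μ z 10 hc x (σ • e) e r ω (β * σ) ω (σ * κ) (by linarith) (by linarith) hω hω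
    (by linarith) (by linarith)
    (σ * ((∫ y, inner ℝ (μ y) (Fld x r ω P y)) - 3 * Cf * B * σ * M1 / ω)) (by
      rintro t ⟨ht0, ht1⟩
      have e1 : (fun θ w => σ • e + (β * σ + θ * (ω - ω)) • w + (σ * κ) • Wf e w)
          = fun (θ : ℝ) w => σ • P θ w := by
        funext θ w
        simp only [hP, sub_self, mul_zero, add_zero, smul_add, smul_smul, mul_comm β σ]
      have h1 : 1 ≤ r + t * (β * σ) := by nlinarith
      have h2 : r + t * (β * σ) + ω ≤ 4 := by nlinarith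
      obtain ⟨hb1, -, hl1⟩ := hf (x + t • σ • e) (r + t * (β * σ)) ω P B hG (by linarith) hω
        (by linarith)
      have hc1 : Continuous (Fld (x + t • σ • e) (r + t * (β * σ)) ω P) :=
        cont_of_lip (L := Cf * B / ω) fun y y' => by
          simpa using hl1 (x + t • σ • e) (r + t * (β * σ)) y y' (by linarith) (by linarith)
      rw [e1, sub_self, mul_zero, add_zero]
      simp only [fld_smul, inner_smul_right]
      rw [integral_const_mul]
      refine mul_le_mul_of_nonneg_left ?_ hσ.le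
      have h3 : ∀ y, ‖Fld (x + t • σ • e) (r + t * (β * σ)) ω P y - Fld x r ω P y‖
          ≤ Cf * B / ω * (3 * σ) := by
        intro y
        refine (hl1 x r y y (by linarith) (by linarith)).trans
          (mul_le_mul_of_nonneg_left ?_ (by positivity))
        rw [add_sub_cancel_left, add_sub_cancel_left, sub_self, norm_zero, add_zero, norm_smul,
          norm_smul, he, Real.norm_eq_abs, Real.norm_eq_abs, abs_mul, abs_mul, abs_of_nonneg ht0,
          abs_of_pos hσ]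
        have : |β| * σ ≤ 2 * σ := mul_le_mul_of_nonneg_right hβ hσ.le
        have h' : 0 ≤ |β| * σ := by positivity
        nlinarith
      have h4 := int_le hc.int h3
      rw [int_sub hc.int hc1 hc0 hb1 hb0, abs_le] at h4
      have : Cf * B / ω * (3 * σ) * M1 = 3 * Cf * B * σ * M1 / ω := by ring
      linarith [h4.1])
  rw [div_le_iff₀ hσ]
  linarith

namespace S5Aux

variable {d : ℕ}

theorem num1 {Co C₀ K φ q D H δ' a b I : ℝ} (hCo : 0 < Co) (hC₀ : 0 < C₀) (hK : 0 < K)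
    (hq : 0 < q) (hD : 0 < D) (hH : 0 ≤ H) (hδ' : 0 < δ') (hφq : φ = q ^ 2) (hφ1 : φ ≤ 1)
    (ha : a ≤ 2 / q) (hb0 : 0 ≤ b) (hb : b / δ' ≤ q) (hI : I ≤ 2 * H) :
    Co * φ * C₀ * a * D + 2 * K * I + (2 * (K / δ') + Co * φ * (C₀ / δ') + 2 * K / δ') * b * D
      ≤ (3 * Co * C₀ + 4 * K) * (q * D + H) := by
  have hφ : 0 < φ := by rw [hφq]; positivity
  have t1 : Co * φ * C₀ * a * D ≤ 2 * Co * C₀ * (q * D) := by
    have : φ * a ≤ 2 * q := by
      calc φ * a ≤ φ * (2 / q) := mul_le_mul_of_nonneg_left ha hφ.le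
        _ = 2 * q := by rw [hφq]; field_simp
    calc Co * φ * C₀ * a * D = Co * C₀ * D * (φ * a) := by ring
      _ ≤ Co * C₀ * D * (2 * q) := mul_le_mul_of_nonneg_left this (by positivity)
      _ = 2 * Co * C₀ * (q * D) := by ring
  have t2 : 2 * K * I ≤ 2 * K * (2 * H) := mul_le_mul_of_nonneg_left hI (by positivity)
  have t3 : (2 * (K / δ') + Co * φ * (C₀ / δ') + 2 * K / δ') * b * D
      ≤ (4 * K + Co * C₀) * (q * D) := by
    have h1 : Co * φ * C₀ ≤ Co * C₀ := by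
      have : Co * C₀ * φ ≤ Co * C₀ * 1 := mul_le_mul_of_nonneg_left hφ1 (by positivity)
      linarith
    calc (2 * (K / δ') + Co * φ * (C₀ / δ') + 2 * K / δ') * b * D
        = (4 * K + Co * φ * C₀) * (b / δ' * D) := by ring
      _ ≤ (4 * K + Co * C₀) * (q * D) :=
        mul_le_mul (by linarith) (mul_le_mul_of_nonneg_right hb hD.le) (by positivity)
          (by positivity)
  have : 0 ≤ Co * C₀ * H := by positivity
  have e : (3 * Co * C₀ + 4 * K) * (q * D + H) = 2 * Co * C₀ * (q * D) + 2 * K * (2 * H)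
      + (4 * K + Co * C₀) * (q * D) + 3 * (Co * C₀ * H) := by ring
  linarith

theorem num2 {r τ φ δ δ' c t : ℝ} (hτ : 0 < τ) (_hφ : 0 < φ) (hφ1 : φ ≤ 1 / 4) (hτφ : τ ≤ φ / 100)
    (_hδ' : 0 < δ') (hδδ : δ' ≤ δ) (hδτ : δ ≤ τ) (hr1 : 1 + 3 * τ ≤ r) (hr2 : r ≤ 4 - 3 * τ)
    (hc1 : -1 - φ ≤ c) (hc2 : c ≤ 1) (ht0 : 0 ≤ t) (ht1 : t ≤ 1) :
    1 / 2 ≤ r - t * ((2 * φ - c) * τ) ∧ δ' ≤ δ' + t * (δ - δ') ∧
      r - t * ((2 * φ - c) * τ) + (δ' + t * (δ - δ')) ≤ 5 := by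
  have hb1 : (2 * φ - c) * τ ≤ 2 * τ := mul_le_mul_of_nonneg_right (by linarith) hτ.le
  have hb2 : -2 * τ ≤ (2 * φ - c) * τ := mul_le_mul_of_nonneg_right (by linarith) hτ.le
  have ht2 : t * ((2 * φ - c) * τ) ≤ 2 * τ := by nlinarith
  have ht3 : -2 * τ ≤ t * ((2 * φ - c) * τ) := by nlinarith
  have ht4 : 0 ≤ t * (δ - δ') := mul_nonneg ht0 (by linarith)
  have ht5 : t * (δ - δ') ≤ δ - δ' := by nlinarith
  exact ⟨by linarith, by linarith, by linarith⟩

theorem caps_nhd {e x : E d} {r τ φ c ε : ℝ} (he : ‖e‖ = 1) (hτ : 0 < τ) (hφ1 : φ ≤ 1 / 4)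
    (hτφ : τ ≤ φ / 100) (hr1 : 1 + 3 * τ ≤ r) (hc1 : -1 - φ ≤ c) (hc2 : c ≤ 1) (hε : 6 * ε ≤ τ) :
    ∀ y ∈ cap e x r (4 * τ) (c - φ) ∪ cap (-e) x r (4 * τ) (-(c + 5 * φ)), ∀ y', ‖y' - y‖ ≤ ε →
      y' ∈ cap e x r (5 * τ) c ∪ cap (-e) x r (5 * τ) (-(c + 4 * φ)) := by
  intro y hy y' hy'
  rcases hy with hy | hy
  · exact Or.inl (cap_nhd he (abs_le.2 ⟨by linarith, by linarith⟩)
      (by linarith) (by linarith) (by linarith) hy hy')
  · refine Or.inr (cap_nhd (φ := φ) (by rw [norm_neg, he]) (abs_le.2 ⟨by linarith, by linarith⟩)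
      (by linarith) (by linarith) (by linarith) ?_ hy')
    have : -(c + 4 * φ) - φ = -(c + 5 * φ) := by ring
    rw [this]
    exact hy

theorem eps_le (n : ℕ) : 6 * (dl (n + 1) + 3 / 4 ^ lst n) ≤ tau n := by
  have h : (3 : ℝ) / 4 ^ lst n = 3 * dl (n + 1) ^ 2 := by rw [← four_lst]; ring
  have h1 := dl_pos (n + 1)
  have h2 := dl_le_one (n + 1)
  have h3 := dl_succ n
  have h4 := dl_le_tau n
  rw [h]
  nlinarith

theorem field_eq (e : E d) {τ : ℝ} (hτ : τ ≠ 0) (β γ : ℝ) :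
    (fun (θ : ℝ) w => -τ • e + (-(β * τ) + θ * γ) • w + -τ • Wf e w)
      = fun (θ : ℝ) w => -τ • Pf e (β - θ * (γ / τ)) w := by
  funext θ w
  simp only [Pf, smul_add, smul_smul]
  congr 3
  field_simp
  ring

/-- The estimate at a fixed time. -/
theorem step (hk : KerStmt d) (hf : FldStmt d) (hg : GoodStmt d) (hs : SplitStmt d)
    (hfo : FocusStmt d) : ∃ C : ℝ, 0 < C ∧ ∀ (m : ℕ → E d → E d) (μ : E d → E d) (K : ℕ)
    (e z : E d) (D : ℝ), WinL m μ K e z D → Integrable μ →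
    ∀ (n : ℕ) (x : E d) (r c H t : ℝ), 1 ≤ n → ‖x - z‖ ≤ 3 →
      1 + 3 * tau n ≤ r → r ≤ 4 - 3 * tau n → -1 - phi n ≤ c → c ≤ 1 →
      G0 μ e x r (dl (n + 1)) ≤ 0 →
      ∫ y in cap e x r (5 * tau n) c, ‖m (lst n) y‖ ≤ H →
      ∫ y in cap (-e) x r (5 * tau n) (-(c + 4 * phi n)), ‖m (lst n) y‖ ≤ H → 0 ≤ t → t ≤ 1 →
      (∫ y, inner ℝ (μ y) (Fld (x - (t * tau n) • e) (r - t * ((2 * phi n - c) * tau n))
          (dl (n + 1) + t * (dl n - dl (n + 1)))
          (fun θ w => Pf e (2 * phi n - c - θ * ((dl n - dl (n + 1)) / tau n)) w) y))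
        - ∫ y, inner ℝ (μ y) (Fld x r (dl (n + 1)) (fun _ w => Pf e (2 * phi n - c) w) y)
        ≤ C * (qq n * D + H) := by
  obtain ⟨c₀, C₀, -, hC₀, hk⟩ := hk
  obtain ⟨Cf, hCf, hf⟩ := hf
  obtain ⟨B, hB, hg⟩ := hg
  obtain ⟨Cs, hCs, hs⟩ := hs
  obtain ⟨Co, hCo, hfo⟩ := hfo
  refine ⟨Cs * (3 * Co * C₀ + 4 * (Cf * B)), by positivity, ?_⟩
  intro m μ K e z D hW hμ n x r c H t hn hx hr1 hr2 hc1 hc2 hG0 hH1 hH2 ht0 ht1
  have he := hW.unit
  have hτ := tau_pos n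
  have hφ := phi_pos n
  have hφ1 := phi_le hn
  have hτφ := tau_le_phi hn
  have hδ' := dl_pos (n + 1)
  have hδδ := dl_succ_le n
  have hδτ := dl_le_tau n
  have hr3 : 1 / 2 ≤ r := by linarith
  have hr4 : r + dl (n + 1) ≤ 5 := by linarith
  have hr5 : r + 5 * tau n ≤ 6 := by linarith
  have hβ : |2 * phi n - c| ≤ 2 := abs_le.2 ⟨by linarith, by linarith⟩
  have hγ : |(dl n - dl (n + 1)) / tau n| ≤ 1 := by
    rw [abs_of_nonneg (div_nonneg (by linarith) hτ.le), div_le_one hτ]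
    linarith
  obtain ⟨ha1, ha2, ha3⟩ := num2 hτ hφ hφ1 hτφ hδ' hδδ hδτ hr1 hr2 hc1 hc2 ht0 ht1
  have hH0 : 0 ≤ H := (integral_nonneg fun y => norm_nonneg _).trans hH1
  have hG1 : Good (fun (_ : ℝ) w => Pf e (2 * phi n - c) w) B := by
    simpa only [mul_zero, sub_zero, one_smul, Pf] using hg e _ 0 1 he hβ (by simp) (by simp)
  have hG2 : Good (fun θ w => Pf e (2 * phi n - c - θ * ((dl n - dl (n + 1)) / tau n)) w) B := by
    simpa only [one_smul, Pf] using hg e _ _ 1 he hβ hγ (by simp)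
  obtain ⟨hb0, -, hl0⟩ := hf x r _ _ B hG1 hr3 hδ' hr4
  obtain ⟨hb1, -, hl1⟩ := hf (x - (t * tau n) • e) _ _ _ B hG2 ha1 (hδ'.trans_le ha2) ha3
  obtain ⟨-, hk1, -, -, hk2, hk3, -⟩ := hk r _ hr3 hδ' hr4
  have hfoc := hfo e x r _ _ _ _ c t he hφ hφ1 hτ hτφ hδ' hδδ (dl_eq n).le hr1 hr2 hc1 hc2 ht0 ht1
  set Yt := Fld (x - (t * tau n) • e) (r - t * ((2 * phi n - c) * tau n))
    (dl (n + 1) + t * (dl n - dl (n + 1)))
    (fun θ w => Pf e (2 * phi n - c - θ * ((dl n - dl (n + 1)) / tau n)) w) with hYt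
  set Y0 := Fld x r (dl (n + 1)) (fun _ w => Pf e (2 * phi n - c) w) with hY0
  have hL0 : ∀ y y', ‖Y0 y - Y0 y'‖ ≤ Cf * B / dl (n + 1) * ‖y - y'‖ := fun y y' => by
    have := hl0 x r y y' hr3 hr4
    simpa only [sub_self, norm_zero, abs_zero, zero_add] using this
  have hL1 : ∀ y y', ‖Yt y - Yt y'‖ ≤ Cf * B / dl (n + 1) * ‖y - y'‖ := fun y y' => by
    have := hl1 (x - (t * tau n) • e) _ y y' ha1 ha3
    simp only [sub_self, norm_zero, abs_zero, zero_add] at this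
    refine this.trans (mul_le_mul_of_nonneg_right ?_ (norm_nonneg _))
    exact div_le_div_of_nonneg_left (by positivity) hδ' ha2
  have hmain := hs m μ K e z D hW (fun y => Yt y - Y0 y) (fun y => kp d r (dl (n + 1)) ‖y - x‖)
    (cap e x r (4 * tau n) (c - phi n) ∪ cap (-e) x r (4 * tau n) (-(c + 5 * phi n)))
    (cap e x r (5 * tau n) c ∪ cap (-e) x r (5 * tau n) (-(c + 4 * phi n)))
    (2 * (Cf * B / dl (n + 1))) (2 * (Cf * B)) (Co * phi n) (dl (n + 1)) (C₀ / dl (n + 1)) C₀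
    (lst n) (by positivity) (by positivity) (by positivity) hδ' (by positivity)
    (fun y y' => by
      have : Yt y - Y0 y - (Yt y' - Y0 y') = (Yt y - Yt y') - (Y0 y - Y0 y') := by abel
      rw [this, two_mul, add_mul]
      exact (norm_sub_le _ _).trans (add_le_add (hL1 y y') (hL0 y y')))
    (fun y => by
      rw [two_mul]
      exact (norm_sub_le _ _).trans (add_le_add (hb1 y) (hb0 y)))
    (fun y => hk1 _)
    (fun y y' => (hk3 _ _).trans (mul_le_mul_of_nonneg_left (by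
      refine (abs_norm_sub_norm_le _ _).trans ?_
      rw [sub_sub_sub_cancel_right]) (by positivity)))
    (fun y hy => by
      have h1 : ‖y - x‖ < r + dl (n + 1) := lt_of_not_ge fun h => hy (hk2 _ h)
      rw [mem_ball, dist_eq_norm]
      have : ‖y - z‖ ≤ ‖y - x‖ + ‖x - z‖ := norm_sub_le_norm_sub_add_norm_sub _ _ _
      linarith only [this, h1, hx, hr4])
    (fun y hy => by
      rw [mem_union, not_or] at hy
      exact hfoc y hy.1 hy.2)
    ((measurableSet_cap _ _ _ _ _).union (measurableSet_cap _ _ _ _ _))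
    (union_subset (cap_sub hx hr5) (cap_sub hx hr5))
    (caps_nhd he hτ hφ1 hτφ hr1 hc1 hc2 (eps_le n)) hG0
  rw [int_sub hμ (cont_of_lip hL1) (cont_of_lip hL0) hb1 hb0] at hmain
  have hA := int_union_le (hW.lev.int (lst n)).norm (fun y => norm_nonneg _)
    (measurableSet_cap e x r (5 * tau n) c)
    (measurableSet_cap (-e) x r (5 * tau n) (-(c + 4 * phi n)))
  rw [mul_assoc Cs]
  refine hmain.trans (mul_le_mul_of_nonneg_left ?_ hCs.le)
  exact num1 hCo hC₀ (mul_pos hCf hB) (qq_pos n) hW.Dpos hH0 hδ' rfl (phi_le_one n) (lam_lst n)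
    (by have := lam_pos; positivity) (lam4_lst n) (by linarith only [hA, hH1, hH2])

end S5Aux

theorem s5 (d : ℕ) (_hd : 1 ≤ d) (hk : KerStmt d) (hf : FldStmt d) (hg : GoodStmt d)
    (hp : PathStmt d) (hs : SplitStmt d) (hfo : FocusStmt d) : S5Stmt d := by
  obtain ⟨C, hC, h⟩ := S5Aux.step hk hf hg hs hfo
  refine ⟨C, hC, ?_⟩
  intro u m μ K e z D hW hc n x r c H hn hx hr1 hr2 hc1 hc2 hG0 hH1 hH2
  have h' := fun t => h m μ K e z D hW hc.int n x r c H t hn hx hr1 hr2 hc1 hc2 hG0 hH1 hH2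
  have he := hW.unit
  have hτ := tau_pos n
  have hφ := phi_pos n
  have hφ1 := phi_le hn
  have hτφ := tau_le_phi hn
  have hδτ := dl_le_tau n
  have hδδ := dl_succ_le n
  have hnx : ‖x + -tau n • e - z‖ ≤ 4 := by
    have : x + -tau n • e - z = (x - z) + -tau n • e := by abel
    rw [this]
    refine (norm_add_le _ _).trans ?_
    rw [norm_smul, he, Real.norm_eq_abs, abs_neg, abs_of_pos hτ]
    linarith
  have hb1 : (2 * phi n - c) * tau n ≤ 2 * tau n := mul_le_mul_of_nonneg_right (by linarith) hτ.le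
  have hb2 : -2 * tau n ≤ (2 * phi n - c) * tau n :=
    mul_le_mul_of_nonneg_right (by linarith) hτ.le
  have key := hp u μ z 10 hc x (-tau n • e) e r (dl (n + 1)) (-((2 * phi n - c) * tau n)) (dl n)
    (-tau n) (by linarith) (by linarith) (dl_pos _) (dl_pos _) (by linarith) (by linarith)
    (tau n * (-(∫ y, inner ℝ (μ y) (Fld x r (dl (n + 1)) (fun _ w => Pf e (2 * phi n - c) w) y))
      - C * (qq n * D + H))) (by
      rintro t ⟨ht0, ht1⟩
      have e2 : x + t • -tau n • e = x - (t * tau n) • e := by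
        rw [smul_smul, mul_neg, neg_smul, sub_eq_add_neg]
      rw [field_eq e hτ.ne', e2, mul_neg t, ← sub_eq_add_neg r]
      simp only [fld_smul, inner_smul_right]
      rw [integral_const_mul, neg_mul, ← mul_neg]
      refine mul_le_mul_of_nonneg_left ?_ hτ.le
      linarith only [h' t ht0 ht1])
  have e4 : x + -tau n • e = x - tau n • e := by rw [neg_smul, sub_eq_add_neg]
  rw [e4, ← sub_eq_add_neg] at key
  have := (le_div_iff₀' hτ).2 key
  linarith only [this]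

end Vale.Agent.P137
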