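import Vale.Agent.P137.Basic

/-! P137: splitting a vector field into a small part and a part near a set. -/

open MeasureTheory Metric Set Filter
open scoped ENNReal NNReal Topology

namespace Vale.Agent.P137

namespace SplitAux

variable {d : ℕ}

/-- clamp to `[0, b]` -/
noncomputable def cl (b t : ℝ) : ℝ := min (max t 0) b

theorem cl_mono (b : ℝ) : Monotone (cl b) := fun _ _ h =>
  min_le_min_right _ (max_le_max_right _ h)

theorem cl_nonneg {b : ℝ} (hb : 0 ≤ b) (t : ℝ) : 0 ≤ cl b t := le_min (le_max_right _ _) hb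

theorem cl_le (b t : ℝ) : cl b t ≤ b := min_le_right _ _

theorem cl_abs {b : ℝ} (hb : 0 ≤ b) (t : ℝ) : |cl b t| ≤ b := by
  rw [abs_of_nonneg (cl_nonneg hb t)]
  exact cl_le b t

theorem cl_lip (b t s : ℝ) : |cl b t - cl b s| ≤ |t - s| := by
  refine (abs_min_sub_min_le_max _ _ _ _).trans (max_le (abs_max_sub_max_le_abs _ _ _) ?_)
  simp

theorem cl_of_nonpos {b t : ℝ} (hb : 0 ≤ b) (ht : t ≤ 0) : cl b t = 0 := by
  unfold cl
  rw [max_eq_right ht, min_eq_left hb]

theorem cl_of_mem {b t : ℝ} (h0 : 0 ≤ t) (h1 : t ≤ b) : cl b t = t := by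
  unfold cl
  rw [max_eq_left h0, min_eq_left h1]

theorem cont_of_lip {F : Type} [NormedAddCommGroup F] {f : E d → F} {L : ℝ} (hL : 0 ≤ L)
    (h : ∀ y y', ‖f y - f y'‖ ≤ L * ‖y - y'‖) : Continuous f :=
  (LipschitzWith.of_dist_le_mul (K := ⟨L, hL⟩) fun y y' => by
    rw [dist_eq_norm, dist_eq_norm]
    exact h y y').continuous

theorem cont_cl (b : ℝ) : Continuous (cl b) := by
  unfold cl
  fun_prop

theorem geo_sum (j N : ℕ) : ∑ l ∈ Finset.Icc j N, (lam / 4) ^ l ≤ 2 * (lam / 4) ^ j := by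
  have h0 : 0 ≤ lam / 4 := by unfold lam; norm_num
  have h1 : lam / 4 < 1 := by unfold lam; norm_num
  rw [← Finset.Ico_add_one_right_eq_Icc]
  refine (geom_sum_Ico_le_of_lt_one h0 h1).trans ?_
  rw [div_le_iff₀ (by linarith)]
  have h2 : (1 : ℝ) ≤ 2 * (1 - lam / 4) := by unfold lam; norm_num
  nlinarith [pow_nonneg h0 j]

variable {m : ℕ → E d → E d} {μ : E d → E d} {K : ℕ} {e z : E d} {D : ℝ}

theorem err (W : WinL m μ K e z D) {c : ℝ} (hc : 0 ≤ c) (j N : ℕ) {o : ℕ → E d → ℝ}
    (ho : ∀ l, j ≤ l → o l = (ball z 10).indicator fun _ => c / 4 ^ l) :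
    ∑ l ∈ Finset.Icc j N, ∫ y, o l y * dfc e (m (l + 1) y) ≤ 4 * c * ((lam / 4) ^ j * D) := by
  have hD := W.Dpos
  have h1 : ∀ l ∈ Finset.Icc j N, ∫ y, o l y * dfc e (m (l + 1) y) ≤
      2 * c * D * (lam / 4) ^ l := by
    intro l hl
    rw [ho l (Finset.mem_Icc.1 hl).1]
    have h0 : ∀ y, (ball z 10).indicator (fun _ => c / 4 ^ l) y * dfc e (m (l + 1) y) =
        (ball z 10).indicator (fun y => c / 4 ^ l * dfc e (m (l + 1) y)) y := fun y =>
      (indicator_mul_left _ (fun _ => c / 4 ^ l) fun y => dfc e (m (l + 1) y)).symm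
    simp only [h0]
    rw [integral_indicator measurableSet_ball, integral_const_mul]
    refine (mul_le_mul_of_nonneg_left (W.dfc_le (l + 1)) (by positivity)).trans ?_
    have h2 : lam ≤ 2 := by unfold lam; norm_num
    have h3 : 0 ≤ c * D * (lam / 4) ^ l := by have := lam_pos; positivity
    calc c / 4 ^ l * (lam ^ (l + 1) * D) = lam * (c * D * (lam / 4) ^ l) := by
          rw [div_pow]
          ring
      _ ≤ 2 * (c * D * (lam / 4) ^ l) := mul_le_mul_of_nonneg_right h2 h3
      _ = _ := by ring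
  refine (Finset.sum_le_sum h1).trans ?_
  rw [← Finset.mul_sum]
  refine (mul_le_mul_of_nonneg_left (geo_sum j N) (by positivity)).trans_eq ?_
  ring

theorem int_mu (W : WinL m μ K e z D) : Integrable μ := by
  rw [← W.lev.top K le_rfl]
  exact W.lev.int K

theorem int_mul {f g : E d → ℝ} (hf : Continuous f) {B : ℝ} (hB : ∀ y, |f y| ≤ B)
    (hg : Integrable g) : Integrable fun y => f y * g y :=
  hg.bdd_mul hf.aestronglyMeasurable (Eventually.of_forall hB)

theorem ind_bdd (c : ℝ) (s : Set (E d)) (y : E d) : |s.indicator (fun _ => c) y| ≤ |c| := by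
  by_cases h : y ∈ s
  · rw [indicator_of_mem h]
  · rw [indicator_of_notMem h, abs_zero]
    exact abs_nonneg _

theorem key1 (hp : PLStmt d) (W : WinL m μ K e z D) {v : E d}
    (hv : ∀ w, -dfc e w ≤ inner ℝ v w) {ζ k : E d → ℝ} {A B : ℝ} (hA : 0 ≤ A)
    (hl : ∀ y y', |ζ y - ζ y'| ≤ A * ‖y - y'‖) (h0 : ∀ y, 0 ≤ ζ y) (h1 : ∀ y, ζ y ≤ k y)
    (hk : Continuous k) (hB : ∀ y, k y ≤ B) (hs : ∀ y, k y ≠ 0 → y ∈ ball z 10) (j : ℕ) :
    -(∫ y, k y * dfc e (m j y)) - 12 * A * ((lam / 4) ^ j * D) ≤ ∫ y, ζ y * inner ℝ v (μ y) := by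
  have hB0 : 0 ≤ B := ((h0 0).trans (h1 0)).trans (hB 0)
  have h2 := hp m μ K W.lev e v hv ζ A hA hl (cl B) B (cl_mono B) (cl_abs hB0)
    (fun l => (ball z 10).indicator fun _ => 3 * A / 4 ^ l)
    (fun l => measurable_const.indicator measurableSet_ball) (fun l => ⟨_, ind_bdd _ _⟩)
    (fun l y => ?_) j (max j K) (le_max_left _ _) ((le_max_right _ _).trans (Nat.le_succ _))
  · have h3 := err W (c := 3 * A) (by positivity) j (max j K) fun l _ => rfl
    have h4 : ∀ y, cl B (ζ y) = ζ y := fun y => cl_of_mem (h0 y) ((h1 y).trans (hB y))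
    simp only [h4] at h2
    have hζ : Continuous ζ := cont_of_lip hA hl
    have h5 : -(∫ y, k y * dfc e (m j y)) ≤
        ∫ y, cl B (ζ y - 2 * A / 4 ^ j) * inner ℝ v (m j y) := by
      rw [← integral_neg]
      refine integral_mono (int_mul hk (B := B) (fun y => ?_)
        (integrable_dfc W.unit (W.lev.int j))).neg
        (int_mul ((cont_cl B).comp (hζ.sub continuous_const)) (fun y => cl_abs hB0 _)
          ((W.lev.int j).const_inner v)) fun y => ?_
      · rw [abs_of_nonneg ((h0 y).trans (h1 y))]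
        exact hB y
      · have h6 : cl B (ζ y - 2 * A / 4 ^ j) ≤ k y := by
          refine le_trans ?_ (h1 y)
          rw [← h4 y]
          refine cl_mono B ?_
          rw [h4 y]
          exact sub_le_self _ (by positivity)
        have h7 := mul_le_mul_of_nonneg_left (hv (m j y)) (cl_nonneg hB0 (ζ y - 2 * A / 4 ^ j))
        have h8 := mul_le_mul_of_nonneg_right h6 (dfc_nonneg e (m j y))
        simp only
        linarith
    linarith
  · by_cases hy : y ∈ ball z 10
    · rw [indicator_of_mem hy]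
      refine (le_abs_self _).trans ((cl_lip _ _ _).trans_eq ?_)
      rw [sub_sub_cancel, abs_of_nonneg (by positivity)]
    · have h3 : k y = 0 := by
        by_contra h
        exact hy (hs y h)
      have h4 : ζ y ≤ 0 := h3 ▸ h1 y
      rw [indicator_of_notMem hy, cl_of_nonpos hB0 h4,
        cl_of_nonpos hB0 ((sub_le_self _ (by positivity)).trans h4), sub_zero]

theorem int_le_A {f : E d → ℝ} {w : E d → E d} (hw : Integrable w) {A : Set (E d)}
    (hA : MeasurableSet A) (hf : Integrable f) {c : ℝ} (h1 : ∀ y, f y ≤ c * ‖w y‖)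
    (h2 : ∀ y, y ∉ A → f y ≤ 0) : ∫ y, f y ≤ c * ∫ y in A, ‖w y‖ := by
  rw [← integral_const_mul, ← integral_indicator hA]
  refine integral_mono hf ((hw.norm.const_mul c).indicator hA) fun y => ?_
  by_cases hy : y ∈ A
  · rw [indicator_of_mem hy]
    exact h1 y
  · rw [indicator_of_notMem hy]
    exact h2 y hy

theorem key2 (hp : PLStmt d) (W : WinL m μ K e z D) {a : E d → ℝ}
    (hl : ∀ y y', |a y - a y'| ≤ 1 * ‖y - y'‖) {ω : ℝ} (hω : 0 < ω) {A : Set (E d)}
    (hA : MeasurableSet A) (hAz : A ⊆ ball z 10) (j : ℕ) (ha : ∀ y, a y < ω + 3 / 4 ^ j → y ∈ A) :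
    ∫ y, cl 1 (1 - a y / ω) * inner ℝ e (μ y) ≤
      (∫ y in A, ‖m j y‖) + 6 / ω * ((lam / 4) ^ j * D) := by
  have hv : ∀ w, -dfc e w ≤ inner ℝ ((2 : ℝ) • e) w := by
    intro w
    rw [real_inner_smul_left]
    have h1 : ‖w‖ - 2 * inner ℝ e w ≤ dfc e w := le_max_left _ _
    linarith [norm_nonneg w]
  have hz : ∀ {t : ℝ}, ω ≤ t → cl 1 (1 - t / ω) = 0 := fun h =>
    cl_of_nonpos zero_le_one (sub_nonpos.2 ((one_le_div hω).2 h))
  have h2 := hp m μ K W.lev e _ hv a 1 zero_le_one hl (fun t => -cl 1 (1 - t / ω)) 1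
    (fun s t h => neg_le_neg (cl_mono 1 (sub_le_sub_left (div_le_div_of_nonneg_right h hω.le) 1)))
    (fun t => by rw [abs_neg]; exact cl_abs zero_le_one _)
    (fun l => if l < j then fun _ => 1 else (ball z 10).indicator fun _ => 3 / ω / 4 ^ l)
    (fun l => ?_) (fun l => ?_) (fun l y => ?_) j (max j K) (le_max_left _ _)
    ((le_max_right _ _).trans (Nat.le_succ _))
  · have h3 := err W (c := 3 / ω) (by positivity) j (max j K)
      (o := fun l => if l < j then fun _ => 1 else (ball z 10).indicator fun _ => 3 / ω / 4 ^ l)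
      fun l hl => if_neg (not_lt.2 hl)
    have hc : Continuous a := cont_of_lip zero_le_one hl
    have h4 : ∫ y, cl 1 (1 - (a y - 2 * 1 / 4 ^ j) / ω) * inner ℝ e (m j y) ≤
        1 * ∫ y in A, ‖m j y‖ := by
      refine int_le_A (W.lev.int j) hA (int_mul ((cont_cl 1).comp (by fun_prop))
        (fun y => cl_abs zero_le_one _) ((W.lev.int j).const_inner e)) (fun y => ?_) fun y hy => ?_
      · refine (le_abs_self _).trans ?_
        rw [abs_mul]
        refine mul_le_mul (cl_abs zero_le_one _) ?_ (abs_nonneg _) zero_le_one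
        simpa [W.unit] using abs_real_inner_le_norm e (m j y)
      · have h5 : ω + 3 / 4 ^ j ≤ a y := not_lt.1 fun h => hy (ha y h)
        have h6 : (2 : ℝ) * 1 / 4 ^ j ≤ 3 / 4 ^ j := by gcongr; norm_num
        rw [Function.comp_apply, hz (by linarith), zero_mul]
    have h5 : ∀ (t : ℝ) (w : E d), -t * inner ℝ ((2 : ℝ) • e) w = -2 * (t * inner ℝ e w) := by
      intro t w
      rw [real_inner_smul_left]
      ring
    simp only [h5, integral_const_mul] at h2
    have h6 : 4 * (3 / ω) * ((lam / 4) ^ j * D) = 2 * (6 / ω * ((lam / 4) ^ j * D)) := by ring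
    linarith
  · split_ifs
    · exact measurable_const
    · exact measurable_const.indicator measurableSet_ball
  · split_ifs
    · exact ⟨1, fun _ => abs_one.le⟩
    · exact ⟨_, ind_bdd _ _⟩
  · split_ifs with hlj
    · linarith [cl_nonneg zero_le_one (1 - a y / ω), cl_le 1 (1 - (a y - 3 * 1 / 4 ^ l) / ω)]
    by_cases hy : y ∈ ball z 10
    · rw [indicator_of_mem hy, neg_sub_neg]
      refine (le_abs_self _).trans ((cl_lip _ _ _).trans_eq ?_)
      have : 1 - (a y - 3 * 1 / 4 ^ l) / ω - (1 - a y / ω) = 3 / ω / 4 ^ l := by ring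
      rw [this, abs_of_nonneg (by positivity)]
    · have h5 : ω + 3 / 4 ^ j ≤ a y := not_lt.1 fun h => hy (hAz (ha y h))
      have h6 : (3 : ℝ) * 1 / 4 ^ l ≤ 3 / 4 ^ j := by
        rw [mul_one]
        exact div_le_div_of_nonneg_left (by norm_num) (by positivity)
          (pow_le_pow_right₀ (by norm_num) (not_lt.1 hlj))
      have h7 : (0 : ℝ) ≤ 3 / 4 ^ j := by positivity
      rw [indicator_of_notMem hy, hz (by linarith), hz (by linarith), sub_self]

theorem key3 (hp : PLStmt d) (W : WinL m μ K e z D) {Y : E d → E d} {k : E d → ℝ} {L Λ B : ℝ}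
    (hL : 0 ≤ L) (hΛ : 0 ≤ Λ) (hY : ∀ y y', ‖Y y - Y y'‖ ≤ L * ‖y - y'‖)
    (hk : ∀ y y', |k y - k y'| ≤ Λ * ‖y - y'‖) (hYk : ∀ y, ‖Y y‖ ≤ k y) (hB : ∀ y, k y ≤ B)
    (hs : ∀ y, k y ≠ 0 → y ∈ ball z 10) (j : ℕ) :
    ∫ y, inner ℝ (μ y) (Y y) ≤ 2 * d * ((∫ y, k y * inner ℝ e (μ y)) +
      (∫ y, k y * dfc e (m j y)) + 6 * (Λ + L) * ((lam / 4) ^ j * D)) := by
  have hkc : Continuous k := cont_of_lip hΛ hk
  have hYc : Continuous Y := cont_of_lip hL hY
  have hμ := int_mu W
  have hk0 : ∀ y, 0 ≤ k y := fun y => (norm_nonneg _).trans (hYk y)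
  have hco : ∀ (w : E d) (i : Fin d), |w i| ≤ ‖w‖ := fun w i => PiLp.norm_apply_le w i
  have i1 : Integrable fun y => k y * inner ℝ e (μ y) :=
    int_mul hkc (B := B) (fun y => by rw [abs_of_nonneg (hk0 y)]; exact hB y) (hμ.const_inner e)
  have i2 : ∀ i : Fin d, Integrable fun y => Y y i * μ y i := fun i =>
    int_mul (by fun_prop) (B := B) (fun y => (hco _ i).trans ((hYk y).trans (hB y)))
      ((EuclideanSpace.proj i : E d →L[ℝ] ℝ).integrable_comp hμ)
  have one : ∀ (i : Fin d) (σ : ℝ), |σ| = 1 →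
      -(∫ y, k y * dfc e (m j y)) - 12 * ((Λ + L) / 2) * ((lam / 4) ^ j * D) ≤
        ∫ y, (k y + σ * Y y i) / 2 * (2 * inner ℝ e (μ y) - σ * μ y i) := by
    intro i σ hσ
    have hab : ∀ w : E d, |σ * w i| ≤ ‖w‖ := fun w => by
      rw [abs_mul, hσ, one_mul]
      exact hco w i
    have hin : ∀ w : E d, inner ℝ ((2 : ℝ) • e - σ • EuclideanSpace.single i (1 : ℝ)) w =
        2 * inner ℝ e w - σ * w i := fun w => by
      rw [inner_sub_left, real_inner_smul_left, real_inner_smul_left,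
        EuclideanSpace.inner_single_left]
      simp
    have h1 := key1 hp W (v := (2 : ℝ) • e - σ • EuclideanSpace.single i (1 : ℝ))
      (ζ := fun y => (k y + σ * Y y i) / 2) (A := (Λ + L) / 2) (fun w => ?_) (by positivity)
      (fun y y' => ?_) (fun y => ?_) (fun y => ?_) hkc hB hs j
    · simpa only [hin] using h1
    · have h2 : ‖w‖ - 2 * inner ℝ e w ≤ dfc e w := le_max_left _ _
      rw [hin]
      linarith [(abs_le.1 (hab w)).2]
    · have h2 := abs_le.1 (hk y y')
      have h3 := abs_le.1 ((hab (Y y - Y y')).trans (hY y y'))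
      rw [PiLp.sub_apply] at h3
      exact abs_le.2 ⟨by linarith [h2.1, h3.1], by linarith [h2.2, h3.2]⟩
    · linarith [(abs_le.1 (hab (Y y))).1, hYk y]
    · linarith [(abs_le.1 (hab (Y y))).2, hYk y]
  have i3 : ∀ i : Fin d, Integrable fun y => Y y i * inner ℝ e (μ y) := fun i =>
    int_mul (by fun_prop) (B := B) (fun y => (hco _ i).trans ((hYk y).trans (hB y)))
      (hμ.const_inner e)
  have i4 : ∀ i : Fin d, Integrable fun y => k y * μ y i := fun i =>
    int_mul hkc (B := B) (fun y => by rw [abs_of_nonneg (hk0 y)]; exact hB y)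
      ((EuclideanSpace.proj i : E d →L[ℝ] ℝ).integrable_comp hμ)
  have two : ∀ i : Fin d, ∫ y, Y y i * μ y i ≤ 2 * ((∫ y, k y * inner ℝ e (μ y)) +
      (∫ y, k y * dfc e (m j y)) + 6 * (Λ + L) * ((lam / 4) ^ j * D)) := by
    intro i
    have ev : ∀ σ : ℝ, ∫ y, (k y + σ * Y y i) / 2 * (2 * inner ℝ e (μ y) - σ * μ y i) =
        (∫ y, k y * inner ℝ e (μ y)) + σ * (∫ y, Y y i * inner ℝ e (μ y)) -
          σ / 2 * (∫ y, k y * μ y i) - σ * σ / 2 * ∫ y, Y y i * μ y i := by
      intro σ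
      have j1 : Integrable fun y => k y * inner ℝ e (μ y) + σ * (Y y i * inner ℝ e (μ y)) :=
        i1.add ((i3 i).const_mul _)
      have j2 : Integrable fun y => k y * inner ℝ e (μ y) + σ * (Y y i * inner ℝ e (μ y)) -
          σ / 2 * (k y * μ y i) := j1.sub ((i4 i).const_mul _)
      rw [← integral_const_mul, ← integral_const_mul, ← integral_const_mul,
        ← integral_add i1 ((i3 i).const_mul _), ← integral_sub j1 ((i4 i).const_mul _),
        ← integral_sub j2 ((i2 i).const_mul _)]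
      exact integral_congr_ae (Eventually.of_forall fun y => by simp only; ring)
    have h1 := one i 1 abs_one
    have h2 := one i (-1) (by rw [abs_neg, abs_one])
    rw [ev] at h1 h2
    linarith
  have h3 : ∀ y, inner ℝ (μ y) (Y y) = ∑ i, Y y i * μ y i := fun y => by
    rw [PiLp.inner_apply]
    simp
  simp only [h3]
  rw [integral_finsetSum _ fun i _ => i2 i]
  refine (Finset.sum_le_sum fun i _ => two i).trans_eq ?_
  rw [Finset.sum_const, Finset.card_univ, Fintype.card_fin, nsmul_eq_mul]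
  ring

theorem exists_dist (S A : Set (E d)) {ω : ℝ} (j : ℕ)
    (h : ∀ y ∈ S, ∀ y', ‖y' - y‖ ≤ ω + 3 / 4 ^ j → y' ∈ A) : ∃ a : E d → ℝ,
    (∀ y y', |a y - a y'| ≤ 1 * ‖y - y'‖) ∧ (∀ y ∈ S, a y = 0) ∧
      ∀ y, a y < ω + 3 / 4 ^ j → y ∈ A := by
  rcases S.eq_empty_or_nonempty with rfl | hS
  · exact ⟨fun _ => ω + 3 / 4 ^ j, fun y y' => by simp, fun y hy => hy.elim,
      fun y hy => (lt_irrefl _ hy).elim⟩
  refine ⟨fun y => infDist y S, fun y y' => ?_, fun y hy => infDist_zero_of_mem hy, fun y hy => ?_⟩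
  · have := (lipschitz_infDist_pt S).dist_le_mul y y'
    rwa [Real.dist_eq, dist_eq_norm] at this
  · obtain ⟨s, hs, hd⟩ := (infDist_lt_iff hS).1 hy
    exact h s hs y (by rw [← dist_eq_norm]; exact hd.le)

end SplitAux

open SplitAux in
theorem split (d : ℕ) (hd : 1 ≤ d) (hp : PLStmt d) : SplitStmt d := by
  have hd' : (1 : ℝ) ≤ d := by exact_mod_cast hd
  refine ⟨24 * d, by positivity, fun m μ K e z D W Y k S A L B η ω Lk Ck j hL hB hη hω hLk hY hYB
    hk hkl hks hS hA hAz hSA hneg => ?_⟩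
  obtain ⟨a, ha1, ha2, ha3⟩ := exists_dist S A j hSA
  set th : E d → ℝ := fun y => cl 1 (1 - a y / ω) with hth
  have hth0 : ∀ y, 0 ≤ th y := fun y => cl_nonneg zero_le_one _
  have hth1 : ∀ y, |th y| ≤ 1 := fun y => cl_abs zero_le_one _
  have hthA : ∀ y, y ∉ A → th y = 0 := fun y hy => by
    have h5 : ω + 3 / 4 ^ j ≤ a y := not_lt.1 fun h => hy (ha3 y h)
    have h7 : (0 : ℝ) ≤ 3 / 4 ^ j := by positivity
    exact cl_of_nonpos zero_le_one (sub_nonpos.2 ((one_le_div hω).2 (by linarith)))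
  have hthl : ∀ y y', |th y - th y'| ≤ ω⁻¹ * ‖y - y'‖ := fun y y' => by
    refine (cl_lip _ _ _).trans ?_
    have : 1 - a y / ω - (1 - a y' / ω) = -(ω⁻¹ * (a y - a y')) := by ring
    rw [this, abs_neg, abs_mul, abs_of_pos (inv_pos.2 hω)]
    exact mul_le_mul_of_nonneg_left (by simpa using ha1 y y') (inv_pos.2 hω).le
  have hthc : Continuous th := cont_of_lip (inv_pos.2 hω).le hthl
  have hkc : Continuous k := cont_of_lip hLk hkl
  have hkb : ∀ y, |k y| ≤ Ck := fun y => by
    rw [abs_of_nonneg (hk y).1]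
    exact (hk y).2
  have hCk : 0 ≤ Ck := (hk 0).1.trans (hk 0).2
  have hμ := int_mu W
  have hdf := integrable_dfc W.unit (W.lev.int j)
  have h1 := key3 hp W (k := fun y => η * k y + B * th y) (Λ := η * Lk + B / ω)
    (B := η * Ck + B) hL (by positivity) hY (fun y y' => ?_) (fun y => ?_) (fun y => ?_)
    (fun y hy => ?_) j
  · have h2 := key2 hp W ha1 hω hA hAz j ha3
    have split : ∀ g : E d → ℝ, Integrable g → ∫ y, (η * k y + B * th y) * g y =
        η * (∫ y, k y * g y) + B * ∫ y, th y * g y := by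
      intro g hg
      rw [← integral_const_mul, ← integral_const_mul, ← integral_add
        ((int_mul hkc hkb hg).const_mul _) ((int_mul hthc hth1 hg).const_mul _)]
      exact integral_congr_ae (Eventually.of_forall fun y => by simp only; ring)
    rw [split _ (hμ.const_inner e), split _ hdf] at h1
    have h3 : ∫ y, th y * dfc e (m j y) ≤ 3 * ∫ y in A, ‖m j y‖ :=
      int_le_A (W.lev.int j) hA (int_mul hthc hth1 hdf)
        (fun y => (mul_le_of_le_one_left (dfc_nonneg _ _) (cl_le _ _)).trans (dfc_le W.unit _))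
        fun y hy => by rw [hthA y hy, zero_mul]
    have h4 : ∫ y, k y * dfc e (m j y) ≤ Ck * (lam ^ j * D) := by
      refine le_trans ?_ (mul_le_mul_of_nonneg_left (W.dfc_le j) hCk)
      rw [← integral_const_mul, ← integral_indicator measurableSet_ball]
      refine integral_mono (int_mul hkc hkb hdf) ((hdf.const_mul Ck).indicator measurableSet_ball)
        fun y => ?_
      by_cases hy : y ∈ ball z 10
      · rw [indicator_of_mem hy]
        exact mul_le_mul_of_nonneg_right (hk y).2 (dfc_nonneg _ _)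
      · have : k y = 0 := by
          by_contra h
          exact hy (hks y h)
        rw [indicator_of_notMem hy]
        simp only [this, zero_mul, le_refl]
    have h5 : 0 ≤ ∫ y in A, ‖m j y‖ := integral_nonneg fun _ => norm_nonneg _
    have h6 : 0 ≤ (lam / 4) ^ j * D := by have := lam_pos; have := W.Dpos; positivity
    have h7 : 0 ≤ lam ^ j * D := by have := lam_pos; have := W.Dpos; positivity
    refine h1.trans ?_
    have h8 := mul_nonpos_of_nonneg_of_nonpos hη hneg
    have h9 := mul_le_mul_of_nonneg_left h2 hB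
    have h10 := mul_le_mul_of_nonneg_left h3 hB
    have h11 := mul_le_mul_of_nonneg_left h4 hη
    have h12 := mul_nonneg hB h5
    have h13 := mul_nonneg (mul_nonneg hη hCk) h7
    have h14 := mul_nonneg hL h6
    have h15 := mul_nonneg (mul_nonneg hη hLk) h6
    rw [show (24 : ℝ) * d = 2 * d * 12 by ring, mul_assoc (2 * (d : ℝ))]
    refine mul_le_mul_of_nonneg_left ?_ (by positivity)
    have h16 : B * (6 / ω * ((lam / 4) ^ j * D)) = 6 * (B / ω * ((lam / 4) ^ j * D)) := by ring
    rw [mul_add, h16] at h9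
    linarith
  · have h2 := abs_le.1 (hkl y y')
    have h3 := abs_le.1 (hthl y y')
    have h4 := mul_le_mul_of_nonneg_left h2.1 hη
    have h5 := mul_le_mul_of_nonneg_left h2.2 hη
    have h6 := mul_le_mul_of_nonneg_left h3.1 hB
    have h7 := mul_le_mul_of_nonneg_left h3.2 hB
    rw [div_eq_mul_inv]
    exact abs_le.2 ⟨by linarith, by linarith⟩
  · by_cases hy : y ∈ S
    · have h2 : th y = 1 := by
        rw [hth]
        simp only [ha2 y hy, zero_div, sub_zero]
        exact cl_of_mem zero_le_one le_rfl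
      rw [h2, mul_one]
      exact (hYB y).trans (le_add_of_nonneg_left (mul_nonneg hη (hk y).1))
    · exact (hS y hy).trans (le_add_of_nonneg_right (mul_nonneg hB (hth0 y)))
  · exact add_le_add (mul_le_mul_of_nonneg_left (hk y).2 hη)
      (mul_le_of_le_one_right hB (cl_le _ _))
  · by_contra h
    have h2 : k y = 0 := by
      by_contra h'
      exact h (hks y h')
    exact hy (by rw [h2, hthA y fun h' => h (hAz h'), mul_zero, mul_zero, add_zero])

end Vale.Agent.P137
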