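import Vale.Agent.P137.Basic

open MeasureTheory Metric Set Filter
open scoped ENNReal NNReal Topology

namespace Vale.Agent.P137

variable {d : ℕ}

namespace StepAux

theorem grid (S N : ℝ → ℝ) {φ H : ℝ} (hφ : 0 < φ) (S0 : S (-1 - φ) < H)
    (Stop : ∀ c, 1 ≤ c → ∀ c', S c' ≤ S c) (N1 : N (1 + 4 * φ) < H)
    (hno : ∀ c, H ≤ S c → N (c + 3 * φ) < H) :
    ∃ c, -1 - φ ≤ c ∧ c ≤ 1 ∧ S c ≤ H ∧ N (c + 4 * φ) ≤ H := by
  classical
  by_cases h : ∃ i : ℕ, H ≤ S (-1 - φ + i * φ)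
  · have hi := Nat.find_spec h
    have h0 : Nat.find h ≠ 0 := by
      intro h0
      rw [h0] at hi
      simp only [Nat.cast_zero, zero_mul, add_zero] at hi
      linarith
    obtain ⟨j, hj⟩ := Nat.exists_eq_succ_of_ne_zero h0
    have hlt := Nat.find_min h (m := j) (by omega)
    rw [hj] at hi
    have hj0 : (0 : ℝ) ≤ j * φ := by positivity
    refine ⟨-1 - φ + j * φ, by linarith, ?_, (not_le.1 hlt).le, ?_⟩
    · by_contra hc
      exact hlt (hi.trans (Stop _ (not_le.1 hc).le _))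
    · have := hno _ hi
      rw [show -1 - φ + ((j.succ : ℕ) : ℝ) * φ + 3 * φ = -1 - φ + j * φ + 4 * φ by
        push_cast; ring] at this
      exact this.le
  · push Not at h
    obtain ⟨i, hi⟩ := exists_nat_ge ((2 + φ) / φ)
    rw [div_le_iff₀ hφ] at hi
    exact ⟨1, by linarith, le_rfl, ((Stop _ (by linarith) 1).trans_lt (h i)).le, N1.le⟩

theorem cap_empty {e x : E d} (he : ‖e‖ = 1) {r w c : ℝ} (hw : w < r) (hc : c < -1) :
    cap e x r w c = ∅ := by
  refine eq_empty_of_forall_notMem fun y hy => ?_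
  have h1 := abs_le.1 hy.1
  have h2 := abs_real_inner_le_norm (y - x) e
  rw [he, mul_one] at h2
  have h3 := neg_abs_le (inner ℝ (y - x) e)
  have h4 := hy.2
  have h5 : 0 < ‖y - x‖ := by linarith [h1.1]
  nlinarith

theorem cap_top {e x : E d} (he : ‖e‖ = 1) {r w c : ℝ} (hc : 1 ≤ c) (c' : ℝ) :
    cap e x r w c' ⊆ cap e x r w c := by
  intro y hy
  refine ⟨hy.1, ?_⟩
  have h2 := real_inner_le_norm (y - x) e
  rw [he, mul_one] at h2
  nlinarith [norm_nonneg (y - x)]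

theorem measurableSet_cap (e x : E d) (r w c : ℝ) : MeasurableSet (cap e x r w c) := by
  have h1 : IsClosed {y : E d | |‖y - x‖ - r| ≤ w} := isClosed_le (by fun_prop) continuous_const
  have h2 : IsClosed {y : E d | inner ℝ (y - x) e ≤ c * ‖y - x‖} :=
    isClosed_le (by fun_prop) (by fun_prop)
  exact (h1.inter h2).measurableSet

theorem real_withDensity {w : E d → E d} (hw : Integrable w) {s : Set (E d)}
    (hs : MeasurableSet s) :
    (volume.withDensity fun y => ‖w y‖ₑ).real s = ∫ y in s, ‖w y‖ := by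
  rw [Measure.real, withDensity_apply _ hs, integral_norm_eq_lintegral_enorm hw.1.restrict]

end StepAux

open StepAux in
set_option maxHeartbeats 400000 in
theorem step (d : ℕ) (_hd : 1 ≤ d) (hk : KerStmt d) (hg : GGStmt d) (hr : RadStmt d)
    (h1 : S1Stmt d) (h5 : S5Stmt d) (hra : RareStmt d) : StepStmt d := by
  obtain ⟨c₀, C₀, -, -, hk⟩ := hk
  obtain ⟨Cr, hCr, hr⟩ := hr
  obtain ⟨C1, hC1, h1⟩ := h1
  obtain ⟨C5, hC5, h5⟩ := h5
  obtain ⟨Ca, hCa, hra⟩ := hra
  have hd1 := dl_pos 1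
  obtain ⟨C, c1, c2, c3, c4, c5, c6⟩ : ∃ C : ℝ, C1 ≤ C ∧ C1 * (1 / dl 1) ≤ C ∧
      Cr * (1 + 1 / dl 1) ≤ C ∧ 3 * Cr ≤ C ∧ C5 * (1 + 3 * Cr) ≤ C ∧ 4 * Ca ≤ C := by
    have p1 : 0 < C1 * (1 / dl 1) := by positivity
    have p2 : 0 < Cr * (1 + 1 / dl 1) := by positivity
    have p3 : 0 < C5 * (1 + 3 * Cr) := by positivity
    refine ⟨C1 + C1 * (1 / dl 1) + Cr * (1 + 1 / dl 1) + 3 * Cr + C5 * (1 + 3 * Cr) + 4 * Ca,
      ?_, ?_, ?_, ?_, ?_, ?_⟩ <;> linarith
  refine ⟨C, by linarith, fun u m μ K e z D hW hu => ?_⟩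
  have he := hW.unit
  have hD := hW.Dpos
  set M1 : ℝ := ∫ y, ‖μ y‖ with hM1
  have hM : 0 ≤ M1 := integral_nonneg fun _ => norm_nonneg _
  have keyA : ∀ (n : ℕ) (x : E d), ‖x - z‖ ≤ 3 → ∀ σ : ℝ, 0 < σ → σ ≤ 1 → ∀ r β κ : ℝ,
      r ∈ Icc (1 : ℝ) (4 - dl n) → gg u n x = UU u (dl n) x r → 1 ≤ r + β * σ →
      r + β * σ + dl n ≤ 4 → |β| ≤ 2 → |κ| ≤ 1 →
      Dq e σ (gg u n) x ≤
        -(∫ y, inner ℝ (μ y) (Fld x r (dl n) (fun _ w => e + β • w + κ • Wf e w) y)) +
          C1 * σ * M1 / dl n := by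
    intro n x hx σ hσ hσ1 r β κ hr hmax a1 a2 hβ hκ
    refine le_trans ?_ (h1 u μ z hu e x r (dl n) σ β κ he hx (dl_pos n) hσ hσ1 hr.1
      (by linarith [hr.2]) a1 a2 hβ hκ)
    have hx' : ‖x + σ • e - z‖ ≤ 5 := by
      have := norm_add_le (x - z) (σ • e)
      rw [norm_smul, he, Real.norm_of_nonneg hσ.le] at this
      rw [show x + σ • e - z = x - z + σ • e by abel]
      linarith
    have := (hg u μ z hu n _ hx').2.1 (r + β * σ) ⟨a1, by linarith⟩
    unfold Dq
    rw [hmax]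
    exact div_le_div_of_nonneg_right (by linarith) hσ.le
  have keyB : ∀ (n : ℕ) (x : E d), ‖x - z‖ ≤ 3 → ∀ σ : ℝ, 0 < σ → σ ≤ 1 → ∀ r : ℝ,
      r ∈ Icc (1 : ℝ) (4 - dl n) → gg u n x = UU u (dl n) x r →
      Dq e σ (gg u n) x ≤ -G0 μ e x r (dl n) + C1 * σ * M1 / dl n := by
    intro n x hx σ hσ hσ1 r hr hmax
    have := keyA n x hx σ hσ hσ1 r 0 0 hr hmax (by linarith [hr.1]) (by linarith [hr.2])
      (by simp) (by simp)
    have e1 := (hk r (dl n) (by linarith [hr.1]) (dl_pos n) (by linarith [hr.2])).2.2.2.2.2.2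
    simp only [zero_smul, add_zero, e1, real_inner_smul_right] at this
    simpa only [G0, real_inner_comm e] using this
  refine ⟨fun x hx σ hσ hσ1 => ?_, fun n hn => ?_⟩
  · have hx' : ‖x - z‖ ≤ 3 := (mem_ball_iff_norm.1 hx).le
    obtain ⟨r, hr', hmax⟩ := (hg u μ z hu 1 x (by linarith)).1
    have a := keyB 1 x hx' σ hσ hσ1 r hr' hmax
    have b := (hr m μ K e z D hW x r (dl 1) 0 hx' hr'.1 hd1 (by linarith [hr'.2])).1
    simp only [pow_zero] at b
    have e1 : C1 * σ * M1 / dl 1 ≤ C * σ * M1 := by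
      rw [show C1 * σ * M1 / dl 1 = C1 * (1 / dl 1) * σ * M1 by ring]
      exact mul_le_mul_of_nonneg_right (mul_le_mul_of_nonneg_right c2 hσ.le) hM
    have e2 : Cr * (1 + 1 / dl 1) * D ≤ C * D := by gcongr
    linarith
  have hq := qq_pos n
  have hq1 := qq_le_one n
  have hτ := tau_pos n
  have hφ := phi_pos n
  have hφ4 := phi_le hn
  have hτφ := tau_le_phi hn
  have hδ := dl_pos (n + 1)
  have hδτ : dl (n + 1) ≤ tau n := (dl_succ_le n).trans (dl_le_tau n)
  have hδτ' := dl_le_tau n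
  set Λ : ℝ := 3 * Cr * D / qq n with hΛ
  have hΛ0 : 0 < Λ := by positivity
  set H : ℝ := qq n ^ 2 * Λ with hH
  have hH0 : 0 < H := by positivity
  have hnum : Cr * (lam ^ lst n + (lam / 4) ^ lst n / dl (n + 1)) * D ≤ Λ := by
    have a1 := lam_lst n
    have a2 := lam4_lst n
    have a3 : qq n ≤ 1 / qq n := by rw [le_div_iff₀ hq]; nlinarith
    have a4 : lam ^ lst n + (lam / 4) ^ lst n / dl (n + 1) ≤ 3 / qq n := by
      have : 3 / qq n = 2 / qq n + 1 / qq n := by ring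
      linarith
    calc _ ≤ Cr * (3 / qq n) * D := by gcongr
      _ = Λ := by rw [hΛ]; ring
  have hmi := hW.lev.int (lst n)
  set ν : Measure (E d) := volume.withDensity fun y => ‖m (lst n) y‖ₑ with hν
  have hνf : IsFiniteMeasure ν := isFiniteMeasure_withDensity hmi.2.ne
  obtain ⟨R, hRm, hRv, hR⟩ := hra e z ν Λ H (tau n) (phi n) hνf he hΛ0.le hH0 hφ hφ4 hτ hτφ
  refine ⟨R, hRm, hRv.trans (ENNReal.ofReal_le_ofReal ?_), fun x hx σ hσ hστ => ?_⟩
  · have e1 : Λ / H = 1 / qq n ^ 2 := by rw [hH]; field_simp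
    have e2 : Ca * (Λ / H + 1) ^ 2 * tau n / phi n ^ 3 = Ca * (1 + qq n ^ 2) ^ 2 * qq n ^ 2 := by
      rw [e1]; unfold tau phi; field_simp
    rw [e2]
    have : (1 + qq n ^ 2) ^ 2 ≤ 4 := by
      have : qq n ^ 2 ≤ 1 := pow_le_one₀ hq.le hq1
      nlinarith [sq_nonneg (qq n)]
    calc _ ≤ Ca * 4 * qq n ^ 2 := by gcongr
      _ ≤ _ := by gcongr; linarith
  have hx' : ‖x - z‖ ≤ 3 := (mem_ball_iff_norm.1 hx).le
  have hσ1 : σ ≤ 1 := hστ.trans (tau_le_one n)
  have hgx := hg u μ z hu (n + 1) x (by linarith)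
  obtain ⟨r, hr', hmax⟩ := hgx.1
  have a := keyB (n + 1) x hx' σ hσ hσ1 r hr' hmax
  obtain ⟨b1, b2, b3⟩ := hr m μ K e z D hW x r (dl (n + 1)) (lst n) hx' hr'.1 hδ
    (by linarith [hr'.2])
  have e1 : C1 * σ * M1 / dl (n + 1) ≤ C * σ * M1 / dl (n + 1) :=
    div_le_div_of_nonneg_right
      (mul_le_mul_of_nonneg_right (mul_le_mul_of_nonneg_right c1 hσ.le) hM) hδ.le
  have e0 : 0 ≤ C * qq n * D := by
    have : 0 ≤ C := by linarith
    positivity
  by_cases hG : 0 ≤ G0 μ e x r (dl (n + 1))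
  · left; linarith
  by_cases hend : r < 1 + 3 * tau n ∨ 4 - 3 * tau n < r
  · right; left
    refine ⟨r, ?_, ?_⟩
    · rcases hend with h | h
      · left; rw [abs_le]; constructor <;> linarith [hr'.1]
      · right; rw [abs_le]; constructor <;> linarith [hr'.2]
    · have s0 : 0 ≤ shsum m e z x r (dl (n + 1)) (lst n) :=
        Finset.sum_nonneg fun l _ => integral_nonneg fun y => dfc_nonneg _ _
      have f1 : Cr * (1 + (lam / 4) ^ lst n / dl (n + 1)) * D ≤ C * D := by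
        have := lam4_lst n
        have : Cr * (1 + (lam / 4) ^ lst n / dl (n + 1)) ≤ C := by nlinarith
        gcongr
      have f2 : Cr * shsum m e z x r (dl (n + 1)) (lst n) ≤
          C * shsum m e z x r (dl (n + 1)) (lst n) := mul_le_mul_of_nonneg_right (by linarith) s0
      linarith
  by_cases hxR : x ∈ R
  · right; right; right
    refine ⟨hxR, ?_⟩
    have : Λ ≤ C * D / qq n := by rw [hΛ]; gcongr
    linarith
  right; right; left
  push Not at hend hG
  have hdeep : ν.real (ball x (r - tau n)) ≤ Λ := by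
    rw [hν, real_withDensity hmi measurableSet_ball]
    refine le_trans ?_ ((b2 hG.le).trans hnum)
    refine setIntegral_mono_set hmi.norm.integrableOn
      (Eventually.of_forall fun _ => norm_nonneg _) (LE.le.eventuallyLE ?_)
    refine ball_subset_ball ?_
    have f1 : 2 / (4 : ℝ) ^ lst n = 2 * dl (n + 1) ^ 2 := by rw [← four_lst]; ring
    rw [f1]
    nlinarith
  obtain ⟨c, hc1, hc2, hS, hN⟩ := grid (fun c => ν.real (cap e x r (5 * tau n) c))
    (fun c => ν.real (cap (-e) x r (5 * tau n) (-c))) (H := H) hφ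
    (by rw [cap_empty he (by linarith [hr'.1]) (by linarith)]; simpa using hH0)
    (fun c hc c' => measureReal_mono (cap_top he hc c'))
    (by rw [cap_empty (by simpa using he) (by linarith [hr'.1]) (by linarith)]; simpa using hH0)
    (fun c hc => by
      by_contra h
      exact hxR (hR x r c hr'.1 (by linarith [hr'.2]) hdeep hc (not_lt.1 h)))
  simp only [hν, real_withDensity hmi (measurableSet_cap _ _ _ _ _)] at hS hN
  have s5 := h5 u m μ K e z D hW hu n x r c H hn hx' hend.1 hend.2 hc1 hc2 hG.le hS hN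
  have hβ : |2 * phi n - c| ≤ 2 := by rw [abs_le]; constructor <;> linarith
  have hβσ : |(2 * phi n - c) * σ| ≤ 2 * tau n := by
    rw [abs_mul, abs_of_pos hσ]; gcongr
  have hβτ : |(2 * phi n - c) * tau n| ≤ 2 * tau n := by
    rw [abs_mul, abs_of_pos hτ]; gcongr
  rw [abs_le] at hβσ hβτ
  have a' := keyA (n + 1) x hx' σ hσ hσ1 r (2 * phi n - c) 1 hr' hmax (by linarith [hend.1])
    (by linarith [hend.2]) hβ (by simp)
  simp only [one_smul] at a'
  have hx2 : ‖x - tau n • e - z‖ ≤ 5 := by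
    have := norm_sub_le (x - z) (tau n • e)
    rw [norm_smul, he, Real.norm_of_nonneg hτ.le] at this
    rw [show x - tau n • e - z = x - z - tau n • e by abel]
    linarith [tau_le_one n]
  have g1 := (hg u μ z hu n _ hx2).2.1 (r - (2 * phi n - c) * tau n)
    ⟨by linarith [hend.1], by linarith [hend.2]⟩
  have g2 := (hg u μ z hu n x (by linarith)).2.2.1
  have g3 : (UU u (dl n) (x - tau n • e) (r - (2 * phi n - c) * tau n) - UU u (dl (n + 1)) x r) /
      tau n ≤ Dq e (tau n) (gg u n) (x - tau n • e) := by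
    unfold Dq
    rw [sub_add_cancel]
    exact div_le_div_of_nonneg_right (by linarith) hτ.le
  have g4 : C5 * (qq n * D + H) ≤ C * qq n * D := by
    have : C5 * (qq n * D + H) = C5 * (1 + 3 * Cr) * qq n * D := by
      rw [hH, hΛ]; field_simp
    rw [this]; gcongr
  unfold Pf at s5
  linarith

end Vale.Agent.P137
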