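import Vale.Agent.P137.Basic

open MeasureTheory Metric Set Filter
open scoped ENNReal NNReal Topology

namespace Vale.Agent.P137

namespace SumAux

variable {d : ℕ}

theorem term_real {η s A t a P : ℝ} (j : ℕ) (h0 : 0 < η) (h1 : η ≤ 1) (hP : P ≤ s) (hs : 0 ≤ s)
    (hA : 0 ≤ A) (ht : 0 ≤ t) (ht' : t ≤ 32) (ha : 0 ≤ a) (ha' : a ≤ A * t / 4 ^ j) :
    ((j + 1 : ℕ) : ℝ) * (√P * a + a ^ 2) ≤ 33 * t * ((2 ^ j)⁻¹ * (η * s + η⁻¹ * A ^ 2)) := by
  have e1 : 1 ≤ η⁻¹ := (one_le_inv₀ h0).2 h1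
  have e2 : √P ≤ √s := Real.sqrt_le_sqrt hP
  have e3 : √s * A ≤ η * s + η⁻¹ * A ^ 2 := by
    have b1 : η * s = η * √s ^ 2 := by rw [Real.sq_sqrt hs]
    have b2 : η * (√s - η⁻¹ * A) ^ 2 = η * √s ^ 2 - 2 * (√s * A) + η⁻¹ * A ^ 2 := by
      field_simp
      ring
    have b3 : 0 ≤ η * (√s - η⁻¹ * A) ^ 2 := by positivity
    have b4 : 0 ≤ √s * A := by positivity
    linarith
  have e4 : (1 : ℝ) ≤ 4 ^ j := one_le_pow₀ (by norm_num)
  have e5 : a ≤ 32 * A := by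
    refine ha'.trans ((div_le_self (by positivity) e4).trans ?_)
    nlinarith
  have e6 : A ^ 2 ≤ η * s + η⁻¹ * A ^ 2 := by
    have : 0 ≤ η * s := by positivity
    nlinarith [sq_nonneg A]
  have e7 : √P * a + a ^ 2 ≤ (33 * (η * s + η⁻¹ * A ^ 2)) * (t / 4 ^ j) := by
    have b1 : √P * a + a ^ 2 ≤ (√s + 32 * A) * a := by nlinarith
    have b2 : (√s + 32 * A) * a ≤ (√s + 32 * A) * (A * t / 4 ^ j) :=
      mul_le_mul_of_nonneg_left ha' (by positivity)
    have b3 : (√s + 32 * A) * (A * t / 4 ^ j) = (√s * A + 32 * A ^ 2) * (t / 4 ^ j) := by ring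
    refine b1.trans (b2.trans (b3.le.trans (mul_le_mul_of_nonneg_right ?_ (by positivity))))
    linarith
  have e8 : ((j + 1 : ℕ) : ℝ) ≤ 2 ^ j := by exact_mod_cast Nat.lt_two_pow_self
  refine (mul_le_mul e8 e7 (by positivity) (by positivity)).trans (le_of_eq ?_)
  rw [show (4 : ℝ) ^ j = 2 ^ j * 2 ^ j by rw [← mul_pow]; norm_num]
  field_simp

theorem term_conv {η : ℝ≥0} (h0 : 0 < η) {s l L t : ℝ} (j : ℕ) (hs : 0 ≤ s) (hl : 0 ≤ l)
    (hL : 0 ≤ L) (ht : 0 ≤ t) :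
    ENNReal.ofReal (33 * t * ((2 ^ j)⁻¹ * (η * s + (η : ℝ)⁻¹ * (l * L) ^ 2))) =
      33 * ENNReal.ofReal t * ((2 ^ j)⁻¹ * (η * ENNReal.ofReal s +
        (η : ℝ≥0∞)⁻¹ * (ENNReal.ofReal l * ENNReal.ofReal L) ^ 2)) := by
  have h1 : (0 : ℝ) < η := h0
  rw [ENNReal.ofReal_mul (by positivity), ENNReal.ofReal_mul (by positivity),
    ENNReal.ofReal_mul (by positivity), ENNReal.ofReal_add (by positivity) (by positivity),
    ENNReal.ofReal_mul (by positivity), ENNReal.ofReal_mul (by positivity),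
    ENNReal.ofReal_inv_of_pos (by positivity), ENNReal.ofReal_inv_of_pos h1,
    ENNReal.ofReal_pow (by positivity), ENNReal.ofReal_pow (by positivity),
    ENNReal.ofReal_mul hl, ENNReal.ofReal_coe_nnreal, ENNReal.ofReal_ofNat, ENNReal.ofReal_ofNat]

theorem nm_mono (w : E d → E d) {s A A' : ℝ} (hs : 0 < s) (h : A ≤ A') (x : E d) :
    nm w s A x ≤ nm w s A' x :=
  mul_le_mul_right (lintegral_mono_set (ball_subset_ball (mul_le_mul_of_nonneg_right h hs.le))) _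

theorem pw_ne {s : ℝ} (hs : 0 < s) : ENNReal.ofReal (s ^ d) ≠ 0 :=
  (ENNReal.ofReal_pos.2 (by positivity)).ne'

theorem int_avg {g : E d → ℝ≥0∞} (hg : Measurable g) {s A : ℝ} (hs : 0 < s) (hA : 0 < A) :
    ∫⁻ x, (ENNReal.ofReal (s ^ d))⁻¹ * ∫⁻ y in ball x (A * s), g y =
      ENNReal.ofReal (A ^ d * vb d 1) * ∫⁻ y, g y := by
  rw [lintegral_const_mul _ (measurable_ballInt hg _), lintegral_ballInt hg,
    volume_ball_mul _ hA hs, mul_comm (ENNReal.ofReal (A ^ d * vb d 1)), ← mul_assoc, ← mul_assoc,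
    ENNReal.inv_mul_cancel (pw_ne hs) ENNReal.ofReal_ne_top, one_mul]

theorem coarsen {a : ℝ → E d → ℝ≥0∞} (hm : ∀ R, Measurable (a R))
    (hmono : ∀ R R' x x', R + ‖x - x'‖ ≤ R' → a R x ≤ a R' x') {w : E d → E d}
    (hw : Measurable w) {s s' : ℝ} (hs : 0 < s) (h : 4 * s ≤ s') :
    ∫⁻ x, a (16 * s) x * nm w s 16 x ≤ 16 ^ d * ∫⁻ x, a (16 * s') x * nm w s' 5 x := by
  have hs' : 0 < s' := by linarith
  have h1 := av_loc (a := a (16 * s)) (hm (16 * s')) (measurable_nm hw s 16) (r := s')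
    fun x y hy => hmono _ _ _ _ (by rw [mem_ball_iff_norm] at hy; linarith)
  have h2 : ∀ x, ∫⁻ y in ball x s', nm w s 16 y ≤
      volume (ball (0 : E d) s') * (16 ^ d * nm w s' 5 x) := by
    intro x
    have b1 : ∫⁻ y in ball x s', mass w y (16 * s) ≤
        volume (ball (0 : E d) (16 * s)) * mass w x (5 * s') :=
      (ballInt_ballInt hw.enorm x s' (16 * s)).trans
        (mul_le_mul_right (lintegral_mono_set (ball_subset_ball (by linarith))) _)
    have b2 := volume_ball_mul (0 : E d) one_pos hs'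
    rw [one_mul, one_pow, one_mul] at b2
    unfold nm
    rw [lintegral_const_mul _ (measurable_mass hw _)]
    refine (mul_le_mul_right b1 _).trans (le_of_eq ?_)
    rw [volume_ball_mul _ (by norm_num) hs, b2, ENNReal.ofReal_mul (by positivity),
      ENNReal.ofReal_pow (p := 16) (by norm_num), ENNReal.ofReal_ofNat]
    have c1 := ENNReal.inv_mul_cancel (pw_ne (d := d) hs) ENNReal.ofReal_ne_top
    have c2 := ENNReal.inv_mul_cancel (pw_ne (d := d) hs') ENNReal.ofReal_ne_top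
    calc _ = ((ENNReal.ofReal (s ^ d))⁻¹ * ENNReal.ofReal (s ^ d)) *
          (16 ^ d * ENNReal.ofReal (vb d 1) * mass w x (5 * s')) := by ring
      _ = ((ENNReal.ofReal (s' ^ d))⁻¹ * ENNReal.ofReal (s' ^ d)) *
          (16 ^ d * ENNReal.ofReal (vb d 1) * mass w x (5 * s')) := by rw [c1, c2]
      _ = _ := by ring
  have h3 : ∫⁻ x, a (16 * s') x * ∫⁻ y in ball x s', nm w s 16 y ≤
      volume (ball (0 : E d) s') * (16 ^ d * ∫⁻ x, a (16 * s') x * nm w s' 5 x) := by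
    rw [← lintegral_const_mul _ ((hm _).fun_mul (measurable_nm hw s' 5)),
      ← lintegral_const_mul _ (((hm _).fun_mul (measurable_nm hw s' 5)).const_mul _)]
    refine lintegral_mono fun x => (mul_le_mul_right (h2 x) _).trans (le_of_eq ?_)
    ring
  exact (ENNReal.mul_le_mul_iff_right (measure_ball_pos _ _ hs').ne'
    measure_ball_lt_top.ne).1 (h1.trans h3)

theorem coarsen' {a : ℝ → E d → ℝ≥0∞} (hm : ∀ R, Measurable (a R))
    (hmono : ∀ R R' x x', R + ‖x - x'‖ ≤ R' → a R x ≤ a R' x') {w : E d → E d}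
    (hw : Measurable w) {ℓ : ℝ} (hℓ : 0 < ℓ) {i k : ℕ} (hik : i ≤ k) {A B : ℝ} (hA : A ≤ 16)
    (hB : 5 ≤ B) (hAB : i = k → A ≤ B) :
    ∫⁻ x, a (16 * sc ℓ k) x * nm w (sc ℓ k) A x ≤
      16 ^ d * ∫⁻ x, a (16 * sc ℓ i) x * nm w (sc ℓ i) B x := by
  rcases hik.eq_or_lt with rfl | hlt
  · refine le_trans (lintegral_mono fun x => mul_le_mul_right
      (nm_mono w (sc_pos hℓ i) (hAB rfl) x) _) (le_mul_of_one_le_left' ?_)
    exact one_le_pow₀ (by norm_num)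
  · have h1 : 4 * sc ℓ k ≤ sc ℓ i := by
      have := sc_anti hℓ (Nat.succ_le_of_lt hlt)
      linarith [sc_succ ℓ i]
    refine le_trans (lintegral_mono fun x => mul_le_mul_right
      (nm_mono w (sc_pos hℓ k) hA x) _) ((coarsen hm hmono hw (sc_pos hℓ k) h1).trans ?_)
    exact mul_le_mul_right (lintegral_mono fun x => mul_le_mul_right
      (nm_mono w (sc_pos hℓ i) hB x) _) _

theorem geo_sum (n : ℕ) : ∑ t ∈ Finset.range n, (2 ^ t : ℝ≥0∞)⁻¹ * ((t + 3 : ℕ) : ℝ≥0∞) ≤ 8 := by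
  have h1 : ∀ n : ℕ, ∑ t ∈ Finset.range n, (2 ^ t : ℝ)⁻¹ * ((t + 3 : ℕ) : ℝ) =
      8 - (2 ^ n : ℝ)⁻¹ * (2 * n + 8) := by
    intro n
    induction n with
    | zero => simp
    | succ n ih =>
      rw [Finset.sum_range_succ, ih, pow_succ]
      push_cast
      field_simp
      ring
  have h2 : ∀ t : ℕ, (2 ^ t : ℝ≥0∞)⁻¹ * ((t + 3 : ℕ) : ℝ≥0∞) =
      ENNReal.ofReal ((2 ^ t : ℝ)⁻¹ * ((t + 3 : ℕ) : ℝ)) := fun t => by
    rw [ENNReal.ofReal_mul (by positivity), ENNReal.ofReal_inv_of_pos (by positivity),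
      ENNReal.ofReal_pow (by norm_num), ENNReal.ofReal_ofNat, ENNReal.ofReal_natCast]
  simp only [h2]
  rw [← ENNReal.ofReal_sum_of_nonneg fun t _ => by positivity, h1, ← ENNReal.ofReal_ofNat 8]
  exact ENNReal.ofReal_le_ofReal (sub_le_self _ (by positivity))

section Ctx

variable {C₀ C₁ : ℝ≥0} {ℓ : ℝ} {K : ℕ} {x₀ : E d} {μ : E d → E d} {m : ℕ → E d → E d}
  {D : ℕ → ℕ → E d → ℝ≥0∞} {n : ℕ → E d → E d} {ζ : E d → ℝ} {p : ℕ → ℕ → E d → ℝ}

theorem supf_le_one (h : Ctx C₀ C₁ ℓ K x₀ μ m D n ζ p) (i : ℕ) (R : ℝ) (x : E d) :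
    supf (p i i) R x ≤ 1 :=
  supf_le fun y _ => ENNReal.ofReal_le_one.2 (h.p_le_one le_rfl y).2

theorem lip_term (h : Ctx C₀ C₁ ℓ K x₀ μ m D n ζ p) {i k j : ℕ} (hik : i ≤ k) (hk : k ≤ K)
    (hj : i < j) {A : ℝ} (hA : A ≤ 16) :
    ∫⁻ x, (ENNReal.ofReal (sc ℓ i) * lip (n i) (16 * sc ℓ k) x) ^ 2 * nm (m j) (sc ℓ k) A x ≤
      16 ^ d * (C₀ * ENNReal.ofReal (17 ^ d * vb d 1) * ∫⁻ y, D i j y) := by
  refine (coarsen' (a := fun R x => (ENNReal.ofReal (sc ℓ i) * lip (n i) R x) ^ 2)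
    (fun R => ((measurable_lip (h.dirs.cont i) R).const_mul _).pow_const 2)
    (fun R R' x x' hx => pow_le_pow_left' (mul_le_mul_right (lip_mono _ hx) _) 2)
    (h.fam.lev.meas j) h.pos hik hA (B := 16) (by norm_num) fun _ => hA).trans
    (mul_le_mul_right ?_ _)
  rw [mul_assoc, ← int_avg (h.fam.measD i j) (sc_pos h.pos i) (by norm_num),
    ← lintegral_const_mul _ ((measurable_ballInt (h.fam.measD i j) _).const_mul _)]
  refine lintegral_mono fun x => ?_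
  have := h.dirs.osc i j x (hik.trans hk) hj
  unfold nm
  rw [mul_left_comm, mul_left_comm (C₀ : ℝ≥0∞)]
  exact mul_le_mul_right this _

theorem supf_term (h : Ctx C₀ C₁ ℓ K x₀ μ m D n ζ p) {i k l : ℕ} (hik : i ≤ k) {A : ℝ}
    (hA : A ≤ 14 ∨ (l = 0 ∧ A ≤ 16)) :
    ∫⁻ x, supf (p i i) (16 * sc ℓ k) x * nm (m (k + 3 + l)) (sc ℓ k) A x ≤
      16 ^ d * ((∫⁻ x, supf (p i i) (16 * sc ℓ i) x * nm (m (i + 3)) (sc ℓ i) 16 x) +
        ENNReal.ofReal (16 ^ d * vb d 1) * ∫⁻ y, D (i + 3) (k + 3 + l) y) := by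
  have hA' : A ≤ 16 := hA.elim (fun h => by linarith) fun h => h.2
  have hm : ∀ R, Measurable (supf (p i i) R) := measurable_supf (h.wts.cont i i)
  by_cases hc : i = k → A ≤ 14
  · refine (coarsen' (a := supf (p i i)) hm (fun R R' x x' hx => supf_mono _ hx)
      (h.fam.lev.meas _) h.pos hik hA' (B := 14) (by norm_num) hc).trans (mul_le_mul_right ?_ _)
    rw [← int_avg (h.fam.measD _ _) (sc_pos h.pos i) (by norm_num),
      ← lintegral_add_left ((hm _).fun_mul (measurable_nm (h.fam.lev.meas _) _ _))]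
    refine lintegral_mono fun x => ?_
    have h1 := h.fam.D3 (i + 3) (k + 3 + l) x (14 * sc ℓ i) (by omega)
    rw [sc_level, show 14 * sc ℓ i + 2 * sc ℓ i = 16 * sc ℓ i by ring,
      lintegral_add_left (h.fam.lev.meas _).enorm] at h1
    refine (mul_le_mul_right (mul_le_mul_right h1 _) _).trans ?_
    rw [mul_add, mul_add]
    exact add_le_add le_rfl (mul_le_of_le_one_left' (supf_le_one h i _ x))
  · rw [Classical.not_imp] at hc
    obtain ⟨rfl, h2⟩ := hc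
    obtain ⟨rfl, -⟩ := hA.resolve_left h2
    refine le_trans (le_trans (lintegral_mono fun x => mul_le_mul_right
      (nm_mono _ (sc_pos h.pos i) hA' x) _) le_self_add) (le_mul_of_one_le_left' ?_)
    exact one_le_pow₀ (by norm_num)

theorem expand (h : Ctx C₀ C₁ ℓ K x₀ μ m D n ζ p) (η : ℝ≥0) (k : ℕ) {g : E d → ℝ≥0∞}
    (hg : Measurable g) :
    ∫⁻ x, bet η ℓ n p k x * g x = (4 ^ k)⁻¹ * (∫⁻ x, g x) + ∑ i ∈ Finset.range (k + 1),
      (2 ^ (k - i))⁻¹ * (η * (∫⁻ x, supf (p i i) (16 * sc ℓ k) x * g x) + (η : ℝ≥0∞)⁻¹ *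
        ∫⁻ x, (ENNReal.ofReal (sc ℓ i) * lip (n i) (16 * sc ℓ k) x) ^ 2 * g x) := by
  have a1 : ∀ i, Measurable fun x => supf (p i i) (16 * sc ℓ k) x * g x := fun i =>
    (measurable_supf (h.wts.cont i i) _).mul hg
  have a2 : ∀ i, Measurable fun x =>
      (ENNReal.ofReal (sc ℓ i) * lip (n i) (16 * sc ℓ k) x) ^ 2 * g x := fun i =>
    (((measurable_lip (h.dirs.cont i) _).const_mul _).pow_const 2).mul hg
  have a3 : ∀ x, bet η ℓ n p k x * g x = (4 ^ k)⁻¹ * g x + ∑ i ∈ Finset.range (k + 1),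
      (2 ^ (k - i))⁻¹ * (η * (supf (p i i) (16 * sc ℓ k) x * g x) + (η : ℝ≥0∞)⁻¹ *
        ((ENNReal.ofReal (sc ℓ i) * lip (n i) (16 * sc ℓ k) x) ^ 2 * g x)) := by
    intro x
    simp only [bet, add_mul, Finset.sum_mul, mul_assoc]
  simp only [a3]
  rw [lintegral_add_left (hg.const_mul _), lintegral_const_mul _ hg, lintegral_finsetSum _
    fun i _ => (((a1 i).const_mul _).fun_add ((a2 i).const_mul _)).const_mul _]
  refine congrArg _ (Finset.sum_congr rfl fun i _ => ?_)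
  rw [lintegral_const_mul _ (((a1 i).const_mul _).fun_add ((a2 i).const_mul _)),
    lintegral_add_left ((a1 i).const_mul _), lintegral_const_mul _ (a1 i),
    lintegral_const_mul _ (a2 i)]

end Ctx

end SumAux

open SumAux

theorem beta (d : ℕ) (_hd : 1 ≤ d) : BetaStmt d := by
  intro C₀ C₁
  refine ⟨2 + 33 * C₁, fun ℓ K x₀ μ m D n ζ p h η h0 h1 k x y y' hy hy' => ?_⟩
  have hk := sc_pos h.pos k
  have ht0 : 0 ≤ ‖y - y'‖ / sc ℓ k := by positivity
  have ht : ‖y - y'‖ / sc ℓ k ≤ 32 := by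
    rw [div_le_iff₀ hk]
    rw [mem_ball_iff_norm] at hy hy'
    have := norm_sub_le_norm_sub_add_norm_sub y x y'
    rw [norm_sub_rev x y'] at this
    linarith
  have a1 : ENNReal.ofReal (2 * |ζ y - ζ y'|) ≤
      2 * ENNReal.ofReal (‖y - y'‖ / sc ℓ k) * (4 ^ k)⁻¹ := by
    have b1 : 2 * |ζ y - ζ y'| ≤ 2 * (‖y - y'‖ / sc ℓ k) * (4 ^ k)⁻¹ := by
      refine (mul_le_mul_of_nonneg_left (h.zlip y y') zero_le_two).trans (le_of_eq ?_)
      have := h.pos
      unfold sc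
      field_simp
    refine (ENNReal.ofReal_le_ofReal b1).trans (le_of_eq ?_)
    rw [ENNReal.ofReal_mul (by positivity), ENNReal.ofReal_mul (by positivity),
      ENNReal.ofReal_inv_of_pos (by positivity), ENNReal.ofReal_pow (by norm_num),
      ENNReal.ofReal_ofNat, ENNReal.ofReal_ofNat]
  have a2 : ∀ i ∈ Finset.range (k + 1), ENNReal.ofReal (((k - i + 1 : ℕ) : ℝ) *
      (√(p i i y) * ‖n i y - n i y'‖ + ‖n i y - n i y'‖ ^ 2)) ≤
      33 * ENNReal.ofReal (‖y - y'‖ / sc ℓ k) * ((2 ^ (k - i))⁻¹ *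
        (η * supf (p i i) (16 * sc ℓ k) x + (η : ℝ≥0∞)⁻¹ *
          (ENNReal.ofReal (sc ℓ i) * lip (n i) (16 * sc ℓ k) x) ^ 2)) := by
    intro i hi
    have hi' : i ≤ k := Nat.lt_succ_iff.1 (Finset.mem_range.1 hi)
    have hi0 := sc_pos h.pos i
    have b1 : supf (p i i) (16 * sc ℓ k) x ≠ ∞ :=
      ne_top_of_le_ne_top ENNReal.one_ne_top (supf_le_one h i _ x)
    have b2 : lip (n i) (16 * sc ℓ k) x ≠ ∞ := ne_top_of_le_ne_top ENNReal.ofReal_ne_top
      (lip_le_of_lipschitz (by positivity) (h.dirs.lipg i) _ x)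
    have b3 := norm_sub_le_lip (n i) hy hy' b2
    have b4 := (ENNReal.ofReal_le_iff_le_toReal b1).1 (le_supf (p i i) hy)
    rw [← ENNReal.ofReal_toReal b1, ← ENNReal.ofReal_toReal b2,
      ← term_conv h0 _ ENNReal.toReal_nonneg hi0.le ENNReal.toReal_nonneg ht0]
    refine ENNReal.ofReal_le_ofReal (term_real _ h0 h1 b4 ENNReal.toReal_nonneg (by positivity)
      ht0 ht (norm_nonneg _) (b3.trans (le_of_eq ?_)))
    have b5 : sc ℓ k = sc ℓ i / 4 ^ (k - i) := by rw [← sc_add, Nat.add_sub_cancel' hi']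
    generalize (lip (n i) (16 * sc ℓ k) x).toReal = L
    rw [b5]
    field_simp
  refine (ENNReal.ofReal_le_ofReal (h.wts.two k y y')).trans (ENNReal.ofReal_add_le.trans ?_)
  rw [ENNReal.ofReal_mul C₁.coe_nonneg, ENNReal.ofReal_coe_nnreal,
    ENNReal.ofReal_sum_of_nonneg fun i _ => by positivity]
  refine (add_le_add a1 (mul_le_mul_right (Finset.sum_le_sum a2) _)).trans ?_
  rw [← Finset.mul_sum, bet, mul_add, ← mul_assoc, ← mul_assoc]
  push_cast
  refine add_le_add (mul_le_mul_left (mul_le_mul_left le_self_add _) _)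
    (mul_le_mul_left (mul_le_mul_left ?_ _) _)
  rw [mul_comm]
  exact le_add_self

theorem sum (d : ℕ) (_hd : 1 ≤ d) : SumStmt d := by
  intro C₀ C₁
  obtain ⟨c, hc⟩ : ∃ c : ℝ≥0, (c : ℝ≥0∞) = 16 ^ d * (1 + ENNReal.ofReal (16 ^ d * vb d 1) +
      C₀ * ENNReal.ofReal (17 ^ d * vb d 1)) :=
    ⟨16 ^ d * (1 + Real.toNNReal (16 ^ d * vb d 1) + C₀ * Real.toNNReal (17 ^ d * vb d 1)), by
      push_cast
      rfl⟩
  refine ⟨24 * c, fun ℓ K x₀ μ m D n ζ p h η h0 h1 l A hA => ?_⟩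
  have hA' : A ≤ 16 := hA.elim (fun h => by linarith) fun h => h.2
  have e1 : (η : ℝ≥0∞) ≤ 1 := by exact_mod_cast h1
  have e2 : 1 ≤ (η : ℝ≥0∞)⁻¹ := ENNReal.one_le_inv.2 e1
  have e3 : (1 : ℝ≥0∞) ≤ 16 ^ d := one_le_pow₀ (by norm_num)
  have c1 : 16 ^ d ≤ (c : ℝ≥0∞) := by
    rw [hc, add_assoc]
    exact le_mul_of_one_le_right' le_self_add
  have c2 : 16 ^ d * ENNReal.ofReal (16 ^ d * vb d 1) ≤ (c : ℝ≥0∞) := by
    rw [hc]
    exact mul_le_mul_right (le_add_self.trans le_self_add) _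
  have c3 : 16 ^ d * (C₀ * ENNReal.ofReal (17 ^ d * vb d 1)) ≤ (c : ℝ≥0∞) := by
    rw [hc]
    exact mul_le_mul_right le_add_self _
  set X := η * SS ℓ K m p + (η : ℝ≥0∞)⁻¹ * (l + 1) * VV μ with hX
  have hV : VV μ ≤ X :=
    (le_mul_of_one_le_left' (one_le_mul e2 le_add_self)).trans le_add_self
  let s : ℕ → ℝ≥0∞ := fun i =>
    ∫⁻ x, supf (p i i) (16 * sc ℓ i) x * nm (m (i + 3)) (sc ℓ i) 16 x
  let F : ℕ → ℕ → ℝ≥0∞ := fun i t => (2 ^ t)⁻¹ * (c * (η * s i + (η : ℝ≥0∞)⁻¹ *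
    ((∫⁻ y, D (3 + i) (3 + i + (t + l)) y) + ∫⁻ y, D i (i + (t + 3 + l)) y)))
  have a1 : ∀ k ∈ Finset.range (K + 1),
      ∫⁻ x, bet η ℓ n p k x * nm (m (k + 3 + l)) (sc ℓ k) A x ≤
        (2 ^ k)⁻¹ * ((k + 3 : ℕ) : ℝ≥0∞) * (c * X) + ∑ i ∈ Finset.range (k + 1), F i (k - i) := by
    intro k hk
    have hk' : k ≤ K := Nat.lt_succ_iff.1 (Finset.mem_range.1 hk)
    rw [expand h η k (measurable_nm (h.fam.lev.meas _) _ _)]
    refine add_le_add (mul_le_mul' ?_ ?_) (Finset.sum_le_sum fun i hi => mul_le_mul_right ?_ _)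
    · refine le_trans (ENNReal.inv_le_inv.2 (pow_le_pow_left' (by norm_num) k))
        (le_mul_of_one_le_right' ?_)
      exact_mod_cast (by omega : 1 ≤ k + 3)
    · refine (lintegral_mono fun x => nm_mono _ (sc_pos h.pos k) hA' x).trans ?_
      rw [lintegral_nm (h.fam.lev.meas _) (sc_pos h.pos k) (by norm_num)]
      exact mul_le_mul' ((le_mul_of_one_le_left' e3).trans c2) ((h.fam.massle _).trans hV)
    · have hi' : i ≤ k := Nat.lt_succ_iff.1 (Finset.mem_range.1 hi)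
      have b1 := supf_term h hi' hA
      have b2 := lip_term h hi' hk' (j := k + 3 + l) (by omega) hA'
      rw [show 3 + i + (k - i + l) = k + 3 + l by omega, show i + (k - i + 3 + l) = k + 3 + l by
        omega, add_comm 3 i]
      refine (add_le_add (mul_le_mul_right b1 _) (mul_le_mul_right b2 _)).trans ?_
      rw [mul_add, mul_add, mul_add, mul_add, mul_add, add_assoc]
      refine add_le_add ?_ (add_le_add ?_ ?_)
      · rw [mul_left_comm]
        exact mul_le_mul_left c1 _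
      · rw [← mul_assoc (16 ^ d : ℝ≥0∞), mul_left_comm]
        exact mul_le_mul' c2 (mul_le_mul_left (e1.trans e2) _)
      · rw [← mul_assoc (16 ^ d : ℝ≥0∞), mul_left_comm]
        exact mul_le_mul_left c3 _
  have a2 : ∀ t, ∑ i ∈ Finset.range (K + 1), F i t ≤
      (2 ^ t)⁻¹ * ((t + 3 : ℕ) : ℝ≥0∞) * (2 * (c * X)) := by
    intro t
    have b1 : ∑ i ∈ Finset.range (K + 1), ∫⁻ y, D (3 + i) (3 + i + (t + l)) y ≤
        ((t + l : ℕ) : ℝ≥0∞) * VV μ := by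
      refine le_trans ?_ (h.fam.sumD (t + l) (3 + (K + 1)))
      rw [Finset.sum_range_add (fun i => ∫⁻ y, D i (i + (t + l)) y)]
      exact le_add_self
    have b2 := h.fam.sumD (t + 3 + l) (K + 1)
    have b3 : ((t + l : ℕ) : ℝ≥0∞) + ((t + 3 + l : ℕ) : ℝ≥0∞) ≤
        ((t + 3 : ℕ) : ℝ≥0∞) * 2 * (l + 1) := by
      have : t + l + (t + 3 + l) ≤ (t + 3) * 2 * (l + 1) := by nlinarith
      exact_mod_cast this
    have b4 : (1 : ℝ≥0∞) ≤ ((t + 3 : ℕ) : ℝ≥0∞) * 2 := by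
      exact_mod_cast (by omega : 1 ≤ (t + 3) * 2)
    simp only [F, ← Finset.mul_sum, Finset.sum_add_distrib]
    rw [mul_assoc]
    refine mul_le_mul_right ?_ _
    rw [← mul_assoc ((t + 3 : ℕ) : ℝ≥0∞), mul_left_comm]
    refine mul_le_mul_right ?_ _
    rw [hX, mul_add (((t + 3 : ℕ) : ℝ≥0∞) * 2)]
    refine add_le_add (le_mul_of_one_le_left' b4) ?_
    refine (mul_le_mul_right (add_le_add b1 b2) _).trans ?_
    rw [← add_mul]
    refine (mul_le_mul_right (mul_le_mul_left b3 _) _).trans (le_of_eq ?_)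
    ring
  refine (Finset.sum_le_sum a1).trans ?_
  rw [Finset.sum_add_distrib, Finset.sum_range_diag_flip]
  have a3 : ∑ i ∈ Finset.range (K + 1), ∑ t ∈ Finset.range (K + 1 - i), F i t ≤
      8 * (2 * (c * X)) := by
    refine (Finset.sum_le_sum fun i _ => Finset.sum_le_sum_of_subset
      (Finset.range_subset_range.2 (Nat.sub_le (K + 1) i))).trans ?_
    rw [Finset.sum_comm]
    refine (Finset.sum_le_sum fun t _ => a2 t).trans ?_
    rw [← Finset.sum_mul]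
    exact mul_le_mul_left (geo_sum _) _
  rw [← Finset.sum_mul]
  refine (add_le_add (mul_le_mul_left (geo_sum _) _) a3).trans (le_of_eq ?_)
  push_cast
  ring

end Vale.Agent.P137
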