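import Vale.Agent.P137.Basic

open MeasureTheory Metric Set Filter
open scoped ENNReal NNReal Topology

namespace Vale.Agent.P137

variable {d : ℕ}

namespace T2Aux

/-- the inductive claim -/
def Q (e z : E d) (h : E d → ℝ) (B : E d → ℝ≥0∞) (ρ A : ℝ) : Prop :=
  ∀ ε : ℝ, 0 < ε → ∃ σ₀ : ℝ, 0 < σ₀ ∧ ∀ σ : ℝ, 0 < σ → σ ≤ σ₀ →
    ∫⁻ x in ball z ρ, (ENNReal.ofReal (Dq e σ h x) - B x) ≤ ENNReal.ofReal (A + ε)

theorem small (K : ℝ) {ε : ℝ} (hε : 0 < ε) :
    ∃ σ₀ : ℝ, 0 < σ₀ ∧ ∀ σ : ℝ, 0 < σ → σ ≤ σ₀ → σ * K ≤ ε := by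
  refine ⟨ε / (|K| + 1), by positivity, fun σ h1 h2 => ?_⟩
  rw [le_div_iff₀ (by positivity)] at h2
  nlinarith [le_abs_self K]

theorem le_of_eps {a : ℝ≥0∞} {A : ℝ} (h : ∀ ε : ℝ, 0 < ε → a ≤ ENNReal.ofReal (A + ε)) :
    a ≤ ENNReal.ofReal A :=
  ENNReal.le_of_forall_pos_le_add fun ε hε _ =>
    (h ε hε).trans (ENNReal.ofReal_add_le.trans (by rw [ENNReal.ofReal_coe_nnreal]))

theorem shift (F : E d → ℝ≥0∞) {z v : E d} {ρ ρ' : ℝ} (h : ρ' + ‖v‖ ≤ ρ) :
    ∫⁻ x in ball z ρ', F (x + v) ≤ ∫⁻ x in ball z ρ, F x := by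
  rw [← lintegral_indicator (measurableSet_ball (ε := ρ)),
    ← lintegral_add_right_eq_self ((ball z ρ).indicator F) v]
  refine (setLIntegral_mono' measurableSet_ball fun x hx => ?_).trans (setLIntegral_le_lintegral _ _)
  rw [indicator_of_mem]
  rw [mem_ball_iff_norm] at hx ⊢
  rw [add_sub_right_comm]
  linarith [norm_add_le (x - z) v]

theorem sum_Dq (e y : E d) (h : E d → ℝ) {σ : ℝ} (hσ : 0 < σ) {k : ℕ} (hk : 0 < k) :
    ∑ j ∈ Finset.range k, Dq e σ h (y + (j * σ) • e) = k * Dq e (k * σ) h y := by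
  have h1 := Finset.sum_range_sub' (fun j : ℕ => h (y + (j * σ) • e) / σ) k
  have h2 : (k : ℝ) ≠ 0 := by positivity
  simp only [Nat.cast_zero, zero_mul, zero_smul, add_zero] at h1
  have h3 : ∀ j : ℕ, Dq e σ h (y + (j * σ) • e) =
      h (y + (j * σ) • e) / σ - h (y + (((j + 1 : ℕ) : ℝ) * σ) • e) / σ := by
    intro j
    rw [Dq, sub_div, add_assoc, ← add_smul]
    congr 4
    push_cast
    ring
  simp only [h3]
  rw [h1, Dq]
  field_simp

theorem tele {e z : E d} (he : ‖e‖ = 1) {h : E d → ℝ} (hc : ContinuousOn h (closedBall z 5))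
    {B B' : E d → ℝ≥0∞} (hB : Measurable B) {ρ ρ' τ s A : ℝ} (hτ : 0 < τ) (hτ1 : τ ≤ 1)
    (hρ : ρ' + τ ≤ ρ) (hρ3 : ρ ≤ 3) (hs : -τ ≤ s) (hs0 : s ≤ 0)
    (hBB : ∀ x x', ‖x - x'‖ ≤ τ → B x' ≤ B' x) (hQ : Q e z h B ρ A) :
    ∫⁻ x in ball z ρ', (ENNReal.ofReal (Dq e τ h (x + s • e)) - B' x) ≤ ENNReal.ofReal A := by
  refine le_of_eps fun ε hε => ?_
  obtain ⟨σ₀, h0, hQ⟩ := hQ ε hε
  obtain ⟨k, hk⟩ := exists_nat_gt (τ / σ₀)
  have hk0 : (0 : ℝ) < k := (div_pos hτ h0).trans hk
  have hk1 : (1 : ℝ) ≤ k := by exact_mod_cast Nat.cast_pos.1 hk0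
  obtain ⟨σ, hσ⟩ : ∃ σ, σ = τ / k := ⟨_, rfl⟩
  have hσ0 : 0 < σ := by rw [hσ]; positivity
  have hkσ : k * σ = τ := by rw [hσ]; field_simp
  have hσ1 : σ ≤ σ₀ := by
    rw [div_lt_iff₀ h0] at hk
    nlinarith
  have hστ : σ ≤ τ := by nlinarith
  have hv : ∀ j ∈ Finset.range k, ‖(s + j * σ) • e‖ ≤ τ := by
    intro j hj
    have h1 : (j : ℝ) ≤ k := by exact_mod_cast (Finset.mem_range.1 hj).le
    have h2 : (0 : ℝ) ≤ j * σ := by positivity
    rw [norm_smul, he, mul_one, Real.norm_eq_abs, abs_le]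
    constructor <;> nlinarith
  let F : E d → ℝ≥0∞ := fun y => ENNReal.ofReal (Dq e σ h y) - B y
  have hm : ∀ j ∈ Finset.range k,
      AEMeasurable (fun x => F (x + (s + j * σ) • e)) (volume.restrict (ball z ρ')) := by
    intro j hj
    have key : ∀ v : E d, ‖v‖ ≤ 2 → ContinuousOn (fun x => h (x + v)) (ball z ρ') := fun v h1 =>
      hc.comp (f := fun x => x + v) (by fun_prop) fun x hx => by
        rw [mem_ball_iff_norm] at hx
        rw [mem_closedBall_iff_norm, add_sub_right_comm]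
        linarith [norm_add_le (x - z) v]
    have h1 := hv j hj
    have h2 : ‖(s + j * σ) • e + σ • e‖ ≤ 2 := by
      have := norm_add_le ((s + j * σ) • e) (σ • e)
      rw [norm_smul σ, he, Real.norm_of_nonneg hσ0.le] at this
      linarith
    have h3 := ((key _ (by linarith)).sub (key _ h2)).div_const σ (f := fun x =>
      h (x + (s + j * σ) • e) - h (x + ((s + j * σ) • e + σ • e)))
    simp only [← add_assoc] at h3
    exact (h3.aemeasurable measurableSet_ball).ennreal_ofReal.sub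
      (hB.comp (measurable_add_const _)).aemeasurable
  have hp : ∀ x, (k : ℝ≥0∞) * (ENNReal.ofReal (Dq e τ h (x + s • e)) - B' x) ≤
      ∑ j ∈ Finset.range k, F (x + (s + j * σ) • e) := by
    intro x
    rw [ENNReal.mul_sub fun _ _ => ENNReal.natCast_ne_top k, tsub_le_iff_right,
      ← ENNReal.ofReal_natCast, ← ENNReal.ofReal_mul hk0.le, ← hkσ,
      ← sum_Dq e _ h hσ0 (Nat.cast_pos.1 hk0), ENNReal.ofReal_natCast]
    refine (Finset.le_sum_of_subadditive ENNReal.ofReal ENNReal.ofReal_zero.le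
      (fun _ _ => ENNReal.ofReal_add_le) _ _).trans ?_
    rw [← nsmul_eq_mul, ← Finset.card_range k, ← Finset.sum_const, Finset.card_range,
      ← Finset.sum_add_distrib]
    refine Finset.sum_le_sum fun j hj => ?_
    rw [add_assoc, ← add_smul]
    refine le_tsub_add.trans (add_le_add_right (hBB _ _ ?_) _)
    simpa using hv j hj
  have hk' : (k : ℝ≥0∞) ≠ 0 := by exact_mod_cast hk0.ne'
  rw [← ENNReal.mul_le_mul_iff_right hk' (ENNReal.natCast_ne_top k),
    ← lintegral_const_mul' _ _ (ENNReal.natCast_ne_top k)]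
  refine (lintegral_mono hp).trans ?_
  rw [lintegral_finset_sum' _ hm, ← nsmul_eq_mul]
  refine (Finset.sum_le_card_nsmul _ _ _ fun j hj => ?_).trans (by rw [Finset.card_range])
  exact (shift F (by linarith [hv j hj])).trans (hQ σ hσ0 hσ1)

theorem vol_le (z : E d) {ρ : ℝ} (h : ρ ≤ 3) {a : ℝ} (ha : 0 ≤ a) :
    ∫⁻ _ in ball z ρ, ENNReal.ofReal a ≤ ENNReal.ofReal (a * vb d 3) := by
  rw [setLIntegral_const, ENNReal.ofReal_mul ha, ← volume_ball_eq z]
  exact mul_le_mul_right (measure_mono (ball_subset_ball h)) _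

theorem tau_le {n : ℕ} (h : 1 ≤ n) : tau n ≤ 1 / 2 := by linarith [tau_le_phi h, phi_le h]

end T2Aux

open T2Aux

theorem t2 (d : ℕ) (_hd : 1 ≤ d) (hs : StepStmt d) (hb : BStmt d) (hg : GGStmt d) : T2Stmt d := by
  obtain ⟨C, hC, hs⟩ := hs
  obtain ⟨Cb, hCb, hb⟩ := hb
  have hv : 0 < vb d 3 := vb_pos (by norm_num)
  obtain ⟨C', hC'⟩ : ∃ C', C' = C * vb d 3 + C * C := ⟨_, rfl⟩
  have hC'0 : 0 < C' := by rw [hC']; positivity
  refine ⟨C' + C * vb d 3 + C * Cb, by positivity, fun u m μ K e z D hW hc σ hσ hσ1 => ?_⟩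
  obtain ⟨s1, s2⟩ := hs u m μ K e z D hW hc
  obtain ⟨B, b1, b2, b3, b4⟩ := hb m μ K e z D hW
  clear hs hb
  have hD := hW.Dpos
  obtain ⟨M, hM⟩ : ∃ M, M = ∫ y, ‖μ y‖ := ⟨_, rfl⟩
  have hM0 : 0 ≤ M := hM ▸ integral_nonneg fun _ => norm_nonneg _
  replace hg := hg u μ z hc
  rw [← hM] at s1 s2 hg
  have hcont : ∀ n, ContinuousOn (gg u n) (closedBall z 5) := fun n =>
    (LipschitzOnWith.of_dist_le' (K := (vb d 1)⁻¹ * M) fun x hx y hy =>
      (hg n x (mem_closedBall_iff_norm.1 hx)).2.2.2.1 y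
        (mem_closedBall_iff_norm.1 hy)).continuousOn
  let Bh : ℕ → E d → ℝ≥0∞ := fun n x => ENNReal.ofReal (C * D) + ENNReal.ofReal C * B n x
  have hBh : ∀ n, Measurable (Bh n) := fun n => ((b1 n).const_mul _).const_add _
  have hQ : ∀ n, 1 ≤ n → Q e z (gg u n) (Bh n) (2 + 2 * tau n) (C' * D * (1 - 2 * qq n)) := by
    intro n hn
    induction n, hn using Nat.le_induction with
    | base =>
      intro ε hε
      obtain ⟨σ₀, h0, h1⟩ := small (C * M * vb d 3) hε
      have h3 : 2 + 2 * tau 1 ≤ 3 := by linarith [tau_le le_rfl]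
      refine ⟨min σ₀ 1, by positivity, fun σ h2 h4 => ?_⟩
      refine (setLIntegral_mono' measurableSet_ball (g := fun _ => ENNReal.ofReal (C * σ * M))
        fun x hx => ?_).trans ((vol_le z h3 (by positivity)).trans (ENNReal.ofReal_le_ofReal ?_))
      · exact tsub_le_iff_right.2 ((ENNReal.ofReal_le_ofReal (s1 x (ball_subset_ball h3 hx) σ h2
          (h4.trans (min_le_right _ _)))).trans (ENNReal.ofReal_add_le.trans
            (add_le_add_right le_self_add _)))
      · have := h1 σ h2 (h4.trans (min_le_left _ _))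
        have e1 : qq 1 = 1 / 2 := by simp [qq]
        rw [e1]
        linarith
    | succ n hn ih =>
      intro ε hε
      obtain ⟨R, r1, r2, r3⟩ := s2 n hn
      obtain ⟨σ₀, h0, h1⟩ := small (C * M / dl (n + 1) * vb d 3) hε
      have hτ := tau_pos n
      have hτ1 := tau_le hn
      have hq := qq_pos n
      have hq1 := qq_le_half hn
      have hdl : 0 < dl (n + 1) := dl_pos _
      have h3 : 2 + 2 * tau (n + 1) ≤ 3 := by linarith [tau_succ n]
      have hT := tele hW.unit (hcont n) (hBh n) (B' := Bh (n + 1)) (ρ' := 2 + 2 * tau (n + 1))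
        (s := -tau n) hτ (by linarith) (by linarith [tau_succ n]) (by linarith) le_rfl
        (by linarith) (fun x x' hx => by simp only [Bh]; gcongr; exact b3 n x x' hx) ih
      refine ⟨min σ₀ (tau n), by positivity, fun σ h2 h4 => ?_⟩
      obtain ⟨a, ha⟩ : ∃ a, a = C * σ * M / dl (n + 1) + C * qq n * D := ⟨_, rfl⟩
      have ha0 : 0 ≤ a := by rw [ha]; positivity
      refine (setLIntegral_mono' measurableSet_ball (g := fun x =>
        (ENNReal.ofReal (Dq e (tau n) (gg u n) (x + -tau n • e)) - Bh (n + 1) x) +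
          (ENNReal.ofReal a + R.indicator (fun _ => ENNReal.ofReal (C * D / qq n)) x))
        fun x hx => ?_).trans ?_
      · have h5 := r3 x (ball_subset_ball h3 hx) σ h2 (h4.trans (min_le_right _ _))
        rw [← ha] at h5
        rw [tsub_le_iff_right]
        rcases h5 with h5 | ⟨r, hr, h5⟩ | h5 | ⟨hR, h5⟩ <;>
          refine (ENNReal.ofReal_le_ofReal h5).trans ?_
        · exact le_add_right (le_add_left le_self_add)
        · refine ENNReal.ofReal_add_le.trans (add_le_add (le_add_left le_self_add)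
            (ENNReal.ofReal_add_le.trans (add_le_add_right ?_ _)))
          rw [ENNReal.ofReal_mul hC.le]
          exact mul_le_mul_right (b4 n x r hr) _
        · rw [add_right_comm, add_comm a, neg_smul, ← sub_eq_add_neg]
          exact ENNReal.ofReal_add_le.trans (add_le_add le_tsub_add le_self_add)
        · rw [indicator_of_mem hR]
          exact le_add_right (le_add_left ENNReal.ofReal_add_le)
      · rw [lintegral_add_right _ ((measurable_const.indicator r1).const_add _),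
          lintegral_add_left measurable_const, lintegral_indicator r1, setLIntegral_const R,
          Measure.restrict_apply r1]
        have h5 : ENNReal.ofReal (C * D / qq n) * volume (R ∩ ball z (2 + 2 * tau (n + 1))) ≤
            ENNReal.ofReal (C * D / qq n * (C * qq n ^ 2)) := by
          rw [ENNReal.ofReal_mul (by positivity)]
          exact mul_le_mul_right ((measure_mono (inter_subset_inter_right _
            (ball_subset_ball h3))).trans r2) _
        refine (add_le_add hT (add_le_add (vol_le z h3 ha0) h5)).trans ?_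
        rw [← ENNReal.ofReal_add (by positivity) (by positivity),
          ← ENNReal.ofReal_add (mul_nonneg (by positivity) (by linarith)) (by positivity)]
        refine ENNReal.ofReal_le_ofReal ?_
        have h6 := h1 σ h2 (h4.trans (min_le_left _ _))
        have e1 : C * D / qq n * (C * qq n ^ 2) = C * C * D * qq n := by field_simp
        have e2 : a * vb d 3 = σ * (C * M / dl (n + 1) * vb d 3) + C * vb d 3 * D * qq n := by
          rw [ha]; ring
        rw [e1, e2, qq_succ, hC']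
        linarith
  have hfin : ∀ n, 1 ≤ n → ∫⁻ x in ball z 1, ENNReal.ofReal (Dq e σ (gg u n) x) ≤
      ENNReal.ofReal ((C' + C * vb d 3 + C * Cb) * D) := by
    intro n hn
    have hτ := tau_pos n
    have h3 : 2 + 2 * tau n ≤ 3 := by linarith [tau_le hn]
    have := tele hW.unit (hcont n) (B := fun _ => 0) (B' := fun _ => 0) measurable_const
      (ρ' := 1) (s := 0) (A := (C' + C * vb d 3 + C * Cb) * D) hσ hσ1 (by linarith) h3
      (by linarith) le_rfl (fun _ _ _ => le_rfl) fun ε hε => ?_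
    · simpa using this
    obtain ⟨σ₀, h0, h1⟩ := hQ n hn ε hε
    refine ⟨σ₀, h0, fun σ h2 h4 => ?_⟩
    refine (lintegral_mono (g := fun x => ENNReal.ofReal (Dq e σ (gg u n) x) - Bh n x + Bh n x)
      fun x => tsub_le_self.trans le_tsub_add).trans ?_
    rw [lintegral_add_right _ (hBh n), lintegral_add_left measurable_const,
      lintegral_const_mul _ (b1 n)]
    have h5 : ENNReal.ofReal C * ∫⁻ x in ball z (2 + 2 * tau n), B n x ≤
        ENNReal.ofReal (C * (Cb * D)) := by
      rw [ENNReal.ofReal_mul hC.le]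
      exact mul_le_mul_right ((lintegral_mono_set (ball_subset_ball h3)).trans (b2 n)) _
    refine (add_le_add (h1 σ h2 h4) (add_le_add (vol_le z h3 (by positivity)) h5)).trans ?_
    have h6 := qq_le_half hn
    have h7 := qq_pos n
    rw [← ENNReal.ofReal_add (by positivity) (by positivity), ← ENNReal.ofReal_add
      (add_nonneg (mul_nonneg (by positivity) (by linarith)) hε.le) (by positivity)]
    refine ENNReal.ofReal_le_ofReal ?_
    have : 0 < C' * D * qq n := by positivity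
    linarith
  refine le_of_eps fun ε hε => ?_
  obtain ⟨L, hL⟩ : ∃ L, L = (vb d 1)⁻¹ * M := ⟨_, rfl⟩
  have hL0 : 0 ≤ L := hL ▸ mul_nonneg (inv_nonneg.2 (vb_nonneg _)) hM0
  rw [← hL] at hg
  obtain ⟨σ₀, h0, h1⟩ := small (2 * L / σ * vb d 3) hε
  obtain ⟨n, hn⟩ := exists_pow_lt_of_lt_one h0 (by norm_num : (1 / 2 : ℝ) < 1)
  have hdl : 0 < dl (n + 1) := dl_pos _
  have h2 : dl (n + 1) ≤ σ₀ := by
    have h3 := qq_le_half (Nat.le_add_left 1 n)
    have h4 : dl (n + 1) ≤ qq (n + 1) :=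
      pow_le_of_le_one (qq_pos _).le (by linarith) (by norm_num)
    rw [qq_succ] at h4
    have := qq_pos n
    change qq n < σ₀ at hn
    linarith
  refine (setLIntegral_mono' measurableSet_ball (g := fun x => ENNReal.ofReal
    (Dq e σ (gg u (n + 1)) x) + ENNReal.ofReal (2 * L * dl (n + 1) / σ)) fun x hx => ?_).trans ?_
  · refine (ENNReal.ofReal_le_ofReal ?_).trans ENNReal.ofReal_add_le
    rw [mem_ball_iff_norm] at hx
    have h3 := abs_le.1 (hg (n + 1) x (by linarith)).2.2.2.2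
    have h4 := abs_le.1 (hg (n + 1) (x + σ • e) (by
      have := norm_add_le (x - z) (σ • e)
      rw [norm_smul, hW.unit, Real.norm_of_nonneg hσ.le] at this
      rw [add_sub_right_comm]
      linarith)).2.2.2.2
    rw [Dq, Dq, ← add_div]
    exact div_le_div_of_nonneg_right (by linarith) hσ.le
  · rw [lintegral_add_right _ measurable_const]
    refine (add_le_add (hfin _ (Nat.le_add_left 1 n))
      (vol_le z (by norm_num) (by positivity))).trans ?_
    rw [← ENNReal.ofReal_add (by positivity) (by positivity)]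
    refine ENNReal.ofReal_le_ofReal ?_
    have h3 := h1 _ hdl h2
    have e1 : 2 * L * dl (n + 1) / σ * vb d 3 = dl (n + 1) * (2 * L / σ * vb d 3) := by ring
    linarith

end Vale.Agent.P137
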