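import Vale.Agent.P137.Basic

/-! The tree inequality: summation by parts over the scales and integration by parts. -/

open MeasureTheory Metric Set Filter
open scoped ENNReal NNReal Topology

namespace Vale.Agent.P137

namespace TreeAux

open Finset (range)

/-! ### Summation by parts -/

/-- The functional that appears after summation by parts. -/
def SL (p : ℕ → ℕ → ℝ) (K : ℕ) : (ℕ → ℕ → ℝ) →ₗ[ℝ] ℝ where
  toFun T := ∑ i ∈ range (K + 1), p i i * T i i +
    ∑ j ∈ range K, ∑ i ∈ range (j + 1), p (j + 1) i * (T i (j + 1) - T i j)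
  map_add' T T' := by
    simp only [Pi.add_apply, add_sub_add_comm, mul_add, Finset.sum_add_distrib]
    ring
  map_smul' a T := by
    simp only [Pi.smul_apply, smul_eq_mul, RingHom.id_apply, mul_add, Finset.mul_sum, ← mul_sub,
      mul_left_comm]

theorem SL_apply (p : ℕ → ℕ → ℝ) (K : ℕ) (T : ℕ → ℕ → ℝ) :
    SL p K T = ∑ i ∈ range (K + 1), p i i * T i i +
      ∑ j ∈ range K, ∑ i ∈ range (j + 1), p (j + 1) i * (T i (j + 1) - T i j) := rfl

theorem SL_eq (p : ℕ → ℕ → ℝ) (K : ℕ) (T : ℕ → ℕ → ℝ) :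
    SL p K T = ∑ i ∈ range (K + 1), p K i * T i K +
      ∑ j ∈ range K, ∑ i ∈ range (j + 1), (p j i - p (j + 1) i) * T i j := by
  induction K with
  | zero => simp [SL_apply]
  | succ K ih =>
    rw [SL_apply] at ih ⊢
    rw [Finset.sum_range_succ _ (K + 1), Finset.sum_range_succ
      (fun j => ∑ i ∈ range (j + 1), p (j + 1) i * (T i (j + 1) - T i j)) K,
      Finset.sum_range_succ (fun i => p (K + 1) i * T i (K + 1)) (K + 1),
      Finset.sum_range_succ (fun j => ∑ i ∈ range (j + 1), (p j i - p (j + 1) i) * T i j) K]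
    simp only [mul_sub, sub_mul, Finset.sum_sub_distrib] at ih ⊢
    linarith

theorem SL_nonneg {p : ℕ → ℕ → ℝ} (p0 : ∀ k i, 0 ≤ p k i)
    (anti : ∀ k i, i ≤ k → p (k + 1) i ≤ p k i) {K : ℕ} {T : ℕ → ℕ → ℝ}
    (h : ∀ i j, i ≤ j → j ≤ K → 0 < p j i → 0 ≤ T i j) : 0 ≤ SL p K T := by
  rw [SL_eq]
  refine add_nonneg (Finset.sum_nonneg fun i hi => ?_)
    (Finset.sum_nonneg fun j hj => Finset.sum_nonneg fun i hi => ?_)
  · rcases (p0 K i).eq_or_lt with h0 | h0
    · rw [← h0, zero_mul]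
    · exact mul_nonneg h0.le (h i K (Finset.mem_range_succ_iff.1 hi) le_rfl h0)
  · have hij := Finset.mem_range_succ_iff.1 hi
    have h1 := anti j i hij
    rcases (p0 j i).eq_or_lt with h0 | h0
    · rw [le_antisymm (h0 ▸ h1) (p0 (j + 1) i), ← h0, sub_self, zero_mul]
    · exact mul_nonneg (sub_nonneg.2 h1) (h i j hij (Finset.mem_range.1 hj).le h0)

/-- Indicator of the intervals that contain `a`. -/
def II (a i j : ℕ) : ℝ := if i ≤ a ∧ a ≤ j then 1 else 0

theorem SL_II {p : ℕ → ℕ → ℝ} {ζ : ℝ} (hs : ∀ k, ∑ i ∈ range (k + 1), p k i = ζ) {K a : ℕ}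
    (ha : a ≤ K) : SL p K (II a) = ζ := by
  have h1 : ∑ i ∈ range (K + 1), p i i * II a i i = p a a := by
    rw [Finset.sum_eq_single a (fun i _ hi => by rw [II, if_neg (by omega), mul_zero])
      (fun h => (h (Finset.mem_range_succ_iff.2 ha)).elim), II, if_pos ⟨le_rfl, le_rfl⟩, mul_one]
  have h2 : ∀ j, ∑ i ∈ range (j + 1), p (j + 1) i * (II a i (j + 1) - II a i j) =
      if a = j + 1 then ∑ i ∈ range (j + 1), p (j + 1) i else 0 := by
    intro j
    split_ifs with h
    · refine Finset.sum_congr rfl fun i hi => ?_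
      have := Finset.mem_range.1 hi
      rw [II, II, if_pos (by omega), if_neg (by omega), sub_zero, mul_one]
    · refine Finset.sum_eq_zero fun i _ => ?_
      rw [II, II, if_congr (Q := i ≤ a ∧ a ≤ j) (by omega) rfl rfl, sub_self, mul_zero]
  rw [SL_apply, h1]
  simp only [h2]
  rcases a with _ | a
  · simpa using hs 0
  · rw [Finset.sum_eq_single a (fun j _ hj => if_neg (by omega))
      (fun h => (h (Finset.mem_range.2 ha)).elim), if_pos rfl, ← hs (a + 1),
      Finset.sum_range_succ _ (a + 1), add_comm]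

theorem comb {p : ℕ → ℕ → ℝ} {ζ : ℝ} (p0 : ∀ k i, 0 ≤ p k i)
    (anti : ∀ k i, i ≤ k → p (k + 1) i ≤ p k i) (hs : ∀ k, ∑ i ∈ range (k + 1), p k i = ζ)
    {K k : ℕ} (hk : k ≤ K) {T : ℕ → ℕ → ℝ} {Er : ℕ → ℝ} {A : ℝ} (E0 : ∀ a, 0 ≤ Er a)
    (h1 : ∀ i j, i ≤ j → j ≤ K → 0 < p j i → ∃ a, i ≤ a ∧ a ≤ j ∧ -Er a ≤ T i j)
    (h2 : ∀ i j, i ≤ k → k ≤ j → j ≤ K → 0 < p j i → A - Er k ≤ T i j) :
    A * ζ ≤ SL p K T + ∑ a ∈ range (K + 1), ζ * Er a := by
  have h := SL_nonneg p0 anti (K := K)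
    (T := T - A • II k + ∑ a ∈ range (K + 1), Er a • II a) fun i j hij hj hp => by
      have key : ∀ a, i ≤ a → a ≤ j → Er a ≤ ∑ a ∈ range (K + 1), Er a * II a i j := by
        intro a h3 h4
        have := Finset.single_le_sum (f := fun a => Er a * II a i j)
          (fun b _ => mul_nonneg (E0 b) (by unfold II; split_ifs <;> norm_num))
          (Finset.mem_range_succ_iff.2 (h4.trans hj))
        rwa [II, if_pos ⟨h3, h4⟩, mul_one] at this
      simp only [Pi.add_apply, Pi.sub_apply, Pi.smul_apply, Finset.sum_apply, smul_eq_mul]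
      by_cases hc : i ≤ k ∧ k ≤ j
      · rw [II, if_pos hc]
        linarith [h2 i j hc.1 hc.2 hj hp, key k hc.1 hc.2]
      · obtain ⟨a, h3, h4, h5⟩ := h1 i j hij hj hp
        rw [II, if_neg hc]
        linarith [key a h3 h4]
  rw [map_add, map_sub, map_smul, map_sum, SL_II hs hk, Finset.sum_congr rfl fun a ha => by
    rw [map_smul, SL_II hs (Finset.mem_range_succ_iff.1 ha), smul_eq_mul, mul_comm]] at h
  rw [smul_eq_mul] at h
  linarith

/-! ### Maxima over intervals -/

variable {d : ℕ}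

/-- The maximum of `g a` over `i ≤ a ≤ j`. -/
noncomputable def mx (g : ℕ → E d → ℝ) (i : ℕ) : ℕ → E d → ℝ
  | 0 => g 0
  | j + 1 => if i ≤ j then fun x => max (mx g i j x) (g (j + 1) x) else g (j + 1)

variable {g : ℕ → E d → ℝ}

theorem mx_succ {i j : ℕ} (h : i ≤ j) (x : E d) :
    mx g i (j + 1) x = max (mx g i j x) (g (j + 1) x) := by
  rw [mx, if_pos h]

theorem mx_self (i : ℕ) : mx g i i = g i := by
  rcases i with _ | i
  · rfl
  · rw [mx, if_neg (by omega)]

theorem mx_lip {L : ℝ≥0} (hg : ∀ k, LipschitzWith L (g k)) (i j : ℕ) :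
    LipschitzWith L (mx g i j) := by
  induction j with
  | zero => exact hg 0
  | succ j ih =>
    rw [mx]
    split_ifs
    · simpa using ih.max (hg (j + 1))
    · exact hg _

theorem mx_spec {i j : ℕ} (h : i ≤ j) (x : E d) :
    (∃ a, i ≤ a ∧ a ≤ j ∧ mx g i j x = g a x) ∧ ∀ a, i ≤ a → a ≤ j → g a x ≤ mx g i j x := by
  induction j, h using Nat.le_induction with
  | base =>
    rw [mx_self]
    exact ⟨⟨i, le_rfl, le_rfl, rfl⟩, fun a h1 h2 => by rw [le_antisymm h2 h1]⟩
  | succ j h ih =>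
    obtain ⟨⟨a, h1, h2, h3⟩, h4⟩ := ih
    rw [mx_succ h]
    refine ⟨?_, fun b h5 h6 => ?_⟩
    · rcases max_choice (mx g i j x) (g (j + 1) x) with h7 | h7
      · exact ⟨a, h1, by omega, h7.trans h3⟩
      · exact ⟨j + 1, by omega, le_rfl, h7⟩
    · rcases Nat.lt_succ_iff_lt_or_eq.1 (Nat.lt_succ_of_le h6) with h7 | rfl
      · exact le_max_of_le_left (h4 b h5 (by omega))
      · exact le_max_right _ _

theorem abs_mx_le {i j : ℕ} (h : i ≤ j) (x : E d) :
    |mx g i (j + 1) x - mx g i j x| ≤ max (g (j + 1) x - g j x) 0 := by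
  have h1 := (mx_spec (g := g) h x).2 j h le_rfl
  rw [mx_succ h, abs_of_nonneg (sub_nonneg.2 (le_max_left _ _)), ← max_sub_sub_right, sub_self,
    max_comm]
  exact max_le_max (by linarith) le_rfl

/-! ### Integration -/

theorem lint_le {A Q Φ : E d → ℝ} (hA : AEStronglyMeasurable A) (hQ : AEStronglyMeasurable Q)
    (hΦ : Integrable Φ) (A0 : ∀ x, 0 ≤ A x) (Q0 : ∀ x, 0 ≤ Q x) (h : ∀ᵐ x, A x ≤ Q x + Φ x) :
    ∫⁻ x, ENNReal.ofReal (A x) ≤ (∫⁻ x, ENNReal.ofReal (Q x)) + ENNReal.ofReal (∫ x, Φ x) := by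
  by_cases hfin : ∫⁻ x, ENNReal.ofReal (Q x) = ∞
  · rw [hfin, top_add]
    exact le_top
  have iQ : Integrable Q := (lintegral_ofReal_ne_top_iff_integrable hQ (.of_forall Q0)).1 hfin
  have iA : Integrable A := (iQ.add hΦ).mono' hA (h.mono fun x hx => by
    rwa [Real.norm_eq_abs, abs_of_nonneg (A0 x)])
  rw [← ofReal_integral_eq_lintegral_ofReal iA (.of_forall A0),
    ← ofReal_integral_eq_lintegral_ofReal iQ (.of_forall Q0)]
  refine le_trans (ENNReal.ofReal_le_ofReal ?_) ENNReal.ofReal_add_le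
  rw [← integral_add iQ hΦ]
  exact integral_mono_ae iA (iQ.add hΦ) h

theorem ofReal_sum_le {ι : Type} (s : Finset ι) (f : ι → ℝ) :
    ENNReal.ofReal (∑ i ∈ s, f i) ≤ ∑ i ∈ s, ENNReal.ofReal (f i) := by
  classical
  induction s using Finset.induction_on with
  | empty => simp
  | insert a s ha ih =>
    rw [Finset.sum_insert ha, Finset.sum_insert ha]
    exact ENNReal.ofReal_add_le.trans (add_le_add le_rfl ih)

theorem int_line {w X : E d → ℝ} {L : ℝ≥0} (hw : LipschitzWith L w) (hX : Continuous X)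
    (hc : HasCompactSupport X) (v : E d) : Integrable fun x => lineDeriv ℝ w x v * X x :=
  (hw.locallyIntegrable_lineDeriv v).integrable_smul_right_of_hasCompactSupport hX hc

/-- Discrete integration by parts. -/
theorem ibp (s : Finset ℕ) {w X : ℕ → E d → ℝ} {L : ℝ≥0} (hw : ∀ i, LipschitzWith L (w i))
    (hX : ∀ i, Continuous (X i)) (hc : ∀ i ∈ s, HasCompactSupport (X i)) (v : E d) {M : ℝ≥0∞}
    {s₀ : ℝ} (hs : 0 < s₀) (hM : ∀ t, 0 < t → t ≤ s₀ →
      ∫⁻ x, ‖∑ i ∈ s, t⁻¹ * (w i x * (X i (x + -(t • v)) - X i x))‖ₑ ≤ M) :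
    ENNReal.ofReal (∫ x, ∑ i ∈ s, lineDeriv ℝ (w i) x v * X i x) ≤ M := by
  have iX : ∀ i ∈ s, Integrable (X i) := fun i hi =>
    (hX i).integrable_of_hasCompactSupport (hc i hi)
  have h1 := tendsto_finsetSum s fun i hi =>
    (hw i).integral_inv_smul_sub_mul_tendsto_integral_lineDeriv_mul (iX i hi) v
  rw [integral_finsetSum s fun i hi => int_line (hw i) (hX i) (hc i hi) v]
  refine le_of_tendsto (ENNReal.tendsto_ofReal h1) ?_
  filter_upwards [Ioc_mem_nhdsGT hs] with t ht
  refine le_trans ?_ (hM t ht.1 ht.2)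
  have i1 : ∀ i ∈ s, Integrable fun x => w i x * X i x := fun i hi =>
    ((hw i).continuous.mul (hX i)).integrable_of_hasCompactSupport (hc i hi).mul_left
  have i2 : ∀ i ∈ s, Integrable fun x => w i (x + t • v) * X i x := fun i hi =>
    (((hw i).continuous.comp (continuous_id.add continuous_const)).mul
      (hX i)).integrable_of_hasCompactSupport (hc i hi).mul_left
  have i3 : ∀ i ∈ s, Integrable fun x => w i x * X i (x + -(t • v)) := fun i hi => by
    simpa using (i2 i hi).comp_add_right (-(t • v))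
  have e : ∀ i ∈ s, ∫ x, t⁻¹ • (w i (x + t • v) - w i x) * X i x =
      ∫ x, t⁻¹ * (w i x * (X i (x + -(t • v)) - X i x)) := by
    intro i hi
    simp only [smul_eq_mul, mul_assoc, sub_mul, mul_sub (w i _), integral_const_mul]
    rw [integral_sub (i2 i hi) (i1 i hi), integral_sub (i3 i hi) (i1 i hi),
      ← integral_add_right_eq_self (fun x => w i (x + t • v) * X i x) (-(t • v))]
    simp
  rw [Finset.sum_congr rfl e, ← integral_finsetSum s fun i hi => by
    simp only [mul_sub (w i _)]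
    exact ((i3 i hi).sub (i1 i hi)).const_mul t⁻¹]
  exact (Real.ofReal_le_enorm _).trans (enorm_integral_le_lintegral_enorm _)

theorem sum_single (L : E d →L[ℝ] ℝ) (v : E d) :
    ∑ i, L (EuclideanSpace.single i 1) * v i = L v := by
  conv_rhs => rw [← (EuclideanSpace.basisFun (Fin d) ℝ).sum_repr v]
  simp [mul_comm]

end TreeAux

open TreeAux Finset in
theorem tree (d : ℕ) (_hd : 1 ≤ d) : TreeStmt d := by
  intro K c s₀ U ζ n p g G Hf Bf Lg hc hs hU hUb hg hG hn hn1 hp p0 hsum anti near hζ hH hB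
  have hGe : G = mx g 0 K := by
    funext x
    obtain ⟨⟨a, -, h2, h3⟩, h4⟩ := mx_spec (g := g) (Nat.zero_le K) x
    obtain ⟨h5, k, h6, h7⟩ := hG x
    exact le_antisymm (h7 ▸ h4 k (Nat.zero_le k) h6) (h3 ▸ h5 a h2)
  have ζ0 : ∀ x, 0 ≤ ζ x := fun x => hsum 0 x ▸ sum_nonneg fun i _ => p0 0 i x
  have ζc : Continuous ζ := by
    rw [← funext (hsum 0)]
    exact continuous_finsetSum _ fun i _ => hp 0 i
  have pz : ∀ k i x, i ≤ k → ζ x = 0 → p k i x = 0 := fun k i x hi h0 =>
    (sum_eq_zero_iff_of_nonneg fun j _ => p0 k j x).1 ((hsum k x).trans h0) i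
      (mem_range_succ_iff.2 hi)
  have zU : ∀ x, x ∉ U → ζ x = 0 := fun x hx => by
    by_contra h0
    exact hx (by simpa using hζ x h0 0 (by simpa using hs.le))
  set w : ℕ → ℕ → E d → ℝ := fun j i x => mx g i (j + 1) x - mx g i j x with hw
  set X : ℕ → Fin d → ℕ → E d → ℝ := fun j b i x => (p (j + 1) i x • n i x) b with hX
  set e : Fin d → E d := fun b => EuclideanSpace.single b 1 with he
  have wl : ∀ j i, LipschitzWith (Lg + Lg) (w j i) := fun j i =>
    (mx_lip hg i (j + 1)).sub (mx_lip hg i j)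
  have Xc : ∀ j b i, Continuous (X j b i) := fun j b i => by
    have := hp (j + 1) i
    have := hn i
    fun_prop
  have Xs : ∀ j b, ∀ i ∈ range (j + 1), HasCompactSupport (X j b i) := fun j b i hi =>
    HasCompactSupport.intro hUb.isCompact_closure fun x hx => by
      have h1 := mem_range.1 hi
      simp only [hX]
      rw [pz (j + 1) i x (by omega) (zU x fun h => hx (subset_closure h)), zero_smul]
      rfl
  set Φ : ℕ → Fin d → E d → ℝ :=
    fun j b x => ∑ i ∈ range (j + 1), lineDeriv ℝ (w j i) x (e b) * X j b i x with hΦ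
  have iΦ : ∀ j b, Integrable (Φ j b) := fun j b =>
    integrable_finsetSum _ fun i hi => int_line (wl j i) (Xc j b i) (Xs j b i hi) _
  have bΦ : ∀ j ∈ range K, ∀ b,
      ENNReal.ofReal (∫ x, Φ j b x) ≤ ∫⁻ x in U, Bf (j + 1) x * Hf (j + 1) x := by
    intro j hj b
    have hj' := mem_range.1 hj
    refine ibp _ (wl j) (Xc j b) (Xs j b) (e b) hs fun t ht0 ht1 => ?_
    have nh : ‖-(t • e b)‖ = t := by simp [he, norm_smul, abs_of_pos ht0]
    rw [← lintegral_indicator hU]
    refine lintegral_mono fun x => ?_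
    by_cases hx : x ∈ U
    · rw [Set.indicator_of_mem hx, Real.enorm_eq_ofReal_abs]
      have h1 : |∑ i ∈ range (j + 1), t⁻¹ * (w j i x * (X j b i (x + -(t • e b)) - X j b i x))| ≤
          t⁻¹ * dif p n (j + 1) (x + -(t • e b)) x * max (g (j + 1) x - g j x) 0 := by
        refine (abs_sum_le_sum_abs _ _).trans ?_
        unfold dif
        rw [sum_range_succ _ (j + 1), mul_add, add_mul, mul_sum, sum_mul]
        refine le_add_of_le_of_nonneg (sum_le_sum fun i hi => ?_) (by positivity)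
        rw [abs_mul, abs_mul, abs_of_pos (inv_pos.2 ht0), mul_assoc, mul_comm |w j i x|]
        refine mul_le_mul_of_nonneg_left (mul_le_mul (le_add_of_nonneg_of_le (abs_nonneg _) ?_)
          (abs_mx_le (mem_range_succ_iff.1 hi) x) (abs_nonneg _) (by positivity)) (by positivity)
        exact PiLp.norm_apply_le (p (j + 1) i (x + -(t • e b)) • n i (x + -(t • e b)) -
          p (j + 1) i x • n i x) b
      have h2 := hB (j + 1) x (-(t • e b)) hj' (nh.trans_le ht1)
      rw [nh] at h2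
      refine (ENNReal.ofReal_le_ofReal h1).trans ?_
      rw [ENNReal.ofReal_mul' (le_max_right _ _), ENNReal.ofReal_mul (by positivity),
        ENNReal.ofReal_max, ENNReal.ofReal_zero, max_eq_left zero_le]
      refine mul_le_mul' ((mul_le_mul_right h2 _).trans (le_of_eq ?_)) (hH j x hj' hx)
      rw [← mul_assoc, ← ENNReal.ofReal_mul (by positivity), inv_mul_cancel₀ ht0.ne',
        ENNReal.ofReal_one, one_mul]
    · have z1 := zU x hx
      have z2 : ζ (x + -(t • e b)) = 0 := by
        by_contra h0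
        exact hx (by simpa using hζ _ h0 (t • e b) (by rw [← norm_neg, nh]; exact ht1))
      rw [sum_eq_zero fun i hi => ?_, enorm_zero]
      · exact zero_le
      · have h1 := mem_range.1 hi
        simp only [hX]
        rw [pz (j + 1) i x (by omega) z1, pz (j + 1) i _ (by omega) z2]
        simp
  set Er : ℕ → E d → ℝ :=
    fun k x => max (2 * c * ‖fderiv ℝ (g k) x‖ - fderiv ℝ (g k) x (n k x)) 0 with hEr
  have Em : ∀ k, Measurable fun x => 2 * c * ‖fderiv ℝ (g k) x‖ - fderiv ℝ (g k) x (n k x) :=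
    fun k => ((measurable_fderiv ℝ (g k)).norm.const_mul _).sub
      (ContinuousLinearMap.measurable_apply₂.comp
        ((measurable_fderiv ℝ (g k)).prodMk (hn k).measurable))
  have Pm : ∀ k, Measurable fun x => p k k x * ‖fderiv ℝ (g k) x‖ := fun k =>
    (hp k k).measurable.mul (measurable_fderiv ℝ (g k)).norm
  have Qm : ∀ k, Measurable fun x => ζ x * Er k x := fun k =>
    ζc.measurable.mul ((Em k).max measurable_const)
  have key := lint_le (A := fun x => c * ‖fderiv ℝ G x‖ * ζ x)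
    (Q := fun x => ∑ k ∈ range (K + 1), p k k x * ‖fderiv ℝ (g k) x‖ +
      ∑ k ∈ range (K + 1), ζ x * Er k x)
    (Φ := fun x => ∑ j ∈ range K, ∑ b, Φ j b x)
    (((measurable_fderiv ℝ G).norm.const_mul _).mul ζc.measurable).aestronglyMeasurable
    ((Finset.measurable_sum _ fun k _ => Pm k).add
      (Finset.measurable_sum _ fun k _ => Qm k)).aestronglyMeasurable
    (integrable_finsetSum _ fun j _ => integrable_finsetSum _ fun b _ => iΦ j b)
    (fun x => mul_nonneg (by positivity) (ζ0 x))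
    (fun x => add_nonneg (sum_nonneg fun k _ => mul_nonneg (p0 k k x) (norm_nonneg _))
      (sum_nonneg fun k _ => mul_nonneg (ζ0 x) (le_max_right _ _))) (by
      filter_upwards [ae_all_iff.2 fun i => ae_all_iff.2 fun j =>
        (mx_lip hg i j).ae_differentiableAt] with x hx
      have dg : ∀ k, DifferentiableAt ℝ (g k) x := fun k => mx_self (g := g) k ▸ hx k k
      have dG : DifferentiableAt ℝ G x := hGe ▸ hx 0 K
      obtain ⟨k, hk, hk'⟩ := (hG x).2
      have touch : ∀ i j a, i ≤ a → a ≤ j → mx g i j x = g a x →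
          fderiv ℝ (g a) x = fderiv ℝ (mx g i j) x := fun i j a h1 h2 h3 =>
        fderiv_eq_of_touch (dg a) (hx i j)
          (.of_forall fun y => (mx_spec (h1.trans h2) y).2 a h1 h2) h3.symm
      have low : ∀ i j a, i ≤ a → a ≤ j → 0 < p j i x →
          c * ‖fderiv ℝ (g a) x‖ - Er a x ≤ fderiv ℝ (g a) x (n i x) := by
        intro i j a h1 h2 h3
        have h4 : p j i x ≤ p a i x := by
          clear h3
          induction j, h2 using Nat.le_induction with
          | base => exact le_rfl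
          | succ j h ih => exact (anti j i x (h1.trans h)).trans ih
        have h5 := (fderiv ℝ (g a) x).le_of_opNorm_le_of_le le_rfl (near a i x h1 (h3.trans_le h4))
        rw [map_sub, Real.norm_eq_abs] at h5
        have h6 : 2 * c * ‖fderiv ℝ (g a) x‖ - fderiv ℝ (g a) x (n a x) ≤ Er a x := le_max_left _ _
        linarith [le_abs_self (fderiv ℝ (g a) x (n a x) - fderiv ℝ (g a) x (n i x))]
      have h := comb (fun k i => p0 k i x) (fun k i => anti k i x) (fun k => hsum k x) hk
        (T := fun i j => fderiv ℝ (mx g i j) x (n i x)) (Er := fun a => Er a x)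
        (A := c * ‖fderiv ℝ G x‖) (fun a => le_max_right _ _)
        (fun i j hij _ h3 => by
          obtain ⟨a, h4, h5, h6⟩ := (mx_spec (g := g) hij x).1
          refine ⟨a, h4, h5, ?_⟩
          have h7 := low i j a h4 h5 h3
          rw [← touch i j a h4 h5 h6]
          linarith [mul_nonneg hc (norm_nonneg (fderiv ℝ (g a) x))])
        (fun i j h1 h2 hj h3 => by
          obtain ⟨⟨a, -, h5, h6⟩, h7⟩ := mx_spec (g := g) (h1.trans h2) x
          rw [← touch i j k h1 h2 (le_antisymm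
            (by rw [h6, ← hk']; exact (hG x).1 a (h5.trans hj)) (h7 k h1 h2)),
            ← fderiv_eq_of_touch (dg k) dG (.of_forall fun y => (hG y).1 k hk) hk'.symm]
          exact low i j k h1 h2 h3)
      have h1 : ∑ i ∈ range (K + 1), p i i x * fderiv ℝ (mx g i i) x (n i x) ≤
          ∑ k ∈ range (K + 1), p k k x * ‖fderiv ℝ (g k) x‖ := sum_le_sum fun i _ => by
        rw [mx_self]
        refine mul_le_mul_of_nonneg_left ((le_abs_self _).trans ?_) (p0 i i x)
        simpa using (fderiv ℝ (g i) x).le_of_opNorm_le_of_le le_rfl (hn1 i x)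
      have h2 : ∀ j, ∑ i ∈ range (j + 1), p (j + 1) i x *
          (fderiv ℝ (mx g i (j + 1)) x (n i x) - fderiv ℝ (mx g i j) x (n i x)) =
          ∑ b, Φ j b x := by
        intro j
        rw [sum_comm]
        refine sum_congr rfl fun i _ => ?_
        have h3 : DifferentiableAt ℝ (w j i) x := (hx i (j + 1)).sub (hx i j)
        have h4 : fderiv ℝ (w j i) x = fderiv ℝ (mx g i (j + 1)) x - fderiv ℝ (mx g i j) x :=
          fderiv_sub (hx i (j + 1)) (hx i j)
        simp only [h3.lineDeriv_eq_fderiv, he, hX]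
        rw [TreeAux.sum_single, map_smul, h4]
        rfl
      rw [SL_apply, sum_congr rfl fun j _ => h2 j] at h
      linarith)
  have e1 : ENNReal.ofReal c * ∫⁻ x, ENNReal.ofReal (ζ x) * ‖fderiv ℝ G x‖ₑ =
      ∫⁻ x, ENNReal.ofReal (c * ‖fderiv ℝ G x‖ * ζ x) := by
    rw [← lintegral_const_mul' _ _ ENNReal.ofReal_ne_top]
    refine lintegral_congr fun x => ?_
    rw [ENNReal.ofReal_mul' (ζ0 x), ENNReal.ofReal_mul hc, ofReal_norm]
    ring
  have e2 : ∫⁻ x, ENNReal.ofReal (∑ k ∈ range (K + 1), p k k x * ‖fderiv ℝ (g k) x‖ +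
      ∑ k ∈ range (K + 1), ζ x * Er k x) ≤
      (∑ k ∈ range (K + 1), ∫⁻ x, ENNReal.ofReal (p k k x) * ‖fderiv ℝ (g k) x‖ₑ) +
      ∑ k ∈ range (K + 1), ∫⁻ x, ENNReal.ofReal (ζ x) *
        ENNReal.ofReal (2 * c * ‖fderiv ℝ (g k) x‖ - fderiv ℝ (g k) x (n k x)) := by
    have m1 : ∀ k, Measurable fun x => ENNReal.ofReal (p k k x) * ‖fderiv ℝ (g k) x‖ₑ := fun k =>
      (hp k k).measurable.ennreal_ofReal.mul (measurable_fderiv ℝ (g k)).enorm
    have m2 : ∀ k, Measurable fun x => ENNReal.ofReal (ζ x) *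
        ENNReal.ofReal (2 * c * ‖fderiv ℝ (g k) x‖ - fderiv ℝ (g k) x (n k x)) := fun k =>
      ζc.measurable.ennreal_ofReal.mul (Em k).ennreal_ofReal
    rw [← lintegral_finsetSum _ fun k _ => m1 k, ← lintegral_finsetSum _ fun k _ => m2 k,
      ← lintegral_add_left (Finset.measurable_sum _ fun k _ => m1 k)]
    refine lintegral_mono fun x => ENNReal.ofReal_add_le.trans (add_le_add
      ((ofReal_sum_le _ _).trans (le_of_eq (sum_congr rfl fun k _ => ?_)))
      ((ofReal_sum_le _ _).trans (le_of_eq (sum_congr rfl fun k _ => ?_))))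
    · rw [ENNReal.ofReal_mul (p0 k k x), ofReal_norm]
    · rw [ENNReal.ofReal_mul (ζ0 x), ENNReal.ofReal_max, ENNReal.ofReal_zero, max_eq_left zero_le]
  have e3 : ENNReal.ofReal (∫ x, ∑ j ∈ range K, ∑ b, Φ j b x) ≤
      d * ∑ k ∈ range (K + 1), ∫⁻ x in U, Bf k x * Hf k x := by
    rw [integral_finsetSum _ fun j _ => integrable_finsetSum _ fun b _ => iΦ j b, sum_range_succ',
      mul_add, mul_sum]
    refine le_add_right ((ofReal_sum_le _ _).trans (sum_le_sum fun j hj => ?_))
    rw [integral_finsetSum _ fun b _ => iΦ j b]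
    refine (ofReal_sum_le _ _).trans ((sum_le_sum fun b _ => bΦ j hj b).trans (le_of_eq ?_))
    simp
  rw [e1, add_right_comm]
  refine key.trans (add_le_add (e2.trans (add_le_add le_rfl ?_)) e3)
  exact le_self_add.trans (two_mul _).ge

end Vale.Agent.P137
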