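import Vale.Agent.P137.Stmts

/-! The weak gradient of the absolute value. -/

open MeasureTheory Metric Filter Set ContinuousLinearMap
open scoped ENNReal ContDiff Topology Convolution

namespace Vale.Agent.P137

namespace WAbsAux

variable {d : ℕ}

/-- the bump of size `1 / (n + 1)` -/
noncomputable def bp (d n : ℕ) : ContDiffBump (0 : E d) :=
  ⟨1 / (n + 1), 2 * (1 / (n + 1)), by positivity, by
    have : (0 : ℝ) < 1 / (n + 1) := by positivity
    linarith⟩

/-- the mollifier -/
noncomputable def rho (d n : ℕ) : E d → ℝ := (bp d n).normed volume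

/-- the mollification -/
noncomputable def mol (n : ℕ) (h : E d → ℝ) : E d → ℝ := h ⋆[lsmul ℝ ℝ, volume] rho d n

theorem mol_eq (n : ℕ) (h : E d → ℝ) (x : E d) : mol n h x = ∫ y, h y * rho d n (x - y) := rfl

theorem mol_ae {h : E d → ℝ} (hh : Integrable h) :
    ∀ᵐ x, Tendsto (fun n => mol n h x) atTop (𝓝 (h x)) := by
  have h1 : Tendsto (fun n : ℕ => (bp d n).rOut) atTop (𝓝 0) := by
    have := (tendsto_one_div_add_atTop_nhds_zero_nat (𝕜 := ℝ)).const_mul 2
    rwa [mul_zero] at this
  filter_upwards [ContDiffBump.ae_convolution_tendsto_right_of_locallyIntegrable (μ := volume)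
    (K := 2) h1 (Eventually.of_forall fun n => le_rfl) hh.locallyIntegrable] with x hx
  refine hx.congr fun n => ?_
  rw [convolution_lsmul_swap, mol_eq]
  simp only [smul_eq_mul, mul_comm, rho]

theorem mol_int (n : ℕ) {h : E d → ℝ} (hh : Integrable h) : Integrable (mol n h) :=
  hh.integrable_convolution _ (bp d n).integrable_normed

theorem mol_norm (n : ℕ) {h : E d → ℝ} (hh : Integrable h) : ∫ x, |mol n h x| ≤ ∫ x, |h x| := by
  have h1 : ∫ x, mol n (fun y => |h y|) x = ∫ x, |h x| := by
    rw [mol, rho, integral_convolution _ hh.abs (bp d n).integrable_normed,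
      (bp d n).integral_normed]
    simp
  rw [← h1]
  refine integral_mono (mol_int n hh).abs (mol_int n hh.abs) fun x => ?_
  simp only [mol_eq]
  refine (abs_integral_le_integral_abs).trans (le_of_eq ?_)
  refine integral_congr_ae (Eventually.of_forall fun y => ?_)
  simp only [abs_mul, rho, abs_of_nonneg ((bp d n).nonneg_normed _)]

theorem mol_L1 {h : E d → ℝ} (hh : Integrable h) :
    Tendsto (fun n => ∫ x, |mol n h x - h x|) atTop (𝓝 0) := by
  have i1 := fun n => (mol_int n hh).abs
  have i2 := fun n => ((mol_int n hh).sub hh).abs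
  have h1 : Tendsto (fun n => ∫ x, (|mol n h x| + |h x| - |mol n h x - h x|)) atTop
      (𝓝 (∫ x, 2 * |h x|)) := by
    refine tendsto_integral_of_dominated_convergence (fun x => 2 * |h x|)
      (fun n => (((i1 n).add hh.abs).sub (i2 n)).1) (hh.abs.const_mul 2)
      (fun n => Eventually.of_forall fun x => ?_) ?_
    · rw [Real.norm_eq_abs, abs_le]
      have a1 := abs_sub (mol n h x) (h x)
      have a2 := abs_sub_abs_le_abs_sub (mol n h x) (h x)
      have a3 := abs_nonneg (h x)
      constructor <;> linarith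
    · filter_upwards [mol_ae hh] with x hx
      have := (hx.abs.add_const |h x|).sub (hx.sub_const (h x)).abs
      rwa [sub_self, abs_zero, sub_zero, ← two_mul] at this
  have h2 := h1.const_sub (∫ x, 2 * |h x|)
  rw [sub_self] at h2
  refine squeeze_zero (fun n => integral_nonneg fun x => abs_nonneg _) (fun n => ?_) h2
  have e1 : ∫ x, (|mol n h x| + |h x| - |mol n h x - h x|) =
      (∫ x, |mol n h x|) + (∫ x, |h x|) - ∫ x, |mol n h x - h x| := by
    rw [← integral_add (i1 n) hh.abs]
    exact integral_sub ((i1 n).add hh.abs) (i2 n)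
  rw [e1, integral_const_mul]
  linarith [mol_norm n hh]

theorem mol_mul {h : E d → ℝ} (hh : Integrable h) {ψ : ℕ → E d → ℝ} {C : ℝ}
    (hψ : ∀ n x, |ψ n x| ≤ C * |mol n h x - h x|) :
    Tendsto (fun n => ∫ x, ψ n x) atTop (𝓝 0) := by
  have h1 := (mol_L1 hh).const_mul C
  rw [mul_zero] at h1
  refine squeeze_zero_norm (fun n => ?_) h1
  rw [← integral_const_mul]
  exact norm_integral_le_of_norm_le (((mol_int n hh).sub hh).abs.const_mul C)
    (Eventually.of_forall (hψ n))

theorem mol_cd (n : ℕ) {h : E d → ℝ} (hh : Integrable h) : ContDiff ℝ 1 (mol n h) :=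
  (bp d n).hasCompactSupport_normed.contDiff_convolution_right (n := 1) _ hh.locallyIntegrable
    (bp d n).contDiff_normed

theorem mol_fd (n : ℕ) {f : E d → ℝ} {F : E d → E d} (hf : Integrable f) (hw : IsWeakGrad f F)
    (x v : E d) : fderiv ℝ (mol n f) x v = mol n (fun y => inner ℝ (F y) v) x := by
  have hc : HasCompactSupport (rho d n) := (bp d n).hasCompactSupport_normed
  have hs : ContDiff ℝ ∞ (rho d n) := (bp d n).contDiff_normed
  have h1 : ContDiff ℝ 1 (rho d n) := (bp d n).contDiff_normed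
  rw [mol, (hc.hasFDerivAt_convolution_right _ hf.locallyIntegrable h1 x).fderiv,
    convolution_precompR_apply _ hf.locallyIntegrable (hc.fderiv ℝ)
      (h1.continuous_fderiv one_ne_zero)]
  have h2 := hw (fun y => rho d n (x - y)) (hs.comp (contDiff_const.sub contDiff_id))
    (hc.comp_homeomorph (Homeomorph.subLeft x)) v
  have h3 : ∀ y, fderiv ℝ (fun y => rho d n (x - y)) y v = -fderiv ℝ (rho d n) (x - y) v := by
    intro y
    have := ((h1.differentiable one_ne_zero) (x - y)).hasFDerivAt.comp y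
      ((hasFDerivAt_id y).const_sub x)
    rw [show (fun y => rho d n (x - y)) = rho d n ∘ HSub.hSub x from rfl, this.fderiv]
    simp
  simp only [h3, mul_neg, integral_neg, neg_inj] at h2
  exact h2

theorem chain {f : E d → ℝ} {F : E d → E d} (hf : Integrable f) (hF : Integrable F)
    (hw : IsWeakGrad f F) {G G' : ℝ → ℝ} (hG : ∀ t, HasDerivAt G (G' t) t) (hc : Continuous G')
    (hb : ∀ t, |G' t| ≤ 1) {φ : E d → ℝ} (hφ : ContDiff ℝ ∞ φ) (hs : HasCompactSupport φ)
    (v : E d) :
    ∫ x, G (f x) * fderiv ℝ φ x v = -∫ x, G' (f x) * inner ℝ (F x) v * φ x := by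
  have hg : Integrable fun y => inner ℝ (F y) v := hF.inner_const v
  have hGc : Continuous G := continuous_iff_continuousAt.mpr fun t => (hG t).continuousAt
  have hL : ∀ s t, |G s - G t| ≤ |s - t| := by
    intro s t
    have := Convex.norm_image_sub_le_of_norm_hasDerivWithin_le (s := univ) (C := 1)
      (fun x _ => (hG x).hasDerivWithinAt) (fun x _ => hb x) convex_univ (mem_univ t) (mem_univ s)
    simpa using this
  have c1 : Continuous fun x => fderiv ℝ φ x v :=
    (hφ.continuous_fderiv (by simp)).clm_apply continuous_const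
  have s1 : HasCompactSupport fun x => fderiv ℝ φ x v := hs.fderiv_apply ℝ v
  obtain ⟨C1, hC1⟩ := c1.bounded_above_of_compact_support s1
  obtain ⟨C2, hC2⟩ := hφ.continuous.bounded_above_of_compact_support hs
  have hC2' : 0 ≤ C2 := (norm_nonneg _).trans (hC2 0)
  have d1 : ∀ n x, HasFDerivAt (fun x => G (mol n f x)) (G' (mol n f x) • fderiv ℝ (mol n f) x) x :=
    fun n x => (hG _).comp_hasFDerivAt x ((mol_cd n hf).differentiable one_ne_zero x).hasFDerivAt
  have d2 : ∀ n x, fderiv ℝ (fun x => G (mol n f x)) x v =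
      G' (mol n f x) * mol n (fun y => inner ℝ (F y) v) x := by
    intro n x
    rw [(d1 n x).fderiv, ← mol_fd n hf hw]
    rfl
  have k1 := fun n => hGc.comp (mol_cd n hf).continuous
  have k2 := fun n => hc.comp (mol_cd n hf).continuous
  have i1 : ∀ n, Integrable fun x => G (mol n f x) * fderiv ℝ φ x v := fun n =>
    ((k1 n).mul c1).integrable_of_hasCompactSupport s1.mul_left
  have i2 : ∀ n, Integrable fun x => G' (mol n f x) * mol n (fun y => inner ℝ (F y) v) x * φ x :=
    fun n => (((k2 n).mul (mol_cd n hg).continuous).mul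
      hφ.continuous).integrable_of_hasCompactSupport hs.mul_left
  have e : ∀ n, ∫ x, G (mol n f x) * fderiv ℝ φ x v =
      -∫ x, G' (mol n f x) * mol n (fun y => inner ℝ (F y) v) x * φ x := by
    intro n
    rw [integral_mul_fderiv_eq_neg_fderiv_mul_of_integrable (by simpa only [d2] using i2 n) (i1 n)
      (((k1 n).mul hφ.continuous).integrable_of_hasCompactSupport hs.mul_left)
      (fun x _ => (d1 n x).differentiableAt) (fun x _ => hφ.differentiable (by simp) x)]
    simp only [d2]
  have i3 : Integrable fun x => G (f x) * fderiv ℝ φ x v := by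
    refine Integrable.mono' (((c1.integrable_of_hasCompactSupport s1).abs.const_mul |G 0|).add
      (hf.abs.const_mul C1)) ((hGc.comp_aestronglyMeasurable hf.1).mul c1.aestronglyMeasurable)
      (Eventually.of_forall fun x => ?_)
    have a1 := hL (f x) 0
    have a2 := abs_sub_abs_le_abs_sub (G (f x)) (G 0)
    have a3 := hC1 x
    rw [Real.norm_eq_abs] at a3
    rw [sub_zero] at a1
    rw [Real.norm_eq_abs, abs_mul, Pi.add_apply]
    nlinarith [abs_nonneg (fderiv ℝ φ x v), abs_nonneg (f x)]
  have b4 : ∀ t x, ‖G' t * inner ℝ (F x) v * φ x‖ ≤ C2 * |inner ℝ (F x) v| := by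
    intro t x
    have a3 := hC2 x
    rw [Real.norm_eq_abs] at a3
    rw [Real.norm_eq_abs, abs_mul, abs_mul, mul_comm]
    exact mul_le_mul a3 (mul_le_of_le_one_left (abs_nonneg _) (hb t)) (by positivity) hC2'
  have m4 : ∀ n, AEStronglyMeasurable fun x => G' (mol n f x) * inner ℝ (F x) v * φ x := fun n =>
    ((k2 n).aestronglyMeasurable.mul hg.1).mul hφ.continuous.aestronglyMeasurable
  have i4 : ∀ n, Integrable fun x => G' (mol n f x) * inner ℝ (F x) v * φ x := fun n =>
    Integrable.mono' (hg.abs.const_mul C2) (m4 n) (Eventually.of_forall fun x => b4 _ x)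
  have t1 := (mol_mul hf (C := C1) (ψ := fun n x => G (mol n f x) * fderiv ℝ φ x v -
      G (f x) * fderiv ℝ φ x v) fun n x => by
    rw [← sub_mul, abs_mul, mul_comm]
    exact mul_le_mul (hC1 x) (hL _ _) (abs_nonneg _) ((norm_nonneg _).trans (hC1 x))).add_const
      (∫ x, G (f x) * fderiv ℝ φ x v)
  have t2 := mol_mul hg (C := C2) (ψ := fun n x =>
      G' (mol n f x) * mol n (fun y => inner ℝ (F y) v) x * φ x -
      G' (mol n f x) * inner ℝ (F x) v * φ x) fun n x => by
    rw [← sub_mul, ← mul_sub, abs_mul, abs_mul, mul_comm]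
    exact mul_le_mul (hC2 x) (mul_le_of_le_one_left (abs_nonneg _) (hb _)) (by positivity) hC2'
  have t3 : Tendsto (fun n => ∫ x, G' (mol n f x) * inner ℝ (F x) v * φ x) atTop
      (𝓝 (∫ x, G' (f x) * inner ℝ (F x) v * φ x)) := by
    refine tendsto_integral_of_dominated_convergence _ m4 (hg.abs.const_mul C2)
      (fun n => Eventually.of_forall fun x => b4 _ x) ?_
    filter_upwards [mol_ae hf] with x hx
    exact (((hc.tendsto _).comp hx).mul_const _).mul_const _
  have t4 := (t2.add t3).neg
  simp only [integral_sub (i1 _) i3, integral_sub (i2 _) (i4 _), sub_add_cancel, zero_add,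
    e] at t1 t4
  exact tendsto_nhds_unique t1 t4

theorem sq_lim (t : ℝ) : Tendsto (fun n : ℕ => √(t ^ 2 + 1 / (n + 1))) atTop (𝓝 |t|) := by
  have := ((tendsto_one_div_add_atTop_nhds_zero_nat (𝕜 := ℝ)).const_add (t ^ 2)).sqrt
  rwa [add_zero, Real.sqrt_sq_eq_abs] at this

theorem sq_bd (t : ℝ) (n : ℕ) : |t / √(t ^ 2 + 1 / (n + 1))| ≤ 1 := by
  have h : 0 < √(t ^ 2 + 1 / (n + 1)) := Real.sqrt_pos.mpr (by positivity)
  rw [abs_div, abs_of_pos h, div_le_one h]
  exact Real.abs_le_sqrt (le_add_of_nonneg_right (by positivity))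

theorem sg_bd (t : ℝ) : abs (t / |t|) ≤ 1 := by
  rw [abs_div, abs_abs]
  exact div_self_le_one _

end WAbsAux

open WAbsAux

theorem wabs (d : ℕ) (_hd : 1 ≤ d) : AbsStmt d := by
  intro f F hf hF hw
  have e1 := hf.1.ae_eq_mk
  have e2 := hF.1.ae_eq_mk
  have m1 := hf.1.measurable_mk
  have m2 := hF.1.measurable_mk
  have hm : Measurable fun x => (hf.1.mk f x / |hf.1.mk f x|) • hF.1.mk F x :=
    (m1.div m1.abs).smul m2
  have hb : ∀ᵐ x, ‖(hf.1.mk f x / |hf.1.mk f x|) • hF.1.mk F x‖ ≤ ‖F x‖ := by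
    filter_upwards [e2] with x hx
    rw [norm_smul, hx]
    exact mul_le_of_le_one_left (norm_nonneg _) (sg_bd _)
  refine ⟨_, hm, hF.norm.mono' hm.aestronglyMeasurable hb, hb, fun φ hφ hs v => ?_⟩
  have hg : Integrable fun y => inner ℝ (F y) v := hF.inner_const v
  have c1 : Continuous fun x => fderiv ℝ φ x v :=
    (hφ.continuous_fderiv (by simp)).clm_apply continuous_const
  have s1 : HasCompactSupport fun x => fderiv ℝ φ x v := hs.fderiv_apply ℝ v
  obtain ⟨C1, hC1⟩ := c1.bounded_above_of_compact_support s1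
  obtain ⟨C2, hC2⟩ := hφ.continuous.bounded_above_of_compact_support hs
  have hC2' : 0 ≤ C2 := (norm_nonneg _).trans (hC2 0)
  have p : ∀ (n : ℕ) (t : ℝ), 0 < t ^ 2 + 1 / (n + 1) := fun n t => by positivity
  have kc : ∀ n : ℕ, Continuous fun t : ℝ => t / √(t ^ 2 + 1 / (n + 1)) := fun n =>
    continuous_id.div (by fun_prop) fun t => (Real.sqrt_pos.mpr (p n t)).ne'
  have e : ∀ n : ℕ, ∫ x, √(f x ^ 2 + 1 / (n + 1)) * fderiv ℝ φ x v =
      -∫ x, f x / √(f x ^ 2 + 1 / (n + 1)) * inner ℝ (F x) v * φ x := by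
    intro n
    refine chain hf hF hw (G := fun t => √(t ^ 2 + 1 / (n + 1)))
      (G' := fun t => t / √(t ^ 2 + 1 / (n + 1))) (fun t => ?_) (kc n) (fun t => sq_bd t n) hφ hs v
    refine (((hasDerivAt_pow 2 t).add_const (1 / (n + 1) : ℝ)).sqrt (p n t).ne').congr_deriv ?_
    have := (Real.sqrt_pos.mpr (p n t)).ne'
    field_simp
    simp
  have t1 : Tendsto (fun n : ℕ => ∫ x, √(f x ^ 2 + 1 / (n + 1)) * fderiv ℝ φ x v) atTop
      (𝓝 (∫ x, |f x| * fderiv ℝ φ x v)) := by
    refine tendsto_integral_of_dominated_convergence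
      (fun x => |fderiv ℝ φ x v| + C1 * |f x|) (fun n => ?_)
      ((c1.integrable_of_hasCompactSupport s1).abs.add (hf.abs.const_mul C1))
      (fun n => Eventually.of_forall fun x => ?_)
      (Eventually.of_forall fun x => (sq_lim _).mul_const _)
    · exact ((show Continuous fun t : ℝ => √(t ^ 2 + 1 / (n + 1)) by
        fun_prop).comp_aestronglyMeasurable hf.1).mul c1.aestronglyMeasurable
    · have a1 : √(f x ^ 2 + 1 / (n + 1)) ≤ |f x| + 1 := by
        rw [Real.sqrt_le_left (by positivity)]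
        have : (1 : ℝ) / (n + 1) ≤ 1 := by
          rw [div_le_one (by positivity)]
          linarith [Nat.cast_nonneg (α := ℝ) n]
        nlinarith [sq_abs (f x), abs_nonneg (f x)]
      have a3 := hC1 x
      rw [Real.norm_eq_abs] at a3
      rw [Real.norm_eq_abs, abs_mul, abs_of_nonneg (Real.sqrt_nonneg _)]
      nlinarith [abs_nonneg (fderiv ℝ φ x v), abs_nonneg (f x)]
  have t2 : Tendsto (fun n : ℕ => ∫ x, f x / √(f x ^ 2 + 1 / (n + 1)) * inner ℝ (F x) v * φ x)
      atTop (𝓝 (∫ x, f x / |f x| * inner ℝ (F x) v * φ x)) := by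
    refine tendsto_integral_of_dominated_convergence (fun x => C2 * |inner ℝ (F x) v|)
      (fun n => (((kc n).comp_aestronglyMeasurable hf.1).mul hg.1).mul
        hφ.continuous.aestronglyMeasurable) (hg.abs.const_mul C2)
      (fun n => Eventually.of_forall fun x => ?_) (Eventually.of_forall fun x => ?_)
    · rw [Real.norm_eq_abs, abs_mul, abs_mul, mul_comm]
      exact mul_le_mul (hC2 x) (mul_le_of_le_one_left (abs_nonneg _) (sq_bd _ n)) (by positivity)
        hC2'
    · refine (Tendsto.mul_const _ ?_).mul_const _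
      by_cases h0 : f x = 0
      · simp [h0]
      · exact tendsto_const_nhds.div (sq_lim _) (abs_ne_zero.mpr h0)
  have t3 := t2.neg
  simp only [← e] at t3
  rw [tendsto_nhds_unique t1 t3, neg_inj]
  refine integral_congr_ae ?_
  filter_upwards [e1, e2] with x h1 h2
  rw [← h1, ← h2, inner_smul_left]
  simp

end Vale.Agent.P137
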