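import Vale.Agent.P137.Basic

open MeasureTheory Metric Set Filter
open scoped ENNReal NNReal Topology

namespace Vale.Agent.P137

variable {d : ℕ}

theorem avg_indicator (F : E d → E d) {z x : E d} {R s : ℝ} (h : ‖x - z‖ + s ≤ R)
    (P : E d → E d) : avg ((ball z R).indicator F) x s P = avg F x s P := by
  unfold avg
  congr 1
  refine setIntegral_congr_fun measurableSet_ball fun y hy => ?_
  have : y ∈ ball z R := ball_subset_ball' (by rw [dist_eq_norm]; linarith) hy
  simp only [indicator_of_mem this]

theorem wcalc (d : ℕ) (hp : WPathStmt d) (hc : WCurlStmt d) : WCalcStmt d := by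
  intro f F hf hF hw z R
  refine ⟨?_, fun x h s b hs hb h1 h2 => ?_, fun x s e hs h1 => ?_⟩
  · rw [integrable_indicator_iff measurableSet_ball]
    exact (hF.integrableOn_isCompact (isCompact_closedBall z R)).mono_set ball_subset_closedBall
  · rw [hp f F hf hF hw x h s b hs hb]
    refine intervalIntegral.integral_congr fun t ht => ?_
    rw [uIcc_of_le zero_le_one] at ht
    refine (avg_indicator F ?_ _).symm
    have e : x + t • h - z = (1 - t) • (x - z) + t • (x + h - z) := by module
    have := norm_add_le ((1 - t) • (x - z)) (t • (x + h - z))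
    rw [norm_smul, norm_smul, Real.norm_of_nonneg (by linarith [ht.2]),
      Real.norm_of_nonneg ht.1] at this
    rw [e]
    nlinarith [ht.1, ht.2]
  · rw [avg_indicator F h1]
    exact hc f F hf hF hw x s e hs

end Vale.Agent.P137
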