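import Vale.Agent.P137.WPath

/-! A weak gradient is orthogonal to the divergence free tangent fields. -/

open MeasureTheory Metric Set Filter
open scoped ENNReal NNReal Topology ContDiff

namespace Vale.Agent.P137

namespace WCurlAux

open WPathAux

variable {d : ℕ}

/-- The cutoffs. -/
noncomputable def kk (n : ℕ) (w : E d) : ℝ := Real.smoothTransition ((n + 1) * (1 - ‖w‖ ^ 2))

/-- The profile of the error term. -/
noncomputable def ps (u : ℝ) : ℝ := deriv Real.smoothTransition u * u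

theorem ps_neg {u : ℝ} (hu : u ≤ 0) : ps u = 0 := by
  rcases hu.eq_or_lt with rfl | hu
  · simp [ps]
  have h : Real.smoothTransition =ᶠ[𝓝 u] fun _ => 0 :=
    (eventually_lt_nhds hu).mono fun v hv => Real.smoothTransition.zero_of_nonpos hv.le
  rw [ps, h.deriv_eq]
  simp

theorem ps_big {u : ℝ} (hu : 1 < u) : ps u = 0 := by
  have h : Real.smoothTransition =ᶠ[𝓝 u] fun _ => 1 :=
    (eventually_gt_nhds hu).mono fun v hv => Real.smoothTransition.one_of_one_le hv.le
  rw [ps, h.deriv_eq]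
  simp

theorem ps_cont : Continuous ps :=
  ((Real.smoothTransition.contDiff (n := 1)).continuous_deriv le_rfl).mul continuous_id

theorem ps_bdd : ∃ C, ∀ u, ‖ps u‖ ≤ C := by
  refine ps_cont.bounded_above_of_compact_support
    (HasCompactSupport.intro (isCompact_Icc (a := 0) (b := 1)) fun u hu => ?_)
  rcases le_or_gt u 0 with h | h
  · exact ps_neg h
  · exact ps_big (not_le.1 fun h1 => hu ⟨h.le, h1⟩)

theorem kk_smooth (n : ℕ) : ContDiff ℝ ∞ (kk n : E d → ℝ) :=
  Real.smoothTransition.contDiff.comp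
    (contDiff_const.mul (contDiff_const.sub (contDiff_norm_sq ℝ)))

theorem arg_nonpos (n : ℕ) {w : E d} (hw : 1 ≤ ‖w‖) : ((n : ℝ) + 1) * (1 - ‖w‖ ^ 2) ≤ 0 :=
  mul_nonpos_of_nonneg_of_nonpos (by positivity) (by nlinarith)

theorem arg_big {w : E d} (hw : ‖w‖ < 1) :
    ∀ᶠ n : ℕ in atTop, 1 < ((n : ℝ) + 1) * (1 - ‖w‖ ^ 2) := by
  have h : 0 < 1 - ‖w‖ ^ 2 := by nlinarith [norm_nonneg w]
  exact ((tendsto_natCast_atTop_atTop.atTop_add tendsto_const_nhds).atTop_mul_const
    h).eventually_gt_atTop 1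

theorem kk_zero (n : ℕ) {w : E d} (hw : 1 ≤ ‖w‖) : kk n w = 0 :=
  Real.smoothTransition.zero_of_nonpos (arg_nonpos n hw)

theorem W_smooth (e : E d) : ContDiff ℝ ∞ (Wf e) :=
  ((contDiff_const.sub (contDiff_const.mul (contDiff_norm_sq ℝ))).smul contDiff_const).add
    ((contDiff_id.inner ℝ contDiff_const).smul contDiff_id)

theorem inner_W (e w : E d) :
    inner ℝ w (Wf e w) = ((d : ℝ) - 1) / 2 * inner ℝ w e * (1 - ‖w‖ ^ 2) := by
  rw [Wf, inner_add_right, real_inner_smul_right, real_inner_smul_right,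
    real_inner_self_eq_norm_sq]
  ring

theorem fderiv_W (e w v : E d) : fderiv ℝ (Wf e) w v =
    (-((d : ℝ) + 1) * inner ℝ w v) • e + inner ℝ v e • w + inner ℝ w e • v := by
  have a1 := ((((hasStrictFDerivAt_norm_sq w).hasFDerivAt.const_mul (((d : ℝ) + 1) / 2)).const_sub
    (((d : ℝ) - 1) / 2)).smul_const e).add
    ((((hasFDerivAt_id (𝕜 := ℝ) w).inner ℝ (hasFDerivAt_const e w))).smul (hasFDerivAt_id w))
  have a2 : fderiv ℝ (Wf e) w = _ := a1.fderiv
  rw [a2]
  simp
  module

theorem div_W (e w : E d) : ∑ i, fderiv ℝ (Wf e) w (EuclideanSpace.single i 1) i = 0 := by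
  have h1 : ∑ i, w i * e i = inner ℝ w e := by
    simp [PiLp.inner_apply, mul_comm]
  simp only [fderiv_W, EuclideanSpace.inner_single_left, EuclideanSpace.inner_single_right,
    PiLp.add_apply, PiLp.smul_apply, smul_eq_mul, Finset.sum_add_distrib]
  simp [mul_assoc, ← Finset.mul_sum, h1, mul_comm (e _)]
  ring

theorem fderiv_kk (n : ℕ) (e w : E d) : fderiv ℝ (kk n) w (Wf e w) =
    -((d : ℝ) - 1) * inner ℝ w e * ps ((n + 1) * (1 - ‖w‖ ^ 2)) := by
  have a1 := ((hasStrictFDerivAt_norm_sq w).hasFDerivAt.const_sub 1).const_mul ((n : ℝ) + 1)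
  have a2 := ((Real.smoothTransition.contDiff (n := 1)).differentiable one_ne_zero
    ((n + 1) * (1 - ‖w‖ ^ 2))).hasDerivAt.comp_hasFDerivAt w a1
  have a3 : fderiv ℝ (kk n) w = _ := a2.fderiv
  rw [a3]
  simp [inner_W, ps]
  ring

theorem step {f : E d → ℝ} {F : E d → E d} (hf : LocallyIntegrable f) (hF : LocallyIntegrable F)
    (hw : IsWeakGrad f F) (x e : E d) {s : ℝ} (hs : 0 < s) (n : ℕ) :
    ∫ y, Kf x 0 s 0 d F (fun w => kk n w • Wf e w) (0, y) =
      -∫ y, Kf x 0 s 0 (d + 1) f (fun w => fderiv ℝ (kk n) w (Wf e w)) (0, y) := by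
  have hk := kk_smooth (d := d) n
  have hW := W_smooth e
  have hV : ContDiff ℝ ∞ fun y : E d => kk n (s⁻¹ • (y - x)) • Wf e (s⁻¹ • (y - x)) := by
    fun_prop
  have hc : HasCompactSupport fun y : E d => kk n (s⁻¹ • (y - x)) • Wf e (s⁻¹ • (y - x)) := by
    refine HasCompactSupport.intro (isCompact_closedBall x s) fun y hy => ?_
    rw [kk_zero, zero_smul]
    rw [mem_closedBall_iff_norm, not_le] at hy
    rw [norm_smul, Real.norm_eq_abs, abs_of_pos (inv_pos.2 hs), le_inv_mul_iff₀ hs, mul_one]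
    exact hy.le
  have h1 := wdiv hf hF hw hV hc
  have h2 : ∀ y : E d, ∑ i, fderiv ℝ (fun y : E d => kk n (s⁻¹ • (y - x)) • Wf e (s⁻¹ • (y - x))) y
      (EuclideanSpace.single i 1) i =
        s⁻¹ * fderiv ℝ (kk n) (s⁻¹ • (y - x)) (Wf e (s⁻¹ • (y - x))) := by
    intro y
    have a1 := ((hasFDerivAt_id (𝕜 := ℝ) y).sub_const x).const_smul s⁻¹
    have a2 := (hk.differentiable (by simp) _).hasFDerivAt.comp y a1
    have a3 := a2.smul ((hW.differentiable (by simp) _).hasFDerivAt.comp y a1)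
    have a4 : fderiv ℝ (fun y : E d => kk n (s⁻¹ • (y - x)) • Wf e (s⁻¹ • (y - x))) y = _ :=
      a3.fderiv
    rw [a4, ← sum_single (fderiv ℝ (kk n) (s⁻¹ • (y - x))) (Wf e (s⁻¹ • (y - x)))]
    have a5 := div_W e (s⁻¹ • (y - x))
    simp [Finset.sum_add_distrib, ← Finset.mul_sum, a5, mul_assoc]
  simp only [h2] at h1
  simp only [Kf, inner_rr, integral_const_mul, mul_zero, add_zero, smul_zero]
  rw [← neg_neg (∫ y, inner ℝ (F y) _), ← h1, pow_succ, mul_assoc, ← integral_const_mul s⁻¹,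
    mul_neg]
  congr 3
  funext y
  ring

end WCurlAux

open WPathAux WCurlAux in
theorem wcurl (d : ℕ) (_hd : 1 ≤ d) : WCurlStmt d := by
  intro f F hf hF hw x s e hs
  have hs' : 0 < s + 0 := by linarith
  obtain ⟨C, hC⟩ := ps_bdd
  obtain ⟨B, hB⟩ := (isCompact_closedBall (0 : E d) 1).exists_bound_of_continuousOn
    (W_smooth e).continuous.continuousOn
  have hC0 : 0 ≤ C := (norm_nonneg _).trans (hC 0)
  have hB0 : 0 ≤ B := (norm_nonneg _).trans (hB 0 (by simp))
  have p1 : ∀ n, Prof (fun w => kk n w • Wf e w) B := fun n => by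
    refine ⟨((kk_smooth n).continuous.smul (W_smooth e).continuous).stronglyMeasurable,
      fun w => ?_, fun w hw => by rw [kk_zero n hw.le, zero_smul]⟩
    by_cases hw : ‖w‖ ≤ 1
    · rw [norm_smul, kk, Real.norm_eq_abs, abs_of_nonneg (Real.smoothTransition.nonneg _)]
      exact (mul_le_of_le_one_left (norm_nonneg _) (Real.smoothTransition.le_one _)).trans
        (hB w (by simpa using hw))
    · rw [kk_zero n (not_le.1 hw).le, zero_smul, norm_zero]
      exact hB0
  have l1 : ∀ w, Tendsto (fun n => kk n w • Wf e w) atTop (𝓝 ((ball 0 1).indicator (Wf e) w)) := by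
    intro w
    by_cases hw : ‖w‖ < 1
    · rw [indicator_of_mem (by simpa using hw)]
      refine tendsto_const_nhds.congr' ?_
      filter_upwards [arg_big hw] with n hn
      rw [kk, Real.smoothTransition.one_of_one_le hn.le, one_smul]
    · rw [indicator_of_notMem (by simpa using hw)]
      simp [kk_zero _ (not_lt.1 hw)]
  have p2 : ∀ n, Prof (fun w => fderiv ℝ (kk n) w (Wf e w)) (|(d : ℝ) - 1| * ‖e‖ * C) := fun n => by
    refine ⟨(((kk_smooth n).continuous_fderiv (by simp)).clm_apply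
      (W_smooth e).continuous).stronglyMeasurable, fun w => ?_,
      fun w hw => by rw [fderiv_kk, ps_neg (arg_nonpos n hw.le), mul_zero]⟩
    rw [fderiv_kk]
    by_cases hw : ‖w‖ ≤ 1
    · rw [norm_mul, norm_mul, norm_neg]
      refine mul_le_mul (mul_le_mul_of_nonneg_left ((norm_inner_le_norm _ _).trans
        (mul_le_of_le_one_left (norm_nonneg _) hw)) (norm_nonneg _)) (hC _) (norm_nonneg _)
        (by positivity)
    · rw [ps_neg (arg_nonpos n (not_le.1 hw).le), mul_zero, norm_zero]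
      positivity
  have l2 : ∀ w, Tendsto (fun n => fderiv ℝ (kk n) w (Wf e w)) atTop
      (𝓝 ((fun _ : E d => (0 : ℝ)) w)) := by
    intro w
    refine tendsto_const_nhds.congr' ?_
    by_cases hw : ‖w‖ < 1
    · filter_upwards [arg_big hw] with n hn
      rw [fderiv_kk, ps_big hn, mul_zero]
    · exact Eventually.of_forall fun n => by
        simp only [fderiv_kk, ps_neg (arg_nonpos n (not_lt.1 hw)), mul_zero]
  have t1 := lim_Kf' (x := x) (h := 0) (N := d) hs hs' hF p1 l1 (t := 0) (by simp)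
  have t2 := (lim_Kf' (x := x) (h := 0) (N := d + 1) hs hs' hf p2 l2 (t := 0) (by simp)).neg
  simp only [step hf hF hw x e hs] at t1
  have h3 := tendsto_nhds_unique t1 t2
  rw [int_ind _ (by simpa using hs)] at h3
  simp only [Kf, inner_zero_right, mul_zero, integral_zero, neg_zero, add_zero, smul_zero] at h3
  exact (mul_eq_zero.1 h3).resolve_left (vb_pos one_pos).ne'

end Vale.Agent.P137
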