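import Vale.Agent.P137.Basic

/-! The restart weights. -/

open MeasureTheory Metric Set Filter
open scoped ENNReal NNReal Topology

namespace Vale.Agent.P137

namespace WtsAux

variable {d : ℕ}

/-- cutoff in the distance of two directions -/
noncomputable def bb (ε : ℝ) (a a' : E d) : ℝ := max 0 (min 1 ((‖a - a'‖ - 2 * ε) / ε))

theorem bb_nonneg (ε : ℝ) (a a' : E d) : 0 ≤ bb ε a a' := le_max_left _ _

theorem bb_le_one (ε : ℝ) (a a' : E d) : bb ε a a' ≤ 1 := max_le zero_le_one (min_le_left _ _)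

theorem bb_sq_le (ε : ℝ) (a a' : E d) : bb ε a a' ^ 2 ≤ 1 :=
  pow_le_one₀ (bb_nonneg ε a a') (bb_le_one ε a a')

theorem bb_eq_zero {ε : ℝ} (hε : 0 < ε) {a a' : E d} (h : ‖a - a'‖ ≤ 2 * ε) : bb ε a a' = 0 :=
  max_eq_left (min_le_of_right_le (div_nonpos_of_nonpos_of_nonneg (by linarith) hε.le))

theorem bb_eq_one {ε : ℝ} (hε : 0 < ε) {a a' : E d} (h : 3 * ε ≤ ‖a - a'‖) : bb ε a a' = 1 := by
  unfold bb
  rw [min_eq_left ((one_le_div hε).2 (by linarith)), max_eq_right zero_le_one]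

theorem bb_lip {ε : ℝ} (hε : 0 < ε) (a a' c c' : E d) :
    |bb ε a a' - bb ε c c'| ≤ (‖a - c‖ + ‖a' - c'‖) / ε := by
  have h1 : |‖a - a'‖ - ‖c - c'‖| ≤ ‖a - c‖ + ‖a' - c'‖ := by
    refine (abs_norm_sub_norm_le _ _).trans ?_
    have h2 : a - a' - (c - c') = (a - c) - (a' - c') := by abel
    rw [h2]
    exact norm_sub_le _ _
  have h2 : |(‖a - a'‖ - 2 * ε) / ε - (‖c - c'‖ - 2 * ε) / ε| ≤ (‖a - c‖ + ‖a' - c'‖) / ε := by
    rw [← sub_div, abs_div, abs_of_pos hε, sub_sub_sub_cancel_right]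
    exact div_le_div_of_nonneg_right h1 hε.le
  unfold bb
  refine (abs_max_sub_max_le_max _ _ _ _).trans (max_le ?_ ?_)
  · rw [sub_self, abs_zero]
    positivity
  · refine (abs_min_sub_min_le_max _ _ _ _).trans (max_le ?_ h2)
    rw [sub_self, abs_zero]
    positivity

theorem geo {ε : ℝ} (hε : 0 < ε) (hε1 : ε ≤ 1) {a a' : E d} (ha : ‖a‖ ≤ 1) (ha' : ‖a'‖ ≤ 1)
    (h : 2 * ε ≤ ‖a' - a‖) (w : E d) :
    ε ^ 2 * ‖w‖ - 2 * (‖w‖ - inner ℝ a' w) ≤ inner ℝ (a' - a) w := by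
  have h1 := parallelogram_law_with_norm ℝ a' a
  have h2 : ‖a' + a‖ ≤ 2 - ε ^ 2 := by
    refine le_of_sq_le_sq ?_ (by nlinarith)
    have h3 := mul_le_mul h h (by positivity) (norm_nonneg _)
    have h4 := mul_le_mul ha ha (norm_nonneg _) zero_le_one
    have h5 := mul_le_mul ha' ha' (norm_nonneg _) zero_le_one
    nlinarith [sq_nonneg (ε ^ 2)]
  have h3 := (real_inner_le_norm (a' + a) w).trans (mul_le_mul_of_nonneg_right h2 (norm_nonneg w))
  rw [inner_add_left] at h3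
  rw [inner_sub_left]
  linarith

/-- the weights -/
noncomputable def pp (ε : ℝ) (ζ : E d → ℝ) (n : ℕ → E d → E d) : ℕ → ℕ → E d → ℝ
  | 0 => fun i x => if i = 0 then ζ x else 0
  | k + 1 => fun i x =>
    if i ≤ k then pp ε ζ n k i x * (1 - bb ε (n (k + 1) x) (n i x) ^ 2)
    else if i = k + 1 then
      ∑ j ∈ Finset.range (k + 1), pp ε ζ n k j x * bb ε (n (k + 1) x) (n j x) ^ 2
    else 0

variable {ε : ℝ} {ζ : E d → ℝ} {n : ℕ → E d → E d}

theorem pp_zero (x : E d) : pp ε ζ n 0 0 x = ζ x := by simp [pp]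

theorem pp_le {k i : ℕ} (h : i ≤ k) (x : E d) :
    pp ε ζ n (k + 1) i x = pp ε ζ n k i x * (1 - bb ε (n (k + 1) x) (n i x) ^ 2) := by
  simp [pp, h]

theorem pp_top (k : ℕ) (x : E d) : pp ε ζ n (k + 1) (k + 1) x =
    ∑ j ∈ Finset.range (k + 1), pp ε ζ n k j x * bb ε (n (k + 1) x) (n j x) ^ 2 := by
  simp [pp]

theorem pp_cont (hζ : Continuous ζ) (hn : ∀ k, Continuous (n k)) (k : ℕ) :
    ∀ i, Continuous (pp ε ζ n k i) := by
  have hb : ∀ k i, Continuous fun x => bb ε (n k x) (n i x) := by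
    intro k i
    have h1 := hn k
    have h2 := hn i
    unfold bb
    fun_prop
  induction k with
  | zero =>
    intro i
    unfold pp
    split_ifs
    · exact hζ
    · exact continuous_const
  | succ k ih =>
    intro i
    unfold pp
    split_ifs
    · exact (ih i).mul (continuous_const.sub ((hb _ _).pow 2))
    · exact continuous_finsetSum _ fun j _ => (ih j).mul ((hb _ _).pow 2)
    · exact continuous_const

theorem pp_nonneg (hζ : ∀ x, 0 ≤ ζ x ∧ ζ x ≤ 1) (k : ℕ) : ∀ i x, 0 ≤ pp ε ζ n k i x := by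
  induction k with
  | zero =>
    intro i x
    unfold pp
    split_ifs
    · exact (hζ x).1
    · exact le_rfl
  | succ k ih =>
    intro i x
    unfold pp
    split_ifs
    · exact mul_nonneg (ih i x) (sub_nonneg.2 (bb_sq_le _ _ _))
    · exact Finset.sum_nonneg fun j _ => mul_nonneg (ih j x) (sq_nonneg _)
    · exact le_rfl

theorem pp_sum (k : ℕ) (x : E d) : ∑ i ∈ Finset.range (k + 1), pp ε ζ n k i x = ζ x := by
  induction k with
  | zero => simp [pp]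
  | succ k ih =>
    rw [Finset.sum_range_succ, pp_top, ← ih, ← Finset.sum_add_distrib]
    refine Finset.sum_congr rfl fun i hi => ?_
    rw [pp_le (Nat.lt_succ_iff.1 (Finset.mem_range.1 hi))]
    ring

theorem pp_anti (hζ : ∀ x, 0 ≤ ζ x ∧ ζ x ≤ 1) (k i : ℕ) (x : E d) (h : i ≤ k) :
    pp ε ζ n (k + 1) i x ≤ pp ε ζ n k i x := by
  rw [pp_le h]
  exact mul_le_of_le_one_right (pp_nonneg hζ k i x) (sub_le_self _ (sq_nonneg _))

theorem pp_le_diag (hζ : ∀ x, 0 ≤ ζ x ∧ ζ x ≤ 1) {k i : ℕ} (h : i ≤ k) (x : E d) :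
    pp ε ζ n k i x ≤ pp ε ζ n i i x := by
  induction h with
  | refl => exact le_rfl
  | step h ih => exact (pp_anti hζ _ i x h).trans ih

theorem pp_le_one (hζ : ∀ x, 0 ≤ ζ x ∧ ζ x ≤ 1) {k i : ℕ} (h : i ≤ k) (x : E d) :
    pp ε ζ n k i x ≤ 1 := by
  refine le_trans ?_ (hζ x).2
  rw [← pp_sum (ε := ε) (ζ := ζ) (n := n) k x]
  exact Finset.single_le_sum (f := fun i => pp ε ζ n k i x) (fun i _ => pp_nonneg hζ k i x)
    (Finset.mem_range.2 (Nat.lt_succ_of_le h))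

theorem pp_le_sqrt (hζ : ∀ x, 0 ≤ ζ x ∧ ζ x ≤ 1) {k i : ℕ} (h : i ≤ k) (x : E d) :
    pp ε ζ n k i x ≤ √(pp ε ζ n i i x) := by
  refine (pp_le_diag hζ h x).trans (Real.le_sqrt_of_sq_le ?_)
  have h1 := pp_nonneg (ε := ε) (n := n) hζ i i x
  have h2 := pp_le_one (ε := ε) (n := n) hζ (le_refl i) x
  nlinarith

theorem pp_near (hε : 0 < ε) (k i : ℕ) (x : E d) (h : i ≤ k) (hp : 0 < pp ε ζ n k i x) :
    ‖n k x - n i x‖ ≤ 3 * ε := by
  rcases h.eq_or_lt with rfl | h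
  · rw [sub_self, norm_zero]
    positivity
  obtain ⟨k, rfl⟩ := Nat.exists_eq_add_one_of_ne_zero (Nat.ne_zero_of_lt h)
  by_contra hc
  rw [pp_le (Nat.lt_succ_iff.1 h), bb_eq_one hε (not_le.1 hc).le] at hp
  simp at hp

theorem pp_pot (hε : 0 < ε) (hε1 : ε ≤ 1) (hζ : ∀ x, 0 ≤ ζ x ∧ ζ x ≤ 1)
    (hn : ∀ k x, ‖n k x‖ ≤ 1) (k : ℕ) (x w : E d) :
    ε ^ 2 * pp ε ζ n (k + 1) (k + 1) x * ‖w‖ - 2 * (‖w‖ - inner ℝ (n (k + 1) x) w) ≤
      inner ℝ (NN (pp ε ζ n) n (k + 1) x - NN (pp ε ζ n) n k x) w := by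
  have h1 : NN (pp ε ζ n) n (k + 1) x - NN (pp ε ζ n) n k x =
      ∑ i ∈ Finset.range (k + 1),
        (pp ε ζ n k i x * bb ε (n (k + 1) x) (n i x) ^ 2) • (n (k + 1) x - n i x) := by
    unfold NN
    rw [Finset.sum_range_succ _ (k + 1), pp_top, Finset.sum_smul, ← Finset.sum_add_distrib,
      ← Finset.sum_sub_distrib]
    refine Finset.sum_congr rfl fun i hi => ?_
    rw [pp_le (Nat.lt_succ_iff.1 (Finset.mem_range.1 hi))]
    module
  have h2 : pp ε ζ n (k + 1) (k + 1) x *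
      (ε ^ 2 * ‖w‖ - 2 * (‖w‖ - inner ℝ (n (k + 1) x) w)) ≤
      inner ℝ (NN (pp ε ζ n) n (k + 1) x - NN (pp ε ζ n) n k x) w := by
    rw [h1, sum_inner, pp_top, Finset.sum_mul]
    refine Finset.sum_le_sum fun i _ => ?_
    rw [real_inner_smul_left]
    by_cases h : ‖n (k + 1) x - n i x‖ ≤ 2 * ε
    · simp [bb_eq_zero hε h]
    · exact mul_le_mul_of_nonneg_left (geo hε hε1 (hn _ _) (hn _ _) (not_le.1 h).le w)
        (mul_nonneg (pp_nonneg hζ k i x) (sq_nonneg _))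
  have h3 : 0 ≤ ‖w‖ - inner ℝ (n (k + 1) x) w :=
    sub_nonneg.2 ((real_inner_le_norm _ _).trans
      (mul_le_of_le_one_left (norm_nonneg w) (hn _ _)))
  have h4 := pp_le_one (ε := ε) (n := n) hζ (le_refl (k + 1)) x
  nlinarith

theorem sq_diff {u v D : ℝ} (hu : 0 ≤ u) (hv : 0 ≤ v) (h : |u - v| ≤ D) :
    |u ^ 2 - v ^ 2| ≤ (2 * u + D) * D := by
  have h1 : u ^ 2 - v ^ 2 = (u + v) * (u - v) := by ring
  have h2 := (abs_le.1 h).1
  rw [h1, abs_mul, abs_of_nonneg (add_nonneg hu hv)]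
  exact mul_le_mul (by linarith) h (abs_nonneg _) (by linarith)

theorem term_le {P s u a a' η : ℝ} (hP : 0 ≤ P) (hP1 : P ≤ 1) (hs : P ≤ s) (hu : 0 ≤ u)
    (hu1 : u ≤ 1) (ha : 0 ≤ a) (ha' : 0 ≤ a') (hη : 1 ≤ η) :
    P * ((2 * u + (a' + a) * η) * ((a' + a) * η)) ≤
      2 * η ^ 2 * (P * u * a' + P * a' ^ 2 + (s * a + a ^ 2)) := by
  have h1 : η ≤ η ^ 2 := by nlinarith
  have h2 : P * u * a ≤ s * a :=
    mul_le_mul_of_nonneg_right ((mul_le_of_le_one_right hP hu1).trans hs) ha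
  have h3 : P * a ^ 2 ≤ a ^ 2 := mul_le_of_le_one_left (sq_nonneg a) hP1
  have h4 : 0 ≤ P * u * (a' + a) := by positivity
  have h5 : P * u * (a' + a) * η ≤ P * u * (a' + a) * η ^ 2 := mul_le_mul_of_nonneg_left h1 h4
  have h6 : P * (a' + a) ^ 2 ≤ 2 * (P * a' ^ 2 + a ^ 2) := by
    nlinarith [mul_nonneg hP (sq_nonneg (a' - a))]
  have h7 := mul_le_mul_of_nonneg_right h6 (sq_nonneg η)
  have h8 := mul_le_mul_of_nonneg_right h2 (sq_nonneg η)
  nlinarith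

theorem del_step (hε : 0 < ε) (hε1 : ε ≤ 1) (hζ : ∀ x, 0 ≤ ζ x ∧ ζ x ≤ 1) (k : ℕ) (x y : E d) :
    ∑ i ∈ Finset.range (k + 2), |pp ε ζ n (k + 1) i x - pp ε ζ n (k + 1) i y| ≤
      ∑ i ∈ Finset.range (k + 1), |pp ε ζ n k i x - pp ε ζ n k i y| +
        4 / ε ^ 2 * ∑ i ∈ Finset.range (k + 2),
          (√(pp ε ζ n i i x) * ‖n i x - n i y‖ + ‖n i x - n i y‖ ^ 2) := by
  have hη : 1 ≤ ε⁻¹ := (one_le_inv₀ hε).2 hε1
  have h1 : ∑ i ∈ Finset.range (k + 2), |pp ε ζ n (k + 1) i x - pp ε ζ n (k + 1) i y| ≤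
      ∑ i ∈ Finset.range (k + 1), (|pp ε ζ n k i x - pp ε ζ n k i y| + 2 * (pp ε ζ n k i x *
        |bb ε (n (k + 1) x) (n i x) ^ 2 - bb ε (n (k + 1) y) (n i y) ^ 2|)) := by
    rw [Finset.sum_range_succ, pp_top, pp_top, ← Finset.sum_sub_distrib]
    refine (add_le_add_right (Finset.abs_sum_le_sum_abs _ _) _).trans ?_
    rw [← Finset.sum_add_distrib]
    refine Finset.sum_le_sum fun i hi => ?_
    have hi' := Nat.lt_succ_iff.1 (Finset.mem_range.1 hi)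
    rw [pp_le hi', pp_le hi']
    have h2 := pp_nonneg (ε := ε) (n := n) hζ k i x
    have h3 := bb_sq_le ε (n (k + 1) y) (n i y)
    have h4 := sq_nonneg (bb ε (n (k + 1) y) (n i y))
    generalize pp ε ζ n k i x = P at *
    generalize pp ε ζ n k i y = Q at *
    generalize bb ε (n (k + 1) x) (n i x) ^ 2 = u at *
    generalize bb ε (n (k + 1) y) (n i y) ^ 2 = v at *
    have e1 : P * (1 - u) - Q * (1 - v) = (P - Q) * (1 - v) - P * (u - v) := by ring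
    have e2 : P * u - Q * v = (P - Q) * v + P * (u - v) := by ring
    have h5 := abs_sub ((P - Q) * (1 - v)) (P * (u - v))
    have h6 := abs_add_le ((P - Q) * v) (P * (u - v))
    rw [abs_mul, abs_mul, abs_of_nonneg h2] at h5 h6
    rw [abs_of_nonneg (sub_nonneg.2 h3)] at h5
    rw [abs_of_nonneg h4] at h6
    rw [e1, e2]
    linarith
  refine h1.trans ?_
  rw [Finset.sum_add_distrib, ← Finset.mul_sum]
  refine add_le_add_right ?_ _
  have h2 : ∑ i ∈ Finset.range (k + 1), pp ε ζ n k i x *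
      |bb ε (n (k + 1) x) (n i x) ^ 2 - bb ε (n (k + 1) y) (n i y) ^ 2| ≤
      ∑ i ∈ Finset.range (k + 1), 2 * ε⁻¹ ^ 2 *
        (pp ε ζ n k i x * bb ε (n (k + 1) x) (n i x) * ‖n (k + 1) x - n (k + 1) y‖ +
          pp ε ζ n k i x * ‖n (k + 1) x - n (k + 1) y‖ ^ 2 +
          (√(pp ε ζ n i i x) * ‖n i x - n i y‖ + ‖n i x - n i y‖ ^ 2)) := by
    refine Finset.sum_le_sum fun i hi => ?_
    have hi' := Nat.lt_succ_iff.1 (Finset.mem_range.1 hi)
    have h3 := bb_lip hε (n (k + 1) x) (n i x) (n (k + 1) y) (n i y)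
    rw [div_eq_mul_inv] at h3
    exact (mul_le_mul_of_nonneg_left (sq_diff (bb_nonneg _ _ _) (bb_nonneg _ _ _) h3)
      (pp_nonneg hζ k i x)).trans (term_le (pp_nonneg hζ k i x) (pp_le_one hζ hi' x)
        (pp_le_sqrt hζ hi' x) (bb_nonneg _ _ _) (bb_le_one _ _ _) (norm_nonneg _) (norm_nonneg _)
        hη)
  rw [← Finset.mul_sum, Finset.sum_add_distrib, Finset.sum_add_distrib, ← Finset.sum_mul,
    ← Finset.sum_mul, pp_sum] at h2
  have h3 : ∑ i ∈ Finset.range (k + 1), pp ε ζ n k i x * bb ε (n (k + 1) x) (n i x) ≤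
      √(pp ε ζ n (k + 1) (k + 1) x) := by
    refine Real.le_sqrt_of_sq_le ?_
    have h4 := Finset.sum_sq_le_sum_mul_sum_of_sq_le_mul (Finset.range (k + 1))
      (r := fun i => pp ε ζ n k i x * bb ε (n (k + 1) x) (n i x)) (f := fun i => pp ε ζ n k i x)
      (g := fun i => pp ε ζ n k i x * bb ε (n (k + 1) x) (n i x) ^ 2)
      (fun i _ => pp_nonneg hζ k i x) (fun i _ => mul_nonneg (pp_nonneg hζ k i x) (sq_nonneg _))
      (fun i _ => le_of_eq (by ring))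
    rw [pp_sum, ← pp_top] at h4
    exact h4.trans (mul_le_of_le_one_left (pp_nonneg hζ _ _ x) (hζ x).2)
  have h4 := mul_le_mul_of_nonneg_right h3 (norm_nonneg (n (k + 1) x - n (k + 1) y))
  have h5 := mul_le_of_le_one_left (sq_nonneg ‖n (k + 1) x - n (k + 1) y‖) (hζ x).2
  rw [Finset.sum_range_succ _ (k + 1), div_eq_mul_inv, ← inv_pow]
  have h6 := mul_le_mul_of_nonneg_left (add_le_add h4 h5) (sq_nonneg ε⁻¹)
  linarith

theorem del_le (hε : 0 < ε) (hε1 : ε ≤ 1) (hζ : ∀ x, 0 ≤ ζ x ∧ ζ x ≤ 1) (k : ℕ) (x y : E d) :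
    ∑ i ∈ Finset.range (k + 1), |pp ε ζ n k i x - pp ε ζ n k i y| ≤ |ζ x - ζ y| +
      4 / ε ^ 2 * ∑ i ∈ Finset.range (k + 1), ((k - i + 1 : ℕ) : ℝ) *
        (√(pp ε ζ n i i x) * ‖n i x - n i y‖ + ‖n i x - n i y‖ ^ 2) := by
  induction k with
  | zero =>
    rw [Finset.sum_range_one, pp_zero, pp_zero]
    exact le_add_of_nonneg_right (by positivity)
  | succ k ih =>
    have h1 := del_step (n := n) hε hε1 hζ k x y
    have h2 : ∑ i ∈ Finset.range (k + 1 + 1), ((k + 1 - i + 1 : ℕ) : ℝ) *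
        (√(pp ε ζ n i i x) * ‖n i x - n i y‖ + ‖n i x - n i y‖ ^ 2) =
        ∑ i ∈ Finset.range (k + 1), ((k - i + 1 : ℕ) : ℝ) *
          (√(pp ε ζ n i i x) * ‖n i x - n i y‖ + ‖n i x - n i y‖ ^ 2) +
        ∑ i ∈ Finset.range (k + 2),
          (√(pp ε ζ n i i x) * ‖n i x - n i y‖ + ‖n i x - n i y‖ ^ 2) := by
      rw [Finset.sum_range_succ _ (k + 1), Finset.sum_range_succ _ (k + 1), ← add_assoc,
        ← Finset.sum_add_distrib]
      congr 1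
      · refine Finset.sum_congr rfl fun i hi => ?_
        have hi' := Nat.lt_succ_iff.1 (Finset.mem_range.1 hi)
        have h3 : k + 1 - i + 1 = k - i + 1 + 1 := by omega
        rw [h3]
        push_cast
        ring
      · simp
    rw [h2, mul_add]
    linarith

theorem pp_two (hε : 0 < ε) (hε1 : ε ≤ 1) (hζ : ∀ x, 0 ≤ ζ x ∧ ζ x ≤ 1)
    (hn : ∀ k x, ‖n k x‖ ≤ 1) (k : ℕ) (x y : E d) :
    dif (pp ε ζ n) n k x y ≤ 2 * |ζ x - ζ y| + (8 / ε ^ 2 + 1) * ∑ i ∈ Finset.range (k + 1),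
      ((k - i + 1 : ℕ) : ℝ) * (√(pp ε ζ n i i x) * ‖n i x - n i y‖ + ‖n i x - n i y‖ ^ 2) := by
  have h1 := del_le (n := n) hε hε1 hζ k x y
  have h2 : dif (pp ε ζ n) n k x y ≤
      ∑ i ∈ Finset.range (k + 1), (2 * |pp ε ζ n k i x - pp ε ζ n k i y| +
        ((k - i + 1 : ℕ) : ℝ) * (√(pp ε ζ n i i x) * ‖n i x - n i y‖ + ‖n i x - n i y‖ ^ 2)) := by
    refine Finset.sum_le_sum fun i hi => ?_
    have hi' := Nat.lt_succ_iff.1 (Finset.mem_range.1 hi)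
    have e1 : pp ε ζ n k i x • n i x - pp ε ζ n k i y • n i y =
        pp ε ζ n k i x • (n i x - n i y) + (pp ε ζ n k i x - pp ε ζ n k i y) • n i y := by module
    have h3 := norm_add_le (pp ε ζ n k i x • (n i x - n i y))
      ((pp ε ζ n k i x - pp ε ζ n k i y) • n i y)
    rw [← e1, norm_smul, norm_smul, Real.norm_eq_abs, Real.norm_eq_abs,
      abs_of_nonneg (pp_nonneg hζ k i x)] at h3
    have h4 := mul_le_mul_of_nonneg_right (pp_le_sqrt (ε := ε) (n := n) hζ hi' x)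
      (norm_nonneg (n i x - n i y))
    have h5 := mul_le_of_le_one_right (abs_nonneg (pp ε ζ n k i x - pp ε ζ n k i y)) (hn i y)
    have h6 : (1 : ℝ) ≤ ((k - i + 1 : ℕ) : ℝ) := by exact_mod_cast Nat.le_add_left 1 _
    have h7 := le_mul_of_one_le_left (by positivity :
      0 ≤ √(pp ε ζ n i i x) * ‖n i x - n i y‖ + ‖n i x - n i y‖ ^ 2) h6
    linarith [sq_nonneg ‖n i x - n i y‖]
  rw [Finset.sum_add_distrib, ← Finset.mul_sum] at h2
  have h3 : (8 : ℝ) / ε ^ 2 = 2 * (4 / ε ^ 2) := by ring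
  rw [h3, add_mul, one_mul, mul_assoc]
  linarith

end WtsAux

open WtsAux in
theorem wts (d : ℕ) (_hd : 1 ≤ d) : WtsStmt d := by
  intro ε hε hε1
  refine ⟨⟨8 / ε ^ 2 + 1, by positivity⟩, fun ζ n hc hζ hn hn1 => ⟨pp ε ζ n, ?_⟩⟩
  exact ⟨pp_cont hc hn, pp_nonneg hζ, pp_sum, pp_anti hζ, pp_near hε, pp_pot hε hε1 hζ hn1,
    pp_two hε hε1 hζ hn1⟩

end Vale.Agent.P137
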