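import Vale.Agent.P137.WPath
import Vale.Agent.P137.WCurl
import Vale.Agent.P137.WCalc
import Vale.Agent.P137.WAbs
import Vale.Agent.P137.Ker
import Vale.Agent.P137.Path
import Vale.Agent.P137.GG
import Vale.Agent.P137.PL
import Vale.Agent.P137.Rad
import Vale.Agent.P137.Split
import Vale.Agent.P137.Focus
import Vale.Agent.P137.S5
import Vale.Agent.P137.Rare
import Vale.Agent.P137.Bfun
import Vale.Agent.P137.Step
import Vale.Agent.P137.T2
import Vale.Agent.P137.Scale
import Vale.Agent.P137.H1
import Vale.Agent.P137.Fam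
import Vale.Agent.P137.Dirs
import Vale.Agent.P137.Wts
import Vale.Agent.P137.Sum
import Vale.Agent.P137.Pack
import Vale.Agent.P137.Tree
import Vale.Agent.P137.Err
import Vale.Agent.P137.Main
import Vale.Agent.P137.FinA
import Vale.Agent.P137.FinB
import Vale.Agent.P137.Lim
import Vale.Agent.P137.MB
import Vale.Agent.P137.Final

namespace Vale.Agent.P137

theorem t2g_all (d : ℕ) (hd : 1 ≤ d) : T2gStmt d := by
  have hk := ker d hd
  have hf := fld d hd
  have hgo := good d hd
  have hc := cont d hd
  have hp := path d hd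
  have hpl := pl d hd
  have hg := ggs d hd hc
  exact t2g d hd hc (t2 d hd (step d hd hk hg (rad d hd hpl hk) (s1 d hd hf hgo hp)
    (s5 d hd hk hf hgo hp (split d hd hpl) (focus d hd hk)) (rare d hd)) (bfun d hd) hg)

theorem main_all (d : ℕ) (hd : 1 ≤ d) : MainStmt d := by
  have hc := cont d hd
  have ho := one d hd
  have ht := t2g_all d hd
  exact main d hd hc (fam d hd) (dirs d hd) (wts d hd) (beta d hd)
    (pack d hd ho (beta d hd) (sum d hd)) (tree d hd) (err d hd ht) (first d hd ht)
    (second d hd (hgen d hd (h1 d hd hc (fub d hd) (fld d hd) ho)) (sum d hd))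

theorem final_all (d : ℕ) (hd : 1 ≤ d) : FinalStmt d := by
  have hw := wcalc d (wpath d hd) (wcurl d hd)
  have hm := main_all d hd
  have hc := cont d hd
  exact final d (wabs d hd) (finA d hd hm hw hc) (finB d hd hm hw hc) (lim d hd) (mb d hd hw)
    (ibp d hd)

end Vale.Agent.P137
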