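import Vale.Agent.P137.UStmts

open MeasureTheory Metric Set Filter
open scoped ENNReal NNReal Topology

namespace Vale.Agent.P137

namespace ErrUAux

variable {d : ℕ}

/-! ### the weights `lam ^ (-l)` -/

noncomputable def il (l : ℕ) : ℝ≥0∞ := (ENNReal.ofReal (lam ^ l))⁻¹

theorem il_ne_top (l : ℕ) : il l ≠ ∞ := ENNReal.inv_ne_top.2 (by simpa using pow_pos lam_pos l)

theorem le_il (X : ℕ → ℝ≥0∞) (l : ℕ) : X l ≤ ENNReal.ofReal (lam ^ l) * ∑' l, il l * X l := by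
  have h0 : ENNReal.ofReal (lam ^ l) ≠ 0 := by simpa using pow_pos lam_pos l
  calc X l = ENNReal.ofReal (lam ^ l) * (il l * X l) := by
        rw [il, ← mul_assoc, ENNReal.mul_inv_cancel h0 ENNReal.ofReal_ne_top, one_mul]
    _ ≤ _ := mul_le_mul_right (ENNReal.le_tsum (f := fun l => il l * X l) l) _

noncomputable def Lam : ℝ≥0∞ := ∑' l, il l * ((3 + l : ℕ) : ℝ≥0∞)

theorem Lam_ne_top : Lam ≠ ∞ := by
  have hr : ‖lam⁻¹‖ < 1 := by
    rw [Real.norm_eq_abs, abs_of_pos (inv_pos.2 lam_pos)]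
    exact inv_lt_one_of_one_lt₀ one_lt_lam
  have h1 := summable_pow_mul_geometric_of_norm_lt_one 1 hr
  have h0 := (summable_geometric_of_norm_lt_one hr).mul_left 3
  have h2 := (h0.add h1).tsum_ofReal_ne_top
  refine ne_of_eq_of_ne (tsum_congr fun l => ?_) h2
  have hp := pow_pos lam_pos l
  rw [il, ← ENNReal.ofReal_inv_of_pos hp, ← ENNReal.ofReal_natCast,
    ← ENNReal.ofReal_mul (inv_pos.2 hp).le]
  congr 1
  rw [inv_pow]
  push_cast
  ring

theorem tsum_il_le {a : ℕ → ℕ} (ha : ∀ l, a l ≤ 3 + l) (V : ℝ≥0∞) :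
    ∑' l, il l * (a l * V) ≤ Lam * V := by
  rw [Lam, ← ENNReal.tsum_mul_right]
  refine ENNReal.tsum_le_tsum fun l => ?_
  rw [← mul_assoc]
  gcongr
  exact_mod_cast ha l

/-! ### linear algebra -/

/-- the signed basis vectors -/
noncomputable def bv (d : ℕ) : Fin d ⊕ Fin d → E d :=
  Sum.elim (fun i => EuclideanSpace.single i 1) (fun i => -EuclideanSpace.single i 1)

theorem norm_bv (j : Fin d ⊕ Fin d) : ‖bv d j‖ = 1 := by
  rcases j with i | i <;> simp [bv]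

theorem norm_le_sum (φ : E d →L[ℝ] ℝ) : ‖φ‖ ≤ ∑ i, |φ (EuclideanSpace.single i 1)| := by
  refine φ.opNorm_le_bound (Finset.sum_nonneg fun _ _ => abs_nonneg _) fun v => ?_
  have hv : v = ∑ i, v i • EuclideanSpace.single i (1 : ℝ) := by
    have := (EuclideanSpace.basisFun (Fin d) ℝ).sum_repr v
    simpa using this.symm
  calc ‖φ v‖ = ‖∑ i, v i * φ (EuclideanSpace.single i 1)‖ := by
        conv_lhs => rw [hv]
        simp
    _ ≤ ∑ i, ‖v i * φ (EuclideanSpace.single i 1)‖ := norm_sum_le _ _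
    _ ≤ ∑ i, |φ (EuclideanSpace.single i 1)| * ‖v‖ := by
        refine Finset.sum_le_sum fun i _ => ?_
        rw [norm_mul, mul_comm]
        exact mul_le_mul_of_nonneg_left (PiLp.norm_apply_le v i) (abs_nonneg _)
    _ = _ := by rw [Finset.sum_mul]

theorem ofReal_le_sum {ι : Type*} [Fintype ι] {t : ℝ} {a : ι → ℝ} (h : t ≤ ∑ j, max (a j) 0) :
    ENNReal.ofReal t ≤ ∑ j, ENNReal.ofReal (a j) := by
  refine (ENNReal.ofReal_le_ofReal h).trans ?_
  rw [ENNReal.ofReal_sum_of_nonneg fun _ _ => le_max_right _ _]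
  simp

theorem pt_all (φ : E d →L[ℝ] ℝ) : ‖φ‖ₑ ≤ ∑ j, ENNReal.ofReal (-(φ (bv d j))) := by
  rw [← ofReal_norm]
  refine ofReal_le_sum ((norm_le_sum φ).trans ?_)
  rw [Fintype.sum_sum_type, ← Finset.sum_add_distrib]
  refine Finset.sum_le_sum fun i _ => ?_
  simp only [bv, Sum.elim_inl, Sum.elim_inr, map_neg, neg_neg]
  have h1 := le_max_left (-φ (EuclideanSpace.single i 1)) 0
  have h2 := le_max_right (-φ (EuclideanSpace.single i 1)) 0
  have h3 := le_max_left (φ (EuclideanSpace.single i 1)) 0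
  have h4 := le_max_right (φ (EuclideanSpace.single i 1)) 0
  rw [abs_le]
  constructor <;> linarith

theorem smul_dir (v : E d) : ‖v‖ • dir v = v := by
  unfold dir
  split_ifs with h
  · simp [h]
  · rw [smul_smul, mul_inv_cancel₀ (norm_ne_zero_iff.2 h), one_smul]

theorem norm_pert {a : E d} (ha : ‖a‖ = 1) (j : Fin d ⊕ Fin d) :
    |‖a + (1 / 4 : ℝ) • bv d j‖ - 1| ≤ 1 / 4 := by
  have := abs_norm_sub_norm_le (a + (1 / 4 : ℝ) • bv d j) a
  rw [add_sub_cancel_left, norm_smul, norm_bv, ha] at this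
  simpa using this

theorem pt_good (hd : 1 ≤ d) {a : E d} (ha : ‖a‖ = 1) (φ : E d →L[ℝ] ℝ) :
    ENNReal.ofReal (3 * cc d * ‖φ‖ - φ a) ≤
      2 * ∑ j, ENNReal.ofReal (-(φ (dir (a + (1 / 4 : ℝ) • bv d j)))) := by
  have hd' : (1 : ℝ) ≤ d := by exact_mod_cast hd
  have h1 : ENNReal.ofReal (3 * cc d * ‖φ‖ - φ a) ≤
      ∑ j, ENNReal.ofReal (-(φ (a + (1 / 4 : ℝ) • bv d j))) := by
    refine ofReal_le_sum ?_
    have h0 : 0 ≤ ∑ j, max (-(φ (a + (1 / 4 : ℝ) • bv d j))) 0 :=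
      Finset.sum_nonneg fun _ _ => le_max_right _ _
    have h2 : ∑ i : Fin d, (|φ (EuclideanSpace.single i 1)| / 4 - φ a) ≤
        ∑ j, max (-(φ (a + (1 / 4 : ℝ) • bv d j))) 0 := by
      rw [Fintype.sum_sum_type, ← Finset.sum_add_distrib]
      refine Finset.sum_le_sum fun i _ => ?_
      simp only [bv, Sum.elim_inl, Sum.elim_inr, map_add, map_smul, map_neg, smul_eq_mul]
      have h1 := le_max_left (-(φ a + 1 / 4 * φ (EuclideanSpace.single i 1))) 0
      have h2 := le_max_right (-(φ a + 1 / 4 * φ (EuclideanSpace.single i 1))) 0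
      have h3 := le_max_left (-(φ a + 1 / 4 * -φ (EuclideanSpace.single i 1))) 0
      have h4 := le_max_right (-(φ a + 1 / 4 * -φ (EuclideanSpace.single i 1))) 0
      rcases abs_cases (φ (EuclideanSpace.single i 1)) with h | h <;> linarith [h.1]
    rw [Finset.sum_sub_distrib, ← Finset.sum_div, Finset.sum_const, Finset.card_univ,
      Fintype.card_fin, nsmul_eq_mul] at h2
    have h3 := norm_le_sum φ
    have h4 : (d : ℝ) * (3 * cc d * ‖φ‖ - φ a) = ‖φ‖ / 4 - d * φ a := by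
      unfold cc; field_simp; ring
    rcases le_total (3 * cc d * ‖φ‖ - φ a) 0 with h | h
    · linarith
    · nlinarith
  refine h1.trans ?_
  rw [Finset.mul_sum]
  refine Finset.sum_le_sum fun j _ => ?_
  have h5 := abs_le.1 (norm_pert ha j)
  set v := a + (1 / 4 : ℝ) • bv d j
  have h6 : -(φ v) = ‖v‖ * -(φ (dir v)) := by
    conv_lhs => rw [← smul_dir v]
    simp
  rw [h6, ENNReal.ofReal_mul (norm_nonneg _)]
  gcongr
  exact (ENNReal.ofReal_le_ofReal (show ‖v‖ ≤ 2 by linarith [h5.2])).trans_eq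
    (ENNReal.ofReal_ofNat 2)

theorem dfc_good (hd : 1 ≤ d) {a : E d} (ha : ‖a‖ = 1) (j : Fin d ⊕ Fin d) (w : E d) :
    dfc (dir (a + (1 / 4 : ℝ) • bv d j)) w ≤ 2 * (‖w‖ - inner ℝ a w) := by
  have h5 := norm_pert ha j
  set v := a + (1 / 4 : ℝ) • bv d j with hv
  have h1 : ‖v - dir v‖ ≤ 1 / 4 := by
    have : v - dir v = (‖v‖ - 1) • dir v := by rw [sub_smul, smul_dir, one_smul]
    rw [this, norm_smul, norm_dir hd, mul_one]
    exact h5
  have h2 : ‖a - v‖ = 1 / 4 := by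
    rw [norm_sub_rev, hv, add_sub_cancel_left, norm_smul, norm_bv]
    simp
  have h3 : ‖a - dir v‖ ≤ 1 / 2 := by
    have := norm_sub_le_norm_sub_add_norm_sub a v (dir v)
    linarith
  have h4 := real_inner_le_norm (a - dir v) w
  have h6 := real_inner_le_norm a w
  rw [inner_sub_left] at h4
  rw [ha] at h6
  have h7 : ‖a - dir v‖ * ‖w‖ ≤ 1 / 2 * ‖w‖ := mul_le_mul_of_nonneg_right h3 (norm_nonneg _)
  exact max_le (by linarith) (by linarith)

theorem far {a n : E d} {c : ℝ} (hc : 0 ≤ c) (ha : ‖a‖ ≤ 1) (hn : ‖n‖ ≤ 1) (h : c ≤ ‖n - a‖)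
    (w : E d) : c ^ 2 / 4 * ‖w‖ ≤ (‖w‖ - inner ℝ n w) + (‖w‖ - inner ℝ a w) := by
  have h1 := parallelogram_law_with_norm ℝ n a
  have h2 := real_inner_le_norm (n + a) w
  rw [inner_add_left] at h2
  have h3 : c ^ 2 ≤ ‖n - a‖ ^ 2 := pow_le_pow_left₀ hc h 2
  have h4 : ‖n‖ ^ 2 ≤ 1 := pow_le_one₀ (norm_nonneg _) hn
  have h5 : ‖a‖ ^ 2 ≤ 1 := pow_le_one₀ (norm_nonneg _) ha
  have h6 : ‖n + a‖ ≤ 2 - c ^ 2 / 4 := by
    have : 4 * ‖n + a‖ ≤ 4 + ‖n + a‖ ^ 2 := by nlinarith [sq_nonneg (‖n + a‖ - 2)]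
    linarith
  have h7 : ‖n + a‖ * ‖w‖ ≤ (2 - c ^ 2 / 4) * ‖w‖ := mul_le_mul_of_nonneg_right h6 (norm_nonneg _)
  linarith

/-! ### one window -/

/-- the single scale estimate with constant `C` -/
def T2 (d : ℕ) (C : ℝ≥0) : Prop :=
  ∀ (u : E d → ℝ → ℝ) (m : ℕ → E d → E d) (μ : E d → E d) (K : ℕ) (e z : E d)
    (ℓ : ℝ) (D : ℝ≥0∞), 0 < ℓ → ‖e‖ = 1 → Lev m μ ℓ K → Calc u μ z (10 * ℓ) →
      (∀ l, ∫⁻ y in ball z (10 * ℓ), ENNReal.ofReal (dfc e (m l y)) ≤
        ENNReal.ofReal (lam ^ l) * D) →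
      ∫⁻ x in ball z ℓ, ENNReal.ofReal (-(fderiv ℝ (MU u ℓ (4 * ℓ)) x e)) ≤ C * D

theorem tsum_il_mul (c : ℝ≥0∞) (X : ℕ → ℝ≥0∞) :
    ∑' l, il l * (c * X l) = c * ∑' l, il l * X l := by
  rw [← ENNReal.tsum_mul_left]
  exact tsum_congr fun l => by ring

section win

variable {C : ℝ≥0} {u : E d → ℝ → ℝ} {m : ℕ → E d → E d} {μ : E d → E d} {K : ℕ} {z : E d}
  {s : ℝ}

theorem win (hC : T2 d C) (hs : 0 < s) (hl : Lev m μ s K) (hu : Calc u μ z (10 * s))
    (e : Fin d ⊕ Fin d → E d) (he : ∀ j, ‖e j‖ = 1) (X : ℕ → ℝ≥0∞)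
    (hX : ∀ j l, ∫⁻ y in ball z (10 * s), ENNReal.ofReal (dfc (e j) (m l y)) ≤ X l) :
    ∫⁻ x in ball z s, ∑ j, ENNReal.ofReal (-(fderiv ℝ (MU u s (4 * s)) x (e j))) ≤
      ((d + d : ℕ) * C) * ∑' l, il l * X l := by
  have hm : ∀ j, Measurable fun x => ENNReal.ofReal (-(fderiv ℝ (MU u s (4 * s)) x (e j))) :=
    fun j => (measurable_fderiv_apply_const ℝ (MU u s (4 * s)) (e j)).neg.ennreal_ofReal
  rw [lintegral_finsetSum _ fun j _ => hm j]
  refine (Finset.sum_le_card_nsmul _ _ (C * ∑' l, il l * X l) fun j _ =>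
    hC u m μ K (e j) z s _ hs (he j) hl hu fun l => (hX j l).trans (le_il X l)).trans_eq ?_
  rw [Finset.card_univ, Fintype.card_sum, Fintype.card_fin, nsmul_eq_mul, mul_assoc]

theorem win_all (hC : T2 d C) (hs : 0 < s) (hl : Lev m μ s K) (hu : Calc u μ z (10 * s))
    (X : ℕ → ℝ≥0∞) (hX : ∀ l, mass (m l) z (10 * s) ≤ X l) :
    ∫⁻ x in ball z s, ‖fderiv ℝ (MU u s (4 * s)) x‖ₑ ≤
      ((d + d : ℕ) * C) * (3 * ∑' l, il l * X l) := by
  rw [← tsum_il_mul]
  refine (lintegral_mono fun x => pt_all _).trans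
    (win hC hs hl hu (bv d) norm_bv _ fun j l => ?_)
  refine le_trans ?_ (mul_le_mul_right (hX l) 3)
  rw [mass, ← lintegral_const_mul' _ _ ENNReal.ofNat_ne_top]
  refine lintegral_mono fun y => (ENNReal.ofReal_le_ofReal (dfc_le (norm_bv j) _)).trans_eq ?_
  rw [ENNReal.ofReal_mul (by norm_num), ofReal_norm, ENNReal.ofReal_ofNat]

theorem win_good (hd : 1 ≤ d) (hC : T2 d C) (hs : 0 < s) (hl : Lev m μ s K)
    (hu : Calc u μ z (10 * s)) {a : E d} (ha : ‖a‖ = 1) (X : ℕ → ℝ≥0∞)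
    (hX : ∀ l, ∫⁻ y in ball z (10 * s), ENNReal.ofReal (‖m l y‖ - inner ℝ a (m l y)) ≤ X l) :
    ∫⁻ x in ball z s, ENNReal.ofReal (3 * cc d * ‖fderiv ℝ (MU u s (4 * s)) x‖ -
      fderiv ℝ (MU u s (4 * s)) x a) ≤ 2 * (((d + d : ℕ) * C) * (2 * ∑' l, il l * X l)) := by
  rw [← tsum_il_mul]
  refine (lintegral_mono fun x => pt_good hd ha _).trans ?_
  rw [lintegral_const_mul' _ _ ENNReal.ofNat_ne_top]
  refine mul_le_mul_right (win hC hs hl hu _ (fun j => norm_dir hd _) _ fun j l => ?_) 2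
  refine le_trans ?_ (mul_le_mul_right (hX l) 2)
  rw [← lintegral_const_mul' _ _ ENNReal.ofNat_ne_top]
  refine lintegral_mono fun y => (ENNReal.ofReal_le_ofReal (dfc_good hd ha j _)).trans_eq ?_
  rw [ENNReal.ofReal_mul (by norm_num), ENNReal.ofReal_ofNat]

end win

theorem cc_pos (hd : 1 ≤ d) : 0 < cc d := by
  have : (0 : ℝ) < d := by exact_mod_cast hd
  unfold cc; positivity

theorem cc_le (hd : 1 ≤ d) : cc d ≤ 1 / 2 := by
  have : (1 : ℝ) ≤ d := by exact_mod_cast hd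
  unfold cc
  exact one_div_le_one_div_of_le (by norm_num) (by linarith)

/-! ### averaging over the windows -/

theorem vol_mul {a s : ℝ} (ha : 0 < a) (hs : 0 < s) :
    volume (ball (0 : E d) (a * s)) = volume (ball (0 : E d) s) * ENNReal.ofReal (a ^ d) := by
  rw [volume_ball_eq, volume_ball_eq, vb_mul ha hs, ENNReal.ofReal_mul (by positivity), mul_comm]

theorem avg_le {F G : E d → ℝ≥0∞} (hF : Measurable F) {s ℓ : ℝ} (hs : 0 < s) (hsl : s ≤ ℓ)
    (x₀ : E d) {A : ℝ≥0∞} (h : ∀ z ∈ ball x₀ (3 * ℓ), ∫⁻ x in ball z s, F x ≤ G z)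
    (hG : ∫⁻ z, G z ≤ volume (ball (0 : E d) s) * A) : ∫⁻ x in ball x₀ (2 * ℓ), F x ≤ A := by
  rw [← ENNReal.mul_le_mul_iff_right (measure_ball_pos volume (0 : E d) hs).ne'
    measure_ball_lt_top.ne]
  refine (ballInt_ge hF x₀ _ s).trans (le_trans ?_ hG)
  refine (setLIntegral_mono' measurableSet_ball fun z hz => h z ?_).trans
    (setLIntegral_le_lintegral _ _)
  exact ball_subset_ball (by linarith) hz

theorem sum_tsum_il (n : ℕ) (X : ℕ → ℕ → ℝ≥0∞) :
    ∑ k ∈ Finset.range n, ∑' l, il l * X k l = ∑' l, il l * ∑ k ∈ Finset.range n, X k l := by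
  rw [← Summable.tsum_finsetSum fun _ _ => ENNReal.summable]
  exact tsum_congr fun l => (Finset.mul_sum _ _ _).symm

section ctx

variable {C C₀ C₁ : ℝ≥0} {ℓ : ℝ} {K : ℕ} {x₀ : E d} {μ : E d → E d} {m : ℕ → E d → E d}
  {D : ℕ → ℕ → E d → ℝ≥0∞} {n : ℕ → E d → E d} {ζ : E d → ℝ} {p : ℕ → ℕ → E d → ℝ}
  {u : E d → ℝ → ℝ}

theorem calc_win (hl : 0 < ℓ) (hu : Calc u μ x₀ (13 * ℓ)) (k : ℕ) {z : E d}
    (hz : z ∈ ball x₀ (3 * ℓ)) : Calc u μ z (10 * sc ℓ k) := by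
  refine hu.mono ?_
  rw [mem_ball_iff_norm] at hz
  linarith [sc_le hl k]

/-- constant of the error windows -/
noncomputable def cB (d : ℕ) : ℝ≥0∞ := 4 + 6 * (ENNReal.ofReal (cc d ^ 2 / 4))⁻¹

theorem err_win (hd : 1 ≤ d) (hC : T2 d C) (h : Ctx C₀ C₁ ℓ K x₀ μ m D n ζ p)
    (hu : Calc u μ x₀ (13 * ℓ)) {k : ℕ} (hk : k ≤ K) {z : E d} (hz : z ∈ ball x₀ (3 * ℓ)) :
    ∫⁻ x in ball z (sc ℓ k), ENNReal.ofReal (2 * cc d * ‖fderiv ℝ (MU u (sc ℓ k) (4 * sc ℓ k)) x‖ -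
        fderiv ℝ (MU u (sc ℓ k) (4 * sc ℓ k)) x (n k x)) ≤
      ((d + d : ℕ) * C * cB d) * ∑' l, il l *
        (volume (ball (0 : E d) (64 * sc ℓ k)) * D k (k + (3 + l)) z +
          C₀ * ∫⁻ y in ball z (2 * sc ℓ k), D k (k + (3 + l)) y) := by
  have hs := sc_pos h.pos k
  have hw := calc_win h.pos hu k hz
  have hl := h.fam.lev_shift k
  have ha := norm_dir hd (m k z)
  have hc := cc_pos hd
  have h2 : ∀ l, ∫⁻ y in ball z (10 * sc ℓ k), ENNReal.ofReal (‖m (k + 3 + l) y‖ -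
      inner ℝ (dir (m k z)) (m (k + 3 + l) y)) ≤
      volume (ball (0 : E d) (64 * sc ℓ k)) * D k (k + (3 + l)) z := by
    intro l
    have := h.fam.D2 k (k + 3 + l) z (by omega) (by omega)
    rw [sc_level0] at this
    rw [← add_assoc]
    exact (lintegral_mono_set (ball_subset_ball (by linarith))).trans this
  set s := sc ℓ k
  set S := ∑' l, il l * (volume (ball (0 : E d) (64 * s)) * D k (k + (3 + l)) z +
          C₀ * ∫⁻ y in ball z (2 * s), D k (k + (3 + l)) y) with hS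
  by_cases hg : ∀ x ∈ ball z s, ‖n k x - dir (m k z)‖ ≤ cc d
  · have h3 := win_good hd hC hs hl hw ha _ fun l => (h2 l).trans
      (le_self_add (b := C₀ * ∫⁻ y in ball z (2 * s), D k (k + (3 + l)) y))
    rw [← hS] at h3
    refine (setLIntegral_mono' measurableSet_ball fun x hx => ENNReal.ofReal_le_ofReal ?_).trans
      (h3.trans ?_)
    · set φ := fderiv ℝ (MU u s (4 * s)) x
      have h4 := φ.le_opNorm (n k x - dir (m k z))
      have h5 := mul_le_mul_of_nonneg_left (hg x hx) (norm_nonneg φ)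
      rw [map_sub, Real.norm_eq_abs] at h4
      have h6 := neg_abs_le (φ (n k x) - φ (dir (m k z)))
      linarith
    · calc 2 * (((d + d : ℕ) * C) * (2 * S)) = ((d + d : ℕ) * C * 4) * S := by ring
        _ ≤ _ := by unfold cB; gcongr; exact le_self_add
  · push Not at hg
    obtain ⟨x₁, hx₁, hfar⟩ := hg
    have h0 : ENNReal.ofReal (cc d ^ 2 / 4) ≠ 0 := by simpa using by positivity
    have h3 := win_all hC hs hl hw (fun l => (ENNReal.ofReal (cc d ^ 2 / 4))⁻¹ *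
      (volume (ball (0 : E d) (64 * s)) * D k (k + (3 + l)) z +
          C₀ * ∫⁻ y in ball z (2 * s), D k (k + (3 + l)) y)) fun l => by
      rw [← ENNReal.mul_le_mul_iff_right h0 ENNReal.ofReal_ne_top, ← mul_assoc,
        ENNReal.mul_inv_cancel h0 ENNReal.ofReal_ne_top, one_mul, mass,
        ← lintegral_const_mul' _ _ ENNReal.ofReal_ne_top]
      have hm := h.fam.lev.meas (k + 3 + l)
      have h4 := h.dirs.av k (k + 3 + l) x₁ hk (by omega)
      rw [mem_ball_iff_norm] at hx₁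
      calc _ ≤ ∫⁻ y in ball z (10 * s), (ENNReal.ofReal (‖m (k + 3 + l) y‖ -
              inner ℝ (dir (m k z)) (m (k + 3 + l) y)) + ENNReal.ofReal (‖m (k + 3 + l) y‖ -
              inner ℝ (n k x₁) (m (k + 3 + l) y))) := by
            refine lintegral_mono fun y => ?_
            rw [← ofReal_norm, ← ENNReal.ofReal_mul (by positivity)]
            refine (ENNReal.ofReal_le_ofReal ?_).trans ENNReal.ofReal_add_le
            have := far hc.le ha.le (h.dirs.norm_le k x₁) hfar.le (m (k + 3 + l) y)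
            linarith
        _ ≤ _ := by
            rw [lintegral_add_left (by fun_prop)]
            refine add_le_add (h2 l) ((lintegral_mono_set (ball_subset_ball' ?_)).trans
              (h4.trans (mul_le_mul_right ?_ _)))
            · rw [dist_comm, dist_eq_norm]; linarith
            · rw [← add_assoc]
              refine lintegral_mono_set (ball_subset_ball' ?_)
              rw [dist_eq_norm]; linarith
    rw [tsum_il_mul, ← hS] at h3
    calc _ ≤ ∫⁻ x in ball z s, 2 * ‖fderiv ℝ (MU u s (4 * s)) x‖ₑ := by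
          refine lintegral_mono fun x => ?_
          set φ := fderiv ℝ (MU u s (4 * s)) x
          have h4 := φ.le_opNorm (n k x)
          have h5 := mul_le_mul_of_nonneg_left (h.dirs.norm_le k x) (norm_nonneg φ)
          have h6 := neg_abs_le (φ (n k x))
          have h7 := mul_le_mul_of_nonneg_right (cc_le hd) (norm_nonneg φ)
          rw [Real.norm_eq_abs] at h4
          refine (ENNReal.ofReal_le_ofReal (show _ ≤ 2 * ‖φ‖ by linarith)).trans_eq ?_
          rw [ENNReal.ofReal_mul (by norm_num), ofReal_norm, ENNReal.ofReal_ofNat]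
      _ ≤ 2 * (((d + d : ℕ) * C) * (3 * ((ENNReal.ofReal (cc d ^ 2 / 4))⁻¹ * S))) := by
          rw [lintegral_const_mul' _ _ ENNReal.ofNat_ne_top]
          exact mul_le_mul_right h3 2
      _ = ((d + d : ℕ) * C * (6 * (ENNReal.ofReal (cc d ^ 2 / 4))⁻¹)) * S := by ring
      _ ≤ _ := by unfold cB; gcongr; exact le_add_self

theorem err_scale (hd : 1 ≤ d) (hC : T2 d C) (h : Ctx C₀ C₁ ℓ K x₀ μ m D n ζ p)
    (hu : Calc u μ x₀ (13 * ℓ)) {k : ℕ} (hk : k ≤ K) :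
    ∫⁻ x in ball x₀ (2 * ℓ),
      ENNReal.ofReal (2 * cc d * ‖fderiv ℝ (MU u (sc ℓ k) (4 * sc ℓ k)) x‖ -
        fderiv ℝ (MU u (sc ℓ k) (4 * sc ℓ k)) x (n k x)) ≤
      ((d + d : ℕ) * C * cB d * (ENNReal.ofReal (64 ^ d) + C₀ * ENNReal.ofReal (2 ^ d))) *
        ∑' l, il l * ∫⁻ y, D k (k + (3 + l)) y := by
  have hs := sc_pos h.pos k
  have hD := h.fam.measD
  have hf := measurable_fderiv ℝ (MU u (sc ℓ k) (4 * sc ℓ k))
  have hf2 : Measurable fun x => fderiv ℝ (MU u (sc ℓ k) (4 * sc ℓ k)) x (n k x) :=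
    ContinuousLinearMap.measurable_apply₂.comp (hf.prodMk (h.dirs.cont k).measurable)
  refine avg_le ((hf.norm.const_mul _).sub hf2).ennreal_ofReal hs (sc_le h.pos k) x₀
    (fun z hz => err_win hd hC h hu hk hz) (le_of_eq ?_)
  have hm : ∀ l, Measurable fun z => il l *
      (volume (ball (0 : E d) (64 * sc ℓ k)) * D k (k + (3 + l)) z +
        C₀ * ∫⁻ y in ball z (2 * sc ℓ k), D k (k + (3 + l)) y) := fun l =>
    (((hD _ _).const_mul _).add ((measurable_ballInt (hD _ _) _).const_mul _)).const_mul _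
  rw [lintegral_const_mul _ (Measurable.tsum hm),
    lintegral_tsum fun l => (hm l).aemeasurable]
  have e : ∀ l, ∫⁻ z, il l * (volume (ball (0 : E d) (64 * sc ℓ k)) * D k (k + (3 + l)) z +
        C₀ * ∫⁻ y in ball z (2 * sc ℓ k), D k (k + (3 + l)) y) =
      il l * ((volume (ball (0 : E d) (sc ℓ k)) *
        (ENNReal.ofReal (64 ^ d) + C₀ * ENNReal.ofReal (2 ^ d))) * ∫⁻ y, D k (k + (3 + l)) y) := by
    intro l
    rw [lintegral_const_mul' _ _ (il_ne_top l),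
      lintegral_add_left ((hD _ _).const_mul _), lintegral_const_mul _ (hD _ _),
      lintegral_const_mul _ (measurable_ballInt (hD _ _) _), lintegral_ballInt (hD _ _),
      vol_mul (by norm_num) hs, vol_mul (by norm_num) hs]
    ring
  simp_rw [e]
  rw [tsum_il_mul]
  ring

theorem first_win (hC : T2 d C) (h : Ctx C₀ C₁ ℓ K x₀ μ m D n ζ p)
    (hu : Calc u μ x₀ (13 * ℓ)) (k : ℕ) {z : E d} (hz : z ∈ ball x₀ (3 * ℓ)) :
    ∫⁻ x in ball z (sc ℓ k),
        ENNReal.ofReal (p k k x) * ‖fderiv ℝ (MU u (sc ℓ k) (4 * sc ℓ k)) x‖ₑ ≤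
      ((d + d : ℕ) * C * 3) *
        (Lam * (supf (p k k) (16 * sc ℓ k) z * mass (m (k + 3)) z (16 * sc ℓ k)) +
          ∑' l, il l * ∫⁻ y in ball z (12 * sc ℓ k), D (k + 3) (k + 3 + l) y) := by
  have hs := sc_pos h.pos k
  have h1 : supf (p k k) (16 * sc ℓ k) z ≤ 1 := supf_le fun y _ =>
    ENNReal.ofReal_le_one.2 (h.p_le_one le_rfl y).2
  have h3 := win_all hC hs (h.fam.lev_shift k) (calc_win h.pos hu k hz)
    (fun l => mass (m (k + 3)) z (16 * sc ℓ k) +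
      ∫⁻ y in ball z (12 * sc ℓ k), D (k + 3) (k + 3 + l) y) fun l => by
    have := h.fam.D3 (k + 3) (k + 3 + l) z (10 * sc ℓ k) (by omega)
    rw [sc_level, lintegral_add_left (h.fam.lev.meas _).enorm,
      show 10 * sc ℓ k + 2 * sc ℓ k = 12 * sc ℓ k by ring] at this
    refine this.trans (add_le_add_left ?_ _)
    exact lintegral_mono_set (ball_subset_ball (by linarith))
  have h4 := tsum_il_le (a := fun _ => 1) (fun l => by omega) (mass (m (k + 3)) z (16 * sc ℓ k))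
  simp only [Nat.cast_one, one_mul] at h4
  simp only [mul_add, ENNReal.tsum_add] at h3
  set s := sc ℓ k
  set T := ∑' l, il l * ∫⁻ y in ball z (12 * s), D (k + 3) (k + 3 + l) y
  calc _ ≤ ∫⁻ x in ball z s, supf (p k k) (16 * s) z * ‖fderiv ℝ (MU u s (4 * s)) x‖ₑ :=
        setLIntegral_mono' measurableSet_ball fun x hx => mul_le_mul_left
          (le_supf _ (ball_subset_ball (by linarith) hx)) _
    _ ≤ supf (p k k) (16 * s) z * (((d + d : ℕ) * C) * (3 * (Lam * mass (m (k + 3)) z (16 * s))) +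
          ((d + d : ℕ) * C) * (3 * T)) := by
        rw [lintegral_const_mul' _ _ (h1.trans_lt ENNReal.one_lt_top).ne]
        refine mul_le_mul_right (h3.trans ?_) _
        gcongr
    _ = ((d + d : ℕ) * C * 3) * (Lam * (supf (p k k) (16 * s) z * mass (m (k + 3)) z (16 * s)) +
          supf (p k k) (16 * s) z * T) := by ring
    _ ≤ _ := by
        gcongr
        exact mul_le_of_le_one_left' h1

theorem first_scale (hC : T2 d C) (h : Ctx C₀ C₁ ℓ K x₀ μ m D n ζ p)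
    (hu : Calc u μ x₀ (13 * ℓ)) (k : ℕ) :
    ∫⁻ x, ENNReal.ofReal (p k k x) * ‖fderiv ℝ (MU u (sc ℓ k) (4 * sc ℓ k)) x‖ₑ ≤
      ((d + d : ℕ) * C * 3) * ((Lam * (ENNReal.ofReal (vb d 1))⁻¹) *
        (∫⁻ x, supf (p k k) (16 * sc ℓ k) x * nm (m (k + 3)) (sc ℓ k) 16 x) +
        ENNReal.ofReal (12 ^ d) * ∑' l, il l * ∫⁻ y, D (k + 3) (k + 3 + l) y) := by
  have hs := sc_pos h.pos k
  have hD := h.fam.measD
  have hf := measurable_fderiv ℝ (MU u (sc ℓ k) (4 * sc ℓ k))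
  have e0 : ∫⁻ x, ENNReal.ofReal (p k k x) * ‖fderiv ℝ (MU u (sc ℓ k) (4 * sc ℓ k)) x‖ₑ =
      ∫⁻ x in ball x₀ (2 * ℓ),
        ENNReal.ofReal (p k k x) * ‖fderiv ℝ (MU u (sc ℓ k) (4 * sc ℓ k)) x‖ₑ := by
    refine (setLIntegral_eq_of_support_subset fun x hx => h.zsupp x fun h0 => hx ?_).symm
    have := (h.p_le_one (le_refl k) x).1
    rw [h0] at this
    simp [ENNReal.ofReal_of_nonpos this]
  rw [e0]
  refine avg_le ((h.wts.cont k k).measurable.ennreal_ofReal.mul hf.enorm) hs (sc_le h.pos k) x₀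
    (fun z hz => first_win hC h hu k hz) (le_of_eq ?_)
  have hm : ∀ l, Measurable fun z => il l * ∫⁻ y in ball z (12 * sc ℓ k), D (k + 3) (k + 3 + l) y :=
    fun l => (measurable_ballInt (hD _ _) _).const_mul _
  have hsn : Measurable fun x => supf (p k k) (16 * sc ℓ k) x * nm (m (k + 3)) (sc ℓ k) 16 x :=
    (measurable_supf (h.wts.cont k k) _).mul (measurable_nm (h.fam.lev.meas _) _ _)
  have e1 : ∀ z, Lam * (supf (p k k) (16 * sc ℓ k) z * mass (m (k + 3)) z (16 * sc ℓ k)) =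
      (volume (ball (0 : E d) (sc ℓ k)) * (Lam * (ENNReal.ofReal (vb d 1))⁻¹)) *
        (supf (p k k) (16 * sc ℓ k) z * nm (m (k + 3)) (sc ℓ k) 16 z) := by
    intro z
    have a1 : ENNReal.ofReal (vb d 1) * (ENNReal.ofReal (vb d 1))⁻¹ = 1 :=
      ENNReal.mul_inv_cancel (by simpa using vb_pos one_pos) ENNReal.ofReal_ne_top
    have a2 : ENNReal.ofReal (sc ℓ k ^ d) * (ENNReal.ofReal (sc ℓ k ^ d))⁻¹ = 1 :=
      ENNReal.mul_inv_cancel (by simpa using pow_pos hs d) ENNReal.ofReal_ne_top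
    rw [volume_ball_eq, vb_eq hs, ENNReal.ofReal_mul (by positivity), nm]
    calc _ = (ENNReal.ofReal (vb d 1) * (ENNReal.ofReal (vb d 1))⁻¹) *
          (ENNReal.ofReal (sc ℓ k ^ d) * (ENNReal.ofReal (sc ℓ k ^ d))⁻¹) *
          (Lam * (supf (p k k) (16 * sc ℓ k) z * mass (m (k + 3)) z (16 * sc ℓ k))) := by
          rw [a1, a2, one_mul, one_mul]
      _ = _ := by ring
  have e2 : ∀ l, ∫⁻ z, il l * ∫⁻ y in ball z (12 * sc ℓ k), D (k + 3) (k + 3 + l) y =
      il l * ((volume (ball (0 : E d) (sc ℓ k)) * ENNReal.ofReal (12 ^ d)) *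
        ∫⁻ y, D (k + 3) (k + 3 + l) y) := by
    intro l
    rw [lintegral_const_mul _ (measurable_ballInt (hD _ _) _), lintegral_ballInt (hD _ _),
      vol_mul (by norm_num) hs]
  simp_rw [e1]
  rw [lintegral_const_mul' _ _ (by finiteness),
    lintegral_add_left (hsn.const_mul _), lintegral_const_mul _ hsn,
    lintegral_tsum fun l => (hm l).aemeasurable]
  simp_rw [e2]
  rw [tsum_il_mul]
  ring

end ctx

theorem cB_ne_top (hd : 1 ≤ d) : cB d ≠ ∞ := by
  have hc := cc_pos hd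
  have h0 : ENNReal.ofReal (cc d ^ 2 / 4) ≠ 0 := by simpa using by positivity
  exact ENNReal.add_ne_top.2 ⟨ENNReal.ofNat_ne_top,
    ENNReal.mul_ne_top ENNReal.ofNat_ne_top (ENNReal.inv_ne_top.2 h0)⟩

end ErrUAux

open ErrUAux

theorem errU (d : ℕ) (hd : 1 ≤ d) (ht : T2gUStmt d) : ErrUStmt d := by
  intro C₀ C₁
  obtain ⟨C, hC⟩ := ht
  have hB := cB_ne_top hd
  have hL := Lam_ne_top
  have hfin : (((d + d : ℕ) : ℝ≥0∞) * C * cB d *
      (ENNReal.ofReal (64 ^ d) + C₀ * ENNReal.ofReal (2 ^ d))) * Lam ≠ ∞ := by finiteness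
  refine ⟨(((d + d : ℕ) * C * cB d *
      (ENNReal.ofReal (64 ^ d) + C₀ * ENNReal.ofReal (2 ^ d))) * Lam).toNNReal, ?_⟩
  intro ℓ K x₀ μ m D n ζ p h u hu
  rw [ENNReal.coe_toNNReal hfin]
  refine (Finset.sum_le_sum fun k hk =>
    err_scale hd hC h hu (Nat.lt_succ_iff.1 (Finset.mem_range.1 hk))).trans ?_
  rw [← Finset.mul_sum, sum_tsum_il, mul_assoc _ Lam]
  refine mul_le_mul_right (le_trans ?_ (tsum_il_le (a := fun l => 3 + l) (fun _ => le_rfl) _)) _
  exact ENNReal.tsum_le_tsum fun l => mul_le_mul_right (h.fam.sumD (3 + l) (K + 1)) _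

theorem firstU (d : ℕ) (hd : 1 ≤ d) (ht : T2gUStmt d) : FirstUStmt d := by
  have _ := hd
  intro C₀ C₁
  obtain ⟨C, hC⟩ := ht
  have hL := Lam_ne_top
  have hv : (ENNReal.ofReal (vb d 1))⁻¹ ≠ ∞ := ENNReal.inv_ne_top.2 (by simpa using vb_pos one_pos)
  have hfin : (((d + d : ℕ) : ℝ≥0∞) * C * 3) *
      (Lam * (ENNReal.ofReal (vb d 1))⁻¹ + ENNReal.ofReal (12 ^ d) * Lam) ≠ ∞ := by finiteness
  refine ⟨((((d + d : ℕ) : ℝ≥0∞) * C * 3) *
      (Lam * (ENNReal.ofReal (vb d 1))⁻¹ + ENNReal.ofReal (12 ^ d) * Lam)).toNNReal, ?_⟩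
  intro ℓ K x₀ μ m D n ζ p h u hu
  rw [ENNReal.coe_toNNReal hfin]
  refine (Finset.sum_le_sum fun k _ => first_scale hC h hu k).trans ?_
  rw [← Finset.mul_sum, Finset.sum_add_distrib, ← Finset.mul_sum, ← Finset.mul_sum, sum_tsum_il,
    mul_assoc _ _ (SS ℓ K m p + VV μ)]
  refine mul_le_mul_right ?_ _
  have h1 : ∑' l, il l * ∑ k ∈ Finset.range (K + 1), ∫⁻ y, D (k + 3) (k + 3 + l) y ≤
      Lam * VV μ := by
    refine le_trans ?_ (tsum_il_le (a := fun l => l) (fun _ => by omega) _)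
    refine ENNReal.tsum_le_tsum fun l => mul_le_mul_right ?_ _
    have := h.fam.sumD l (3 + (K + 1))
    rw [Finset.sum_range_add] at this
    refine le_trans ?_ (le_add_self.trans this)
    exact Finset.sum_le_sum fun k _ => by rw [add_comm k 3]
  calc _ ≤ Lam * (ENNReal.ofReal (vb d 1))⁻¹ * (SS ℓ K m p + VV μ) +
        ENNReal.ofReal (12 ^ d) * (Lam * (SS ℓ K m p + VV μ)) := by
        refine add_le_add (mul_le_mul_right le_self_add _) (mul_le_mul_right (h1.trans ?_) _)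
        exact mul_le_mul_right le_add_self _
    _ = _ := by ring

end Vale.Agent.P137
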