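import Vale.Agent.P137.Basic

/-! The path formula for ball averages of a function with a weak gradient. -/

set_option linter.unusedSectionVars false

open MeasureTheory Metric Set Filter
open scoped ENNReal NNReal Topology ContDiff

namespace Vale.Agent.P137

namespace WPathAux

variable {d : ℕ}

theorem sum_single (L : E d →L[ℝ] ℝ) (v : E d) :
    ∑ i, L (EuclideanSpace.single i 1) * v i = L v := by
  conv_rhs => rw [← (EuclideanSpace.basisFun (Fin d) ℝ).sum_repr v]
  simp [mul_comm]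

/-- The weak gradient identity for vector fields. -/
theorem wdiv {f : E d → ℝ} {F : E d → E d} (hf : LocallyIntegrable f) (hF : LocallyIntegrable F)
    (h : IsWeakGrad f F) {V : E d → E d} (hV : ContDiff ℝ ∞ V) (hc : HasCompactSupport V) :
    ∫ y, f y * ∑ i, fderiv ℝ V y (EuclideanSpace.single i 1) i = -∫ y, inner ℝ (F y) (V y) := by
  have h1 : ∀ i, ContDiff ℝ ∞ fun y => V y i := fun i =>
    (EuclideanSpace.proj i : E d →L[ℝ] ℝ).contDiff.comp hV
  have h2 : ∀ i, HasCompactSupport fun y => V y i := fun i =>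
    hc.comp_left (g := fun v : E d => v i) rfl
  have h3 : ∀ i y v, fderiv ℝ (fun y => V y i) y v = fderiv ℝ V y v i := fun i y v => by
    have := ((EuclideanSpace.proj i : E d →L[ℝ] ℝ).hasFDerivAt.comp y
      (hV.differentiable (by simp) y).hasFDerivAt).fderiv
    exact congrArg (fun L : E d →L[ℝ] ℝ => L v) this
  have h4 : ∀ i, Integrable fun y => f y * fderiv ℝ (fun y => V y i) y
      (EuclideanSpace.single i 1) := fun i =>
    hf.integrable_smul_right_of_hasCompactSupport
      (((h1 i).continuous_fderiv (by simp)).clm_apply continuous_const)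
      ((h2 i).fderiv_apply (𝕜 := ℝ) _)
  have h5 : ∀ i, Integrable fun y => inner ℝ (F y) (EuclideanSpace.single i (1 : ℝ)) * V y i :=
    fun i => by
      have := (hF.integrable_smul_left_of_hasCompactSupport (h1 i).continuous (h2 i)).inner_const
        (𝕜 := ℝ) (EuclideanSpace.single i (1 : ℝ))
      refine this.congr (Eventually.of_forall fun y => ?_)
      simp only [real_inner_smul_left, mul_comm]
  have h6 : ∀ y, inner ℝ (F y) (V y) =
      ∑ i, inner ℝ (F y) (EuclideanSpace.single i (1 : ℝ)) * V y i :=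
    fun y => (sum_single (innerSL ℝ (F y)) (V y)).symm
  simp only [← h3, Finset.mul_sum, h6]
  rw [integral_finsetSum _ fun i _ => h4 i, integral_finsetSum _ fun i _ => h5 i,
    ← Finset.sum_neg_distrib]
  exact Finset.sum_congr rfl fun i _ => h _ (h1 i) (h2 i) _

variable {V : Type} [NormedAddCommGroup V] [InnerProductSpace ℝ V]

/-- Pairing of `g` with the profile `Θ` carried along the path of balls. -/
noncomputable def Kf (x h : E d) (s b : ℝ) (N : ℕ) (g Θ : E d → V) (q : ℝ × E d) : ℝ :=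
  (s + q.1 * b)⁻¹ ^ N * inner ℝ (g q.2) (Θ ((s + q.1 * b)⁻¹ • (q.2 - (x + q.1 • h))))

/-- Bounded profiles supported in the unit ball. -/
structure Prof (Θ : E d → V) (C : ℝ) : Prop where
  meas : StronglyMeasurable Θ
  bdd : ∀ w, ‖Θ w‖ ≤ C
  zero : ∀ w, 1 < ‖w‖ → Θ w = 0

/-- Time times space. -/
noncomputable abbrev μ0 (d : ℕ) : Measure (ℝ × E d) :=
  (volume.restrict (Ioc (0 : ℝ) 1)).prod volume

/-- The dominating function. -/
noncomputable def dom (x h : E d) (s b : ℝ) (N : ℕ) (g : E d → V) (C : ℝ) (y : E d) : ℝ :=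
  (min s (s + b))⁻¹ ^ N * C * (closedBall x (‖h‖ + s + |b|)).indicator (fun y => ‖g y‖) y

variable {x h : E d} {s b : ℝ} {N : ℕ} {g Θ : E d → V} {C : ℝ}

theorem rad_ge (hs : 0 < s) (hb : 0 < s + b) {t : ℝ} (ht : t ∈ Icc (0 : ℝ) 1) :
    0 < min s (s + b) ∧ min s (s + b) ≤ s + t * b := by
  refine ⟨lt_min hs hb, ?_⟩
  rcases le_total 0 b with h0 | h0
  · exact min_le_of_left_le (by nlinarith [ht.1])
  · exact min_le_of_right_le (by nlinarith [ht.2])

theorem rad_pos (hs : 0 < s) (hb : 0 < s + b) {t : ℝ} (ht : t ∈ Icc (0 : ℝ) 1) :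
    0 < s + t * b := (rad_ge hs hb ht).1.trans_le (rad_ge hs hb ht).2

theorem norm_le_dom (hs : 0 < s) (hb : 0 < s + b) (hΘ : Prof Θ C) {t : ℝ}
    (ht : t ∈ Icc (0 : ℝ) 1) (y : E d) : ‖Kf x h s b N g Θ (t, y)‖ ≤ dom x h s b N g C y := by
  obtain ⟨h1, h2⟩ := rad_ge hs hb ht
  have h3 := rad_pos hs hb ht
  have hC : 0 ≤ C := (norm_nonneg _).trans (hΘ.bdd 0)
  unfold Kf dom
  by_cases hw : 1 < ‖(s + t * b)⁻¹ • (y - (x + t • h))‖
  · rw [hΘ.zero _ hw, inner_zero_right, mul_zero, norm_zero]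
    exact mul_nonneg (by positivity) (indicator_nonneg (fun _ _ => norm_nonneg _) _)
  · have hy : y ∈ closedBall x (‖h‖ + s + |b|) := by
      rw [norm_smul, Real.norm_eq_abs, abs_of_pos (inv_pos.2 h3), not_lt,
        inv_mul_le_iff₀ h3, mul_one] at hw
      have e : y - x = y - (x + t • h) + t • h := by abel
      have h4 : ‖t • h‖ ≤ ‖h‖ := by
        rw [norm_smul, Real.norm_eq_abs, abs_of_nonneg ht.1]
        exact mul_le_of_le_one_left (norm_nonneg _) ht.2
      have h5 : t * b ≤ |b| := by nlinarith [le_abs_self b, abs_nonneg b, ht.1, ht.2]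
      rw [mem_closedBall_iff_norm, e]
      linarith [norm_add_le (y - (x + t • h)) (t • h)]
    rw [indicator_of_mem hy, norm_mul, mul_assoc, Real.norm_eq_abs, abs_of_pos (by positivity)]
    refine mul_le_mul (pow_le_pow_left₀ (by positivity) (inv_anti₀ h1 h2) _) ?_ (norm_nonneg _)
      (by positivity)
    rw [mul_comm C]
    exact (norm_inner_le_norm _ _).trans (mul_le_mul_of_nonneg_left (hΘ.bdd _) (norm_nonneg _))

theorem int_dom (hg : LocallyIntegrable g) : Integrable (dom x h s b N g C) :=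
  ((integrable_indicator_iff measurableSet_closedBall).2
    (hg.integrableOn_isCompact (isCompact_closedBall _ _)).norm).const_mul _

theorem meas_Kf (hg : LocallyIntegrable g) (hΘ : Prof Θ C) :
    AEStronglyMeasurable (Kf x h s b N g Θ) (μ0 d) := by
  have h1 : Measurable fun q : ℝ × E d => (s + q.1 * b)⁻¹ := by fun_prop
  have h2 : Measurable fun q : ℝ × E d => (s + q.1 * b)⁻¹ • (q.2 - (x + q.1 • h)) := by fun_prop
  exact (h1.pow_const N).aestronglyMeasurable.mul (hg.aestronglyMeasurable.comp_snd.inner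
    (hΘ.meas.comp_measurable h2).aestronglyMeasurable)

theorem meas_Kf' (hg : LocallyIntegrable g) (hΘ : Prof Θ C) (t : ℝ) :
    AEStronglyMeasurable fun y => Kf x h s b N g Θ (t, y) := by
  have h2 : Measurable fun y : E d => (s + t * b)⁻¹ • (y - (x + t • h)) := by fun_prop
  exact (hg.aestronglyMeasurable.inner (𝕜 := ℝ)
    (hΘ.meas.comp_measurable h2).aestronglyMeasurable).const_mul ((s + t * b)⁻¹ ^ N)

theorem ae_le_dom (hs : 0 < s) (hb : 0 < s + b) (hΘ : Prof Θ C) :
    ∀ᵐ q ∂μ0 d, ‖Kf x h s b N g Θ q‖ ≤ dom x h s b N g C q.2 := by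
  filter_upwards [Measure.quasiMeasurePreserving_fst.ae (ae_restrict_mem measurableSet_Ioc)]
    with q hq
  exact norm_le_dom hs hb hΘ (Ioc_subset_Icc_self hq) q.2

theorem int_Kf (hs : 0 < s) (hb : 0 < s + b) (hg : LocallyIntegrable g) (hΘ : Prof Θ C) :
    Integrable (Kf x h s b N g Θ) (μ0 d) :=
  ((int_dom hg).comp_snd _).mono' (meas_Kf hg hΘ) (ae_le_dom hs hb hΘ)

theorem int_Kf' (hs : 0 < s) (hb : 0 < s + b) (hg : LocallyIntegrable g) (hΘ : Prof Θ C) {t : ℝ}
    (ht : t ∈ Icc (0 : ℝ) 1) : Integrable fun y => Kf x h s b N g Θ (t, y) :=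
  (int_dom hg).mono' (meas_Kf' hg hΘ t) (Eventually.of_forall (norm_le_dom hs hb hΘ ht))

theorem lim_pt {Θ : ℕ → E d → V} {Θ' : E d → V}
    (hl : ∀ w, Tendsto (fun n => Θ n w) atTop (𝓝 (Θ' w))) (q : ℝ × E d) :
    Tendsto (fun n => Kf x h s b N g (Θ n) q) atTop (𝓝 (Kf x h s b N g Θ' q)) :=
  (tendsto_const_nhds.inner (hl _)).const_mul _

theorem lim_Kf (hs : 0 < s) (hb : 0 < s + b) (hg : LocallyIntegrable g) {Θ : ℕ → E d → V}
    {Θ' : E d → V} (hΘ : ∀ n, Prof (Θ n) C)
    (hl : ∀ w, Tendsto (fun n => Θ n w) atTop (𝓝 (Θ' w))) :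
    Tendsto (fun n => ∫ q, Kf x h s b N g (Θ n) q ∂μ0 d) atTop
      (𝓝 (∫ q, Kf x h s b N g Θ' q ∂μ0 d)) :=
  tendsto_integral_of_dominated_convergence _ (fun n => meas_Kf hg (hΘ n))
    ((int_dom hg).comp_snd _) (fun n => ae_le_dom hs hb (hΘ n)) (Eventually.of_forall (lim_pt hl))

theorem lim_Kf' (hs : 0 < s) (hb : 0 < s + b) (hg : LocallyIntegrable g) {Θ : ℕ → E d → V}
    {Θ' : E d → V} (hΘ : ∀ n, Prof (Θ n) C)
    (hl : ∀ w, Tendsto (fun n => Θ n w) atTop (𝓝 (Θ' w))) {t : ℝ} (ht : t ∈ Icc (0 : ℝ) 1) :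
    Tendsto (fun n => ∫ y, Kf x h s b N g (Θ n) (t, y)) atTop
      (𝓝 (∫ y, Kf x h s b N g Θ' (t, y))) :=
  tendsto_integral_of_dominated_convergence _ (fun n => meas_Kf' hg (hΘ n) t)
    (int_dom hg) (fun n => Eventually.of_forall (norm_le_dom hs hb (hΘ n) ht))
    (Eventually.of_forall fun y => lim_pt hl (t, y))

theorem compact_of_zero (h0 : ∀ w, 1 < ‖w‖ → Θ w = 0) : HasCompactSupport Θ :=
  HasCompactSupport.intro (isCompact_closedBall 0 1) fun w hw => h0 w (by simpa using hw)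

theorem prof_of_cont (hc : Continuous Θ) (h0 : ∀ w, 1 < ‖w‖ → Θ w = 0) : ∃ C, Prof Θ C := by
  obtain ⟨C, hC⟩ := hc.bounded_above_of_compact_support (compact_of_zero h0)
  exact ⟨C, hc.stronglyMeasurable, hC, h0⟩

/-- The divergence of the transported profile. -/
noncomputable def dv (h : E d) (b : ℝ) (k : E d → ℝ) (w : E d) : ℝ :=
  d * b * k w + fderiv ℝ k w (h + b • w)

variable {k : E d → ℝ} {f : E d → ℝ} {F : E d → E d}

theorem inner_rr (a c : ℝ) : inner ℝ a c = a * c := by simp [mul_comm]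

theorem prof_dv (hk : ContDiff ℝ ∞ k) (h0 : ∀ w, 1 < ‖w‖ → k w = 0) : ∃ C, Prof (dv h b k) C := by
  have h1 := hk.continuous
  have h2 := hk.continuous_fderiv (by simp)
  refine prof_of_cont (by unfold dv; fun_prop) fun w hw => ?_
  have h3 : k =ᶠ[𝓝 w] fun _ => 0 :=
    ((isOpen_lt continuous_const continuous_norm).eventually_mem hw).mono h0
  rw [dv, h0 w hw, h3.fderiv_eq]
  simp

theorem deriv_Kf (hk : ContDiff ℝ ∞ k) {t : ℝ} (ht : 0 < s + t * b) (y : E d) :
    HasDerivAt (fun t => Kf x h s b d f k (t, y)) (-Kf x h s b (d + 1) f (dv h b k) (t, y)) t := by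
  have h1 : HasDerivAt (fun t : ℝ => (s + t * b)⁻¹) (-b / (s + t * b) ^ 2) t := by
    have := (((hasDerivAt_id t).mul_const b).const_add s).inv ht.ne'
    rw [one_mul] at this
    exact this
  have h2 : HasDerivAt (fun t : ℝ => y - (x + t • h)) (-h) t := by
    simpa using (((hasDerivAt_id t).smul_const h).const_add x).const_sub y
  have h3 := (hk.differentiable (by simp) _).hasFDerivAt.comp_hasDerivAt t (h1.smul h2)
  have h4 := (h1.pow d).mul (h3.mul_const (f y))
  have e : (s + t * b)⁻¹ • -h + (-b / (s + t * b) ^ 2) • (y - (x + t • h)) =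
      -(s + t * b)⁻¹ • (h + b • (s + t * b)⁻¹ • (y - (x + t • h))) := by
    have : -b / (s + t * b) ^ 2 = -(s + t * b)⁻¹ * (b * (s + t * b)⁻¹) := by field_simp
    rw [this]
    module
  refine (h4.congr_deriv ?_).congr_of_eventuallyEq (Eventually.of_forall fun t => ?_)
  · simp only [e, map_smul, Kf, dv, inner_rr, smul_eq_mul, Pi.pow_apply,
      Function.comp_apply, Pi.smul_apply']
    rcases d with _ | d
    · simp; ring
    · have : -b / (s + t * b) ^ 2 = -b * ((s + t * b)⁻¹ * (s + t * b)⁻¹) := by field_simp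
      rw [Nat.add_sub_cancel, this]
      ring
  · simp [Kf, mul_comm]

theorem slice (hf : LocallyIntegrable f) (hF : LocallyIntegrable F) (hw : IsWeakGrad f F)
    (hk : ContDiff ℝ ∞ k) (h0 : ∀ w, 1 < ‖w‖ → k w = 0) {t : ℝ} (ht : 0 < s + t * b) :
    ∫ y, -Kf x h s b (d + 1) f (dv h b k) (t, y) =
      ∫ y, Kf x h s b d F (fun w => k w • (h + b • w)) (t, y) := by
  set r := s + t * b
  set p := x + t • h
  have hV : ContDiff ℝ ∞ fun y : E d => k (r⁻¹ • (y - p)) • (h + b • r⁻¹ • (y - p)) := by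
    fun_prop
  have hc : HasCompactSupport fun y : E d => k (r⁻¹ • (y - p)) • (h + b • r⁻¹ • (y - p)) := by
    refine HasCompactSupport.intro (isCompact_closedBall p r) fun y hy => ?_
    rw [h0, zero_smul]
    rw [mem_closedBall_iff_norm, not_le] at hy
    rwa [norm_smul, Real.norm_eq_abs, abs_of_pos (inv_pos.2 ht), lt_inv_mul_iff₀ ht, mul_one]
  have h1 := wdiv hf hF hw hV hc
  have h2 : ∀ y : E d, ∑ i, fderiv ℝ (fun y : E d => k (r⁻¹ • (y - p)) • (h + b • r⁻¹ • (y - p))) y
      (EuclideanSpace.single i 1) i = r⁻¹ * dv h b k (r⁻¹ • (y - p)) := by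
    intro y
    have a1 := ((hasFDerivAt_id (𝕜 := ℝ) y).sub_const p).const_smul r⁻¹
    have a2 := (hk.differentiable (by simp) _).hasFDerivAt.comp y a1
    have a3 := a2.smul ((a1.const_smul b).const_add h)
    erw [a3.fderiv]
    rw [dv, ← sum_single (fderiv ℝ k (r⁻¹ • (y - p))) (h + b • r⁻¹ • (y - p)), mul_add,
      Finset.mul_sum]
    simp [Finset.sum_add_distrib, mul_assoc, mul_comm, mul_left_comm, mul_add, add_mul]
  simp only [h2] at h1
  simp only [Kf, inner_rr, integral_neg, integral_const_mul]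
  rw [← neg_neg (∫ y, inner ℝ (F y) _), ← h1, pow_succ, mul_assoc, ← integral_const_mul r⁻¹,
    mul_neg]
  congr 3
  funext y
  ring

theorem smooth (hs : 0 < s) (hb : 0 < s + b) (hf : LocallyIntegrable f) (hF : LocallyIntegrable F)
    (hw : IsWeakGrad f F) (hk : ContDiff ℝ ∞ k) (h0 : ∀ w, 1 < ‖w‖ → k w = 0) :
    (∫ y, Kf x h s b d f k (1, y)) - ∫ y, Kf x h s b d f k (0, y) =
      ∫ q, Kf x h s b d F (fun w => k w • (h + b • w)) q ∂μ0 d := by
  obtain ⟨C1, p1⟩ := prof_of_cont hk.continuous h0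
  obtain ⟨C2, p2⟩ := prof_dv (h := h) (b := b) hk h0
  obtain ⟨C3, p3⟩ := prof_of_cont (Θ := fun w => k w • (h + b • w))
    (by have := hk.continuous; fun_prop) fun w hw => by rw [h0 w hw, zero_smul]
  have i2 := (int_Kf (x := x) (h := h) (N := d + 1) hs hb hf p2).neg
  rw [← integral_sub (int_Kf' hs hb hf p1 (by simp)) (int_Kf' hs hb hf p1 (by simp)),
    integral_prod _ (int_Kf hs hb hF p3),
    ← setIntegral_congr_fun measurableSet_Ioc fun t ht =>
      slice hf hF hw hk h0 (rad_pos hs hb (Ioc_subset_Icc_self ht))]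
  refine Eq.trans ?_ ((integral_prod_symm _ i2).symm.trans (integral_prod _ i2))
  refine integral_congr_ae ?_
  filter_upwards [i2.prod_left_ae] with y hy
  rw [← intervalIntegral.integral_of_le zero_le_one]
  refine (intervalIntegral.integral_eq_sub_of_hasDerivAt
    (f := fun t => Kf x h s b d f k (t, y)) (fun t ht => ?_)
    ((intervalIntegrable_iff_integrableOn_Ioc_of_le zero_le_one).2 hy)).symm
  rw [uIcc_of_le zero_le_one] at ht
  exact deriv_Kf hk (rad_pos hs hb ht) y

/-- Cutoffs. -/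
noncomputable def bump (d n : ℕ) : ContDiffBump (0 : E d) where
  rIn := 1 - 1 / ((n : ℝ) + 2)
  rOut := 1
  rIn_pos := by
    have : 1 / ((n : ℝ) + 2) < 1 := by
      rw [div_lt_one (by positivity)]
      linarith [Nat.cast_nonneg (α := ℝ) n]
    linarith
  rIn_lt_rOut := by
    have : 0 < 1 / ((n : ℝ) + 2) := by positivity
    linarith

theorem bump_zero (n : ℕ) (w : E d) (hw : 1 ≤ ‖w‖) : bump d n w = 0 :=
  (bump d n).zero_of_le_dist (by simpa [bump] using hw)

theorem bump_lim (P : E d → V) (w : E d) :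
    Tendsto (fun n => bump d n w • P w) atTop (𝓝 ((ball 0 1).indicator P w)) := by
  by_cases hw : ‖w‖ < 1
  · rw [indicator_of_mem (by simpa using hw)]
    have h1 : Tendsto (fun n : ℕ => 1 / ((n : ℝ) + 2)) atTop (𝓝 0) :=
      tendsto_const_nhds.div_atTop (tendsto_natCast_atTop_atTop.atTop_add tendsto_const_nhds)
    refine tendsto_const_nhds.congr' ?_
    filter_upwards [h1.eventually_lt_const (sub_pos.2 hw)] with n hn
    rw [(bump d n).one_of_mem_closedBall, one_smul]
    rw [mem_closedBall_zero_iff]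
    change ‖w‖ ≤ 1 - 1 / ((n : ℝ) + 2)
    linarith
  · rw [indicator_of_notMem (by simpa using hw)]
    simp [bump_zero _ w (not_lt.1 hw)]

theorem bump_prof {P : E d → V} (hP : Continuous P) (hC : ∀ w, ‖w‖ ≤ 1 → ‖P w‖ ≤ C) (n : ℕ) :
    Prof (fun w => bump d n w • P w) C := by
  refine ⟨((bump d n).continuous.smul hP).stronglyMeasurable, fun w => ?_,
    fun w hw => by rw [bump_zero n w hw.le, zero_smul]⟩
  by_cases hw : ‖w‖ ≤ 1
  · rw [norm_smul, Real.norm_eq_abs, abs_of_nonneg (bump d n).nonneg]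
    exact (mul_le_of_le_one_left (norm_nonneg _) (bump d n).le_one).trans (hC w hw)
  · rw [bump_zero n w (not_le.1 hw).le, zero_smul, norm_zero]
    exact (norm_nonneg _).trans (hC 0 (by simp))

theorem ind_prof {P : E d → V} (hP : Continuous P) (hC : ∀ w, ‖w‖ ≤ 1 → ‖P w‖ ≤ C) :
    Prof ((ball 0 1).indicator P) C := by
  refine ⟨hP.stronglyMeasurable.indicator measurableSet_ball, fun w => ?_,
    fun w hw => indicator_of_notMem (by simpa using hw.le) _⟩
  by_cases hw : w ∈ ball (0 : E d) 1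
  · rw [indicator_of_mem hw]
    exact hC w (mem_ball_zero_iff.1 hw).le
  · rw [indicator_of_notMem hw, norm_zero]
    exact (norm_nonneg _).trans (hC 0 (by simp))

theorem int_ind (P : E d → V) {t : ℝ} (ht : 0 < s + t * b) :
    ∫ y, Kf x h s b d g ((ball 0 1).indicator P) (t, y) = vb d 1 * ((vb d (s + t * b))⁻¹ *
      ∫ y in ball (x + t • h) (s + t * b),
        inner ℝ (g y) (P ((s + t * b)⁻¹ • (y - (x + t • h))))) := by
  have h1 := vb_pos (d := d) one_pos
  simp only [Kf, integral_const_mul]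
  rw [vb_eq ht, ← integral_indicator measurableSet_ball, ← mul_assoc]
  congr 1
  · rw [inv_pow]
    field_simp
  · refine integral_congr_ae (Eventually.of_forall fun y => ?_)
    have e : (s + t * b)⁻¹ • (y - (x + t • h)) ∈ ball (0 : E d) 1 ↔
        y ∈ ball (x + t • h) (s + t * b) := by
      rw [mem_ball_zero_iff, mem_ball_iff_norm, norm_smul, Real.norm_eq_abs,
        abs_of_pos (inv_pos.2 ht), inv_mul_lt_iff₀ ht, mul_one]
    by_cases hy : y ∈ ball (x + t • h) (s + t * b)
    · simp only [indicator_of_mem hy, indicator_of_mem (e.2 hy)]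
    · simp only [indicator_of_notMem hy, indicator_of_notMem (mt e.1 hy), inner_zero_right]

end WPathAux

open WPathAux in
theorem wpath (d : ℕ) (_hd : 1 ≤ d) : WPathStmt d := by
  intro f F hf hF hw x h s b hs hb
  have c1 : Continuous fun _ : E d => (1 : ℝ) := continuous_const
  have b1 : ∀ w : E d, ‖w‖ ≤ 1 → ‖(1 : ℝ)‖ ≤ 1 := fun _ _ => by simp
  have c2 : Continuous fun w : E d => h + b • w := by fun_prop
  have b2 : ∀ w : E d, ‖w‖ ≤ 1 → ‖h + b • w‖ ≤ ‖h‖ + ‖b‖ := fun w hw => by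
    refine (norm_add_le _ _).trans ?_
    rw [norm_smul]
    nlinarith [norm_nonneg b]
  have l1 := (lim_Kf' (x := x) (h := h) (N := d) hs hb hf (bump_prof c1 b1) (bump_lim _)
    (t := 1) (by simp)).sub
    (lim_Kf' (x := x) (h := h) (N := d) hs hb hf (bump_prof c1 b1) (bump_lim _) (t := 0) (by simp))
  have l2 := lim_Kf (x := x) (h := h) (N := d) hs hb hF (bump_prof c2 b2) (bump_lim _)
  have e := tendsto_nhds_unique (l1.congr fun n => by
    simp only [smul_eq_mul, mul_one]
    exact smooth hs hb hf hF hw (bump d n).contDiff fun w hw => bump_zero n w hw.le) l2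
  rw [integral_prod _ (int_Kf hs hb hF (ind_prof c2 b2)), int_ind _ (by simpa using hb),
    int_ind _ (by simpa using hs), setIntegral_congr_fun measurableSet_Ioc fun t ht =>
      int_ind _ (rad_pos hs hb (Ioc_subset_Icc_self ht)), integral_const_mul, ← mul_sub,
    ← intervalIntegral.integral_of_le zero_le_one] at e
  have e' := mul_left_cancel₀ (vb_pos (d := d) one_pos).ne' e
  simpa [ua, avg] using e'

end Vale.Agent.P137
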