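import Vale.Agent.P137.UStmts
import Vale.Agent.P137.FinA
import Vale.Agent.P137.MB
import Vale.Agent.P137.Path
import Vale.Agent.P137.WPath
import Vale.Agent.P137.WCurl
import Vale.Agent.P137.WCalc

open MeasureTheory Metric Set Filter
open scoped ENNReal NNReal Topology

namespace Vale.Agent.P137

variable {d : ℕ}

namespace FinAUAux

variable {f : E d → ℝ} {F : E d → E d}

theorem le_ut (h0 : ∀ x, 0 ≤ f x) (hf : Integrable f) {x y : E d} {r : ℝ} (hr : 0 < r)
    (hy : ‖y - x‖ ≤ r) : ua f y r ≤ ut (ua f) x r :=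
  le_csSup ⟨_, forall_mem_image.2 fun y' _ => FinAAux.ua_le h0 hf y' hr le_rfl⟩
    (mem_image_of_mem (fun y => ua f y r) (mem_closedBall_iff_norm.2 hy))

theorem ut_le {x : E d} {r c : ℝ} (hr : 0 ≤ r) (h : ∀ y, ‖y - x‖ ≤ r → ua f y r ≤ c) :
    ut (ua f) x r ≤ c :=
  csSup_le ((nonempty_closedBall.2 hr).image _)
    (forall_mem_image.2 fun y hy => h y (mem_closedBall_iff_norm.1 hy))

theorem ut_le' (h0 : ∀ x, 0 ≤ f x) (hf : Integrable f) (x : E d) {a s : ℝ}
    (ha : 0 < a) (hs : a ≤ s) : ut (ua f) x s ≤ (vb d a)⁻¹ * ∫ y, f y :=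
  ut_le (ha.le.trans hs) fun y _ => FinAAux.ua_le h0 hf y ha hs

theorem bdd (h0 : ∀ x, 0 ≤ f x) (hf : Integrable f) (x : E d) {a : ℝ}
    (ha : 0 < a) : BddAbove (ut (ua f) x '' Ici a) :=
  ⟨_, forall_mem_image.2 fun _ hs => ut_le' h0 hf x ha hs⟩

theorem sup_lip (hw : WCalcStmt d) (hc : ContStmt d) (h0 : ∀ x, 0 ≤ f x) (hf : Integrable f)
    (hF : Integrable F) (h : IsWeakGrad f F) {a : ℝ} (ha : 0 < a) {S : Set ℝ} (hS : S ⊆ Ici a)
    (hne : S.Nonempty) : ∃ L : ℝ≥0, LipschitzWith L fun x => sSup (ut (ua f) x '' S) := by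
  have hL : 0 ≤ (vb d a)⁻¹ * ∫ y, ‖F y‖ :=
    mul_nonneg (inv_nonneg.2 (vb_nonneg _)) (integral_nonneg fun _ => norm_nonneg _)
  refine ⟨⟨_, hL⟩, LipschitzWith.of_le_add_mul _ fun x x' => ?_⟩
  refine csSup_le (hne.image _) (forall_mem_image.2 fun s hs => ?_)
  have hs0 : 0 < s := ha.trans_le (hS hs)
  refine ut_le hs0.le fun y hy => ?_
  have h1 := (abs_le.1 (FinAAux.ua_lip hw hc hf hF h ha y (y - x + x') (hS hs))).2
  have h2 : ua f (y - x + x') s ≤ ut (ua f) x' s := le_ut h0 hf hs0 (by simpa using hy)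
  have h3 : ut (ua f) x' s ≤ sSup (ut (ua f) x' '' S) :=
    le_csSup ((bdd h0 hf x' ha).mono (image_mono hS)) (mem_image_of_mem _ hs)
  rw [show y - (y - x + x') = x - x' by abel] at h1
  rw [dist_eq_norm]
  change _ ≤ _ + (vb d a)⁻¹ * (∫ y, ‖F y‖) * ‖x - x'‖
  linarith

theorem gU_eq (hd : 1 ≤ d) (h0 : ∀ x, 0 ≤ f x) (hf : Integrable f) {R0 : ℝ}
    (h1 : 1 ≤ R0) (h2 : ∫ y, f y ≤ 2 * ∫ y in ball (0 : E d) R0, f y) (K : ℕ) {R b : ℝ}
    (hb : 2 * (R + R0) ≤ b) {x : E d} (hx : x ∈ ball (0 : E d) R) :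
    gU f K x = MU (ua f) (sc 1 K) b x := by
  have ha := sc_pos one_pos K
  have ha1 := sc_le one_pos K
  have hR : 0 < R := pos_of_mem_ball hx
  have hB := bdd h0 hf x ha
  have hB' : BddAbove (ut (ua f) x '' Icc (sc 1 K) b) :=
    hB.mono (image_mono Icc_subset_Ici_self)
  refine le_antisymm (csSup_le (nonempty_Ici.image _) (forall_mem_image.2 fun s hs => ?_))
    (csSup_le_csSup hB ((nonempty_Icc.2 (by linarith)).image _) (image_mono Icc_subset_Ici_self))
  by_cases hsb : s ≤ b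
  · exact le_csSup hB' (mem_image_of_mem _ ⟨hs, hsb⟩)
  have hp : 0 < R + R0 := by linarith
  refine le_trans ?_ ((le_ut h0 hf (y := x) hp (by simpa using hp.le)).trans
    (le_csSup hB' (mem_image_of_mem _
      (show R + R0 ∈ Icc (sc 1 K) b from ⟨by linarith, by linarith⟩))))
  have h3 := ut_le' h0 hf x (mul_pos two_pos hp) (show 2 * (R + R0) ≤ s by linarith)
  have h4 : ∫ y in ball (0 : E d) R0, f y ≤ ∫ y in ball x (R + R0), f y := by
    refine setIntegral_mono_set hf.integrableOn (Eventually.of_forall h0)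
      (LE.le.eventuallyLE (ball_subset_ball' ?_))
    rw [mem_ball, dist_comm] at hx
    linarith
  have h5 : 2 * vb d (R + R0) ≤ vb d (2 * (R + R0)) := by
    rw [vb_mul two_pos hp]
    exact mul_le_mul_of_nonneg_right (le_self_pow₀ one_le_two (by omega)) (vb_nonneg _)
  have h6 := vb_pos (d := d) hp
  have h7 : 0 ≤ ∫ y, f y := integral_nonneg h0
  refine h3.trans ((mul_le_mul (inv_anti₀ (by linarith) h5) (h2.trans
    (mul_le_mul_of_nonneg_left h4 zero_le_two)) h7 (by positivity)).trans (le_of_eq ?_))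
  rw [ua]
  field_simp

theorem Mu_eq (h0 : ∀ x, 0 ≤ f x) (hf : Integrable f) (x : E d) :
    Mu f x = ⨆ (y : E d) (r : ℝ) (_ : x ∈ ball y r), ENNReal.ofReal (ua f y r) := by
  refine iSup_congr fun y => iSup_congr fun r => iSup_congr fun hr => ?_
  rw [← ofReal_integral_norm_eq_lintegral_enorm hf.integrableOn, volume_ball_eq,
    ← ENNReal.ofReal_div_of_pos (vb_pos (pos_of_mem_ball hr)), ua, inv_mul_eq_div]
  simp only [Real.norm_of_nonneg (h0 _)]

theorem Mu_le (h0 : ∀ x, 0 ≤ f x) (hf : Integrable f) (x : E d) :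
    Mu f x ≤ 2 ^ d * M f x := by
  rw [Mu_eq h0 hf, MBAux.M_eq h0 hf]
  refine iSup_le fun y => iSup₂_le fun r hr => ?_
  have hr0 := pos_of_mem_ball hr
  have h1 : ua f y r ≤ 2 ^ d * ua f x (2 * r) := by
    have h4 : ∫ w in ball y r, f w ≤ ∫ w in ball x (2 * r), f w := by
      refine setIntegral_mono_set hf.integrableOn (Eventually.of_forall h0)
        (LE.le.eventuallyLE (ball_subset_ball' ?_))
      rw [mem_ball, dist_comm] at hr
      linarith
    have h6 := vb_pos (d := d) hr0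
    rw [ua, ua, vb_mul two_pos hr0]
    refine (mul_le_mul_of_nonneg_left h4 (by positivity)).trans (le_of_eq ?_)
    field_simp
  refine (ENNReal.ofReal_le_ofReal h1).trans ?_
  rw [ENNReal.ofReal_mul (by positivity), ENNReal.ofReal_pow zero_le_two, ENNReal.ofReal_ofNat]
  exact mul_le_mul_right (le_iSup₂_of_le (f := fun (r : ℝ) (_ : 0 < r) =>
    ENNReal.ofReal (ua f x r)) (2 * r) (by positivity) le_rfl) _

end FinAUAux

open FinAUAux in
theorem finAU (d : ℕ) (hd : 1 ≤ d) (hm : MainUStmt d) : FinAUStmt d := by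
  have hw := wcalc d (wpath d hd) (wcurl d hd)
  have hc := cont d hd
  obtain ⟨C, hC⟩ := hm
  refine ⟨C, fun f F h0 hf hF hFm h K => ⟨?_, ?_, fun t => ⟨?_, ?_, ?_⟩⟩⟩
  · exact sup_lip hw hc h0 hf hF h (sc_pos one_pos K) subset_rfl nonempty_Ici
  · obtain ⟨R0, h1, h2⟩ := FinAAux.exists_half h0 hf
    rw [← setLIntegral_univ, ← iUnion_ball_nat (0 : E d), setLIntegral_iUnion_of_directed _
      (Monotone.directed_le fun n m hnm => ball_subset_ball (by simpa using hnm))]
    refine iSup_le fun n => ?_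
    obtain ⟨j, hj⟩ := pow_unbounded_of_one_lt ((n : ℝ) + R0) (show (1 : ℝ) < 4 by norm_num)
    have hn : (0 : ℝ) ≤ n := Nat.cast_nonneg n
    have hℓ : (0 : ℝ) < 4 ^ j := by positivity
    have h3 := hC (ua f) _ 0 (4 ^ j) (j + K) hℓ (hFm.indicator measurableSet_ball)
      (hw f F hf.locallyIntegrable hF.locallyIntegrable h 0 _)
    have e : sc (4 ^ j) (j + K) = sc 1 K := by
      unfold sc; rw [pow_add]; field_simp
    rw [e] at h3
    have h4 : VV ((ball (0 : E d) (13 * 4 ^ j)).indicator F) ≤ VV F :=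
      lintegral_mono fun y => enorm_indicator_le_enorm_self _ _
    refine le_trans ?_ (h3.trans (mul_le_mul_right h4 _))
    refine le_trans (le_of_eq ?_) (lintegral_mono_set (ball_subset_ball
      (show (n : ℝ) ≤ 4 ^ j by linarith)))
    refine setLIntegral_congr_fun measurableSet_ball fun x hx => ?_
    have h5 : gU f K =ᶠ[𝓝 x] MU (ua f) (sc 1 K) (4 * 4 ^ j) := by
      filter_upwards [isOpen_ball.mem_nhds hx] with y hy
      exact gU_eq hd h0 hf h1 h2 K (by linarith) hy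
    rw [← h5.fderiv_eq, ← ofReal_norm, ← ofReal_norm, norm_gradient_eq]
  · have h1 := sc_pos one_pos K
    exact sup_lip hw hc h0 hf hF h (sc_pos h1 t) Icc_subset_Ici_self
      (nonempty_Icc.2 ((sc_le h1 t).trans (by linarith)))
  · intro x
    have ha := sc_pos one_pos K
    have hs : sc (sc 1 K) t = sc 1 (K + t) := (sc_add 1 K t).symm
    have ha' := sc_pos one_pos (K + t)
    have hle := sc_le ha t
    have e : Ici (sc 1 (K + t)) = Ici (sc 1 K) ∪ Icc (sc (sc 1 K) t) (4 * sc 1 K) := by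
      rw [← hs]
      ext s
      simp only [mem_Ici, mem_union, mem_Icc]
      constructor
      · intro h1
        by_cases h2 : sc 1 K ≤ s
        · exact Or.inl h2
        · exact Or.inr ⟨h1, by linarith⟩
      · rintro (h1 | h1)
        · linarith
        · exact h1.1
    rw [gU, e, image_union, csSup_union (bdd h0 hf x ha) (nonempty_Ici.image _)
      ((bdd h0 hf x (sc_pos ha t)).mono (image_mono Icc_subset_Ici_self))
      ((nonempty_Icc.2 (by linarith)).image _)]
    rfl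
  · intro x₀
    have h3 := hC (ua f) _ x₀ (sc 1 K) t (sc_pos one_pos K) (hFm.indicator measurableSet_ball)
      (hw f F hf.locallyIntegrable hF.locallyIntegrable h x₀ _)
    have h4 : VV ((ball x₀ (13 * sc 1 K)).indicator F) =
        ∫⁻ y in ball x₀ (13 * sc 1 K), ‖F y‖ₑ := by
      rw [VV, ← lintegral_indicator measurableSet_ball]
      exact lintegral_congr fun y => by by_cases hy : y ∈ ball x₀ (13 * sc 1 K) <;> simp [hy]
    rw [h4] at h3
    refine le_trans (le_of_eq (lintegral_congr fun x => ?_)) h3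
    rw [← ofReal_norm, ← ofReal_norm, norm_gradient_eq]
    rfl

open FinAUAux in
theorem mbU (d : ℕ) (hd : 1 ≤ d) : MBUStmt d := by
  have hw := wcalc d (wpath d hd) (wcurl d hd)
  have hc := cont d hd
  intro f F h0 hf hF hFm hwg
  have hs := sc_pos one_pos
  have hle : ∀ K x r, sc 1 K ≤ r → ut (ua f) x r ≤ gU f K x := fun K x r hr =>
    le_csSup (bdd h0 hf x (hs K)) ⟨r, hr, rfl⟩
  have hne : ∀ K x, (ut (ua f) x '' Ici (sc 1 K)).Nonempty := fun K x => nonempty_Ici.image _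
  obtain ⟨A, Φ, hΦ, hΦ', hM⟩ := (mb d hd hw f F h0 hf hF hFm hwg).2.2
  refine ⟨fun K x => ⟨(MBAux.ua_nonneg h0 x _).trans
      ((le_ut h0 hf (hs K) (by simpa using (hs K).le)).trans (hle K x _ le_rfl)), ?_⟩, fun x => ?_,
    2 ^ d * A, fun x => 2 ^ d * Φ x, hΦ.const_mul _, ?_, fun x => ?_⟩
  · exact csSup_le_csSup (bdd h0 hf x (hs _)) (hne K x)
      (image_mono (Ici_subset_Ici.2 (sc_anti one_pos (Nat.le_succ K))))
  · refine le_antisymm ?_ (iSup_le fun K => ?_)
    · rw [Mu_eq h0 hf]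
      refine iSup_le fun y => iSup₂_le fun r hr => ?_
      have hr0 := pos_of_mem_ball hr
      obtain ⟨K, hK⟩ := exists_pow_lt_of_lt_one hr0 (show (1 / 4 : ℝ) < 1 by norm_num)
      rw [one_div_pow] at hK
      exact le_iSup_of_le K (ENNReal.ofReal_le_ofReal
        ((le_ut h0 hf hr0 (mem_ball_iff_norm'.1 hr).le).trans (hle K x r hK.le)))
    · by_cases hM : Mu f x = ∞
      · rw [hM]; exact le_top
      · refine ENNReal.ofReal_le_of_le_toReal (csSup_le (hne K x) ?_)
        rintro _ ⟨r, hr, rfl⟩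
        have hr0 : 0 < r := (hs K).trans_le hr
        refine ut_le hr0.le fun y hy => ?_
        have h1 := (FinAAux.ua_cont hw hc hf.locallyIntegrable hF.locallyIntegrable hwg hr0 (r + 1)
          y r ⟨le_rfl, by linarith⟩).mono Ioc_subset_Icc_self
        have := left_nhdsWithin_Ioc_neBot (show r < r + 1 by linarith)
        refine le_of_tendsto h1.tendsto ?_
        filter_upwards [self_mem_nhdsWithin] with r' hr'
        rw [← ENNReal.ofReal_le_iff_le_toReal hM, Mu_eq h0 hf]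
        exact le_iSup_of_le y (le_iSup₂_of_le r' (mem_ball_iff_norm'.2 (hy.trans_lt hr'.1)) le_rfl)
  · rw [lintegral_const_mul _ hΦ]
    exact ENNReal.mul_lt_top (ENNReal.pow_lt_top (by norm_num)) hΦ'
  · refine (Mu_le h0 hf x).trans ((mul_le_mul_right (hM x) _).trans (le_of_eq ?_))
    push_cast
    ring

end Vale.Agent.P137
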