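import Vale.Agent.P137.UStmts

open MeasureTheory Metric Set Filter
open scoped ENNReal NNReal Topology

namespace Vale.Agent.P137

variable {d : ℕ}

theorem Mu_abs (f : E d → ℝ) : Mu (fun x => |f x|) = Mu f := by
  funext x
  simp [Mu]

theorem finalU (d : ℕ) (ha : AbsStmt d) (hA : FinAUStmt d) (hl : LimUStmt d)
    (hm : MBUStmt d) (hr : RNStmt d) : FinalUStmt d := by
  obtain ⟨C, hC⟩ := hA
  refine ⟨((d * (C + C * 13 ^ d) : ℝ≥0) : ℝ), fun f F hf hF hw => ?_⟩
  obtain ⟨F', hF'm, hF'i, hF'le, hw'⟩ := ha f F hf hF hw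
  rw [← Mu_abs f]
  set f' : E d → ℝ := fun x => |f x| with hf'
  have hf0 : ∀ x, 0 ≤ f' x := fun x => abs_nonneg _
  have hfi : Integrable f' := hf.abs
  have hA' := hC f' F' hf0 hfi hF'i hF'm hw'
  obtain ⟨hmono, hsup, A, Φ, hΦm, hΦi, hΦ⟩ := hm f' F' hf0 hfi hF'i hF'm hw'
  have hV : VV F' ≠ ∞ := hF'i.2.ne
  have hCV : (C : ℝ≥0∞) * VV F' ≠ ∞ := ENNReal.mul_ne_top ENNReal.coe_ne_top hV
  have hgc : ∀ K, Continuous (gU f' K) := fun K => (hA' K).1.choose_spec.continuous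
  have hMm : Measurable (Mu f') := by
    have : Mu f' = fun x => ⨆ K, ENNReal.ofReal (gU f' K x) := funext hsup
    rw [this]
    exact Measurable.iSup fun K => (hgc K).measurable.ennreal_ofReal
  have hfin : ∀ᵐ x, Mu f' x < ∞ := by
    filter_upwards [ae_lt_top hΦm hΦi.ne] with x hx
    exact (hΦ x).trans_lt (ENNReal.add_lt_top.2 ⟨ENNReal.coe_lt_top, hx⟩)
  have hloc : LocallyIntegrable (fun x => (Mu f' x).toReal) := by
    have h1 : Integrable fun x => (Φ x).toReal :=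
      integrable_toReal_of_lintegral_ne_top hΦm.aemeasurable hΦi.ne
    have h2 : LocallyIntegrable (fun x => (A : ℝ) + (Φ x).toReal) :=
      (locallyIntegrable_const (A : ℝ)).add h1.locallyIntegrable
    refine h2.mono hMm.ennreal_toReal.aestronglyMeasurable ?_
    filter_upwards [ae_lt_top hΦm hΦi.ne] with x hx
    rw [Real.norm_of_nonneg ENNReal.toReal_nonneg, Real.norm_of_nonneg (by positivity)]
    have := ENNReal.toReal_mono (ENNReal.add_ne_top.2 ⟨ENNReal.coe_ne_top, hx.ne⟩) (hΦ x)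
    rwa [ENNReal.toReal_add ENNReal.coe_ne_top hx.ne, ENNReal.coe_toReal] at this
  obtain ⟨om, hom, hoi, hob⟩ := hl (gU f') (hU f') (fun x => (Mu f' x).toReal) F' (C * VV F') C
    hCV hF'm hF'i (fun K => (hA' K).1) (fun K t => ((hA' K).2.2 t).1)
    (fun K t => ((hA' K).2.2 t).2.1) (fun K => (hA' K).2.1) (fun K t => ((hA' K).2.2 t).2.2) hloc
    (fun K => by
      filter_upwards [hfin] with x hx
      rw [abs_of_nonneg (hmono K x).1, ← ENNReal.ofReal_le_iff_le_toReal hx.ne, hsup x]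
      exact le_iSup (fun K => ENNReal.ofReal (gU f' K x)) K)
    (by
      filter_upwards [hfin] with x hx
      have hmn : Monotone fun K => ENNReal.ofReal (gU f' K x) :=
        monotone_nat_of_le_succ fun K => ENNReal.ofReal_le_ofReal (hmono K x).2
      have h1 := tendsto_atTop_iSup hmn
      rw [← hsup x] at h1
      have h2 := (ENNReal.tendsto_toReal hx.ne).comp h1
      refine h2.congr fun K => ?_
      simp [ENNReal.toReal_ofReal (hmono K x).1])
  have hoi' : ∫⁻ x, om x ≤ ((C + C * 13 ^ d : ℝ≥0) : ℝ≥0∞) * VV F' := by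
    refine hoi.trans (le_of_eq ?_)
    push_cast; ring
  obtain ⟨G, hGi, hGw, hGle⟩ := hr _ om hom
    (hoi'.trans_lt (ENNReal.mul_lt_top ENNReal.coe_lt_top hV.lt_top)).ne hob hloc
  refine ⟨hfin, hloc, G, hGw, hGi, ?_⟩
  have e1 : ∫ x, ‖G x‖ = (∫⁻ x, ‖G x‖ₑ).toReal := integral_norm_eq_lintegral_enorm hGi.1
  have e2 : ∫ x, ‖F' x‖ = (VV F').toReal := integral_norm_eq_lintegral_enorm hF'i.1
  have e3 : ∫ x, ‖F' x‖ ≤ ∫ x, ‖F x‖ := integral_mono_ae hF'i.norm hF.norm hF'le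
  have h4 : ∫⁻ x, ‖G x‖ₑ ≤ ((d * (C + C * 13 ^ d) : ℝ≥0) : ℝ≥0∞) * VV F' := by
    refine hGle.trans ((mul_le_mul_right hoi' _).trans (le_of_eq ?_))
    push_cast; ring
  have := ENNReal.toReal_mono (ENNReal.mul_ne_top ENNReal.coe_ne_top hV) h4
  rw [ENNReal.toReal_mul, ENNReal.coe_toReal, ← e1, ← e2] at this
  exact this.trans (mul_le_mul_of_nonneg_left e3 (NNReal.coe_nonneg _))

end Vale.Agent.P137
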