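import Vale.Agent.P137.UStmts
import Vale.Agent.P137.H1
import Vale.Agent.P137.Path
import Vale.Agent.P137.PL
import Vale.Agent.P137.Ker
import Vale.Agent.P137.Scale

open MeasureTheory Metric Set Filter
open scoped ENNReal NNReal Topology

namespace Vale.Agent.P137

namespace H1UAux

variable {d : ℕ}

theorem base {Y w : E d → E d} {x : E d} {B : ℝ} (hB : ∀ y, ‖Y y‖ ≤ B)
    (h0 : ∀ y, y ∉ ball x 11 → Y y = 0) :
    ENNReal.ofReal |∫ y, inner ℝ (Y y) (w y)| ≤ ENNReal.ofReal B * mass w x 11 := by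
  have h1 : ENNReal.ofReal |∫ y, inner ℝ (Y y) (w y)| ≤ ∫⁻ y, ‖inner ℝ (Y y) (w y)‖ₑ := by
    rw [← Real.norm_eq_abs, ofReal_norm]
    exact enorm_integral_le_lintegral_enorm _
  refine h1.trans ?_
  rw [mass, ← lintegral_const_mul' _ _ ENNReal.ofReal_ne_top,
    ← lintegral_indicator measurableSet_ball]
  refine lintegral_mono fun y => ?_
  by_cases hy : y ∈ ball x 11
  · rw [indicator_of_mem hy, ← ofReal_norm, ← ofReal_norm,
      ← ENNReal.ofReal_mul ((norm_nonneg _).trans (hB y))]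
    refine ENNReal.ofReal_le_ofReal ((norm_inner_le_norm _ _).trans ?_)
    exact mul_le_mul_of_nonneg_right (hB y) (norm_nonneg _)
  · simp [h0 y hy]

theorem L0 (hd : 1 ≤ d) {m : ℕ → E d → E d} {μ : E d → E d} {K : ℕ} (hlev : Lev m μ 1 K)
    {Y : E d → E d} {x : E d} {C : ℝ} (hC : 0 < C) (hYB : ∀ y, ‖Y y‖ ≤ C)
    (hlip : ∀ y y', ‖Y y - Y y'‖ ≤ C * ‖y - y'‖) (hY0 : ∀ y, 9 ≤ ‖y - x‖ → Y y = 0) :
    ENNReal.ofReal |∫ y, inner ℝ (μ y) (Y y)| ≤ ENNReal.ofReal (C + 4 * d * C) *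
      ∑ l ∈ Finset.range (K + 1), (4 ^ l)⁻¹ * mass (m l) x 11 := by
  have hYc : Continuous Y := by
    refine (LipschitzWith.of_dist_le_mul (K := ⟨C, hC.le⟩) fun y y' => ?_).continuous
    rw [dist_eq_norm, dist_eq_norm]
    exact hlip y y'
  set a : ℕ → ℝ := fun l => ∫ y, inner ℝ (Y y) (m l y) with ha
  have hpath : ∫ y, inner ℝ (μ y) (Y y) = a K := by
    simp only [ha, hlev.top K le_rfl]
    exact integral_congr_ae (Eventually.of_forall fun y => real_inner_comm _ _)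
  have hstep : ∀ l, ENNReal.ofReal |a l - a (l + 1)| ≤
      ENNReal.ofReal (4 * d * C) * (((4 : ℝ≥0∞) ^ (l + 1))⁻¹ * mass (m (l + 1)) x 11) := by
    intro l
    have h1 := one d hd m μ 1 K one_pos hlev l Y C hYc.measurable hYB
      ((ball x 11).indicator fun _ => ENNReal.ofReal (C / 4 ^ l)) (fun y y' hyy => by
        have h41 : (1 : ℝ) / 4 ^ l ≤ 1 :=
          div_le_self zero_le_one (one_le_pow₀ (by norm_num))
        by_cases hy : y ∈ ball x 11
        · rw [indicator_of_mem hy, ← ofReal_norm]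
          refine ENNReal.ofReal_le_ofReal ((hlip y' y).trans ?_)
          rw [div_eq_mul_one_div C]
          exact mul_le_mul_of_nonneg_left hyy hC.le
        · rw [mem_ball_iff_norm, not_lt] at hy
          have h2 := norm_sub_le_norm_sub_add_norm_sub y y' x
          rw [norm_sub_rev y y'] at h2
          rw [hY0 y (by linarith), hY0 y' (by linarith)]
          simp)
    refine h1.trans (le_of_eq ?_)
    have h2 : ∫⁻ y, (ball x 11).indicator (fun _ => ENNReal.ofReal (C / 4 ^ l)) y *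
        ‖m (l + 1) y‖ₑ = ENNReal.ofReal (C / 4 ^ l) * mass (m (l + 1)) x 11 := by
      rw [mass, ← lintegral_const_mul' _ _ ENNReal.ofReal_ne_top,
        ← lintegral_indicator measurableSet_ball]
      refine lintegral_congr fun y => ?_
      by_cases hy : y ∈ ball x 11 <;> simp [hy]
    rw [h2, ← mul_assoc, ← mul_assoc]
    congr 1
    have h3 : ((4 : ℝ≥0∞) ^ (l + 1))⁻¹ = ENNReal.ofReal (((4 : ℝ) ^ (l + 1))⁻¹) := by
      rw [ENNReal.ofReal_inv_of_pos (by positivity), ENNReal.ofReal_pow (by norm_num)]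
      simp
    rw [h3, ← ENNReal.ofReal_mul (by positivity), ← ENNReal.ofReal_natCast,
      ← ENNReal.ofReal_mul (by positivity)]
    congr 1
    rw [pow_succ]; field_simp
  have hbase : ENNReal.ofReal |a 0| ≤ ENNReal.ofReal C * mass (m 0) x 11 :=
    base hYB fun y hy => hY0 y (by rw [mem_ball_iff_norm, not_lt] at hy; linarith)
  have hd0 : (0 : ℝ) ≤ d := Nat.cast_nonneg d
  have e1 : ENNReal.ofReal C ≤ ENNReal.ofReal (C + 4 * d * C) :=
    ENNReal.ofReal_le_ofReal (by nlinarith [mul_nonneg hd0 hC.le])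
  have e2 : ENNReal.ofReal (4 * d * C) ≤ ENNReal.ofReal (C + 4 * d * C) :=
    ENNReal.ofReal_le_ofReal (by linarith)
  rw [hpath]
  calc ENNReal.ofReal |a K|
      ≤ ENNReal.ofReal (|a 0| + ∑ l ∈ Finset.range K, |a l - a (l + 1)|) :=
        ENNReal.ofReal_le_ofReal (H1Aux.tele a K)
    _ = ENNReal.ofReal |a 0| + ∑ l ∈ Finset.range K, ENNReal.ofReal |a l - a (l + 1)| := by
        rw [ENNReal.ofReal_add (abs_nonneg _) (Finset.sum_nonneg fun _ _ => abs_nonneg _),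
          ENNReal.ofReal_sum_of_nonneg fun _ _ => abs_nonneg _]
    _ ≤ ENNReal.ofReal (C + 4 * d * C) * mass (m 0) x 11 + ∑ l ∈ Finset.range K,
          ENNReal.ofReal (C + 4 * d * C) *
            (((4 : ℝ≥0∞) ^ (l + 1))⁻¹ * mass (m (l + 1)) x 11) := by
        refine add_le_add (hbase.trans (by gcongr)) (Finset.sum_le_sum fun l _ => ?_)
        exact (hstep l).trans (by gcongr)
    _ = _ := by
        rw [Finset.sum_range_succ', ← Finset.mul_sum, ← mul_add, pow_zero, inv_one, one_mul,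
          add_comm (mass (m 0) x 11)]

end H1UAux

open H1Aux

theorem h1U (d : ℕ) (hd : 1 ≤ d) : H1UStmt d := by
  obtain ⟨C, hC, hl⟩ := fld d hd
  have hd0 : (0 : ℝ) ≤ d := Nat.cast_nonneg d
  set c : ℝ := 4 * C + 4 * d * (4 * C) with hc
  have hc0 : 0 < c := by positivity
  refine ⟨Real.toNNReal (3 * c), ?_⟩
  intro u m μ K z x y R r hlev hcalc hx hr1 hr4 hy
  set T : ℝ≥0∞ := ∑ l ∈ Finset.range (K + 1), (4 ^ l)⁻¹ * mass (m l) x 11 with hT
  rcases eq_or_ne T ∞ with hT0 | hT0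
  · rw [hT0, ENNReal.mul_top (by simpa using hc0)]
    exact le_top
  have hF : ∀ (c0 : E d) (ρ ω : ℝ) (P : ℝ → E d → E d) (B : ℝ), ‖c0 - x‖ ≤ 4 → Good P B →
      1 / 2 ≤ ρ → 0 < ω → ρ + ω ≤ 5 → B ≤ 4 → B / ω ≤ 4 →
      |∫ y, inner ℝ (μ y) (Fld c0 ρ ω P y)| ≤ c * T.toReal := by
    intro c0 ρ ω P B h0 hP hρ hω h5 hB hB'
    obtain ⟨hY1, hY2, hY3⟩ := hl c0 ρ ω P B hP hρ hω h5
    have h1 := H1UAux.L0 hd hlev (Y := Fld c0 ρ ω P) (x := x) (C := 4 * C) (by positivity)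
      (fun y => (hY1 y).trans (by nlinarith)) (fun y y' => by
        have := hY3 c0 ρ y y' hρ h5
        simp only [sub_self, norm_zero, abs_zero, zero_add] at this
        refine this.trans (mul_le_mul_of_nonneg_right ?_ (norm_nonneg _))
        rw [mul_div_assoc]
        nlinarith) (fun y hy => hY2 y (by
        have := norm_sub_le_norm_sub_add_norm_sub y c0 x
        linarith))
    have h2 := ENNReal.toReal_mono (ENNReal.mul_ne_top ENNReal.ofReal_ne_top hT0) h1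
    rwa [ENNReal.toReal_ofReal (abs_nonneg _), ENNReal.toReal_mul,
      ENNReal.toReal_ofReal hc0.le] at h2
  have hnear : ∀ y' : E d, ‖y' - x‖ ≤ 4 → ‖y' - z‖ + 5 ≤ R := by
    intro y' h
    have := norm_sub_le_norm_sub_add_norm_sub y' x z
    linarith
  have hrad : ∀ (y' : E d) (a s : ℝ), ‖y' - x‖ ≤ 4 → 1 ≤ a → a ≤ s → s ≤ 5 →
      |u y' s - u y' a| ≤ c * T.toReal := by
    intro y' a s h ha has hs
    rcases eq_or_lt_of_le has with rfl | has
    · simp only [sub_self, abs_zero]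
      positivity
    have hω0 : 0 < s - a := by linarith
    have hg : Good (d := d) (fun _ w => (s - a) • w) (s - a) := good_lin hω0.le
    have hn := hnear y' h
    have h1 := hcalc.path y' 0 a (s - a) (by linarith) (by linarith) (by linarith)
      (by simpa using (by linarith : ‖y' - z‖ + s ≤ R))
    have h2 := fub d hd μ hcalc.int y' a (s - a) (fun _ w => (s - a) • w) hg.cont (by linarith)
      hω0.le
    simp only [add_zero, smul_zero, zero_add, add_sub_cancel] at h1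
    rw [h1, ← h2]
    exact hF y' a (s - a) _ _ h hg (by linarith) hω0 (by linarith) (by linarith)
      (by rw [div_self hω0.ne']; norm_num)
  have hUU : ∀ (y' : E d) (a : ℝ), ‖y' - x‖ ≤ 4 → 1 ≤ a → a ≤ 4 →
      |UU u 1 y' 4 - u y' a| ≤ c * T.toReal := by
    intro y' a h ha ha4
    have hco : ContinuousOn (u y') (Icc 1 5) := (cont d hd).continuousOn hcalc one_pos (hnear y' h)
    have hi : IntervalIntegrable (fun θ : ℝ => u y' (4 + θ * 1)) volume 0 1 := by
      refine ContinuousOn.intervalIntegrable_of_Icc zero_le_one (hco.comp (by fun_prop) ?_)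
      intro θ hθ
      constructor <;> linarith [hθ.1, hθ.2]
    have e : UU u 1 y' 4 - u y' a = ∫ θ in (0 : ℝ)..1, (u y' (4 + θ * 1) - u y' a) := by
      rw [intervalIntegral.integral_sub hi intervalIntegrable_const]
      simp [UU]
    rw [e, ← Real.norm_eq_abs]
    refine (intervalIntegral.norm_integral_le_of_norm_le_const (C := c * T.toReal)
      fun θ hθ => ?_).trans (by simp)
    rw [uIoc_of_le zero_le_one] at hθ
    exact hrad y' a _ h ha (by linarith [hθ.1]) (by linarith [hθ.2])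
  have hy4 : ‖y - x‖ ≤ 4 := hy.trans hr4
  have hmid : -(c * T.toReal) ≤ UU u 1 x 4 - UU u 1 y 4 := by
    have h1 := path d hd u μ z R hcalc y (x - y) 0 4 1 0 1 0 (by norm_num) (by norm_num) one_pos
      one_pos (by linarith [hnear y hy4]) (by simpa using (by linarith : ‖x - z‖ + 4 + 1 ≤ R))
      (-(c * T.toReal)) (fun t ht => ?_)
    · simpa using h1
    · simp only [mul_zero, add_zero, sub_self, zero_smul]
      have hn : ‖x - y‖ ≤ 4 := by rwa [norm_sub_rev]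
      refine (abs_le.1 (hF _ 4 1 _ 4 ?_ ⟨continuous_const, fun _ _ _ _ => hn, fun _ _ _ _ _ _ => ?_⟩
        (by norm_num) one_pos (by norm_num) le_rfl (by norm_num))).1
      · have : y + t • (x - y) - x = (1 - t) • (y - x) := by module
        rw [this, norm_smul, Real.norm_of_nonneg (by linarith [ht.2])]
        nlinarith [ht.1, norm_nonneg (y - x)]
      · simp
  have h1 := abs_le.1 (hUU y r hy4 hr1 hr4)
  have h2 := abs_le.1 (hUU x 4 (by simp) (by norm_num) le_rfl)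
  calc ENNReal.ofReal (u y r - u x 4) ≤ ENNReal.ofReal (3 * c * T.toReal) :=
        ENNReal.ofReal_le_ofReal (by linarith [h1.1, h2.2])
    _ = _ := by
        rw [ENNReal.ofReal_mul (by positivity), ENNReal.ofReal_toReal hT0]
        rfl

open ScaleAux in
theorem hgenU (d : ℕ) (hd : 1 ≤ d) : HUStmt d := by
  obtain ⟨C, hC⟩ := h1U d hd
  refine ⟨C, fun u m μ K z x ℓ R hℓ hm hu hx => ?_⟩
  obtain ⟨y, r, hr, hy, e⟩ := ((cont d hd).MU_spec hu hℓ (b := 4 * ℓ) (by linarith) (x := x)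
    (by linarith)).1
  have h1 := hC _ _ _ K _ (ℓ⁻¹ • x) (ℓ⁻¹ • y) _ (r / ℓ) (lev_scale hℓ hm) (calc_scale hℓ hu) (by
    rw [le_div_iff₀ hℓ, add_mul, mul_comm, ← norm_scale hℓ, smul_inv_smul₀ hℓ.ne']
    exact hx) ((one_le_div hℓ).2 hr.1) ((div_le_iff₀ hℓ).2 hr.2) (by
    rw [le_div_iff₀ hℓ, mul_comm, ← norm_scale hℓ, smul_inv_smul₀ hℓ.ne']
    exact hy)
  have h2 : ∀ l, nm (m l) ℓ 11 x = mass (fun y => m l (ℓ • y)) (ℓ⁻¹ • x) 11 := by
    intro l
    unfold nm mass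
    rw [lint_scale hℓ, ← mul_assoc,
      ENNReal.inv_mul_cancel (by simp; positivity) ENNReal.ofReal_ne_top, one_mul]
  simp only [smul_inv_smul₀ hℓ.ne', ← mul_sub, mul_comm ℓ 4, mul_div_cancel₀ _ hℓ.ne'] at h1
  simp only [h2, e]
  calc _ = ENNReal.ofReal ℓ * ENNReal.ofReal (ℓ⁻¹ * (u y r - u x (4 * ℓ))) := by
        rw [← ENNReal.ofReal_mul hℓ.le, ← mul_assoc, mul_inv_cancel₀ hℓ.ne', one_mul]
    _ ≤ ENNReal.ofReal ℓ * _ := mul_le_mul_right h1 _
    _ = _ := by ring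

theorem secondU (d : ℕ) (hd : 1 ≤ d) (hs : SumStmt d) : SecondUStmt d := by
  intro C₀ C₁
  obtain ⟨C, hH⟩ := hgenU d hd
  obtain ⟨C', hs⟩ := hs C₀ C₁
  refine ⟨C * C' * 2, ?_⟩
  intro ℓ K x₀ μ m D n ζ p hctx u hcalc
  have hℓ := hctx.pos
  have hbm : ∀ k, Measurable (bet 1 ℓ n p k) :=
    measurable_bet 1 ℓ hctx.dirs.cont hctx.wts.cont
  have hnm : ∀ k l, Measurable (nm (m (k + 3 + l)) (sc ℓ k) 11) := fun k l =>
    measurable_nm (hctx.fam.lev.meas _) _ _
  have hk : ∀ k, ∫⁻ x in ball x₀ (3 * ℓ),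
      ((ENNReal.ofReal (sc ℓ k))⁻¹ * bet 1 ℓ n p k x) *
        ENNReal.ofReal (MU u (sc ℓ k) (4 * sc ℓ k) x - u x (4 * sc ℓ k)) ≤
      C * ∑ l ∈ Finset.range (K + 3 + 1), ((4 : ℝ≥0∞) ^ l)⁻¹ *
        ∫⁻ x, bet 1 ℓ n p k x * nm (m (k + 3 + l)) (sc ℓ k) 11 x := by
    intro k
    have hsc := sc_pos hℓ k
    have hsl := sc_le hℓ k
    have h0 : ENNReal.ofReal (sc ℓ k) ≠ 0 := by simpa using hsc
    have hmeas : ∀ l, Measurable fun x => ((4 : ℝ≥0∞) ^ l)⁻¹ *
        (bet 1 ℓ n p k x * nm (m (k + 3 + l)) (sc ℓ k) 11 x) := fun l =>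
      ((hbm k).mul (hnm k l)).const_mul _
    have hm2 : Measurable fun x => (C : ℝ≥0∞) * ∑ l ∈ Finset.range (K + 3 + 1),
        ((4 : ℝ≥0∞) ^ l)⁻¹ * (bet 1 ℓ n p k x * nm (m (k + 3 + l)) (sc ℓ k) 11 x) :=
      (Finset.measurable_sum _ fun l _ => hmeas l).const_mul _
    refine (setLIntegral_mono hm2 fun x hx => ?_).trans
      ((setLIntegral_le_lintegral _ _).trans (le_of_eq ?_))
    · rw [mem_ball_iff_norm] at hx
      have h1 := hH u (fun l => m (k + 3 + l)) μ (K + 3) x₀ x (sc ℓ k) (13 * ℓ) hsc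
        (hctx.fam.lev_shift k) hcalc (by linarith)
      refine (mul_le_mul_right h1 _).trans (le_of_eq ?_)
      have h2 : ∑ l ∈ Finset.range (K + 3 + 1),
          ((4 : ℝ≥0∞) ^ l)⁻¹ * (bet 1 ℓ n p k x * nm (m (k + 3 + l)) (sc ℓ k) 11 x) =
          bet 1 ℓ n p k x * ∑ l ∈ Finset.range (K + 3 + 1),
            ((4 : ℝ≥0∞) ^ l)⁻¹ * nm (m (k + 3 + l)) (sc ℓ k) 11 x := by
        rw [Finset.mul_sum]
        exact Finset.sum_congr rfl fun l _ => by ring
      rw [h2]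
      calc _ = ((ENNReal.ofReal (sc ℓ k))⁻¹ * ENNReal.ofReal (sc ℓ k)) * (C * (bet 1 ℓ n p k x *
            ∑ l ∈ Finset.range (K + 3 + 1),
              ((4 : ℝ≥0∞) ^ l)⁻¹ * nm (m (k + 3 + l)) (sc ℓ k) 11 x)) := by ring
        _ = _ := by rw [ENNReal.inv_mul_cancel h0 ENNReal.ofReal_ne_top, one_mul]
    · rw [lintegral_const_mul _ (Finset.measurable_sum _ fun l _ => hmeas l),
        lintegral_finsetSum _ fun l _ => hmeas l]
      congr 1
      exact Finset.sum_congr rfl fun l _ => lintegral_const_mul _ ((hbm k).mul (hnm k l))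
  have hl : ∀ l : ℕ, ∑ k ∈ Finset.range (K + 1),
      ∫⁻ x, bet 1 ℓ n p k x * nm (m (k + 3 + l)) (sc ℓ k) 11 x ≤
      ((l : ℝ≥0∞) + 1) * (C' * (SS ℓ K m p + VV μ)) := by
    intro l
    have h1 := hs ℓ K x₀ μ m D n ζ p hctx 1 one_pos le_rfl l 11 (Or.inl (by norm_num))
    refine h1.trans ?_
    simp only [ENNReal.coe_one, one_mul, inv_one]
    have h2 : SS ℓ K m p ≤ ((l : ℝ≥0∞) + 1) * SS ℓ K m p :=
      le_mul_of_one_le_left (zero_le) le_add_self
    calc (C' : ℝ≥0∞) * (SS ℓ K m p + ((l : ℝ≥0∞) + 1) * VV μ)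
        ≤ C' * (((l : ℝ≥0∞) + 1) * SS ℓ K m p + ((l : ℝ≥0∞) + 1) * VV μ) := by gcongr
      _ = _ := by ring
  calc _ ≤ ∑ k ∈ Finset.range (K + 1), (C : ℝ≥0∞) * ∑ l ∈ Finset.range (K + 3 + 1),
        ((4 : ℝ≥0∞) ^ l)⁻¹ * ∫⁻ x, bet 1 ℓ n p k x * nm (m (k + 3 + l)) (sc ℓ k) 11 x :=
        Finset.sum_le_sum fun k _ => hk k
    _ = C * ∑ l ∈ Finset.range (K + 3 + 1), ((4 : ℝ≥0∞) ^ l)⁻¹ * ∑ k ∈ Finset.range (K + 1),
        ∫⁻ x, bet 1 ℓ n p k x * nm (m (k + 3 + l)) (sc ℓ k) 11 x := by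
        rw [← Finset.mul_sum, Finset.sum_comm]
        congr 1
        exact Finset.sum_congr rfl fun l _ => (Finset.mul_sum _ _ _).symm
    _ ≤ C * ∑ l ∈ Finset.range (K + 3 + 1), (((4 : ℝ≥0∞) ^ l)⁻¹ * ((l : ℝ≥0∞) + 1)) *
        (C' * (SS ℓ K m p + VV μ)) := by
        refine mul_le_mul_right (Finset.sum_le_sum fun l _ => ?_) _
        rw [mul_assoc]
        exact mul_le_mul_right (hl l) _
    _ ≤ C * (2 * (C' * (SS ℓ K m p + VV μ))) := by
        rw [← Finset.sum_mul]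
        exact mul_le_mul_right (mul_le_mul_left (geo _) _) _
    _ = _ := by push_cast; ring

end Vale.Agent.P137
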