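import Vale.Agent.P137.UStmts
import Vale.Agent.P137.Lim

open MeasureTheory Metric Set Filter
open scoped ENNReal NNReal Topology

namespace Vale.Agent.P137

variable {d : ℕ}

namespace LimUAux

theorem loc {p a b : E d → ℝ≥0∞} (hp : Measurable p) (ha : Measurable a) (hb : Measurable b)
    {l : ℝ} (hl : 0 < l) (C : ℝ≥0) {δ : ℝ≥0∞}
    (hδ : ∀ x y, y ∈ ball x (13 * l) → p y ≤ p x + δ)
    (h : ∀ x₀, ∫⁻ x in ball x₀ l, a x ≤ C * ∫⁻ y in ball x₀ (13 * l), b y) :
    ∫⁻ x, p x * a x ≤ (∫⁻ x, p x * (C * 13 ^ d * b x)) + δ * (2 * (C * 13 ^ d * ∫⁻ y, b y)) := by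
  have hp' : Measurable fun x => p x + δ := hp.add_const δ
  have h1 := av_loc (a := p) hp' ha (r := l) fun x y hy =>
    hδ x y (ball_subset_ball (by linarith) hy)
  have hv : ∀ y : E d, volume (ball y (13 * l)) = 13 ^ d * volume (ball (0 : E d) l) := by
    intro y
    rw [Measure.addHaar_ball_mul_of_pos _ _ (by norm_num : (0 : ℝ) < 13), finrank_euclideanSpace,
      Fintype.card_fin, ENNReal.ofReal_pow (by norm_num), ENNReal.ofReal_ofNat]
  have h2 : ∫⁻ x, (p x + δ) * ∫⁻ y in ball x l, a y ≤ volume (ball (0 : E d) l) *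
      ((∫⁻ x, p x * (C * 13 ^ d * b x)) + δ * (2 * (C * 13 ^ d * ∫⁻ y, b y))) := by
    calc ∫⁻ x, (p x + δ) * ∫⁻ y in ball x l, a y
        ≤ ∫⁻ x, C * ((p x + δ) * ∫⁻ y in ball x (13 * l), b y) := lintegral_mono fun x => by
          rw [mul_left_comm]; exact mul_le_mul_right (h x) _
      _ = C * ∫⁻ y, (∫⁻ x in ball y (13 * l), (p x + δ)) * b y := by
          rw [lintegral_const_mul' _ _ ENNReal.coe_ne_top, lintegral_mul_ballInt hp' hb]
      _ ≤ C * ∫⁻ y, volume (ball (0 : E d) l) * (p y * (13 ^ d * b y) + δ * (2 * 13 ^ d) * b y) := by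
          refine mul_le_mul_right (lintegral_mono fun y => ?_) _
          have : ∫⁻ x in ball y (13 * l), (p x + δ) ≤ (p y + δ + δ) * volume (ball y (13 * l)) := by
            rw [← setLIntegral_const]
            exact setLIntegral_mono measurable_const fun x hx => add_le_add (hδ y x hx) le_rfl
          refine (mul_le_mul_left this _).trans (le_of_eq ?_)
          rw [hv]
          ring
      _ = _ := by
          have m1 : Measurable fun y => p y * (13 ^ d * b y) := hp.mul (hb.const_mul _)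
          have e : ∀ x, p x * (C * 13 ^ d * b x) = C * (p x * (13 ^ d * b x)) := fun x => by ring
          simp only [e]
          rw [lintegral_const_mul' _ _ measure_ball_lt_top.ne, lintegral_add_left m1,
            lintegral_const_mul _ hb, lintegral_const_mul _ m1]
          ring
  exact (ENNReal.mul_le_mul_iff_right (measure_ball_pos _ _ hl).ne'
    measure_ball_lt_top.ne).1 (h1.trans h2)

theorem pair {G : E d → E d} (φ : E d → ℝ) (v : E d) :
    ENNReal.ofReal |∫ x, inner ℝ (G x) v * φ x| ≤ ‖v‖ₑ * ∫⁻ x, ‖φ x‖ₑ * ‖G x‖ₑ := by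
  rw [← Real.norm_eq_abs, ofReal_norm, ← lintegral_const_mul' _ _ enorm_ne_top]
  refine (enorm_integral_le_lintegral_enorm _).trans (lintegral_mono fun x => ?_)
  rw [← ofReal_norm, ← ofReal_norm v, ← ofReal_norm (φ x), ← ofReal_norm (G x),
    ← ENNReal.ofReal_mul (norm_nonneg _), ← ENNReal.ofReal_mul (norm_nonneg _)]
  refine ENNReal.ofReal_le_ofReal ?_
  rw [norm_mul]
  exact (mul_le_mul_of_nonneg_right (norm_inner_le_norm (𝕜 := ℝ) (G x) v) (norm_nonneg _)).trans
    (le_of_eq (by ring))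

end LimUAux

open LimAux LimUAux in
theorem limU (d : ℕ) (hd : 1 ≤ d) : LimUStmt d := by
  intro g h g' F A C hA hFm hFi hg hh hmax hgA hhF hg' hle hlim
  have hgc : ∀ K, Continuous (g K) := fun K => (hg K).choose_spec.continuous
  have hmono : ∀ K K', K ≤ K' → ∀ x, g K x ≤ g K' x := by
    intro K K' hK x
    obtain ⟨t, rfl⟩ := Nat.exists_eq_add_of_le hK
    rw [hmax]
    exact le_max_left _ _
  set li : E d → ℝ≥0∞ := fun x => liminf (fun K => ‖gradient (g K) x‖ₑ) atTop with hli
  have hlm : Measurable li := Measurable.liminf fun K => (measurable_gradient _).enorm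
  have hFm' : Measurable fun x => (C : ℝ≥0∞) * 13 ^ d * ‖F x‖ₑ := hFm.enorm.const_mul _
  refine ⟨fun x => li x + C * 13 ^ d * ‖F x‖ₑ, hlm.add hFm', ?_, fun φ hφ hcs v => ?_⟩
  · rw [lintegral_add_left hlm, lintegral_const_mul _ hFm.enorm]
    refine add_le_add ((lintegral_liminf_le fun K => (measurable_gradient _).enorm).trans ?_) le_rfl
    exact liminf_le_of_frequently_le' (Eventually.of_forall hgA).frequently
  have hφc : Continuous φ := hφ.continuous
  have hp : Measurable fun x => ‖φ x‖ₑ := hφc.measurable.enorm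
  have hdc : Continuous fun x => fderiv ℝ φ x v :=
    (hφ.continuous_fderiv (by simp)).clm_apply continuous_const
  have hds : HasCompactSupport fun x => fderiv ℝ φ x v := hcs.fderiv_apply ℝ v
  obtain ⟨B0, hB0⟩ := hcs.exists_bound_of_continuous hφc
  obtain ⟨D, hD⟩ := ContDiff.lipschitzWith_of_hasCompactSupport hcs hφ (by simp)
  have t1 : Tendsto (fun K => ∫ x, g K x * fderiv ℝ φ x v) atTop
      (𝓝 (∫ x, g' x * fderiv ℝ φ x v)) := by
    refine tendsto_integral_of_dominated_convergence (fun x => ‖fderiv ℝ φ x v‖ • g' x)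
      (fun K => ((hgc K).mul hdc).aestronglyMeasurable)
      (hg'.integrable_smul_left_of_hasCompactSupport hdc.norm hds.norm) (fun K => ?_) ?_
    · filter_upwards [hle K] with x hx
      rw [norm_mul, mul_comm, smul_eq_mul]
      exact mul_le_mul_of_nonneg_left hx (norm_nonneg _)
    · filter_upwards [hlim] with x hx
      exact hx.mul_const _
  have hdiff : ∀ᵐ x, (∀ K, DifferentiableAt ℝ (g K) x) ∧ ∀ K t, DifferentiableAt ℝ (h K t) x :=
    (ae_all_iff.2 fun K => (hg K).choose_spec.ae_differentiableAt).and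
      (ae_all_iff.2 fun K => ae_all_iff.2 fun t => (hh K t).choose_spec.ae_differentiableAt)
  set X : ℝ≥0∞ := ∫⁻ x, ‖φ x‖ₑ * (li x + C * 13 ^ d * ‖F x‖ₑ) with hX
  set Z : ℝ≥0∞ := ‖v‖ₑ * (2 * (C * 13 ^ d * ∫⁻ y, ‖F y‖ₑ)) with hZ
  have hZ' : Z ≠ ∞ := ENNReal.mul_ne_top enorm_ne_top (ENNReal.mul_ne_top (by norm_num)
    (ENNReal.mul_ne_top (ENNReal.mul_ne_top ENNReal.coe_ne_top
      (ENNReal.pow_ne_top (by norm_num))) hFi.2.ne))
  have key : ∀ K0 : ℕ, ENNReal.ofReal |∫ x, g' x * fderiv ℝ φ x v| ≤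
      ‖v‖ₑ * X + ENNReal.ofReal (D * (13 * sc 1 K0)) * Z := by
    intro K0
    set S : Set (E d) := {x | ∀ t, g (K0 + t) x = g K0 x} with hS
    have hSm : MeasurableSet S := by
      simp only [hS, ofPred_forall]
      exact MeasurableSet.iInter fun t => (isClosed_eq (hgc _) (hgc _)).measurableSet
    set B : ℕ → Set (E d) := fun t => {x | g (K0 + t) x = g K0 x} \ S with hB
    have hBm : ∀ t, MeasurableSet (B t) := fun t =>
      (isClosed_eq (hgc _) (hgc _)).measurableSet.diff hSm
    have t2 := tendsto_anti (Φ := fun x => ‖φ x‖ₑ * ‖gradient (g K0) x‖ₑ)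
      (by
        refine ne_top_of_le_ne_top (ENNReal.mul_ne_top (ENNReal.ofReal_ne_top (r := B0)) hA) ?_
        refine le_trans ?_ (mul_le_mul_right (hgA K0) _)
        rw [← lintegral_const_mul' _ _ ENNReal.ofReal_ne_top]
        refine lintegral_mono fun x => mul_le_mul_left ?_ _
        rw [← ofReal_norm]
        exact ENNReal.ofReal_le_ofReal (hB0 x))
      hBm (fun t t' ht => sdiff_subset_sdiff_left fun x hx => le_antisymm
        ((hmono _ _ (by omega) x).trans_eq hx) (hmono _ _ (by omega) x))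
      (eq_empty_of_forall_notMem fun x hx =>
        (mem_iInter.1 hx 0).2 fun t => (mem_iInter.1 hx t).1)
    have t3 := (ENNReal.Tendsto.const_mul (a := ‖v‖ₑ) t2 (Or.inr enorm_ne_top)).const_add
      (‖v‖ₑ * X + ENNReal.ofReal (D * (13 * sc 1 K0)) * Z)
    rw [mul_zero, add_zero] at t3
    have t4 := ENNReal.tendsto_ofReal ((t1.comp (tendsto_add_atTop_nat K0)).abs)
    refine le_of_tendsto_of_tendsto' t4 t3 fun t => ?_
    obtain ⟨L, hL⟩ := hg (K0 + t)
    simp only [Function.comp, add_comm t K0]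
    rw [ibp d hd _ L hL φ hφ hcs v, abs_neg]
    refine (pair φ v).trans ?_
    have k1 : ∀ᵐ x, ‖φ x‖ₑ * ‖gradient (g (K0 + t)) x‖ₑ ≤ ‖φ x‖ₑ * li x +
        ‖φ x‖ₑ * ‖gradient (h K0 t) x‖ₑ +
          (B t).indicator (fun x => ‖φ x‖ₑ * ‖gradient (g K0) x‖ₑ) x := by
      filter_upwards [hdiff] with x hx
      by_cases h2 : g (K0 + t) x = g K0 x
      · rw [← grad_touch (hx.1 K0) (hx.1 _) (hmono _ _ (Nat.le_add_right _ t)) h2.symm]
        by_cases h1 : x ∈ S
        · refine le_add_right (le_add_right (mul_le_mul_right ?_ _))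
          refine le_liminf_of_le (by isBoundedDefault) ?_
          filter_upwards [eventually_ge_atTop K0] with K hK
          obtain ⟨s, rfl⟩ := Nat.exists_eq_add_of_le hK
          rw [grad_touch (hx.1 K0) (hx.1 _) (hmono _ _ hK) (h1 s).symm]
        · rw [indicator_of_mem (show x ∈ B t from ⟨h2, h1⟩)]
          exact le_add_self
      · have h3 : h K0 t x = g (K0 + t) x := by
          rw [hmax] at h2 ⊢
          exact ((max_choice _ _).resolve_left h2).symm
        rw [← grad_touch (hx.2 K0 t) (hx.1 _) (fun y => by rw [hmax]; exact le_max_right _ _) h3]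
        exact le_add_right le_add_self
    have k2 := loc hp (measurable_gradient (h K0 t)).enorm hFm.enorm (sc_pos one_pos K0) C
      (δ := ENNReal.ofReal (D * (13 * sc 1 K0))) (fun x y hy => by
        rw [← ofReal_norm, ← ofReal_norm, ← ENNReal.ofReal_add (norm_nonneg (φ x))
          (mul_nonneg D.coe_nonneg (pos_of_mem_ball hy).le)]
        refine ENNReal.ofReal_le_ofReal ?_
        have h1 := hD.dist_le_mul y x
        have h2 := mul_le_mul_of_nonneg_left (mem_ball.1 hy).le D.coe_nonneg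
        have h3 := norm_le_norm_add_norm_sub' (φ y) (φ x)
        rw [dist_eq_norm] at h1
        exact h3.trans (add_le_add le_rfl (h1.trans h2))) (hhF K0 t)
    have k3 := lintegral_mono_ae k1
    have m0 : Measurable fun x => ‖φ x‖ₑ * li x := hp.mul hlm
    have m1 : Measurable fun x => ‖φ x‖ₑ * ‖gradient (g K0) x‖ₑ :=
      hp.mul (measurable_gradient _).enorm
    rw [lintegral_add_right _ (m1.indicator (hBm t)), lintegral_add_left m0,
      lintegral_indicator (hBm t)] at k3
    have e : X = (∫⁻ x, ‖φ x‖ₑ * li x) + ∫⁻ x, ‖φ x‖ₑ * (C * 13 ^ d * ‖F x‖ₑ) := by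
      rw [← lintegral_add_left m0]
      exact lintegral_congr fun x => mul_add _ _ _
    refine (mul_le_mul_right (k3.trans (add_le_add (add_le_add le_rfl k2) le_rfl)) _).trans
      (le_of_eq ?_)
    rw [e, hZ]
    ring
  have t5 : Tendsto (fun K : ℕ => (D : ℝ) * (13 * sc 1 K)) atTop (𝓝 (D * (13 * 0))) := by
    refine Tendsto.const_mul _ (Tendsto.const_mul _ ?_)
    unfold sc
    exact tendsto_const_nhds.div_atTop (tendsto_pow_atTop_atTop_of_one_lt (by norm_num))
  have t6 := (ENNReal.Tendsto.mul_const (b := Z) (ENNReal.tendsto_ofReal t5)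
    (Or.inr hZ')).const_add (‖v‖ₑ * X)
  simp only [mul_zero, ENNReal.ofReal_zero, zero_mul, add_zero] at t6
  exact ge_of_tendsto' t6 key

end Vale.Agent.P137
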