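import Vale.Agent.P137.UStmts

open MeasureTheory Metric Set Filter
open scoped ENNReal NNReal Topology ContDiff

namespace Vale.Agent.P137

namespace RNAux

/-- Hahn-Banach and Riesz. -/
theorem riesz {V H : Type} [AddCommGroup V] [Module ℝ V] [NormedAddCommGroup H]
    [InnerProductSpace ℝ H] [CompleteSpace H] (T : V →ₗ[ℝ] H) (Λ : V →ₗ[ℝ] ℝ) {c : ℝ}
    (hc : 0 ≤ c) (h : ∀ φ, |Λ φ| ≤ c * ‖T φ‖) :
    ∃ γ : H, ‖γ‖ ≤ c ∧ ∀ φ, Λ φ = inner ℝ γ (T φ) := by
  obtain ⟨S, hS⟩ := T.rangeRestrict.exists_rightInverse_of_surjective T.range_rangeRestrict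
  have h1 : ∀ y : LinearMap.range T, T (S y) = y := fun y =>
    congrArg Subtype.val (LinearMap.congr_fun hS y)
  have h2 : ∀ y : LinearMap.range T, ‖(Λ ∘ₗ S) y‖ ≤ c * ‖y‖ := fun y => by
    have := h (S y)
    rw [h1] at this
    exact this
  obtain ⟨g, hg1, hg2⟩ := exists_extension_norm_eq (LinearMap.range T)
    ((Λ ∘ₗ S).mkContinuous c h2)
  refine ⟨(InnerProductSpace.toDual ℝ H).symm g, ?_, fun φ => ?_⟩
  · rw [LinearIsometryEquiv.norm_map, hg2]
    exact LinearMap.mkContinuous_norm_le _ hc _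
  · rw [InnerProductSpace.toDual_symm_apply]
    have h3 := hg1 ⟨T φ, φ, rfl⟩
    have h4 := h (S ⟨T φ, φ, rfl⟩ - φ)
    rw [map_sub, map_sub, h1, sub_self, norm_zero, mul_zero, abs_nonpos_iff, sub_eq_zero] at h4
    exact h4.symm.trans h3.symm

variable {d : ℕ}

/-- test functions -/
def Tst (d : ℕ) : Submodule ℝ (E d → ℝ) where
  carrier := {φ | ContDiff ℝ ∞ φ ∧ HasCompactSupport φ}
  add_mem' := fun h h' => ⟨h.1.add h'.1, h.2.add h'.2⟩
  zero_mem' := ⟨contDiff_const, HasCompactSupport.zero⟩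
  smul_mem' := fun c _ h => ⟨contDiff_const.smul h.1, h.2.smul_left (f := fun _ => c)⟩

theorem int_test {g : E d → ℝ} (hg : LocallyIntegrable g) {φ : E d → ℝ} (h1 : ContDiff ℝ ∞ φ)
    (h2 : HasCompactSupport φ) (v : E d) : Integrable fun x => g x * fderiv ℝ φ x v :=
  hg.integrable_smul_right_of_hasCompactSupport
    ((h1.continuous_fderiv (by simp)).clm_apply continuous_const) (h2.fderiv_apply ℝ v)

theorem l1_le (ν : Measure (E d)) (f : Lp ℝ 2 ν) :
    ∫⁻ x, ‖f x‖ₑ ∂ν ≤ ‖f‖ₑ * ν univ ^ (1 / 2 : ℝ) := by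
  have h := eLpNorm_le_eLpNorm_mul_rpow_measure_univ (p := 1) (q := 2) one_le_two
    (Lp.aestronglyMeasurable f)
  rw [eLpNorm_one_eq_lintegral_enorm, ← Lp.enorm_def] at h
  norm_num at h ⊢
  exact h

theorem one_dir {g : E d → ℝ} {om : E d → ℝ≥0∞} (hm : Measurable om) (hf : ∫⁻ x, om x ≠ ⊤)
    (hg : LocallyIntegrable g) (v : E d)
    (h : ∀ φ : E d → ℝ, ContDiff ℝ ∞ φ → HasCompactSupport φ →
      ENNReal.ofReal |∫ x, g x * fderiv ℝ φ x v| ≤ ∫⁻ x, ‖φ x‖ₑ * om x) :
    ∃ w : E d → ℝ, Integrable w ∧ ∫⁻ x, ‖w x‖ₑ ≤ ∫⁻ x, om x ∧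
      ∀ φ : E d → ℝ, ContDiff ℝ ∞ φ → HasCompactSupport φ →
        ∫ x, g x * fderiv ℝ φ x v = ∫ x, w x * φ x := by
  set ν := volume.withDensity om with hν
  have : IsFiniteMeasure ν := isFiniteMeasure_withDensity hf
  have hlt : ∀ᵐ x, om x < ⊤ := ae_lt_top hm hf
  have hνi : ∀ f : E d → ℝ≥0∞, Measurable f → ∫⁻ x, f x ∂ν = ∫⁻ x, om x * f x := fun f h =>
    lintegral_withDensity_eq_lintegral_mul _ hm h
  have hmem : ∀ φ : Tst d, MemLp φ.1 2 ν := fun φ =>
    φ.2.1.continuous.memLp_of_hasCompactSupport φ.2.2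
  let T : Tst d →ₗ[ℝ] Lp ℝ 2 ν :=
    { toFun := fun φ => (hmem φ).toLp φ.1
      map_add' := fun φ ψ => MemLp.toLp_add (hmem φ) (hmem ψ)
      map_smul' := fun c φ => MemLp.toLp_const_smul c (hmem φ) }
  let Λ : Tst d →ₗ[ℝ] ℝ :=
    { toFun := fun φ => ∫ x, g x * fderiv ℝ φ.1 x v
      map_add' := fun φ ψ => by
        rw [← integral_add (int_test hg φ.2.1 φ.2.2 v) (int_test hg ψ.2.1 ψ.2.2 v)]
        refine integral_congr_ae (.of_forall fun x => ?_)
        simp only [Submodule.coe_add]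
        rw [fderiv_add (φ.2.1.differentiable (by simp) x) (ψ.2.1.differentiable (by simp) x),
          add_apply, mul_add]
      map_smul' := fun c φ => by
        rw [RingHom.id_apply, smul_eq_mul, ← integral_const_mul]
        refine integral_congr_ae (.of_forall fun x => ?_)
        simp only [Submodule.coe_smul]
        rw [fderiv_const_smul (φ.2.1.differentiable (by simp) x), smul_apply,
          smul_eq_mul, mul_left_comm] }
  have hfin : ν univ ^ (1 / 2 : ℝ) ≠ ⊤ :=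
    ENNReal.rpow_ne_top_of_nonneg (by norm_num) (measure_ne_top _ _)
  obtain ⟨γ, hγ1, hγ2⟩ := riesz T Λ (c := (ν univ ^ (1 / 2 : ℝ)).toReal) ENNReal.toReal_nonneg
    fun φ => by
      have h1 : ∫⁻ x, ‖φ.1 x‖ₑ * om x = ∫⁻ x, ‖T φ x‖ₑ ∂ν := by
        refine Eq.trans ?_ (lintegral_congr_ae (g := fun x => ‖φ.1 x‖ₑ) (μ := ν)
          ((hmem φ).coeFn_toLp.mono fun x hx => congrArg enorm hx)).symm
        rw [hνi _ φ.2.1.continuous.measurable.enorm]
        exact lintegral_congr fun x => mul_comm _ _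
      have h2 := (h φ.1 φ.2.1 φ.2.2).trans (h1.le.trans (l1_le ν (T φ)))
      rw [ENNReal.ofReal_le_iff_le_toReal (ENNReal.mul_ne_top enorm_ne_top hfin),
        ENNReal.toReal_mul, toReal_enorm, mul_comm] at h2
      exact h2
  refine ⟨fun x => γ x * (om x).toReal, (integrable_withDensity_iff hm hlt).1
    ((Lp.memLp γ).integrable one_le_two), ?_, fun φ h1 h2 => ?_⟩
  · have h1 : ∫⁻ x, ‖γ x * (om x).toReal‖ₑ ≤ ∫⁻ x, ‖γ x‖ₑ ∂ν := by
      rw [hνi _ (Lp.stronglyMeasurable γ).measurable.enorm]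
      refine lintegral_mono fun x => ?_
      rw [enorm_mul, mul_comm, Real.enorm_eq_ofReal ENNReal.toReal_nonneg]
      exact mul_le_mul_left ENNReal.ofReal_toReal_le _
    have h2 : ‖γ‖ₑ ≤ ν univ ^ (1 / 2 : ℝ) := by
      rw [← ofReal_norm]
      exact ENNReal.ofReal_le_of_le_toReal hγ1
    refine h1.trans ((l1_le ν γ).trans ((mul_le_mul_left h2 _).trans (le_of_eq ?_)))
    rw [← ENNReal.rpow_add_of_nonneg _ _ (by norm_num) (by norm_num), add_halves, ENNReal.rpow_one,
      hν, withDensity_apply _ MeasurableSet.univ, Measure.restrict_univ]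
  · refine (hγ2 ⟨φ, h1, h2⟩).trans ?_
    rw [L2.inner_def, integral_congr_ae (g := fun x => γ x * φ x),
      integral_withDensity_eq_integral_toReal_smul hm hlt]
    · exact integral_congr_ae (.of_forall fun x => by simp only [smul_eq_mul]; ring)
    · filter_upwards [(hmem ⟨φ, h1, h2⟩).coeFn_toLp] with x hx
      have : T ⟨φ, h1, h2⟩ x = φ x := hx
      rw [this]
      simp [mul_comm]

end RNAux

open RNAux in
theorem rn (d : ℕ) (_hd : 1 ≤ d) : RNStmt d := by
  intro g om hm hf h hg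
  let b := EuclideanSpace.basisFun (Fin d) ℝ
  have key := fun i => one_dir hm hf hg (b i) fun φ h1 h2 => by
    have := h φ h1 h2 (b i)
    rwa [← ofReal_norm, b.orthonormal.1 i, ENNReal.ofReal_one, one_mul] at this
  choose w hw1 hw2 hw3 using key
  refine ⟨fun x => -∑ i, w i x • b i,
    (integrable_finsetSum _ fun i _ => (hw1 i).smul_const _).neg, fun φ h1 h2 v => ?_, ?_⟩
  · have e1 : ∀ x, g x * fderiv ℝ φ x v = ∑ i, inner ℝ (b i) v * (g x * fderiv ℝ φ x (b i)) := by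
      intro x
      conv_lhs => rw [← b.sum_repr' v]
      rw [map_sum, Finset.mul_sum]
      refine Finset.sum_congr rfl fun i _ => ?_
      rw [map_smul, smul_eq_mul, mul_left_comm]
    have e2 : ∀ x, inner ℝ (-∑ i, w i x • b i) v * φ x =
        -∑ i, inner ℝ (b i) v * (w i x * φ x) := by
      intro x
      rw [inner_neg_left, sum_inner, neg_mul, Finset.sum_mul]
      congr 1
      refine Finset.sum_congr rfl fun i _ => ?_
      rw [real_inner_smul_left]
      ring
    have e3 : ∀ i, Integrable fun x => w i x * φ x := fun i =>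
      (hw1 i).locallyIntegrable.integrable_smul_right_of_hasCompactSupport h1.continuous h2
    simp only [e1, e2]
    rw [integral_neg, neg_neg,
      integral_finsetSum _ fun i _ => (int_test hg h1 h2 (b i)).const_mul _,
      integral_finsetSum _ fun i _ => (e3 i).const_mul _]
    refine Finset.sum_congr rfl fun i _ => ?_
    rw [integral_const_mul, integral_const_mul, hw3 i φ h1 h2]
  · have e1 : ∀ x, ‖-∑ i, w i x • b i‖ₑ ≤ ∑ i, ‖w i x‖ₑ := by
      intro x
      rw [enorm_neg]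
      refine (enorm_sum_le _ _).trans (le_of_eq (Finset.sum_congr rfl fun i _ => ?_))
      rw [enorm_smul, ← ofReal_norm (b i), b.orthonormal.1 i, ENNReal.ofReal_one, mul_one]
    refine (lintegral_mono e1).trans ?_
    rw [lintegral_finsetSum' _ fun i _ => (hw1 i).aestronglyMeasurable.enorm]
    refine (Finset.sum_le_sum fun i _ => hw2 i).trans (le_of_eq ?_)
    simp

end Vale.Agent.P137
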