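import Vale.Agent.P137.UStmts

open MeasureTheory Metric Set Filter
open scoped ENNReal NNReal Topology

namespace Vale.Agent.P137

namespace RunAux

variable {d : ℕ}

/-- length of the backward segment -/
noncomputable def tt (v xc : E d) (ρ : ℝ) (x : E d) : ℝ :=
  max (inner ℝ (x - xc) v / ‖v‖ ^ 2 + 4 * ρ) 0

/-- running minimum -/
noncomputable def mm (g : E d → ℝ) (v xc : E d) (ρ : ℝ) (x : E d) : ℝ :=
  sInf ((fun θ : ℝ => g (x - (θ * tt v xc ρ x) • v)) '' Icc 0 1)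

variable {g : E d → ℝ} {v xc : E d} {ρ : ℝ}

theorem tt_nonneg (x : E d) : 0 ≤ tt v xc ρ x := le_max_right _ _

theorem inner_le (hv : 1 ≤ ‖v‖) (w : E d) : |inner ℝ w v / ‖v‖ ^ 2| * ‖v‖ ≤ ‖w‖ := by
  have h0 : 0 < ‖v‖ := by linarith
  rw [abs_div, abs_of_pos (by positivity : 0 < ‖v‖ ^ 2), div_mul_eq_mul_div,
    div_le_iff₀ (by positivity)]
  nlinarith [abs_real_inner_le_norm w v]

theorem tt_lip (hv : 1 ≤ ‖v‖) (x y : E d) : |tt v xc ρ x - tt v xc ρ y| * ‖v‖ ≤ ‖x - y‖ := by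
  refine le_trans (mul_le_mul_of_nonneg_right ?_ (norm_nonneg v)) (inner_le hv (x - y))
  refine (abs_max_sub_max_le_abs _ _ _).trans (le_of_eq ?_)
  congr 1
  simp only [inner_sub_left]
  ring

theorem tt_add (hv : 1 ≤ ‖v‖) {x : E d} (hx : x ∈ ball xc (4 * ρ)) {c : ℝ} (hc : 0 ≤ c) :
    tt v xc ρ (x + c • v) = tt v xc ρ x + c ∧ tt v xc ρ x ≤ 8 * ρ := by
  have h0 : 0 < ‖v‖ := by linarith
  have h1 := inner_le hv (x - xc)
  rw [mem_ball_iff_norm] at hx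
  have h2 : |inner ℝ (x - xc) v / ‖v‖ ^ 2| ≤ 4 * ρ := by
    nlinarith [abs_nonneg (inner ℝ (x - xc) v / ‖v‖ ^ 2)]
  obtain ⟨h3, h4⟩ := abs_le.1 h2
  have h5 : inner ℝ (x + c • v - xc) v / ‖v‖ ^ 2 = inner ℝ (x - xc) v / ‖v‖ ^ 2 + c := by
    rw [add_sub_right_comm, inner_add_left, real_inner_smul_left, real_inner_self_eq_norm_sq]
    field_simp
  unfold tt
  rw [h5, max_eq_left (by linarith), max_eq_left (by linarith)]
  constructor <;> linarith

theorem mm_spec (hg : Continuous g) (x : E d) :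
    (∃ θ ∈ Icc (0 : ℝ) 1, mm g v xc ρ x = g (x - (θ * tt v xc ρ x) • v)) ∧
      ∀ θ ∈ Icc (0 : ℝ) 1, mm g v xc ρ x ≤ g (x - (θ * tt v xc ρ x) • v) := by
  obtain ⟨θ, h1, h2, h3⟩ := (isCompact_Icc (a := (0 : ℝ)) (b := 1)).exists_sInf_image_eq_and_le
    (nonempty_Icc.2 zero_le_one)
    (f := fun θ : ℝ => g (x - (θ * tt v xc ρ x) • v)) (by fun_prop)
  exact ⟨⟨θ, h1, h2⟩, fun θ' h => h2.le.trans (h3 θ' h)⟩

theorem mm_eq (hg : Continuous g) (x : E d) :
    ∃ s ∈ Icc 0 (tt v xc ρ x), mm g v xc ρ x = g (x - s • v) := by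
  obtain ⟨θ, h1, h2⟩ := (mm_spec (v := v) (xc := xc) (ρ := ρ) hg x).1
  exact ⟨_, ⟨mul_nonneg h1.1 (tt_nonneg x), mul_le_of_le_one_left (tt_nonneg x) h1.2⟩, h2⟩

theorem mm_le (hg : Continuous g) (x : E d) {s : ℝ} (hs : s ∈ Icc 0 (tt v xc ρ x)) :
    mm g v xc ρ x ≤ g (x - s • v) := by
  have h := (mm_spec (v := v) (xc := xc) (ρ := ρ) hg x).2 (s / tt v xc ρ x)
    ⟨div_nonneg hs.1 (tt_nonneg x), div_le_one_of_le₀ hs.2 (tt_nonneg x)⟩
  rcases (tt_nonneg (v := v) (xc := xc) (ρ := ρ) x).eq_or_lt with h0 | h0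
  · have : s = 0 := le_antisymm (h0 ▸ hs.2) hs.1
    simpa [this] using h
  · rwa [div_mul_cancel₀ _ h0.ne'] at h

theorem mm_le_self (hg : Continuous g) (x : E d) : mm g v xc ρ x ≤ g x := by
  simpa using mm_le (v := v) (xc := xc) (ρ := ρ) hg x ⟨le_rfl, tt_nonneg x⟩

theorem mm_lip {L : ℝ≥0} (hg : LipschitzWith L g) (hv : 1 ≤ ‖v‖) :
    LipschitzWith (2 * L) (mm g v xc ρ) := by
  refine LipschitzWith.of_le_add_mul _ fun x y => ?_
  obtain ⟨θ, h1, h2⟩ := (mm_spec (v := v) (xc := xc) (ρ := ρ) hg.continuous y).1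
  refine ((mm_spec hg.continuous x).2 θ h1).trans ?_
  rw [h2]
  have h3 := hg.le_add_mul (x - (θ * tt v xc ρ x) • v) (y - (θ * tt v xc ρ y) • v)
  have h4 : dist (x - (θ * tt v xc ρ x) • v) (y - (θ * tt v xc ρ y) • v) ≤ 2 * dist x y := by
    rw [dist_eq_norm, dist_eq_norm]
    have e : x - (θ * tt v xc ρ x) • v - (y - (θ * tt v xc ρ y) • v) =
        (x - y) - (θ * (tt v xc ρ x - tt v xc ρ y)) • v := by module
    rw [e]
    refine (norm_sub_le _ _).trans ?_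
    rw [norm_smul, Real.norm_eq_abs, abs_mul, abs_of_nonneg h1.1, mul_assoc]
    have h5 := tt_lip (xc := xc) (ρ := ρ) hv x y
    have h6 := mul_le_of_le_one_left (by positivity : 0 ≤ |tt v xc ρ x - tt v xc ρ y| * ‖v‖) h1.2
    linarith
  have h5 := mul_le_mul_of_nonneg_left h4 L.coe_nonneg
  push_cast
  linarith

theorem mm_anti (hg : Continuous g) (hv : 1 ≤ ‖v‖) {x : E d} (hx : x ∈ ball xc (4 * ρ))
    {c c' : ℝ} (hc : 0 ≤ c) (hc' : c ≤ c') :
    mm g v xc ρ (x + c' • v) ≤ mm g v xc ρ (x + c • v) := by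
  obtain ⟨s, h1, h2⟩ := mm_eq (v := v) (xc := xc) (ρ := ρ) hg (x + c • v)
  rw [(tt_add hv hx hc).1] at h1
  have h3 := mm_le (v := v) (xc := xc) (ρ := ρ) hg (x + c' • v) (s := s + (c' - c))
    ⟨by linarith [h1.1], by rw [(tt_add hv hx (hc.trans hc')).1]; linarith [h1.2]⟩
  have e : x + c' • v - (s + (c' - c)) • v = x + c • v - s • v := by module
  rwa [e, ← h2] at h3

theorem mm_drop (hg : Continuous g) (hρ : 0 < ρ) (hv : 1 ≤ ‖v‖) (hv3 : ‖v‖ ≤ 3) {Δ : ℝ}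
    (h : ∀ x ∈ ball xc (40 * ρ), ∀ s ∈ Icc (0 : ℝ) (9 * ρ), g x - g (x + s • v) ≤ Δ)
    {x : E d} (hx : x ∈ ball xc (4 * ρ)) : mm g v xc ρ x - mm g v xc ρ (x + ρ • v) ≤ Δ := by
  obtain ⟨s, h1, h2⟩ := mm_eq (v := v) (xc := xc) (ρ := ρ) hg (x + ρ • v)
  obtain ⟨h3, h4⟩ := tt_add hv hx hρ.le
  rw [h3] at h1
  have h0 := tt_nonneg (v := v) (xc := xc) (ρ := ρ) x
  have h5 := mm_le (v := v) (xc := xc) (ρ := ρ) hg x ⟨h0, le_rfl⟩
  have h6 : x - tt v xc ρ x • v ∈ ball xc (40 * ρ) := by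
    rw [mem_ball_iff_norm] at hx ⊢
    rw [sub_right_comm]
    refine (norm_sub_le _ _).trans_lt ?_
    rw [norm_smul, Real.norm_of_nonneg h0]
    nlinarith
  have h7 := h _ h6 (tt v xc ρ x + ρ - s) ⟨by linarith [h1.2], by linarith [h1.1]⟩
  have e : x - tt v xc ρ x • v + (tt v xc ρ x + ρ - s) • v = x + ρ • v - s • v := by module
  rw [e, ← h2] at h7
  linarith

theorem shift_le (D : E d → ℝ≥0∞) {w : E d} (hw : ‖w‖ ≤ 3 * ρ) :
    ∫⁻ x in ball xc ρ, D x ≤ ∫⁻ x in ball xc (4 * ρ), D (x + w) := by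
  have h1 : ∫⁻ x in ball xc (4 * ρ), D (x + w) = ∫⁻ x in ball (xc + w) (4 * ρ), D x := by
    rw [← lintegral_indicator measurableSet_ball, ← lintegral_indicator measurableSet_ball,
      ← lintegral_add_right_eq_self (fun x => (ball (xc + w) (4 * ρ)).indicator D x) w]
    refine lintegral_congr fun x => ?_
    simp only [indicator, mem_ball, dist_add_right]
  rw [h1]
  refine lintegral_mono_set (ball_subset_ball' ?_)
  rw [dist_self_add_right]
  linarith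

theorem avg_le {m : E d → ℝ} (hm : Continuous m) (hρ : 0 < ρ) (hv3 : ‖v‖ ≤ 3) {Δ : ℝ}
    (h1 : ∀ x ∈ ball xc (4 * ρ), ∀ c c' : ℝ, 0 ≤ c → c ≤ c' → m (x + c' • v) ≤ m (x + c • v))
    (h2 : ∀ x ∈ ball xc (4 * ρ), m x - m (x + ρ • v) ≤ Δ) (n : ℕ) :
    ∫⁻ x in ball xc ρ, ENNReal.ofReal (Dq v (ρ / (n + 1)) m x) ≤
      ENNReal.ofReal (Δ / ρ) * volume (ball (0 : E d) (4 * ρ)) := by
  set σ : ℝ := ρ / (n + 1) with hσ
  have hσ0 : 0 < σ := by positivity
  have hσn : ((n + 1 : ℕ) : ℝ) * σ = ρ := by rw [hσ]; push_cast; field_simp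
  have k1 : ∑ _j ∈ Finset.range (n + 1), ∫⁻ x in ball xc ρ, ENNReal.ofReal (Dq v σ m x) ≤
      ∑ j ∈ Finset.range (n + 1),
        ∫⁻ x in ball xc (4 * ρ), ENNReal.ofReal (Dq v σ m (x + ((j : ℝ) * σ) • v)) := by
    refine Finset.sum_le_sum fun j hj => shift_le (fun x => ENNReal.ofReal (Dq v σ m x)) ?_
    have h3 : (j : ℝ) ≤ (n + 1 : ℕ) := by exact_mod_cast (Finset.mem_range.1 hj).le
    have h4 := mul_le_mul_of_nonneg_right h3 hσ0.le
    rw [norm_smul, Real.norm_of_nonneg (by positivity)]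
    nlinarith [norm_nonneg v, mul_nonneg (Nat.cast_nonneg (α := ℝ) j) hσ0.le]
  have k2 : ∀ j : ℕ, Measurable fun x => ENNReal.ofReal (Dq v σ m (x + ((j : ℝ) * σ) • v)) := by
    intro j
    refine ENNReal.measurable_ofReal.comp (Continuous.measurable ?_)
    unfold Dq
    fun_prop
  rw [← lintegral_finsetSum _ fun j _ => k2 j, Finset.sum_const, Finset.card_range,
    nsmul_eq_mul] at k1
  have k3 : ∀ x ∈ ball xc (4 * ρ), ∑ j ∈ Finset.range (n + 1),
      ENNReal.ofReal (Dq v σ m (x + ((j : ℝ) * σ) • v)) ≤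
        (n + 1 : ℕ) * ENNReal.ofReal (Δ / ρ) := by
    intro x hx
    have e : ∀ j : ℕ, Dq v σ m (x + ((j : ℝ) * σ) • v) =
        (m (x + ((j : ℝ) * σ) • v) - m (x + (((j + 1 : ℕ) : ℝ) * σ) • v)) / σ := by
      intro j
      rw [Dq, add_assoc, ← add_smul]
      push_cast
      rw [add_one_mul]
    rw [← ENNReal.ofReal_sum_of_nonneg, ← ENNReal.ofReal_natCast,
      ← ENNReal.ofReal_mul (Nat.cast_nonneg _)]
    · refine ENNReal.ofReal_le_ofReal ?_
      simp only [e]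
      rw [← Finset.sum_div, Finset.sum_range_sub' fun j : ℕ => m (x + ((j : ℝ) * σ) • v), hσn,
        div_le_iff₀ hσ0, mul_right_comm, hσn, mul_div_cancel₀ _ hρ.ne']
      simpa using h2 x hx
    · intro j _
      rw [e]
      refine div_nonneg (sub_nonneg.2 (h1 x hx _ _ (by positivity) ?_)) hσ0.le
      push_cast
      linarith
  have k4 := k1.trans (setLIntegral_mono' measurableSet_ball k3)
  rw [setLIntegral_const, Measure.addHaar_ball_center, mul_assoc] at k4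
  exact (ENNReal.mul_le_mul_iff_right (by simp) (by simp)).1 k4

theorem fatou {m : E d → ℝ} {L : ℝ≥0} (hm : LipschitzWith L m) (hρ : 0 < ρ) {A : ℝ≥0∞}
    (h : ∀ n : ℕ, ∫⁻ x in ball xc ρ, ENNReal.ofReal (Dq v (ρ / (n + 1)) m x) ≤ A) :
    ∫⁻ x in ball xc ρ, ENNReal.ofReal (-(fderiv ℝ m x v)) ≤ A := by
  have hσ : Tendsto (fun n : ℕ => ρ / ((n : ℝ) + 1)) atTop (𝓝[>] 0) := by
    refine tendsto_nhdsWithin_iff.2 ⟨?_, Eventually.of_forall fun n => by
      rw [mem_Ioi]; positivity⟩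
    simpa [div_eq_mul_inv] using (tendsto_one_div_add_atTop_nhds_zero_nat (𝕜 := ℝ)).const_mul ρ
  have hc := hm.continuous
  have hme : ∀ n : ℕ, Measurable (fun x => ENNReal.ofReal (Dq v (ρ / (n + 1)) m x)) := by
    intro n
    refine ENNReal.measurable_ofReal.comp (Continuous.measurable ?_)
    unfold Dq
    fun_prop
  have hae : ∀ᵐ x ∂(volume.restrict (ball xc ρ)), ENNReal.ofReal (-(fderiv ℝ m x v)) =
      liminf (fun n : ℕ => ENNReal.ofReal (Dq v (ρ / (n + 1)) m x)) atTop := by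
    refine ae_restrict_of_ae ?_
    filter_upwards [hm.ae_differentiableAt (μ := volume)] with x hx
    have h1 := ((hx.hasFDerivAt.hasLineDerivAt v).tendsto_slope_zero_right.comp hσ).neg
    refine (Tendsto.liminf_eq (ENNReal.tendsto_ofReal (h1.congr fun n => ?_))).symm
    simp only [Function.comp, Dq, smul_eq_mul]
    ring
  rw [lintegral_congr_ae hae]
  exact (lintegral_liminf_le hme).trans (liminf_le_of_frequently_le' (Frequently.of_forall h))

end RunAux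

open RunAux in
theorem run (d : ℕ) (_hd : 1 ≤ d) : RunStmt d := by
  intro g Lg v xc ρ Δ hg hρ hv hv3 h
  have hc := hg.continuous
  have hm := mm_lip (xc := xc) (ρ := ρ) hg hv
  refine le_trans (lintegral_mono_ae ?_) (RunAux.fatou hm hρ (avg_le hm.continuous hρ hv3
    (fun x hx c c' => mm_anti hc hv hx) fun x hx => mm_drop hc hρ hv hv3 h hx))
  rw [ae_restrict_iff' measurableSet_ball]
  filter_upwards [hm.ae_differentiableAt (μ := volume), hg.ae_differentiableAt (μ := volume)]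
    with x h1 h2 hx
  by_cases hs : x ∈ {x | ∀ s ∈ Icc (0 : ℝ) (9 * ρ), g x ≤ g (x - s • v)}
  · rw [indicator_of_mem hs, fderiv_eq_of_touch h1 h2 (.of_forall (mm_le_self hc))]
    refine le_antisymm (mm_le_self hc x) ?_
    obtain ⟨s, h3, h4⟩ := mm_eq (v := v) (xc := xc) (ρ := ρ) hc x
    have h5 := (tt_add (ρ := ρ) hv (ball_subset_ball (by linarith) hx) le_rfl).2
    rw [h4]
    exact hs s ⟨h3.1, by linarith [h3.2]⟩
  · rw [indicator_of_notMem hs]
    exact zero_le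

end Vale.Agent.P137
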