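import Vale.Agent.P137.UStmts
import Vale.Agent.P137.Path

open MeasureTheory Metric Set Filter
open scoped ENNReal NNReal Topology

namespace Vale.Agent.P137

variable {d : ℕ}

namespace T2UAux

noncomputable def bb (j : Fin d × Bool) : E d :=
  (if j.2 then (1 : ℝ) else -1) • EuclideanSpace.single j.1 (1 : ℝ)

theorem norm_bb (j : Fin d × Bool) : ‖bb j‖ = 1 := by
  unfold bb; rw [norm_smul]; split_ifs <;> simp

theorem exists_bb (hd : 1 ≤ d) {w : E d} (hw : ‖w‖ = 1) : ∃ j, inner ℝ w (bb j) ≤ -(1 / d) := by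
  have hd0 : (0 : ℝ) < d := by exact_mod_cast hd
  have hd1 : (1 : ℝ) ≤ d := by exact_mod_cast hd
  by_contra h
  push Not at h
  have h1 : ∀ i, |w i| < 1 / d := by
    intro i
    have a := h (i, true)
    have b := h (i, false)
    simp only [bb, if_true, one_smul, EuclideanSpace.inner_single_right, conj_trivial, one_mul,
      Bool.false_eq_true, if_false, neg_smul, inner_neg_right] at a b
    rw [abs_lt]; constructor <;> linarith
  have h2 : ‖w‖ ^ 2 = ∑ i, w i ^ 2 := by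
    rw [EuclideanSpace.norm_sq_eq]; simp
  have h3 : ∑ i : Fin d, w i ^ 2 < ∑ _i : Fin d, (1 / (d : ℝ)) := by
    have : Nonempty (Fin d) := ⟨⟨0, hd⟩⟩
    refine Finset.sum_lt_sum_of_nonempty Finset.univ_nonempty fun i _ => ?_
    have a := h1 i
    have b : 1 / (d : ℝ) ≤ 1 := by rw [div_le_one hd0]; exact hd1
    rw [← sq_abs]
    nlinarith [abs_nonneg (w i)]
  rw [← h2, hw] at h3
  simp only [Finset.sum_const, Finset.card_univ, Fintype.card_fin, nsmul_eq_mul] at h3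
  rw [mul_one_div_cancel hd0.ne'] at h3
  norm_num at h3

theorem fderiv_nonneg {g : E d → ℝ} {x h : E d} (hg : DifferentiableAt ℝ g x) {t₀ : ℝ}
    (ht : 0 < t₀) (H : ∀ t ∈ Ioo (0 : ℝ) t₀, g x ≤ g (x + t • h)) : 0 ≤ fderiv ℝ g x h := by
  refine ge_of_tendsto (hg.hasFDerivAt.hasLineDerivAt h).tendsto_slope_zero_right ?_
  filter_upwards [Ioo_mem_nhdsGT ht] with t ht'
  exact smul_nonneg (inv_nonneg.2 ht'.1.le) (sub_nonneg.2 (H t ht'))

theorem norm_v {e b : E d} (he : ‖e‖ = 1) (hb : ‖b‖ = 1) :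
    1 ≤ ‖(2 : ℝ) • e + b‖ ∧ ‖(2 : ℝ) • e + b‖ ≤ 3 := by
  have h2 : ‖(2 : ℝ) • e‖ = 2 := by rw [norm_smul, he]; simp
  have a := norm_add_le ((2 : ℝ) • e) b
  have c := norm_sub_norm_le ((2 : ℝ) • e) (-b)
  rw [sub_neg_eq_add, norm_neg] at c
  constructor <;> linarith

theorem pt (hd : 1 ≤ d) {g : E d → ℝ} {x y e : E d} {r s₀ : ℝ} (hg : DifferentiableAt ℝ g x)
    (he : ‖e‖ = 1) (hy : ‖y - x‖ ≤ r) (hs : 0 < s₀) (hr : 9 * d * s₀ ≤ 2 * r)
    (hge : ∀ x', ‖x' - y‖ ≤ r → ‖x' - x‖ ≤ 3 * s₀ → g x ≤ g x') :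
    ENNReal.ofReal (-(fderiv ℝ g x e)) ≤ d * ∑ j : Fin d × Bool,
      {x | ∀ s ∈ Icc (0 : ℝ) s₀, g x ≤ g (x - s • ((2 : ℝ) • e + bb j))}.indicator
        (fun x => ENNReal.ofReal (-(fderiv ℝ g x ((2 : ℝ) • e + bb j)))) x := by
  have hd0 : (0 : ℝ) < d := by exact_mod_cast hd
  have hr0 : 0 < r := by nlinarith [mul_pos hd0 hs]
  obtain ⟨G, hG⟩ : ∃ G : E d, ∀ v, fderiv ℝ g x v = inner ℝ G v :=
    ⟨gradient g x, fun v => by simp [gradient]⟩
  by_cases hneg : 0 ≤ inner ℝ G e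
  · rw [hG, ENNReal.ofReal_of_nonpos (by linarith)]; exact zero_le
  push Not at hneg
  have hG0 : G ≠ 0 := by rintro rfl; simp at hneg
  have hGn : 0 < ‖G‖ := norm_pos_iff.2 hG0
  have hw := norm_dir hd G
  set w := dir G with hwdef
  have hGw : G = ‖G‖ • w := by
    rw [hwdef, dir, if_neg hG0, smul_smul, mul_inv_cancel₀ hGn.ne', one_smul]
  have h1 : 0 ≤ inner ℝ G (y - r • w - x) := by
    rw [← hG]
    have hn : ‖y - r • w - x‖ ≤ 2 * r := by
      have := norm_sub_le (y - x) (r • w)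
      rw [norm_smul, hw, Real.norm_of_nonneg hr0.le] at this
      rw [sub_right_comm]; linarith
    refine fderiv_nonneg hg (t₀ := min 1 (s₀ / r)) (lt_min one_pos (by positivity))
      fun t ht => hge _ ?_ ?_
    · have ht1 : t ≤ 1 := ht.2.le.trans (min_le_left _ _)
      have e1 : x + t • (y - r • w - x) - y = -((1 - t) • (y - x)) - (t * r) • w := by module
      have := norm_sub_le (-((1 - t) • (y - x))) ((t * r) • w)
      rw [norm_neg, norm_smul, norm_smul, hw, Real.norm_of_nonneg (by linarith),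
        Real.norm_of_nonneg (mul_pos ht.1 hr0).le] at this
      rw [e1]
      nlinarith
    · have ht2 : t * r ≤ s₀ := by
        have := ht.2.le.trans (min_le_right _ _)
        rwa [le_div_iff₀ hr0] at this
      rw [add_sub_cancel_left, norm_smul, Real.norm_of_nonneg ht.1.le]
      nlinarith [ht.1]
  have h2 : r ≤ inner ℝ w (y - x) := by
    rw [hGw, real_inner_smul_left, sub_right_comm, inner_sub_right, real_inner_smul_right,
      real_inner_self_eq_norm_sq, hw] at h1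
    have := (mul_nonneg_iff_of_pos_left hGn).1 h1
    linarith
  have h3 : y - x = r • w := by
    have a : ‖y - x - r • w‖ ^ 2 ≤ 0 := by
      rw [norm_sub_sq_real, real_inner_smul_right, real_inner_comm, norm_smul, hw,
        Real.norm_of_nonneg hr0.le]
      nlinarith [norm_nonneg (y - x)]
    have b : ‖y - x - r • w‖ = 0 := by nlinarith [norm_nonneg (y - x - r • w)]
    exact sub_eq_zero.1 (norm_eq_zero.1 b)
  obtain ⟨j, hj⟩ := exists_bb hd hw
  set v := (2 : ℝ) • e + bb j with hv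
  have hvn := norm_v he (norm_bb j)
  have hwe : inner ℝ w e < 0 := by
    rw [hGw, real_inner_smul_left] at hneg
    exact neg_of_mul_neg_right hneg hGn.le
  have hwv : inner ℝ w v ≤ -(1 / d) := by
    rw [hv, inner_add_right, real_inner_smul_right]; linarith
  have hwv' : d * inner ℝ w v ≤ -1 := by
    have := mul_le_mul_of_nonneg_left hwv hd0.le
    rwa [mul_neg, mul_one_div_cancel hd0.ne'] at this
  have hmem : x ∈ {x | ∀ s ∈ Icc (0 : ℝ) s₀, g x ≤ g (x - s • v)} := by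
    intro s hs'
    refine hge _ ?_ ?_
    · have e1 : x - s • v - y = -(r • w + s • v) := by rw [← h3]; abel
      rw [e1, norm_neg]
      refine (sq_le_sq₀ (norm_nonneg _) hr0.le).1 ?_
      rw [norm_add_sq_real, real_inner_smul_left, real_inner_smul_right, norm_smul, norm_smul, hw,
        Real.norm_of_nonneg hr0.le, Real.norm_of_nonneg hs'.1]
      have a1 : ‖v‖ ^ 2 ≤ 9 := by nlinarith [hvn.1, hvn.2]
      have a2 : d * (s * ‖v‖ ^ 2) ≤ 2 * r := by
        have : s * ‖v‖ ^ 2 ≤ s₀ * 9 := mul_le_mul hs'.2 a1 (by positivity) hs.le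
        nlinarith
      have a3 : s * ‖v‖ ^ 2 + 2 * r * inner ℝ w v ≤ 0 := by
        have : d * (s * ‖v‖ ^ 2 + 2 * r * inner ℝ w v) ≤ 0 := by nlinarith
        by_contra hh
        exact absurd this (not_le.2 (mul_pos hd0 (not_le.1 hh)))
      nlinarith [hs'.1]
    · rw [sub_sub_cancel_left, norm_neg, norm_smul, Real.norm_of_nonneg hs'.1]
      nlinarith [hs'.1, hs'.2, hvn.2]
  refine le_trans ?_ (mul_le_mul_right (Finset.single_le_sum (f := fun j : Fin d × Bool =>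
    {x | ∀ s ∈ Icc (0 : ℝ) s₀, g x ≤ g (x - s • ((2 : ℝ) • e + bb j))}.indicator
      (fun x => ENNReal.ofReal (-(fderiv ℝ g x ((2 : ℝ) • e + bb j)))) x)
    (fun _ _ => zero_le) (Finset.mem_univ j)) _)
  simp only [← hv]
  rw [indicator_of_mem hmem, ← ENNReal.ofReal_natCast, ← ENNReal.ofReal_mul hd0.le]
  refine ENNReal.ofReal_le_ofReal ?_
  rw [hG, hG, hGw, real_inner_smul_left, real_inner_smul_left]
  have a := abs_real_inner_le_norm w e
  rw [hw, he] at a
  have b := neg_abs_le (inner ℝ w e)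
  nlinarith

end T2UAux

open T2UAux in
theorem t2gU (d : ℕ) (hd : 1 ≤ d) (ha : AMgStmt d) (hr : RunStmt d) : T2gUStmt d := by
  have hc := cont d hd
  have hd0 : (0 : ℝ) < d := by exact_mod_cast hd
  have hd1 : (1 : ℝ) ≤ d := by exact_mod_cast hd
  obtain ⟨C, hC⟩ := ha
  set c1 : ℝ≥0 := Real.toNNReal (2 ^ d * vb d 1 * 4 ^ d * (100 * d)) with hc1
  refine ⟨d * (d * 2) * c1 * C + 1, fun u m μ K e z ℓ D hℓ he hl hu hD => ?_⟩
  by_cases hD0 : D = ∞
  · rw [hD0, ENNReal.mul_top (by simp)]; exact le_top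
  obtain ⟨g, hgl, hge⟩ := (hc.MU_lipschitzOnWith hu hℓ (b := 4 * ℓ) (by linarith)).extend_real
  rw [show 10 * ℓ - 2 * (4 * ℓ) = 2 * ℓ by ring] at hge
  obtain ⟨ρ, hρ⟩ : ∃ ρ : ℝ, ρ = ℓ / (100 * d) := ⟨_, rfl⟩
  have hρ0 : 0 < ρ := by rw [hρ]; positivity
  have hρℓ : 100 * d * ρ = ℓ := by rw [hρ]; field_simp
  have hρ1 : 100 * ρ ≤ ℓ := by nlinarith
  have hΔf : (C : ℝ≥0∞) * ENNReal.ofReal ℓ * (ENNReal.ofReal (ℓ ^ d))⁻¹ * D ≠ ∞ := by
    have : (ENNReal.ofReal (ℓ ^ d))⁻¹ ≠ ∞ := ENNReal.inv_ne_top.2 (by simpa using pow_pos hℓ d)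
    finiteness
  obtain ⟨Δ, hΔ⟩ : ∃ Δ : ℝ, Δ = (C * ENNReal.ofReal ℓ * (ENNReal.ofReal (ℓ ^ d))⁻¹ * D).toReal :=
    ⟨_, rfl⟩
  have hspec : ∀ x ∈ ball z (2 * ℓ), (∃ y r, r ∈ Icc ℓ (4 * ℓ) ∧ ‖y - x‖ ≤ r ∧ g x = u y r) ∧
      ∀ y r, r ∈ Icc ℓ (4 * ℓ) → ‖y - x‖ ≤ r → u y r ≤ g x := by
    intro x hx
    rw [← hge hx]
    rw [mem_ball_iff_norm] at hx
    exact hc.MU_spec hu hℓ (by linarith) (by linarith)
  set Φ : Fin d × Bool → E d → ℝ≥0∞ := fun j x =>
    {x | ∀ s ∈ Icc (0 : ℝ) (9 * ρ), g x ≤ g (x - s • ((2 : ℝ) • e + bb j))}.indicator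
      (fun x => ENNReal.ofReal (-(fderiv ℝ g x ((2 : ℝ) • e + bb j)))) x with hΦ
  have hΦm : ∀ j, Measurable (Φ j) := by
    intro j
    refine Measurable.indicator (measurable_fderiv_apply_const ℝ g _).neg.ennreal_ofReal ?_
    refine IsClosed.measurableSet ?_
    simp only [ofPred_forall]
    refine isClosed_iInter fun s => isClosed_iInter fun _ => ?_
    have := hgl.continuous
    exact isClosed_le this (by fun_prop)
  have hloc : ∀ j, ∀ xc ∈ ball z (ℓ + ρ), ∫⁻ x in ball xc ρ, Φ j x ≤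
      ENNReal.ofReal (Δ / ρ) * volume (ball (0 : E d) (4 * ρ)) := by
    intro j xc hxc
    have hvn := norm_v he (norm_bb j)
    refine hr g _ _ xc ρ Δ hgl hρ0 hvn.1 hvn.2 fun x hx s hs => ?_
    rw [mem_ball_iff_norm] at hxc hx
    have hxz := norm_sub_le_norm_sub_add_norm_sub x xc z
    obtain ⟨y, r, hr', hy, e1⟩ := (hspec x (mem_ball_iff_norm.2 (by linarith))).1
    have hn : ‖s • ((2 : ℝ) • e + bb j)‖ ≤ 27 * ρ := by
      rw [norm_smul, Real.norm_of_nonneg hs.1]; nlinarith [hs.1, hs.2, hvn.2]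
    have hx2 : x + s • ((2 : ℝ) • e + bb j) ∈ ball z (2 * ℓ) := by
      rw [mem_ball_iff_norm, add_sub_right_comm]
      linarith [norm_add_le (x - z) (s • ((2 : ℝ) • e + bb j))]
    have h2 := (hspec _ hx2).2 (y + s • ((2 : ℝ) • e + bb j)) r hr' (by simpa using hy)
    have hyz := norm_sub_le_norm_sub_add_norm_sub y x z
    have h3 := hC u m μ K e z ℓ D hℓ he hl hu hD (bb j) y r s (norm_bb j).le hr'.1 hr'.2 hs.1
      (by linarith [hs.2]) (by linarith [hs.2, hr'.2])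
    rw [ENNReal.ofReal_le_iff_le_toReal hΔf, ← hΔ] at h3
    linarith
  have hone : ∀ j, ∫⁻ x in ball z ℓ, Φ j x ≤ c1 * C * D := by
    intro j
    have h1 := ballInt_ge (hΦm j) z ℓ ρ
    have h2 : ∫⁻ xc in ball z (ℓ + ρ), ∫⁻ x in ball xc ρ, Φ j x ≤
        ENNReal.ofReal (Δ / ρ) * volume (ball (0 : E d) (4 * ρ)) * volume (ball z (2 * ℓ)) := by
      refine (setLIntegral_mono' measurableSet_ball (hloc j)).trans ?_
      rw [setLIntegral_const]
      exact mul_le_mul_right (measure_mono (ball_subset_ball (by linarith))) _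
    have hv0 : volume (ball (0 : E d) ρ) ≠ 0 := (measure_ball_pos _ _ hρ0).ne'
    refine (ENNReal.mul_le_mul_iff_right hv0 measure_ball_lt_top.ne).1 ((h1.trans h2).trans
      (le_of_eq ?_))
    have e1 : ENNReal.ofReal (Δ / ρ) =
        ENNReal.ofReal (100 * d) * (C * (ENNReal.ofReal (ℓ ^ d))⁻¹ * D) := by
      rw [div_eq_mul_inv, mul_comm, ENNReal.ofReal_mul (by positivity), hΔ,
        ENNReal.ofReal_toReal hΔf, ← hρℓ]
      have : ENNReal.ofReal ρ⁻¹ * ENNReal.ofReal (100 * d * ρ) = ENNReal.ofReal (100 * d) := by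
        rw [← ENNReal.ofReal_mul (by positivity)]; congr 1; field_simp
      rw [← this]; ring
    have e2 : volume (ball (0 : E d) (4 * ρ)) =
        ENNReal.ofReal (4 ^ d) * volume (ball (0 : E d) ρ) := by
      rw [volume_ball_eq, volume_ball_eq, vb_mul (by norm_num) hρ0,
        ENNReal.ofReal_mul (by positivity)]
    have e3 : (c1 : ℝ≥0∞) = ENNReal.ofReal (2 ^ d * vb d 1) * ENNReal.ofReal (4 ^ d) *
        ENNReal.ofReal (100 * d) := by
      have := vb_nonneg (d := d) 1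
      rw [← ENNReal.ofReal_mul (by positivity), ← ENNReal.ofReal_mul (by positivity)]
      rfl
    have e4 : (ENNReal.ofReal (ℓ ^ d))⁻¹ * ENNReal.ofReal (ℓ ^ d) = 1 :=
      ENNReal.inv_mul_cancel (by simpa using pow_pos hℓ d) ENNReal.ofReal_ne_top
    rw [e1, e2, e3, volume_ball_mul z two_pos hℓ]
    calc _ = volume (ball (0 : E d) ρ) * (ENNReal.ofReal (2 ^ d * vb d 1) *
          ENNReal.ofReal (4 ^ d) * ENNReal.ofReal (100 * d) * C * D) *
          ((ENNReal.ofReal (ℓ ^ d))⁻¹ * ENNReal.ofReal (ℓ ^ d)) := by ring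
      _ = _ := by rw [e4, mul_one]
  have hpt : ∀ᵐ x ∂(volume.restrict (ball z ℓ)),
      ENNReal.ofReal (-(fderiv ℝ (MU u ℓ (4 * ℓ)) x e)) ≤ d * ∑ j, Φ j x := by
    rw [ae_restrict_iff' measurableSet_ball]
    filter_upwards [hgl.ae_differentiableAt (μ := volume)] with x hx hxb
    have hx2 : x ∈ ball z (2 * ℓ) := ball_subset_ball (by linarith) hxb
    rw [(hge.eventuallyEq_of_mem (isOpen_ball.mem_nhds hx2)).fderiv_eq]
    obtain ⟨y, r, hr', hy, e1⟩ := (hspec x hx2).1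
    refine pt hd hx he hy (by positivity) (by nlinarith [hr'.1]) fun x' h1 h2 => ?_
    rw [mem_ball_iff_norm] at hxb
    have := norm_sub_le_norm_sub_add_norm_sub x' x z
    rw [e1]
    exact (hspec x' (mem_ball_iff_norm.2 (by linarith))).2 y r hr' (by rwa [norm_sub_rev])
  refine (lintegral_mono_ae hpt).trans ?_
  rw [lintegral_const_mul' _ _ (ENNReal.natCast_ne_top d), lintegral_finsetSum _ fun j _ => hΦm j]
  have := Finset.sum_le_card_nsmul Finset.univ _ _ fun j _ => hone j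
  rw [Finset.card_univ, Fintype.card_prod, Fintype.card_fin, Fintype.card_bool,
    nsmul_eq_mul] at this
  refine (mul_le_mul_right this _).trans ?_
  push_cast
  rw [add_mul]
  exact le_trans (le_of_eq (by ring)) le_self_add

end Vale.Agent.P137
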