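import Vale.Agent.P137.All
import Vale.Agent.P137.AM
import Vale.Agent.P137.Run
import Vale.Agent.P137.T2U
import Vale.Agent.P137.H1U
import Vale.Agent.P137.ErrU
import Vale.Agent.P137.MainU
import Vale.Agent.P137.FinAU
import Vale.Agent.P137.RN
import Vale.Agent.P137.LimU
import Vale.Agent.P137.FinalU

namespace Vale.Agent.P137

theorem mainU_all (d : ℕ) (hd : 1 ≤ d) : MainUStmt d := by
  have ht := t2gU d hd (amg d hd) (run d hd)
  exact mainU d hd (cont d hd) (fam d hd) (dirs d hd) (wts d hd) (beta d hd)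
    (pack d hd (one d hd) (beta d hd) (sum d hd)) (tree d hd) (errU d hd ht) (firstU d hd ht)
    (secondU d hd (sum d hd))

theorem finalU_all (d : ℕ) (hd : 1 ≤ d) : FinalUStmt d :=
  finalU d (wabs d hd) (finAU d hd (mainU_all d hd)) (limU d hd) (mbU d hd) (rn d hd)

end Vale.Agent.P137
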