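import Vale.Agent.P137.Stmts

open MeasureTheory Metric Set Filter
open scoped ENNReal NNReal Topology

namespace Vale.Agent.P137

variable {d : ℕ}

/-! ### volumes of balls -/

theorem volume_ball_eq (x : E d) (s : ℝ) : volume (ball x s) = ENNReal.ofReal (vb d s) := by
  rw [vb, ENNReal.ofReal_toReal measure_ball_lt_top.ne, Measure.addHaar_ball_center]

theorem volume_real_ball (x : E d) (s : ℝ) : volume.real (ball x s) = vb d s := by
  rw [Measure.real, Measure.addHaar_ball_center, vb]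

theorem vb_nonneg (s : ℝ) : 0 ≤ vb d s := ENNReal.toReal_nonneg

theorem vb_pos {s : ℝ} (hs : 0 < s) : 0 < vb d s :=
  ENNReal.toReal_pos (measure_ball_pos _ _ hs).ne' measure_ball_lt_top.ne

theorem vb_eq {s : ℝ} (hs : 0 < s) : vb d s = s ^ d * vb d 1 := by
  rw [vb, Measure.addHaar_ball_of_pos _ _ hs, ENNReal.toReal_mul,
    ENNReal.toReal_ofReal (by positivity), vb]
  simp

theorem vb_mul {a s : ℝ} (ha : 0 < a) (hs : 0 < s) : vb d (a * s) = a ^ d * vb d s := by
  rw [vb_eq (mul_pos ha hs), vb_eq hs, mul_pow, mul_assoc]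

theorem vb_mono {s t : ℝ} (h : s ≤ t) : vb d s ≤ vb d t :=
  ENNReal.toReal_mono measure_ball_lt_top.ne (measure_mono (ball_subset_ball h))

theorem volume_ball_mul (x : E d) {a s : ℝ} (ha : 0 < a) (hs : 0 < s) :
    volume (ball x (a * s)) = ENNReal.ofReal (a ^ d * vb d 1) * ENNReal.ofReal (s ^ d) := by
  rw [volume_ball_eq, vb_mul ha hs, vb_eq hs, ← ENNReal.ofReal_mul
    (mul_nonneg (by positivity) (vb_nonneg _))]
  congr 1; ring

theorem nontrivial_E (hd : 1 ≤ d) : Nontrivial (E d) := by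
  have : Nonempty (Fin d) := ⟨⟨0, hd⟩⟩
  infer_instance

/-! ### directions -/

theorem norm_e0 (hd : 1 ≤ d) : ‖e0 d‖ = 1 := by
  have h : 0 < d := hd
  simp [e0, h]

theorem norm_dir (hd : 1 ≤ d) (v : E d) : ‖dir v‖ = 1 := by
  unfold dir
  split_ifs with h
  · exact norm_e0 hd
  · rw [norm_smul, norm_inv, norm_norm, inv_mul_cancel₀ (norm_ne_zero_iff.2 h)]

theorem inner_dir (v : E d) : inner ℝ (dir v) v = ‖v‖ := by
  unfold dir
  split_ifs with h
  · simp [h]
  · rw [real_inner_smul_left, real_inner_self_eq_norm_sq]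
    have := norm_ne_zero_iff.2 h
    field_simp

theorem measurable_dir : Measurable (dir : E d → E d) := by
  unfold dir
  refine Measurable.ite (measurableSet_singleton (0 : E d)) measurable_const ?_
  exact (measurable_norm.inv).smul measurable_id

theorem dfc_nonneg (e w : E d) : 0 ≤ dfc e w := le_max_right _ _

theorem dfc_le {e : E d} (he : ‖e‖ = 1) (w : E d) : dfc e w ≤ 3 * ‖w‖ := by
  have h := abs_real_inner_le_norm e w
  rw [he, one_mul] at h
  have := neg_abs_le (inner ℝ e w)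
  refine max_le (by linarith) (by positivity)

theorem continuous_dfc (e : E d) : Continuous (dfc e) := by
  unfold dfc; fun_prop

theorem integrable_dfc {e : E d} (he : ‖e‖ = 1) {w : E d → E d} (hw : Integrable w) :
    Integrable (fun y => dfc e (w y)) := by
  refine Integrable.mono' (hw.norm.const_mul 3)
    ((continuous_dfc e).comp_aestronglyMeasurable hw.1) (Eventually.of_forall fun y => ?_)
  rw [Real.norm_eq_abs, abs_of_nonneg (dfc_nonneg _ _)]
  exact dfc_le he _

theorem Pf_eq (e : E d) (β : ℝ) (w : E d) :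
    Pf e β w = (((d : ℝ) + 1) / 2 * (1 - ‖w‖ ^ 2)) • e + (inner ℝ w e + β) • w := by
  unfold Pf Wf
  module

/-! ### monotonicity of the structures -/

theorem Calc.mono {u : E d → ℝ → ℝ} {μ : E d → E d} {z z' : E d} {R R' : ℝ}
    (h : Calc u μ z R) (hR : ‖z' - z‖ + R' ≤ R) : Calc u μ z' R' := by
  have key : ∀ (x : E d) (s : ℝ), ‖x - z'‖ + s ≤ R' → ‖x - z‖ + s ≤ R := by
    intro x s hx
    have := norm_sub_le_norm_sub_add_norm_sub x z' z
    linarith
  exact ⟨h.int, fun x v s b hs hb h1 h2 => h.path x v s b hs hb (key _ _ h1) (key _ _ h2),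
    fun x s e hs h1 => h.curl x s e hs (key _ _ h1)⟩

theorem sc_pos {ℓ : ℝ} (h : 0 < ℓ) (k : ℕ) : 0 < sc ℓ k := by unfold sc; positivity

theorem sc_le {ℓ : ℝ} (h : 0 < ℓ) (k : ℕ) : sc ℓ k ≤ ℓ :=
  div_le_self h.le (one_le_pow₀ (by norm_num))

theorem sc_succ (ℓ : ℝ) (k : ℕ) : 4 * sc ℓ (k + 1) = sc ℓ k := by
  unfold sc; rw [pow_succ]; field_simp

theorem sc_add (ℓ : ℝ) (k t : ℕ) : sc ℓ (k + t) = sc ℓ k / 4 ^ t := by
  unfold sc; rw [pow_add, div_div]

theorem sc_anti {ℓ : ℝ} (h : 0 < ℓ) {i k : ℕ} (hik : i ≤ k) : sc ℓ k ≤ sc ℓ i := by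
  obtain ⟨t, rfl⟩ := Nat.exists_eq_add_of_le hik
  rw [sc_add]
  exact div_le_self (sc_pos h i).le (one_le_pow₀ (by norm_num))

theorem sc_level (ℓ : ℝ) (k : ℕ) : 64 * ℓ / 4 ^ (k + 3) = sc ℓ k := by
  unfold sc; rw [pow_add]; field_simp; ring

theorem sc_level0 (ℓ : ℝ) (k : ℕ) : 64 * ℓ / 4 ^ k = 64 * sc ℓ k := by
  unfold sc; ring

theorem Fam.lev_shift {μ : E d → E d} {ℓ : ℝ} {N : ℕ} {m : ℕ → E d → E d}
    {D : ℕ → ℕ → E d → ℝ≥0∞} (h : Fam μ (64 * ℓ) N m D) (k : ℕ) :
    Lev (fun l => m (k + 3 + l)) μ (sc ℓ k) N := by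
  refine ⟨fun l => h.lev.meas _, fun l => h.lev.int _, fun l hl => h.lev.top _ (by omega), ?_⟩
  intro l ζ B hζ hB
  have e : 64 * ℓ / 4 ^ (k + 3 + l) = sc ℓ k / 4 ^ l := by
    rw [← sc_level, pow_add (4 : ℝ) (k + 3) l, div_div]
  have := h.lev.dual (k + 3 + l) ζ B hζ hB
  rw [e] at this
  exact this

/-! ### suprema over radii -/

theorem MM_spec {u : E d → ℝ → ℝ} {a b : ℝ} (hab : a ≤ b) {x : E d}
    (hc : ContinuousOn (u x) (Icc a b)) :
    (∃ r ∈ Icc a b, MM u a b x = u x r) ∧ ∀ s ∈ Icc a b, u x s ≤ MM u a b x := by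
  obtain ⟨r, hr, h1, h2⟩ := isCompact_Icc.exists_sSup_image_eq_and_ge (nonempty_Icc.2 hab) hc
  refine ⟨⟨r, hr, h1⟩, fun s hs => ?_⟩
  rw [MM, h1]; exact h2 s hs

theorem MM_sub_le {u : E d → ℝ → ℝ} {a b : ℝ} (hab : a ≤ b) {x x' : E d} {L : ℝ}
    (hc : ContinuousOn (u x) (Icc a b)) (hc' : ContinuousOn (u x') (Icc a b))
    (h : ∀ s ∈ Icc a b, |u x s - u x' s| ≤ L) : |MM u a b x - MM u a b x'| ≤ L := by
  obtain ⟨⟨r, hr, e⟩, h1⟩ := MM_spec hab hc
  obtain ⟨⟨r', hr', e'⟩, h2⟩ := MM_spec hab hc'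
  have a1 := abs_le.1 (h r hr)
  have a2 := abs_le.1 (h r' hr')
  have b1 := h1 r' hr'
  have b2 := h2 r hr
  rw [abs_le]; constructor <;> linarith [a1.1, a1.2, a2.1, a2.2]

theorem ContStmt.continuousOn (hc : ContStmt d) {u : E d → ℝ → ℝ} {μ : E d → E d} {z : E d}
    {R : ℝ} (h : Calc u μ z R) {a b : ℝ} (ha : 0 < a) {x : E d} (hx : ‖x - z‖ + b ≤ R) :
    ContinuousOn (u x) (Icc a b) := by
  have hL : 0 ≤ (vb d a)⁻¹ * ∫ y, ‖μ y‖ :=
    mul_nonneg (inv_nonneg.2 (vb_nonneg _)) (integral_nonneg fun _ => norm_nonneg _)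
  refine (LipschitzOnWith.of_dist_le_mul (K := ⟨_, hL⟩) fun s hs s' hs' => ?_).continuousOn
  have := hc u μ z R h a x x s' s ha hs'.1 hs.1 (by linarith [hs'.2]) (by linarith [hs.2])
  rw [sub_self, norm_zero, zero_add] at this
  exact this

theorem ContStmt.MM_lip (hc : ContStmt d) {u : E d → ℝ → ℝ} {μ : E d → E d} {z : E d}
    {R : ℝ} (h : Calc u μ z R) {a b : ℝ} (ha : 0 < a) (hab : a ≤ b) {x x' : E d}
    (hx : ‖x - z‖ + b ≤ R) (hx' : ‖x' - z‖ + b ≤ R) :
    |MM u a b x - MM u a b x'| ≤ (vb d a)⁻¹ * (∫ y, ‖μ y‖) * ‖x - x'‖ := by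
  refine MM_sub_le hab (hc.continuousOn h ha hx) (hc.continuousOn h ha hx') fun s hs => ?_
  have := hc u μ z R h a x' x s s ha hs.1 hs.1 (by linarith [hs.2]) (by linarith [hs.2])
  simpa using this

theorem ContStmt.MM_lipschitzOnWith (hc : ContStmt d) {u : E d → ℝ → ℝ} {μ : E d → E d}
    {z : E d} {R : ℝ} (h : Calc u μ z R) {a b : ℝ} (ha : 0 < a) (hab : a ≤ b) :
    LipschitzOnWith (Real.toNNReal ((vb d a)⁻¹ * ∫ y, ‖μ y‖)) (MM u a b) (ball z (R - b)) := by
  have hL : 0 ≤ (vb d a)⁻¹ * ∫ y, ‖μ y‖ :=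
    mul_nonneg (inv_nonneg.2 (vb_nonneg _)) (integral_nonneg fun _ => norm_nonneg _)
  refine LipschitzOnWith.of_dist_le_mul fun x hx x' hx' => ?_
  rw [mem_ball_iff_norm] at hx hx'
  rw [Real.coe_toNNReal _ hL, Real.dist_eq, dist_eq_norm]
  exact hc.MM_lip h ha hab (by linarith) (by linarith)

/-- two differentiable functions that touch have the same derivative -/
theorem fderiv_eq_of_touch {g G : E d → ℝ} {x : E d} (hg : DifferentiableAt ℝ g x)
    (hG : DifferentiableAt ℝ G x) (hle : ∀ᶠ y in 𝓝 x, g y ≤ G y) (heq : g x = G x) :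
    fderiv ℝ g x = fderiv ℝ G x := by
  have hmin : IsLocalMin (fun y => G y - g y) x := by
    filter_upwards [hle] with y hy
    simp only [heq, sub_self]; linarith
  have h0 := hmin.hasFDerivAt_eq_zero (hG.hasFDerivAt.sub hg.hasFDerivAt)
  exact (sub_eq_zero.1 h0).symm

theorem norm_gradient_eq (g : E d → ℝ) (x : E d) : ‖gradient g x‖ = ‖fderiv ℝ g x‖ := by
  rw [gradient, LinearIsometryEquiv.norm_map]

theorem measurable_gradient (g : E d → ℝ) : Measurable (gradient g) :=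
  (InnerProductSpace.toDual ℝ (E d)).symm.continuous.measurable.comp (measurable_fderiv ℝ g)

/-! ### local suprema -/

theorem measurable_supf {ρ : E d → ℝ} (hρ : Continuous ρ) (R : ℝ) : Measurable (supf ρ R) := by
  refine LowerSemicontinuous.measurable ?_
  unfold supf
  refine lowerSemicontinuous_iSup fun h => lowerSemicontinuous_iSup fun _ => ?_
  exact (ENNReal.continuous_ofReal.comp (hρ.comp (continuous_id.add continuous_const))).lowerSemicontinuous

theorem measurable_lip {n : E d → E d} (hn : Continuous n) (R : ℝ) : Measurable (lip n R) := by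
  refine LowerSemicontinuous.measurable ?_
  unfold lip
  refine lowerSemicontinuous_iSup fun h => lowerSemicontinuous_iSup fun _ =>
    lowerSemicontinuous_iSup fun h' => lowerSemicontinuous_iSup fun _ => ?_
  refine Continuous.lowerSemicontinuous (ENNReal.continuous_ofReal.comp ?_)
  fun_prop

theorem le_supf (ρ : E d → ℝ) {R : ℝ} {x y : E d} (hy : y ∈ ball x R) :
    ENNReal.ofReal (ρ y) ≤ supf ρ R x := by
  rw [mem_ball_iff_norm] at hy
  refine le_iSup₂_of_le (y - x) hy (by simp)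

theorem supf_le {ρ : E d → ℝ} {R : ℝ} {x : E d} {a : ℝ≥0∞}
    (h : ∀ y ∈ ball x R, ENNReal.ofReal (ρ y) ≤ a) : supf ρ R x ≤ a :=
  iSup₂_le fun v hv => h _ (by simpa [mem_ball_iff_norm] using hv)

theorem supf_mono (ρ : E d → ℝ) {R R' : ℝ} {x x' : E d} (h : R + ‖x - x'‖ ≤ R') :
    supf ρ R x ≤ supf ρ R' x' := by
  refine supf_le fun y hy => le_supf ρ (ball_subset_ball' ?_ hy)
  rwa [dist_eq_norm]

theorem le_lip (n : E d → E d) {R : ℝ} {x y y' : E d} (hy : y ∈ ball x R) (hy' : y' ∈ ball x R) :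
    ENNReal.ofReal (‖n y - n y'‖ / ‖y - y'‖) ≤ lip n R x := by
  rw [mem_ball_iff_norm] at hy hy'
  refine le_iSup₂_of_le (y - x) hy (le_iSup₂_of_le (y' - x) hy' (by simp))

theorem lip_le {n : E d → E d} {R : ℝ} {x : E d} {a : ℝ≥0∞}
    (h : ∀ y ∈ ball x R, ∀ y' ∈ ball x R, ENNReal.ofReal (‖n y - n y'‖ / ‖y - y'‖) ≤ a) :
    lip n R x ≤ a := by
  refine iSup₂_le fun v hv => iSup₂_le fun v' hv' => ?_
  have := h (x + v) (by simpa [mem_ball_iff_norm] using hv) (x + v')
    (by simpa [mem_ball_iff_norm] using hv')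
  simpa using this

theorem lip_mono (n : E d → E d) {R R' : ℝ} {x x' : E d} (h : R + ‖x - x'‖ ≤ R') :
    lip n R x ≤ lip n R' x' := by
  have hs : ball x R ⊆ ball x' R' := ball_subset_ball' (by rwa [dist_eq_norm])
  exact lip_le fun y hy y' hy' => le_lip n (hs hy) (hs hy')

theorem lip_le_of_lipschitz {n : E d → E d} {L : ℝ} (hL : 0 ≤ L)
    (h : ∀ x y, ‖n x - n y‖ ≤ L * ‖x - y‖) (R : ℝ) (x : E d) :
    lip n R x ≤ ENNReal.ofReal L := by
  refine lip_le fun y _ y' _ => ENNReal.ofReal_le_ofReal ?_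
  exact div_le_of_le_mul₀ (norm_nonneg _) hL (h y y')

theorem norm_sub_le_lip (n : E d → E d) {R : ℝ} {x y y' : E d} (hy : y ∈ ball x R)
    (hy' : y' ∈ ball x R) (hfin : lip n R x ≠ ∞) :
    ‖n y - n y'‖ ≤ (lip n R x).toReal * ‖y - y'‖ := by
  by_cases hyy : y = y'
  · simp [hyy]
  have hpos : 0 < ‖y - y'‖ := norm_pos_iff.2 (sub_ne_zero.2 hyy)
  have := (ENNReal.ofReal_le_iff_le_toReal hfin).1 (le_lip n hy hy')
  rwa [div_le_iff₀ hpos] at this

/-! ### averaging over balls -/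

theorem measurableSet_near (r : ℝ) : MeasurableSet {q : E d × E d | q.2 ∈ ball q.1 r} := by
  have : IsOpen {q : E d × E d | q.2 ∈ ball q.1 r} := by
    simp only [mem_ball]
    exact isOpen_lt (by fun_prop) continuous_const
  exact this.measurableSet

theorem ballInt_eq (g : E d → ℝ≥0∞) (r : ℝ) (x : E d) :
    ∫⁻ y in ball x r, g y =
      ∫⁻ y, {q : E d × E d | q.2 ∈ ball q.1 r}.indicator (fun q => g q.2) (x, y) := by
  rw [← lintegral_indicator measurableSet_ball]
  rfl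

theorem measurable_ballInt {g : E d → ℝ≥0∞} (hg : Measurable g) (r : ℝ) :
    Measurable fun x => ∫⁻ y in ball x r, g y := by
  simp_rw [ballInt_eq g r]
  exact ((hg.comp measurable_snd).indicator (measurableSet_near r)).lintegral_prod_right'

theorem lintegral_mul_ballInt {a g : E d → ℝ≥0∞} (ha : Measurable a) (hg : Measurable g) (r : ℝ) :
    ∫⁻ x, a x * ∫⁻ y in ball x r, g y = ∫⁻ y, (∫⁻ x in ball y r, a x) * g y := by
  have hm : Measurable fun q : E d × E d =>
      {q : E d × E d | q.2 ∈ ball q.1 r}.indicator (fun q => a q.1 * g q.2) q :=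
    ((ha.comp measurable_fst).mul (hg.comp measurable_snd)).indicator (measurableSet_near r)
  have h1 : ∀ x, a x * ∫⁻ y in ball x r, g y = ∫⁻ y,
      {q : E d × E d | q.2 ∈ ball q.1 r}.indicator (fun q => a q.1 * g q.2) (x, y) := by
    intro x
    rw [← lintegral_const_mul _ hg, ← lintegral_indicator measurableSet_ball]
    rfl
  have h2 : ∀ y, (∫⁻ x in ball y r, a x) * g y = ∫⁻ x,
      {q : E d × E d | q.2 ∈ ball q.1 r}.indicator (fun q => a q.1 * g q.2) (x, y) := by
    intro y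
    rw [← lintegral_mul_const _ ha, ← lintegral_indicator measurableSet_ball]
    refine lintegral_congr fun x => ?_
    by_cases hx : x ∈ ball y r
    · rw [indicator_of_mem hx, indicator_of_mem (by exact mem_ball_comm.1 hx)]
    · rw [indicator_of_notMem hx, indicator_of_notMem (by exact fun h => hx (mem_ball_comm.1 h))]
  simp_rw [h1, h2]
  exact lintegral_lintegral_swap (f := fun x y =>
    {q : E d × E d | q.2 ∈ ball q.1 r}.indicator (fun q => a q.1 * g q.2) (x, y)) hm.aemeasurable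

theorem lintegral_ballInt {g : E d → ℝ≥0∞} (hg : Measurable g) (r : ℝ) :
    ∫⁻ x, ∫⁻ y in ball x r, g y = volume (ball (0 : E d) r) * ∫⁻ y, g y := by
  have := lintegral_mul_ballInt (a := fun _ => 1) measurable_const hg r
  simp only [one_mul, setLIntegral_one] at this
  rw [this, ← lintegral_const_mul _ hg]
  refine lintegral_congr fun y => ?_
  rw [Measure.addHaar_ball_center]

/-- grid-free localisation; `a` need not be measurable -/
theorem av_loc {a a' g : E d → ℝ≥0∞} (ha' : Measurable a') (hg : Measurable g) {r : ℝ}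
    (h : ∀ x y, y ∈ ball x r → a y ≤ a' x) :
    volume (ball (0 : E d) r) * ∫⁻ y, a y * g y ≤ ∫⁻ x, a' x * ∫⁻ y in ball x r, g y := by
  rw [lintegral_mul_ballInt ha' hg, ← lintegral_const_mul' _ _ measure_ball_lt_top.ne]
  refine lintegral_mono fun y => ?_
  rw [← mul_assoc]
  refine mul_le_mul_left ?_ _
  rw [mul_comm, ← Measure.addHaar_ball_center volume y r, ← setLIntegral_const]
  exact setLIntegral_mono ha' fun x hx => h x y (mem_ball_comm.1 hx)

theorem ballInt_ballInt {g : E d → ℝ≥0∞} (hg : Measurable g) (x' : E d) (r s : ℝ) :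
    ∫⁻ x in ball x' r, ∫⁻ y in ball x s, g y ≤
      volume (ball (0 : E d) s) * ∫⁻ y in ball x' (r + s), g y := by
  have h1 := lintegral_mul_ballInt (a := (ball x' r).indicator 1)
    (measurable_one.indicator measurableSet_ball) hg s
  have h2 : ∫⁻ x in ball x' r, ∫⁻ y in ball x s, g y =
      ∫⁻ x, (ball x' r).indicator 1 x * ∫⁻ y in ball x s, g y := by
    rw [← lintegral_indicator measurableSet_ball]
    refine lintegral_congr fun x => ?_
    by_cases hx : x ∈ ball x' r <;> simp [hx]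
  rw [h2, h1, ← lintegral_indicator measurableSet_ball,
    ← lintegral_const_mul' _ _ measure_ball_lt_top.ne]
  refine lintegral_mono fun y => ?_
  by_cases hy : y ∈ ball x' (r + s)
  · rw [indicator_of_mem hy]
    refine mul_le_mul_left ?_ _
    rw [← Measure.addHaar_ball_center volume y s, ← setLIntegral_one]
    exact lintegral_mono fun x => indicator_le_self _ _ x
  · have : ∫⁻ x in ball y s, (ball x' r).indicator (1 : E d → ℝ≥0∞) x = 0 := by
      refine (setLIntegral_congr_fun measurableSet_ball (g := fun _ => 0) fun x hx => ?_).trans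
        (by simp)
      refine indicator_of_notMem (fun hx' => hy ?_) _
      rw [mem_ball] at hx hx' ⊢
      have := dist_triangle_left y x' x
      linarith
    rw [this]; simp

theorem ballInt_ge {g : E d → ℝ≥0∞} (hg : Measurable g) (x' : E d) (r s : ℝ) :
    volume (ball (0 : E d) s) * ∫⁻ y in ball x' r, g y ≤
      ∫⁻ x in ball x' (r + s), ∫⁻ y in ball x s, g y := by
  have h := av_loc (a := (ball x' r).indicator 1) (a' := (ball x' (r + s)).indicator 1)
    (measurable_one.indicator measurableSet_ball) hg (r := s) (fun x y hy => by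
      by_cases hy' : y ∈ ball x' r
      · have : x ∈ ball x' (r + s) := by
          rw [mem_ball] at hy hy' ⊢
          have := dist_triangle_left x x' y
          linarith
        simp [hy', this]
      · simp [hy'])
  have e1 : ∫⁻ y, (ball x' r).indicator 1 y * g y = ∫⁻ y in ball x' r, g y := by
    rw [← lintegral_indicator measurableSet_ball]
    refine lintegral_congr fun x => ?_
    by_cases hx : x ∈ ball x' r <;> simp [hx]
  have e2 : ∫⁻ x, (ball x' (r + s)).indicator 1 x * ∫⁻ y in ball x s, g y =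
      ∫⁻ x in ball x' (r + s), ∫⁻ y in ball x s, g y := by
    rw [← lintegral_indicator measurableSet_ball]
    refine lintegral_congr fun x => ?_
    by_cases hx : x ∈ ball x' (r + s) <;> simp [hx]
  rwa [e1, e2] at h

theorem measurable_mass {w : E d → E d} (hw : Measurable w) (R : ℝ) :
    Measurable fun x => mass w x R := measurable_ballInt hw.enorm R

theorem measurable_nm {w : E d → E d} (hw : Measurable w) (ℓ A : ℝ) : Measurable (nm w ℓ A) :=
  (measurable_mass hw _).const_mul _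

theorem lintegral_nm {w : E d → E d} (hw : Measurable w) {ℓ A : ℝ} (hℓ : 0 < ℓ) (hA : 0 < A) :
    ∫⁻ x, nm w ℓ A x = ENNReal.ofReal (A ^ d * vb d 1) * VV w := by
  unfold nm mass VV
  rw [lintegral_const_mul _ (measurable_ballInt hw.enorm _), lintegral_ballInt hw.enorm,
    volume_ball_mul _ hA hℓ, mul_comm (ENNReal.ofReal (A ^ d * vb d 1)), ← mul_assoc, ← mul_assoc,
    ENNReal.inv_mul_cancel (by simp; positivity) ENNReal.ofReal_ne_top, one_mul]

theorem measurable_bet (η : ℝ≥0) (ℓ : ℝ) {n : ℕ → E d → E d} {p : ℕ → ℕ → E d → ℝ}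
    (hn : ∀ k, Continuous (n k)) (hp : ∀ k i, Continuous (p k i)) (k : ℕ) :
    Measurable (bet η ℓ n p k) := by
  unfold bet
  refine measurable_const.add (Finset.measurable_sum _ fun i _ => Measurable.const_mul ?_ _)
  exact ((measurable_supf (hp i i) _).const_mul _).add
    ((((measurable_lip (hn i) _).const_mul _).pow_const 2).const_mul _)

theorem Ctx.p_le_one {C₀ C₁ : ℝ≥0} {ℓ : ℝ} {K : ℕ} {x₀ : E d} {μ : E d → E d}
    {m : ℕ → E d → E d} {D : ℕ → ℕ → E d → ℝ≥0∞} {n : ℕ → E d → E d} {ζ : E d → ℝ}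
    {p : ℕ → ℕ → E d → ℝ} (h : Ctx C₀ C₁ ℓ K x₀ μ m D n ζ p) {k i : ℕ} (hik : i ≤ k) (x : E d) :
    p k i x ≤ ζ x ∧ p k i x ≤ 1 := by
  have h1 : p k i x ≤ ζ x := by
    rw [← h.wts.sum k x]
    exact Finset.single_le_sum (f := fun i => p k i x) (fun j _ => h.wts.nonneg k j x)
      (Finset.mem_range.2 (by omega))
  exact ⟨h1, h1.trans (h.zmem x).2⟩

/-! ### numerics -/

theorem qq_pos (n : ℕ) : 0 < qq n := by unfold qq; positivity
theorem qq_le_one (n : ℕ) : qq n ≤ 1 := pow_le_one₀ (by norm_num) (by norm_num)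
theorem qq_succ (n : ℕ) : qq (n + 1) = qq n / 2 := by unfold qq; ring
theorem qq_le_half {n : ℕ} (hn : 1 ≤ n) : qq n ≤ 1 / 2 := by
  obtain ⟨k, rfl⟩ := Nat.exists_eq_add_of_le' hn
  rw [qq_succ]; linarith [qq_le_one k]
theorem dl_pos (n : ℕ) : 0 < dl n := pow_pos (qq_pos n) _
theorem tau_pos (n : ℕ) : 0 < tau n := pow_pos (qq_pos n) _
theorem phi_pos (n : ℕ) : 0 < phi n := pow_pos (qq_pos n) _
theorem dl_le_one (n : ℕ) : dl n ≤ 1 := pow_le_one₀ (qq_pos n).le (qq_le_one n)
theorem tau_le_one (n : ℕ) : tau n ≤ 1 := pow_le_one₀ (qq_pos n).le (qq_le_one n)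
theorem dl_eq (n : ℕ) : dl n = tau n * phi n := by unfold dl tau phi; ring
theorem dl_succ (n : ℕ) : dl n = 2 ^ 14 * dl (n + 1) := by unfold dl; rw [qq_succ]; ring
theorem tau_succ (n : ℕ) : tau n = 4096 * tau (n + 1) := by unfold tau; rw [qq_succ]; ring
theorem dl_succ_le (n : ℕ) : dl (n + 1) ≤ dl n := by
  rw [dl_succ n]; linarith [dl_pos (n + 1)]
theorem phi_le_one (n : ℕ) : phi n ≤ 1 := pow_le_one₀ (qq_pos n).le (qq_le_one n)
theorem dl_le_tau (n : ℕ) : dl n ≤ tau n := by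
  rw [dl_eq]; nlinarith [phi_le_one n, tau_pos n]
theorem phi_le {n : ℕ} (hn : 1 ≤ n) : phi n ≤ 1 / 4 := by
  unfold phi; nlinarith [qq_le_half hn, qq_pos n]
theorem tau_le_phi {n : ℕ} (hn : 1 ≤ n) : tau n ≤ phi n / 100 := by
  have h1 : qq n ^ 10 ≤ (1 / 2) ^ 10 := pow_le_pow_left₀ (qq_pos n).le (qq_le_half hn) _
  have h2 : tau n = phi n * qq n ^ 10 := by unfold tau phi; ring
  rw [h2]; nlinarith [phi_pos n]
theorem lam_pos : 0 < lam := by unfold lam; norm_num
theorem one_lt_lam : 1 < lam := by unfold lam; norm_num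
theorem lam_lst (n : ℕ) : lam ^ lst n ≤ 2 / qq n := by
  have h : lam ^ 14 ≤ 2 := by unfold lam; norm_num
  have h2 : (2 : ℝ) / qq n = 2 ^ (n + 1) := by
    unfold qq; rw [one_div, inv_pow, div_inv_eq_mul, pow_succ, mul_comm]
  rw [lst, pow_mul, h2]
  exact pow_le_pow_left₀ (pow_pos lam_pos _).le h _
theorem four_lst (n : ℕ) : 1 / (4 : ℝ) ^ lst n = dl (n + 1) ^ 2 := by
  unfold dl qq lst
  rw [← pow_mul, ← pow_mul, show (4 : ℝ) = 2 ^ 2 by norm_num, ← pow_mul, one_div, one_div,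
    inv_pow]
  congr 2; ring
theorem lam4_lst (n : ℕ) : (lam / 4) ^ lst n / dl (n + 1) ≤ qq n := by
  have h1 : (lam / 4) ^ lst n = lam ^ lst n * dl (n + 1) ^ 2 := by
    rw [← four_lst, div_pow]; ring
  have hd := dl_pos (n + 1)
  have hq := qq_pos n
  rw [h1, div_le_iff₀ hd]
  have h2 : dl (n + 1) ≤ qq n ^ 2 / 2 := by
    have : dl (n + 1) ≤ dl n / 2 := by rw [dl_succ n]; linarith
    have h3 : dl n ≤ qq n ^ 2 := by
      rw [dl_eq]; unfold phi; nlinarith [tau_le_one n, pow_pos hq 2]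
    linarith
  have h4 : lam ^ lst n * dl (n + 1) ≤ qq n := by
    calc lam ^ lst n * dl (n + 1) ≤ 2 / qq n * (qq n ^ 2 / 2) :=
          mul_le_mul (lam_lst n) h2 hd.le (by positivity)
      _ = qq n := by field_simp
  nlinarith

end Vale.Agent.P137
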