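import Mathlib

open MeasureTheory Metric
open scoped ENNReal ContDiff

namespace Vale.Agent.P137

/-- Euclidean space of dimension `d`. -/
abbrev E (d : ℕ) : Type := EuclideanSpace ℝ (Fin d)

/-- `F` is a weak (distributional) gradient of `f`: integration by parts holds against every
smooth compactly supported test function, in every direction `v`. -/
def IsWeakGrad {d : ℕ} (f : E d → ℝ) (F : E d → E d) : Prop :=
  ∀ φ : E d → ℝ, ContDiff ℝ ∞ φ → HasCompactSupport φ → ∀ v : E d,
    ∫ x, f x * fderiv ℝ φ x v = -∫ x, inner ℝ (F x) v * φ x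

/-- The centered Hardy-Littlewood maximal function over open Euclidean balls. -/
noncomputable def M {d : ℕ} (f : E d → ℝ) (x : E d) : ℝ≥0∞ :=
  ⨆ (r : ℝ) (_ : 0 < r), (∫⁻ y in ball x r, ‖f y‖ₑ) / volume (ball x r)

end Vale.Agent.P137
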