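import Vale.Agent.P137.Defs

open MeasureTheory Metric
open scoped ENNReal

namespace Vale.Agent.P137

/-- The uncentered Hardy-Littlewood maximal function: supremum of the averages of `|f|` over all
open Euclidean balls containing `x`. -/
noncomputable def Mu {d : ℕ} (f : E d → ℝ) (x : E d) : ℝ≥0∞ :=
  ⨆ (y : E d) (r : ℝ) (_ : x ∈ ball y r), (∫⁻ w in ball y r, ‖f w‖ₑ) / volume (ball y r)

end Vale.Agent.P137
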