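import Vale.Agent.P137.Basic

open MeasureTheory Metric Set Filter
open scoped ENNReal NNReal Topology

namespace Vale.Agent.P137

namespace FamAux

variable {d : ℕ} {F : Type} [NormedAddCommGroup F] [NormedSpace ℝ F] [CompleteSpace F]
  [MeasurableSpace F] [BorelSpace F] [SecondCountableTopology F]

/-- ball average -/
noncomputable def av (r : ℝ) (w : E d → F) (y : E d) : F := (vb d r)⁻¹ • ∫ x in ball y r, w x

omit [CompleteSpace F] in
theorem meas_av (r : ℝ) {w : E d → F} (hw : Measurable w) : Measurable (av r w) := by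
  have h : StronglyMeasurable fun q : E d × E d =>
      {q : E d × E d | q.2 ∈ ball q.1 r}.indicator (fun q => w q.2) q :=
    ((hw.comp measurable_snd).indicator (measurableSet_near r)).stronglyMeasurable
  have h2 := (h.integral_prod_right' (ν := volume)).measurable
  have e : (fun y => ∫ x in ball y r, w x) = fun y => ∫ x,
      {q : E d × E d | q.2 ∈ ball q.1 r}.indicator (fun q => w q.2) (y, x) := by
    funext y
    rw [← integral_indicator measurableSet_ball]
    rfl
  rw [← e] at h2
  exact h2.const_smul (vb d r)⁻¹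

theorem vol_ne {r : ℝ} (hr : 0 < r) : volume (ball (0 : E d) r) ≠ 0 :=
  (measure_ball_pos _ _ hr).ne'

theorem ofReal_inv {r : ℝ} (hr : 0 < r) :
    ENNReal.ofReal (vb d r)⁻¹ = (volume (ball (0 : E d) r))⁻¹ := by
  rw [ENNReal.ofReal_inv_of_pos (vb_pos hr), volume_ball_eq]

omit [CompleteSpace F] in
theorem int_av {r : ℝ} {w : E d → F} (hw : Measurable w) (hi : Integrable w) :
    Integrable (av r w) := by
  refine Integrable.smul (vb d r)⁻¹ (f := fun y => ∫ x in ball y r, w x) ⟨?_, ?_⟩
  · by_cases h : vb d r = 0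
    · have : ∀ y : E d, volume (ball y r) = 0 := fun y => by rw [volume_ball_eq, h]; simp
      simp only [fun y => setIntegral_measure_zero w (this y)]
      exact aestronglyMeasurable_const
    · have := ((meas_av r hw).const_smul (vb d r)).aestronglyMeasurable (μ := volume)
      refine this.congr (Eventually.of_forall fun y => ?_)
      simp [av, smul_smul, mul_inv_cancel₀ h]
  · refine lt_of_le_of_lt (lintegral_mono fun y => enorm_integral_le_lintegral_enorm _) ?_
    rw [lintegral_ballInt hw.enorm]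
    exact ENNReal.mul_lt_top measure_ball_lt_top hi.2

theorem dual_av {r B : ℝ} {ζ : E d → ℝ} {w : E d → F} (hζ : Measurable ζ) (hB : ∀ y, |ζ y| ≤ B)
    (hw : Measurable w) (hi : Integrable w) :
    ∫ y, ζ y • av r w y = ∫ y, av r ζ y • w y := by
  set K : E d × E d → F :=
    {q : E d × E d | q.2 ∈ ball q.1 r}.indicator (fun q => ζ q.1 • w q.2) with hK
  have hm : Measurable K :=
    ((hζ.comp measurable_fst).smul (hw.comp measurable_snd)).indicator (measurableSet_near r)
  have hKi : Integrable K (volume.prod volume) := by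
    refine ⟨hm.aestronglyMeasurable, ?_⟩
    rw [HasFiniteIntegral, lintegral_prod _ hm.enorm.aemeasurable]
    have h1 : ∀ y, ∫⁻ x, ‖K (y, x)‖ₑ ≤ ENNReal.ofReal B * ∫⁻ x in ball y r, ‖w x‖ₑ := by
      intro y
      rw [← lintegral_const_mul _ hw.enorm, ← lintegral_indicator measurableSet_ball]
      refine lintegral_mono fun x => ?_
      by_cases hx : x ∈ ball y r
      · rw [hK, indicator_of_mem (by exact hx), indicator_of_mem hx, enorm_smul]
        refine mul_le_mul_left ?_ _
        rw [Real.enorm_eq_ofReal_abs]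
        exact ENNReal.ofReal_le_ofReal (hB y)
      · rw [hK, indicator_of_notMem (by exact hx)]
        simp
    refine lt_of_le_of_lt (lintegral_mono h1) ?_
    rw [lintegral_const_mul _ (measurable_ballInt hw.enorm r), lintegral_ballInt hw.enorm]
    exact ENNReal.mul_lt_top ENNReal.ofReal_lt_top (ENNReal.mul_lt_top measure_ball_lt_top hi.2)
  have e1 : ∀ y, ζ y • av r w y = (vb d r)⁻¹ • ∫ x, K (y, x) := by
    intro y
    rw [av, smul_comm, ← integral_smul (ζ y), ← integral_indicator measurableSet_ball]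
    rfl
  have e2 : ∀ x, av r ζ x • w x = (vb d r)⁻¹ • ∫ y, K (y, x) := by
    intro x
    rw [av, smul_assoc, ← integral_smul_const, ← integral_indicator measurableSet_ball]
    congr 1
    refine integral_congr_ae (Eventually.of_forall fun y => ?_)
    by_cases hy : y ∈ ball x r
    · simp only [hK]
      rw [indicator_of_mem hy, indicator_of_mem (by exact mem_ball_comm.1 hy)]
    · simp only [hK]
      rw [indicator_of_notMem hy, indicator_of_notMem (by exact fun h => hy (mem_ball_comm.1 h))]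
  simp only [e1, e2, integral_smul]
  rw [integral_integral_swap (f := fun y x => K (y, x)) hKi]

theorem av_const {r : ℝ} (hr : 0 < r) (a : ℝ) (y : E d) : av r (fun _ => a) y = a := by
  rw [av, setIntegral_const, volume_real_ball, smul_smul, inv_mul_cancel₀ (vb_pos hr).ne',
    one_smul]

theorem av_mono {r : ℝ} {f g : E d → ℝ} {y : E d} (hf : IntegrableOn f (ball y r))
    (hg : IntegrableOn g (ball y r)) (h : ∀ x ∈ ball y r, f x ≤ g x) : av r f y ≤ av r g y :=
  mul_le_mul_of_nonneg_left (setIntegral_mono_on hf hg measurableSet_ball h)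
    (inv_nonneg.2 (vb_nonneg _))

omit [CompleteSpace F] [MeasurableSpace F] [BorelSpace F] [SecondCountableTopology F] in
theorem norm_av (r : ℝ) (w : E d → F) (y : E d) : ‖av r w y‖ ≤ av r (fun x => ‖w x‖) y := by
  rw [av, norm_smul, Real.norm_of_nonneg (inv_nonneg.2 (vb_nonneg _))]
  exact mul_le_mul_of_nonneg_left (norm_integral_le_integral_norm _) (inv_nonneg.2 (vb_nonneg _))

theorem ofReal_av {r : ℝ} (hr : 0 < r) {g : E d → ℝ} (hi : Integrable g) (h0 : ∀ x, 0 ≤ g x)
    (y : E d) : volume (ball (0 : E d) r) * ENNReal.ofReal (av r g y) =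
      ∫⁻ x in ball y r, ENNReal.ofReal (g x) := by
  rw [av, smul_eq_mul, ENNReal.ofReal_mul (inv_nonneg.2 (vb_nonneg _)), ofReal_inv hr,
    ← mul_assoc, ENNReal.mul_inv_cancel (vol_ne hr) measure_ball_lt_top.ne, one_mul,
    ofReal_integral_eq_lintegral_ofReal hi.integrableOn (Eventually.of_forall h0)]

theorem ball_av {r : ℝ} (hr : 0 < r) {g : E d → ℝ} (hm : Measurable g) (hi : Integrable g)
    (h0 : ∀ x, 0 ≤ g x) (x : E d) (R : ℝ) :
    ∫⁻ y in ball x R, ENNReal.ofReal (g y) ≤
      ∫⁻ y in ball x (R + r), ENNReal.ofReal (av r g y) := by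
  have h := ballInt_ge hm.ennreal_ofReal x R r
  simp only [← ofReal_av hr hi h0] at h
  rw [lintegral_const_mul' _ _ measure_ball_lt_top.ne] at h
  exact (ENNReal.mul_le_mul_iff_right (vol_ne hr) measure_ball_lt_top.ne).1 h

theorem av_sub_inner {r : ℝ} {g : E d → ℝ} {w : E d → E d} (hg : Integrable g)
    (hw : Integrable w) (a y : E d) :
    av r (fun x => g x - inner ℝ a (w x)) y = av r g y - inner ℝ a (av r w y) := by
  rw [av, av, av, integral_sub hg.integrableOn (hw.const_inner a).integrableOn,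
    integral_inner hw.integrableOn, inner_smul_right, smul_eq_mul, smul_eq_mul, mul_sub]

/-- one averaging step -/
noncomputable def st (L : ℝ) (N i : ℕ) (w : E d → F) : E d → F :=
  if i < N then av (L / 4 ^ i) w else w

/-- measurable and integrable -/
structure MI (w : E d → F) : Prop where
  m : Measurable w
  i : Integrable w

variable {L : ℝ} {N : ℕ}

omit [CompleteSpace F] in
theorem MI.st {w : E d → F} (h : MI w) (i : ℕ) : MI (st L N i w) := by
  unfold FamAux.st
  split_ifs
  · exact ⟨meas_av _ h.m, int_av h.m h.i⟩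
  · exact h

omit [NormedSpace ℝ F] [CompleteSpace F] [SecondCountableTopology F] in
theorem MI.norm {w : E d → F} (h : MI w) : MI fun x => ‖w x‖ := ⟨h.m.norm, h.i.norm⟩

theorem MI.sub_inner {g : E d → ℝ} {w : E d → E d} (hg : MI g) (hw : MI w) (a : E d) :
    MI fun x => g x - inner ℝ a (w x) :=
  ⟨hg.m.sub (measurable_const.inner hw.m), hg.i.sub (hw.i.const_inner a)⟩

theorem rpos (hL : 0 < L) (i : ℕ) : 0 < L / 4 ^ i := by positivity

theorem integral_st (hL : 0 < L) {g : E d → ℝ} (h : MI g) (i : ℕ) :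
    ∫ y, st L N i g y = ∫ y, g y := by
  unfold st
  split_ifs
  · have := dual_av (r := L / 4 ^ i) (ζ := fun _ => 1) (B := 1) measurable_const
      (fun _ => by simp) h.m h.i
    simpa [av_const (rpos hL i)] using this
  · rfl

theorem st_mono {f g : E d → ℝ} (hf : MI f) (hg : MI g) (h : ∀ x, f x ≤ g x) (i : ℕ) (y : E d) :
    st L N i f y ≤ st L N i g y := by
  unfold st
  split_ifs
  · exact av_mono hf.i.integrableOn hg.i.integrableOn fun x _ => h x
  · exact h y

theorem st_nonneg {g : E d → ℝ} (h : ∀ x, 0 ≤ g x) (i : ℕ) (y : E d) : 0 ≤ st L N i g y := by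
  unfold st
  split_ifs
  · exact mul_nonneg (inv_nonneg.2 (vb_nonneg _)) (integral_nonneg h)
  · exact h y

theorem norm_st (w : E d → E d) (i : ℕ) (y : E d) :
    ‖st L N i w y‖ ≤ st L N i (fun x => ‖w x‖) y := by
  unfold st
  split_ifs
  · exact norm_av _ _ _
  · exact le_rfl

theorem st_sub_inner {g : E d → ℝ} {w : E d → E d} (hg : MI g) (hw : MI w) (a : E d) (i : ℕ) :
    st L N i (fun x => g x - inner ℝ a (w x)) =
      fun y => st L N i g y - inner ℝ a (st L N i w y) := by
  funext y
  unfold st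
  split_ifs
  · exact av_sub_inner hg.i hw.i a y
  · rfl

theorem ball_st (hL : 0 < L) {g : E d → ℝ} (h : MI g) (h0 : ∀ x, 0 ≤ g x) (i : ℕ) (x : E d)
    (R : ℝ) : ∫⁻ y in ball x R, ENNReal.ofReal (g y) ≤
      ∫⁻ y in ball x (R + L / 4 ^ i), ENNReal.ofReal (st L N i g y) := by
  unfold st
  split_ifs
  · exact ball_av (rpos hL i) h.m h.i h0 x R
  · exact lintegral_mono_set (ball_subset_ball (by linarith [rpos hL i]))

/-- iterated averaging -/
noncomputable def T (L : ℝ) (N : ℕ) (g : E d → ℝ) : ℕ → ℕ → E d → ℝ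
  | 0, _ => g
  | t + 1, i => st L N i (T L N g t (i + 1))

theorem MI.T {g : E d → ℝ} (h : MI g) : ∀ t i, MI (T L N g t i)
  | 0, _ => h
  | t + 1, i => (h.T t (i + 1)).st i

theorem T_nonneg {g : E d → ℝ} (h : ∀ x, 0 ≤ g x) : ∀ t i y, 0 ≤ T L N g t i y
  | 0, _ => h
  | t + 1, i => st_nonneg (T_nonneg h t (i + 1)) i

theorem integral_T (hL : 0 < L) {g : E d → ℝ} (h : MI g) :
    ∀ t i, ∫ y, T L N g t i y = ∫ y, g y
  | 0, _ => rfl
  | t + 1, i => (integral_st hL (h.T t (i + 1)) i).trans (integral_T hL h t (i + 1))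

theorem ball_T (hL : 0 < L) {g : E d → ℝ} (h : MI g) (h0 : ∀ x, 0 ≤ g x) (x : E d) (R : ℝ) :
    ∀ t i, ∫⁻ y in ball x R, ENNReal.ofReal (g y) ≤
      ∫⁻ y in ball x (R + 4 / 3 * (L / 4 ^ i)), ENNReal.ofReal (T L N g t i y)
  | 0, i => lintegral_mono_set (ball_subset_ball (by linarith [rpos hL i]))
  | t + 1, i => by
    refine (ball_T hL h h0 x R t (i + 1)).trans
      ((ball_st (N := N) hL (h.T t (i + 1)) (T_nonneg h0 t (i + 1)) i x _).trans (le_of_eq ?_))
    have : R + 4 / 3 * (L / 4 ^ (i + 1)) + L / 4 ^ i = R + 4 / 3 * (L / 4 ^ i) := by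
      rw [pow_succ]
      field_simp
      ring
    rw [this]
    rfl

/-- the family, indexed from the top -/
noncomputable def mk (μ : E d → E d) (L : ℝ) (N : ℕ) : ℕ → E d → E d
  | 0 => μ
  | k + 1 => st L N (N - (k + 1)) (mk μ L N k)

theorem exists_m {μ : E d → E d} (hμ : MI μ) (L : ℝ) (N : ℕ) : ∃ m : ℕ → E d → E d,
    (∀ i, MI (m i)) ∧ (∀ i, N ≤ i → m i = μ) ∧ ∀ i, m i = st L N i (m (i + 1)) := by
  have h1 : ∀ k, MI (mk μ L N k) := fun k => by
    induction k with
    | zero => exact hμ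
    | succ k ih => exact ih.st _
  refine ⟨fun i => mk μ L N (N - i), fun i => h1 _, fun i hi => ?_, fun i => ?_⟩
  · simp only [Nat.sub_eq_zero_of_le hi, mk]
  · by_cases hi : i < N
    · have e1 : N - i = N - (i + 1) + 1 := by omega
      have e2 : N - (N - (i + 1) + 1) = i := by omega
      simp only [e1, mk, e2]
    · have e1 : N - i = 0 := by omega
      have e2 : N - (i + 1) = 0 := by omega
      simp only [e1, e2, st, if_neg hi]

variable {m : ℕ → E d → E d}

theorem norm_le_T (hm : ∀ i, MI (m i)) (hs : ∀ i, m i = st L N i (m (i + 1))) (j : ℕ) :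
    ∀ t i, i + t = j → ∀ y, ‖m i y‖ ≤ T L N (fun x => ‖m j x‖) t i y
  | 0, i, e, y => by
    subst e
    exact le_rfl
  | t + 1, i, e, y => by
    rw [hs i]
    exact (norm_st _ i y).trans (st_mono (hm _).norm ((hm j).norm.T t (i + 1))
      (norm_le_T hm hs j t (i + 1) (by omega)) i y)

theorem T_sub_inner (hm : ∀ i, MI (m i)) (hs : ∀ i, m i = st L N i (m (i + 1))) (j : ℕ)
    {g : E d → ℝ} (hg : MI g) (a : E d) :
    ∀ t i, i + t = j → T L N (fun x => g x - inner ℝ a (m j x)) t i =
      fun y => T L N g t i y - inner ℝ a (m i y)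
  | 0, i, e => by
    subst e
    rfl
  | t + 1, i, e => by
    rw [T, T_sub_inner hm hs j hg a t (i + 1) (by omega), st_sub_inner (hg.T t (i + 1)) (hm _),
      ← hs i]
    rfl

theorem VV_eq {w : E d → E d} (h : MI w) : VV w = ENNReal.ofReal (∫ y, ‖w y‖) :=
  (ofReal_integral_norm_eq_lintegral_enorm h.i).symm

theorem tele (V : ℕ → ℝ) (B : ℝ) (h0 : ∀ i, 0 ≤ V i) (h1 : ∀ i, V i ≤ B) (t n : ℕ) :
    ∑ i ∈ Finset.range n, (V (i + t) - V i) ≤ t * B := by
  have a1 := Finset.sum_range_add V n t
  have a2 := Finset.sum_range_add V t n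
  have a3 : ∑ s ∈ Finset.range t, V (n + s) ≤ t * B := by
    simpa using Finset.sum_le_card_nsmul (Finset.range t) _ B fun s _ => h1 (n + s)
  have a4 : 0 ≤ ∑ s ∈ Finset.range t, V s := Finset.sum_nonneg fun s _ => h0 s
  rw [add_comm t n] at a2
  simp only [Finset.sum_sub_distrib, fun i => add_comm i t]
  linarith

end FamAux

open FamAux in
theorem fam (d : ℕ) (hd : 1 ≤ d) : FamStmt d := by
  intro μ L N hμm hμi hL
  obtain ⟨m, hm, htop, hs⟩ := exists_m ⟨hμm, hμi⟩ L N
  have hV : ∀ i t, ∫ y, ‖m i y‖ ≤ ∫ y, ‖m (i + t) y‖ := fun i t => by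
    rw [← integral_T (N := N) hL (hm (i + t)).norm t i]
    exact integral_mono (hm i).norm.i ((hm _).norm.T t i).i (norm_le_T hm hs _ t i rfl)
  have hV' : ∀ i, ∫ y, ‖m i y‖ ≤ ∫ y, ‖μ y‖ := fun i => by
    have := hV i N
    rwa [htop (i + N) (by omega)] at this
  refine ⟨m, fun i j z => ENNReal.ofReal (T L N (fun x => ‖m j x‖) (j - i) i z - ‖m i z‖),
    ⟨fun l => (hm l).m, fun l => (hm l).i, htop, fun l ζ B hζ hB => ?_⟩,
    fun i j => (((hm j).norm.T _ _).m.sub (hm i).norm.m).ennreal_ofReal, fun t n => ?_,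
    fun i => ?_, fun i j z hi hij => ?_, fun i j x R hij => ?_⟩
  · by_cases hl : l < N
    · have hI : ∀ y : E d, IntegrableOn ζ (ball y (L / 4 ^ l)) := fun y =>
        Measure.integrableOn_of_bounded measure_ball_lt_top.ne hζ.aestronglyMeasurable
          (Eventually.of_forall hB)
      have hc : ∀ (y : E d) (a : ℝ), IntegrableOn (fun _ => a) (ball y (L / 4 ^ l)) :=
        fun y a => integrableOn_const measure_ball_lt_top.ne
      refine ⟨av (L / 4 ^ l) ζ, meas_av _ hζ, fun y a h => ?_, fun y a h => ?_, ?_⟩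
      · rw [← av_const (rpos hL l) a y]
        exact av_mono (hc y a) (hI y) fun x hx => h x (mem_ball_iff_norm.1 hx).le
      · rw [← av_const (rpos hL l) a y]
        exact av_mono (hI y) (hc y a) fun x hx => h x (mem_ball_iff_norm.1 hx).le
      · rw [hs l, st, if_pos hl]
        exact dual_av hζ hB (hm _).m (hm _).i
    · refine ⟨ζ, hζ, fun y a h => h y ?_, fun y a h => h y ?_, ?_⟩
      · simpa using (rpos hL l).le
      · simpa using (rpos hL l).le
      · rw [hs l, st, if_neg hl]
  · have e : ∀ i, ∫⁻ z, ENNReal.ofReal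
        (T L N (fun x => ‖m (i + t) x‖) (i + t - i) i z - ‖m i z‖) =
        ENNReal.ofReal ((∫ y, ‖m (i + t) y‖) - ∫ y, ‖m i y‖) := by
      intro i
      rw [Nat.add_sub_cancel_left, ← ofReal_integral_eq_lintegral_ofReal
        (f := fun z => T L N (fun x => ‖m (i + t) x‖) t i z - ‖m i z‖)
        (((hm _).norm.T t i).i.sub (hm i).norm.i)
        (Eventually.of_forall fun y => sub_nonneg.2 (norm_le_T hm hs _ t i rfl y)),
        integral_sub ((hm _).norm.T t i).i (hm i).norm.i, integral_T hL (hm _).norm]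
    simp only [e]
    rw [← ENNReal.ofReal_sum_of_nonneg fun i _ => sub_nonneg.2 (hV i t), VV_eq ⟨hμm, hμi⟩,
      ← ENNReal.ofReal_natCast, ← ENNReal.ofReal_mul (Nat.cast_nonneg t)]
    exact ENNReal.ofReal_le_ofReal (tele (fun i => ∫ y, ‖m i y‖) _
      (fun i => integral_nonneg fun _ => norm_nonneg _) hV' t n)
  · rw [VV_eq (hm i), VV_eq ⟨hμm, hμi⟩]
    exact ENNReal.ofReal_le_ofReal (hV' i)
  · obtain ⟨t, ht⟩ : ∃ t, j - i = t + 1 := ⟨j - i - 1, by omega⟩
    have h0 : ∀ x, 0 ≤ ‖m j x‖ - inner ℝ (dir (m i z)) (m j x) := fun x => by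
      have := real_inner_le_norm (dir (m i z)) (m j x)
      rw [norm_dir hd, one_mul] at this
      linarith
    have hg := (hm j).norm.sub_inner (hm j) (dir (m i z))
    have e1 := congrFun (T_sub_inner hm hs j (hm j).norm (dir (m i z)) (t + 1) i (by omega)) z
    rw [inner_dir] at e1
    rw [ht, ← e1, T, st, if_pos hi, ofReal_av (rpos hL i) (hg.T t (i + 1)).i
      (T_nonneg h0 t (i + 1))]
    refine (ball_T (N := N) hL hg h0 z _ t (i + 1)).trans (le_of_eq ?_)
    have : 2 / 3 * (L / 4 ^ i) + 4 / 3 * (L / 4 ^ (i + 1)) = L / 4 ^ i := by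
      rw [pow_succ]
      field_simp
      ring
    rw [this]
  · have h1 := ball_T (N := N) hL (hm j).norm (fun _ => norm_nonneg _) x R (j - i) i
    simp only [ofReal_norm] at h1
    refine h1.trans ((lintegral_mono_set (ball_subset_ball (by linarith [rpos hL i]))).trans
      (lintegral_mono fun y => ?_))
    rw [← ofReal_norm]
    refine le_trans (le_of_eq ?_) ENNReal.ofReal_add_le
    rw [add_sub_cancel]

end Vale.Agent.P137
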