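import Vale.Agent.P137.Defs

open MeasureTheory Metric Set
open scoped ENNReal NNReal

namespace Vale.Agent.P137

noncomputable section

variable {d : ℕ}

/-- volume of the ball of radius `s` -/
def vb (d : ℕ) (s : ℝ) : ℝ := (volume (ball (0 : E d) s)).toReal

/-- ball average of a function -/
def ua (f : E d → ℝ) (x : E d) (s : ℝ) : ℝ := (vb d s)⁻¹ * ∫ y in ball x s, f y

/-- divergence free field, tangent to the unit sphere -/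
def Wf (e w : E d) : E d :=
  (((d : ℝ) - 1) / 2 - ((d : ℝ) + 1) / 2 * ‖w‖ ^ 2) • e + inner ℝ w e • w

/-- equals `((d+1)/2 * (1 - ‖w‖^2)) • e + (inner w e + β) • w` -/
def Pf (e : E d) (β : ℝ) (w : E d) : E d := e + β • w + Wf e w

/-- average over `ball x s` of `μ` paired with the rescaled field `P` -/
def avg (μ : E d → E d) (x : E d) (s : ℝ) (P : E d → E d) : ℝ :=
  (vb d s)⁻¹ * ∫ y in ball x s, inner ℝ (μ y) (P (s⁻¹ • (y - x)))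

/-- `u x s` behaves like the ball average of a function with gradient `μ` inside `ball z R` -/
structure Calc (u : E d → ℝ → ℝ) (μ : E d → E d) (z : E d) (R : ℝ) : Prop where
  int : Integrable μ
  path : ∀ (x h : E d) (s b : ℝ), 0 < s → 0 < s + b → ‖x - z‖ + s ≤ R →
    ‖x + h - z‖ + (s + b) ≤ R →
    u (x + h) (s + b) - u x s =
      ∫ t in (0 : ℝ)..1, avg μ (x + t • h) (s + t * b) (fun w => h + b • w)
  curl : ∀ (x : E d) (s : ℝ) (e : E d), 0 < s → ‖x - z‖ + s ≤ R → avg μ x s (Wf e) = 0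

/-- `m l` is an average of `m (l+1)` at distance `ℓ / 4 ^ l`, in dual form -/
structure Lev (m : ℕ → E d → E d) (μ : E d → E d) (ℓ : ℝ) (K : ℕ) : Prop where
  meas : ∀ l, Measurable (m l)
  int : ∀ l, Integrable (m l)
  top : ∀ l, K ≤ l → m l = μ
  dual : ∀ (l : ℕ) (ζ : E d → ℝ) (B : ℝ), Measurable ζ → (∀ y, |ζ y| ≤ B) →
    ∃ ζ' : E d → ℝ, Measurable ζ' ∧
      (∀ y a, (∀ y', ‖y' - y‖ ≤ ℓ / 4 ^ l → a ≤ ζ y') → a ≤ ζ' y) ∧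
      (∀ y a, (∀ y', ‖y' - y‖ ≤ ℓ / 4 ^ l → ζ y' ≤ a) → ζ' y ≤ a) ∧
      ∫ y, ζ y • m l y = ∫ y, ζ' y • m (l + 1) y

/-- defect of `w` from the cone around `e` -/
def dfc (e w : E d) : ℝ := max (‖w‖ - 2 * inner ℝ e w) 0

def lam : ℝ := 29 / 28

/-- window hypotheses at scale one, level part -/
structure WinL (m : ℕ → E d → E d) (μ : E d → E d) (K : ℕ) (e z : E d) (D : ℝ) : Prop where
  unit : ‖e‖ = 1
  lev : Lev m μ 1 K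
  Dpos : 0 < D
  dfc_le : ∀ l, ∫ y in ball z 10, dfc e (m l y) ≤ lam ^ l * D

/-- radially smoothed ball field -/
def Fld (x : E d) (ρ ω : ℝ) (P : ℝ → E d → E d) (y : E d) : E d :=
  ∫ θ in (0 : ℝ)..1,
    if ‖y - x‖ < ρ + θ * ω then (vb d (ρ + θ * ω))⁻¹ • P θ ((ρ + θ * ω)⁻¹ • (y - x)) else 0

/-- radial profile of the smoothed ball kernel -/
def kp (d : ℕ) (ρ ω t : ℝ) : ℝ :=
  ∫ θ in (0 : ℝ)..1, if t < ρ + θ * ω then (vb d (ρ + θ * ω))⁻¹ else 0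

/-- bounded and Lipschitz on the unit ball, with constant `B` -/
structure Good (P : ℝ → E d → E d) (B : ℝ) : Prop where
  cont : Continuous (Function.uncurry P)
  bdd : ∀ θ ∈ Icc (0 : ℝ) 1, ∀ w, ‖w‖ ≤ 1 → ‖P θ w‖ ≤ B
  lip : ∀ θ ∈ Icc (0 : ℝ) 1, ∀ w w', ‖w‖ ≤ 1 → ‖w'‖ ≤ 1 → ‖P θ w - P θ w'‖ ≤ B * ‖w - w'‖

/-- radial smoothing -/
def UU (u : E d → ℝ → ℝ) (ω : ℝ) (x : E d) (r : ℝ) : ℝ := ∫ θ in (0 : ℝ)..1, u x (r + θ * ω)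

/-- supremum over radii in `[a, b]` -/
def MM (u : E d → ℝ → ℝ) (a b : ℝ) (x : E d) : ℝ := sSup (u x '' Icc a b)

/-- backward difference quotient, tends to `- fderiv h x e` -/
def Dq (e : E d) (σ : ℝ) (h : E d → ℝ) (x : E d) : ℝ := (h x - h (x + σ • e)) / σ

def qq (n : ℕ) : ℝ := (1 / 2) ^ n
def dl (n : ℕ) : ℝ := qq n ^ 14
def tau (n : ℕ) : ℝ := qq n ^ 12
def phi (n : ℕ) : ℝ := qq n ^ 2
def lst (n : ℕ) : ℕ := 14 * (n + 1)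

/-- the chain of smoothed suprema -/
def gg (u : E d → ℝ → ℝ) (n : ℕ) : E d → ℝ := MM (UU u (dl n)) 1 (4 - dl n)

/-- `e`-component of `μ` against the smoothed kernel -/
def G0 (μ : E d → E d) (e x : E d) (r ω : ℝ) : ℝ := ∫ y, kp d r ω ‖y - x‖ * inner ℝ e (μ y)

/-- part of the shell of radius `r` and half width `w` with latitude at most `c` -/
def cap (e x : E d) (r w c : ℝ) : Set (E d) :=
  {y | |‖y - x‖ - r| ≤ w ∧ inner ℝ (y - x) e ≤ c * ‖y - x‖}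

/-- sum of the defects in thin shells -/
def shsum (m : ℕ → E d → E d) (e z x : E d) (r ω : ℝ) (J : ℕ) : ℝ :=
  ∑ l ∈ Finset.range J,
    ∫ y in ball z 10 ∩ {y | |‖y - x‖ - r| ≤ 3 / 4 ^ l + ω}, dfc e (m (l + 1) y)

/-- mass in a ball -/
def mass (w : E d → E d) (x : E d) (R : ℝ) : ℝ≥0∞ := ∫⁻ y in ball x R, ‖w y‖ₑ

/-- normalised mass in the ball of radius `A * ℓ` -/
def nm (w : E d → E d) (ℓ A : ℝ) (x : E d) : ℝ≥0∞ :=
  (ENNReal.ofReal (ℓ ^ d))⁻¹ * mass w x (A * ℓ)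

/-- total mass -/
def VV (w : E d → E d) : ℝ≥0∞ := ∫⁻ y, ‖w y‖ₑ

/-- a fixed unit vector -/
def e0 (d : ℕ) : E d := if h : 0 < d then EuclideanSpace.single (⟨0, h⟩ : Fin d) (1 : ℝ) else 0

open Classical in
/-- unit vector in the direction of `v` -/
def dir (v : E d) : E d := if v = 0 then e0 d else ‖v‖⁻¹ • v

/-- iterated ball averages with their telescoping defects -/
structure Fam (μ : E d → E d) (L : ℝ) (N : ℕ) (m : ℕ → E d → E d)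
    (D : ℕ → ℕ → E d → ℝ≥0∞) : Prop where
  lev : Lev m μ L N
  measD : ∀ i j, Measurable (D i j)
  sumD : ∀ t n : ℕ, ∑ i ∈ Finset.range n, ∫⁻ z, D i (i + t) z ≤ t * VV μ
  massle : ∀ i, VV (m i) ≤ VV μ
  D2 : ∀ i j z, i < N → i < j →
    ∫⁻ y in ball z (2 / 3 * (L / 4 ^ i)),
        ENNReal.ofReal (‖m j y‖ - inner ℝ (dir (m i z)) (m j y)) ≤
      volume (ball (0 : E d) (L / 4 ^ i)) * D i j z
  D3 : ∀ i j x R, i ≤ j →
    mass (m j) x R ≤ ∫⁻ y in ball x (R + 2 * (L / 4 ^ i)), (‖m i y‖ₑ + D i j y)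

/-- the scales -/
def sc (ℓ : ℝ) (k : ℕ) : ℝ := ℓ / 4 ^ k

/-- local Lipschitz constant on `ball x R` -/
def lip (n : E d → E d) (R : ℝ) (x : E d) : ℝ≥0∞ :=
  ⨆ (h : E d) (_ : ‖h‖ < R) (h' : E d) (_ : ‖h'‖ < R),
    ENNReal.ofReal (‖n (x + h) - n (x + h')‖ / ‖h - h'‖)

/-- local supremum on `ball x R` -/
def supf (ρ : E d → ℝ) (R : ℝ) (x : E d) : ℝ≥0∞ :=
  ⨆ (h : E d) (_ : ‖h‖ < R), ENNReal.ofReal (ρ (x + h))

/-- smoothed direction fields -/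
structure Dirs (C₀ : ℝ≥0) (ℓ : ℝ) (K : ℕ) (m : ℕ → E d → E d) (D : ℕ → ℕ → E d → ℝ≥0∞)
    (n : ℕ → E d → E d) : Prop where
  cont : ∀ k, Continuous (n k)
  norm_le : ∀ k x, ‖n k x‖ ≤ 1
  lipg : ∀ k x y, ‖n k x - n k y‖ ≤ C₀ / sc ℓ k * ‖x - y‖
  osc : ∀ k j x, k ≤ K → k < j →
    (ENNReal.ofReal (sc ℓ k) * lip (n k) (16 * sc ℓ k) x) ^ 2 * mass (m j) x (16 * sc ℓ k) ≤
      C₀ * ∫⁻ y in ball x (17 * sc ℓ k), D k j y
  av : ∀ k j x, k ≤ K → k < j →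
    ∫⁻ y in ball x (12 * sc ℓ k), ENNReal.ofReal (‖m j y‖ - inner ℝ (n k x) (m j y)) ≤
      C₀ * ∫⁻ y in ball x (sc ℓ k), D k j y
  av2 : ∀ k j, k ≤ K → k < j →
    ∫⁻ y, ENNReal.ofReal (‖m j y‖ - inner ℝ (n k y) (m j y)) ≤ C₀ * ∫⁻ y, D k j y

/-- mean direction carried by the weights -/
def NN (p : ℕ → ℕ → E d → ℝ) (n : ℕ → E d → E d) (k : ℕ) (x : E d) : E d :=
  ∑ i ∈ Finset.range (k + 1), p k i x • n i x

/-- two point variation of the weights -/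
def dif (p : ℕ → ℕ → E d → ℝ) (n : ℕ → E d → E d) (k : ℕ) (x y : E d) : ℝ :=
  ∑ i ∈ Finset.range (k + 1), (|p k i x - p k i y| + ‖p k i x • n i x - p k i y • n i y‖)

/-- restart weights -/
structure Wts (C₁ : ℝ≥0) (ε : ℝ) (ζ : E d → ℝ) (n : ℕ → E d → E d)
    (p : ℕ → ℕ → E d → ℝ) : Prop where
  cont : ∀ k i, Continuous (p k i)
  nonneg : ∀ k i x, 0 ≤ p k i x
  sum : ∀ k x, ∑ i ∈ Finset.range (k + 1), p k i x = ζ x
  anti : ∀ k i x, i ≤ k → p (k + 1) i x ≤ p k i x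
  near : ∀ k i x, i ≤ k → 0 < p k i x → ‖n k x - n i x‖ ≤ 3 * ε
  pot : ∀ k x w, ε ^ 2 * p (k + 1) (k + 1) x * ‖w‖ - 2 * (‖w‖ - inner ℝ (n (k + 1) x) w) ≤
    inner ℝ (NN p n (k + 1) x - NN p n k x) w
  two : ∀ k x y, dif p n k x y ≤ 2 * |ζ x - ζ y| + C₁ * ∑ i ∈ Finset.range (k + 1),
    ((k - i + 1 : ℕ) : ℝ) * (√(p i i x) * ‖n i x - n i y‖ + ‖n i x - n i y‖ ^ 2)

def cc (d : ℕ) : ℝ := 1 / (12 * d)

/-- all the data of the multiscale argument -/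
structure Ctx (C₀ C₁ : ℝ≥0) (ℓ : ℝ) (K : ℕ) (x₀ : E d) (μ : E d → E d) (m : ℕ → E d → E d)
    (D : ℕ → ℕ → E d → ℝ≥0∞) (n : ℕ → E d → E d) (ζ : E d → ℝ)
    (p : ℕ → ℕ → E d → ℝ) : Prop where
  pos : 0 < ℓ
  fam : Fam μ (64 * ℓ) (K + 3) m D
  dirs : Dirs C₀ ℓ K m D n
  zlip : ∀ x y, |ζ x - ζ y| ≤ ‖x - y‖ / ℓ
  zmem : ∀ x, 0 ≤ ζ x ∧ ζ x ≤ 1
  zsupp : ∀ x, ζ x ≠ 0 → x ∈ ball x₀ (2 * ℓ)
  wts : Wts C₁ (cc d / 3) ζ n p

/-- local variation bound of the weights at scale `k` -/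
def bet (η : ℝ≥0) (ℓ : ℝ) (n : ℕ → E d → E d) (p : ℕ → ℕ → E d → ℝ) (k : ℕ) (x : E d) : ℝ≥0∞ :=
  (4 ^ k)⁻¹ + ∑ i ∈ Finset.range (k + 1), (2 ^ (k - i))⁻¹ *
    (η * supf (p i i) (16 * sc ℓ k) x +
      (η : ℝ≥0∞)⁻¹ * (ENNReal.ofReal (sc ℓ i) * lip (n i) (16 * sc ℓ k) x) ^ 2)

/-- the packing quantity -/
def SS (ℓ : ℝ) (K : ℕ) (m : ℕ → E d → E d) (p : ℕ → ℕ → E d → ℝ) : ℝ≥0∞ :=
  ∑ k ∈ Finset.range (K + 1), ∫⁻ x, supf (p k k) (16 * sc ℓ k) x * nm (m (k + 3)) (sc ℓ k) 16 x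

/-- maximal function truncated from below -/
def gK (f : E d → ℝ) (K : ℕ) (x : E d) : ℝ := sSup (ua f x '' Ici (sc 1 K))

/-- maximal function over the small radii -/
def hK (f : E d → ℝ) (K t : ℕ) : E d → ℝ := MM (ua f) (sc (sc 1 K) t) (4 * sc 1 K)

end

end Vale.Agent.P137
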