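import Vale.Agent.P137.PDefs

open MeasureTheory Metric Set Filter
open scoped ENNReal NNReal Topology

namespace Vale.Agent.P137

/-! ### From weak gradients to the calculus of ball averages -/

def WPathStmt (d : ℕ) : Prop :=
  ∀ (f : E d → ℝ) (F : E d → E d), LocallyIntegrable f → LocallyIntegrable F → IsWeakGrad f F →
    ∀ (x h : E d) (s b : ℝ), 0 < s → 0 < s + b →
      ua f (x + h) (s + b) - ua f x s =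
        ∫ t in (0 : ℝ)..1, avg F (x + t • h) (s + t * b) (fun w => h + b • w)

def WCurlStmt (d : ℕ) : Prop :=
  ∀ (f : E d → ℝ) (F : E d → E d), LocallyIntegrable f → LocallyIntegrable F → IsWeakGrad f F →
    ∀ (x : E d) (s : ℝ) (e : E d), 0 < s → avg F x s (Wf e) = 0

def WCalcStmt (d : ℕ) : Prop :=
  ∀ (f : E d → ℝ) (F : E d → E d), LocallyIntegrable f → LocallyIntegrable F → IsWeakGrad f F →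
    ∀ (z : E d) (R : ℝ), Calc (ua f) ((ball z R).indicator F) z R

def AbsStmt (d : ℕ) : Prop :=
  ∀ (f : E d → ℝ) (F : E d → E d), Integrable f → Integrable F → IsWeakGrad f F →
    ∃ F' : E d → E d, Measurable F' ∧ Integrable F' ∧ (∀ᵐ x, ‖F' x‖ ≤ ‖F x‖) ∧
      IsWeakGrad (fun x => |f x|) F'

/-! ### Smoothed ball fields -/

def KerStmt (d : ℕ) : Prop :=
  ∃ c₀ C₀ : ℝ, 0 < c₀ ∧ 0 < C₀ ∧ ∀ ρ ω : ℝ, 1 / 2 ≤ ρ → 0 < ω → ρ + ω ≤ 5 →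
    Antitone (kp d ρ ω) ∧ (∀ t, 0 ≤ kp d ρ ω t ∧ kp d ρ ω t ≤ C₀) ∧
    (∀ t, t < ρ → c₀ ≤ kp d ρ ω t) ∧
    (∀ t t', t < ρ → t' < ρ → kp d ρ ω t = kp d ρ ω t') ∧
    (∀ t, ρ + ω ≤ t → kp d ρ ω t = 0) ∧
    (∀ t t', |kp d ρ ω t - kp d ρ ω t'| ≤ C₀ / ω * |t - t'|) ∧
    (∀ x y e : E d, Fld x ρ ω (fun _ _ => e) y = kp d ρ ω ‖y - x‖ • e)

def FldStmt (d : ℕ) : Prop :=
  ∃ C : ℝ, 0 < C ∧ ∀ (x : E d) (ρ ω : ℝ) (P : ℝ → E d → E d) (B : ℝ), Good P B →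
    1 / 2 ≤ ρ → 0 < ω → ρ + ω ≤ 5 →
    (∀ y, ‖Fld x ρ ω P y‖ ≤ C * B) ∧
    (∀ y, ρ + ω ≤ ‖y - x‖ → Fld x ρ ω P y = 0) ∧
    (∀ (x' : E d) (ρ' : ℝ) (y y' : E d), 1 / 2 ≤ ρ' → ρ' + ω ≤ 5 →
      ‖Fld x ρ ω P y - Fld x' ρ' ω P y'‖ ≤ C * B / ω * (‖x - x'‖ + |ρ - ρ'| + ‖y - y'‖))

def GoodStmt (d : ℕ) : Prop :=
  ∃ B : ℝ, 0 < B ∧ ∀ (e : E d) (β γ κ : ℝ), ‖e‖ = 1 → |β| ≤ 2 → |γ| ≤ 1 → |κ| ≤ 1 →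
    Good (fun θ w => e + (β - θ * γ) • w + κ • Wf e w) B

def FubStmt (d : ℕ) : Prop :=
  ∀ (μ : E d → E d), Integrable μ → ∀ (x : E d) (ρ ω : ℝ) (P : ℝ → E d → E d),
    Continuous (Function.uncurry P) → 0 < ρ → 0 ≤ ω →
    ∫ y, inner ℝ (μ y) (Fld x ρ ω P y) = ∫ θ in (0 : ℝ)..1, avg μ x (ρ + θ * ω) (P θ)

def ContStmt (d : ℕ) : Prop :=
  ∀ (u : E d → ℝ → ℝ) (μ : E d → E d) (z : E d) (R : ℝ), Calc u μ z R →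
    ∀ (a : ℝ) (x x' : E d) (s s' : ℝ), 0 < a → a ≤ s → a ≤ s' → ‖x - z‖ + s ≤ R →
      ‖x' - z‖ + s' ≤ R →
      |u x' s' - u x s| ≤ (vb d a)⁻¹ * (∫ y, ‖μ y‖) * (‖x' - x‖ + |s' - s|)

def PathStmt (d : ℕ) : Prop :=
  ∀ (u : E d → ℝ → ℝ) (μ : E d → E d) (z : E d) (R : ℝ), Calc u μ z R →
    ∀ (x h e : E d) (ρ ω b ω' κ : ℝ), 0 < ρ → 0 < ρ + b → 0 < ω → 0 < ω' →
      ‖x - z‖ + ρ + ω ≤ R → ‖x + h - z‖ + (ρ + b) + ω' ≤ R → ∀ A : ℝ,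
      ((∀ t ∈ Icc (0 : ℝ) 1, A ≤ ∫ y, inner ℝ (μ y)
          (Fld (x + t • h) (ρ + t * b) (ω + t * (ω' - ω))
            (fun θ w => h + (b + θ * (ω' - ω)) • w + κ • Wf e w) y)) →
        A ≤ UU u ω' (x + h) (ρ + b) - UU u ω x ρ)

def GGStmt (d : ℕ) : Prop :=
  ∀ (u : E d → ℝ → ℝ) (μ : E d → E d) (z : E d), Calc u μ z 10 → ∀ (n : ℕ) (x : E d),
    ‖x - z‖ ≤ 5 →
    (∃ r ∈ Icc (1 : ℝ) (4 - dl n), gg u n x = UU u (dl n) x r) ∧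
    (∀ r ∈ Icc (1 : ℝ) (4 - dl n), UU u (dl n) x r ≤ gg u n x) ∧
    gg u n x ≤ gg u (n + 1) x ∧
    (∀ x', ‖x' - z‖ ≤ 5 → |gg u n x - gg u n x'| ≤ (vb d 1)⁻¹ * (∫ y, ‖μ y‖) * ‖x - x'‖) ∧
    |gg u n x - MM u 1 4 x| ≤ (vb d 1)⁻¹ * (∫ y, ‖μ y‖) * dl n

/-! ### Erosion telescoping -/

def PLStmt (d : ℕ) : Prop :=
  ∀ (m : ℕ → E d → E d) (μ : E d → E d) (K : ℕ), Lev m μ 1 K →
    ∀ e v : E d, (∀ w, -dfc e w ≤ inner ℝ v w) →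
    ∀ (a : E d → ℝ) (A : ℝ), 0 ≤ A → (∀ y y', |a y - a y'| ≤ A * ‖y - y'‖) →
    ∀ (ψ : ℝ → ℝ) (B : ℝ), Monotone ψ → (∀ t, |ψ t| ≤ B) →
    ∀ (o : ℕ → E d → ℝ), (∀ l, Measurable (o l)) → (∀ l, ∃ B', ∀ y, |o l y| ≤ B') →
      (∀ l y, ψ (a y) - ψ (a y - 3 * A / 4 ^ l) ≤ o l y) →
    ∀ j N : ℕ, j ≤ N → K ≤ N + 1 →
      (∫ y, ψ (a y - 2 * A / 4 ^ j) * inner ℝ v (m j y)) -
          ∑ l ∈ Finset.Icc j N, ∫ y, o l y * dfc e (m (l + 1) y) ≤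
        ∫ y, ψ (a y) * inner ℝ v (μ y)

def OneStmt (d : ℕ) : Prop :=
  ∀ (m : ℕ → E d → E d) (μ : E d → E d) (ℓ : ℝ) (K : ℕ), 0 < ℓ → Lev m μ ℓ K →
    ∀ (l : ℕ) (Y : E d → E d) (B : ℝ), Measurable Y → (∀ y, ‖Y y‖ ≤ B) →
    ∀ o : E d → ℝ≥0∞, (∀ y y', ‖y' - y‖ ≤ ℓ / 4 ^ l → ‖Y y' - Y y‖ₑ ≤ o y) →
      ENNReal.ofReal |(∫ y, inner ℝ (Y y) (m l y)) - ∫ y, inner ℝ (Y y) (m (l + 1) y)| ≤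
        d * ∫⁻ y, o y * ‖m (l + 1) y‖ₑ

def RadStmt (d : ℕ) : Prop :=
  ∃ C : ℝ, 0 < C ∧ ∀ (m : ℕ → E d → E d) (μ : E d → E d) (K : ℕ) (e z : E d) (D : ℝ),
    WinL m μ K e z D → ∀ (x : E d) (r ω : ℝ) (J : ℕ), ‖x - z‖ ≤ 3 → 1 ≤ r → 0 < ω → r + ω ≤ 4 →
    -G0 μ e x r ω ≤ C * (lam ^ J + (lam / 4) ^ J / ω) * D ∧
    (G0 μ e x r ω ≤ 0 →
      ∫ y in ball x (r - 2 / 4 ^ J), ‖m J y‖ ≤ C * (lam ^ J + (lam / 4) ^ J / ω) * D) ∧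
    -G0 μ e x r ω ≤ C * (1 + (lam / 4) ^ J / ω) * D + C * shsum m e z x r ω J

def SplitStmt (d : ℕ) : Prop :=
  ∃ C : ℝ, 0 < C ∧ ∀ (m : ℕ → E d → E d) (μ : E d → E d) (K : ℕ) (e z : E d) (D : ℝ),
    WinL m μ K e z D →
    ∀ (Y : E d → E d) (k : E d → ℝ) (S A : Set (E d)) (L B η ω Lk Ck : ℝ) (j : ℕ),
      0 ≤ L → 0 ≤ B → 0 ≤ η → 0 < ω → 0 ≤ Lk →
      (∀ y y', ‖Y y - Y y'‖ ≤ L * ‖y - y'‖) → (∀ y, ‖Y y‖ ≤ B) →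
      (∀ y, 0 ≤ k y ∧ k y ≤ Ck) → (∀ y y', |k y - k y'| ≤ Lk * ‖y - y'‖) →
      (∀ y, k y ≠ 0 → y ∈ ball z 10) →
      (∀ y, y ∉ S → ‖Y y‖ ≤ η * k y) →
      MeasurableSet A → A ⊆ ball z 10 →
      (∀ y ∈ S, ∀ y', ‖y' - y‖ ≤ ω + 3 / 4 ^ j → y' ∈ A) →
      ∫ y, k y * inner ℝ e (μ y) ≤ 0 →
      ∫ y, inner ℝ (μ y) (Y y) ≤ C * (η * Ck * lam ^ j * D + B * (∫ y in A, ‖m j y‖) +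
        (L + η * Lk + B / ω) * (lam / 4) ^ j * D)

/-! ### The single scale theorem -/

def FocusStmt (d : ℕ) : Prop :=
  ∃ C : ℝ, 0 < C ∧ ∀ (e x : E d) (r τ φ δ δ' c t : ℝ), ‖e‖ = 1 →
    0 < φ → φ ≤ 1 / 4 → 0 < τ → τ ≤ φ / 100 → 0 < δ' → δ' ≤ δ → δ ≤ τ * φ →
    1 + 3 * τ ≤ r → r ≤ 4 - 3 * τ → -1 - φ ≤ c → c ≤ 1 → 0 ≤ t → t ≤ 1 →
    ∀ y, y ∉ cap e x r (4 * τ) (c - φ) → y ∉ cap (-e) x r (4 * τ) (-(c + 5 * φ)) →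
      ‖Fld (x - (t * τ) • e) (r - t * ((2 * φ - c) * τ)) (δ' + t * (δ - δ'))
            (fun θ w => Pf e (2 * φ - c - θ * ((δ - δ') / τ)) w) y -
          Fld x r δ' (fun _ w => Pf e (2 * φ - c) w) y‖ ≤ C * φ * kp d r δ' ‖y - x‖

def S1Stmt (d : ℕ) : Prop :=
  ∃ C : ℝ, 0 < C ∧ ∀ (u : E d → ℝ → ℝ) (μ : E d → E d) (z : E d), Calc u μ z 10 →
    ∀ (e x : E d) (r ω σ β κ : ℝ), ‖e‖ = 1 → ‖x - z‖ ≤ 3 → 0 < ω → 0 < σ → σ ≤ 1 →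
      1 ≤ r → r + ω ≤ 4 → 1 ≤ r + β * σ → r + β * σ + ω ≤ 4 → |β| ≤ 2 → |κ| ≤ 1 →
      (UU u ω x r - UU u ω (x + σ • e) (r + β * σ)) / σ ≤
        -(∫ y, inner ℝ (μ y) (Fld x r ω (fun _ w => e + β • w + κ • Wf e w) y)) +
          C * σ * (∫ y, ‖μ y‖) / ω

def S5Stmt (d : ℕ) : Prop :=
  ∃ C : ℝ, 0 < C ∧ ∀ (u : E d → ℝ → ℝ) (m : ℕ → E d → E d) (μ : E d → E d) (K : ℕ) (e z : E d)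
    (D : ℝ), WinL m μ K e z D → Calc u μ z 10 →
    ∀ (n : ℕ) (x : E d) (r c H : ℝ), 1 ≤ n → ‖x - z‖ ≤ 3 →
      1 + 3 * tau n ≤ r → r ≤ 4 - 3 * tau n → -1 - phi n ≤ c → c ≤ 1 →
      G0 μ e x r (dl (n + 1)) ≤ 0 →
      ∫ y in cap e x r (5 * tau n) c, ‖m (lst n) y‖ ≤ H →
      ∫ y in cap (-e) x r (5 * tau n) (-(c + 4 * phi n)), ‖m (lst n) y‖ ≤ H →
      -(∫ y, inner ℝ (μ y) (Fld x r (dl (n + 1)) (fun _ w => Pf e (2 * phi n - c) w) y)) ≤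
        (UU u (dl n) (x - tau n • e) (r - (2 * phi n - c) * tau n) - UU u (dl (n + 1)) x r) /
            tau n + C * (qq n * D + H)

def RareStmt (d : ℕ) : Prop :=
  ∃ C : ℝ, 0 < C ∧ ∀ (e z : E d) (ν : Measure (E d)) (Λ H τ φ : ℝ), IsFiniteMeasure ν →
    ‖e‖ = 1 → 0 ≤ Λ → 0 < H → 0 < φ → φ ≤ 1 / 4 → 0 < τ → τ ≤ φ / 100 →
    ∃ R : Set (E d), MeasurableSet R ∧
      volume (R ∩ ball z 3) ≤ ENNReal.ofReal (C * (Λ / H + 1) ^ 2 * τ / φ ^ 3) ∧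
      ∀ (x : E d) (r c : ℝ), 1 ≤ r → r ≤ 4 →
        ν.real (ball x (r - τ)) ≤ Λ → H ≤ ν.real (cap e x r (5 * τ) c) →
        H ≤ ν.real (cap (-e) x r (5 * τ) (-(c + 3 * φ))) → x ∈ R

def BStmt (d : ℕ) : Prop :=
  ∃ C : ℝ, 0 < C ∧ ∀ (m : ℕ → E d → E d) (μ : E d → E d) (K : ℕ) (e z : E d) (D : ℝ),
    WinL m μ K e z D → ∃ B : ℕ → E d → ℝ≥0∞, (∀ n, Measurable (B n)) ∧
      (∀ n, ∫⁻ x in ball z 3, B n x ≤ ENNReal.ofReal (C * D)) ∧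
      (∀ n x x', ‖x - x'‖ ≤ tau n → B n x' ≤ B (n + 1) x) ∧
      (∀ n x r, (|r - 1| ≤ 3 * tau n ∨ |r - 4| ≤ 3 * tau n) →
        ENNReal.ofReal (shsum m e z x r (dl (n + 1)) (lst n)) ≤ B (n + 1) x)

def StepStmt (d : ℕ) : Prop :=
  ∃ C : ℝ, 0 < C ∧ ∀ (u : E d → ℝ → ℝ) (m : ℕ → E d → E d) (μ : E d → E d) (K : ℕ) (e z : E d)
    (D : ℝ), WinL m μ K e z D → Calc u μ z 10 →
    (∀ x ∈ ball z 3, ∀ σ : ℝ, 0 < σ → σ ≤ 1 →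
      Dq e σ (gg u 1) x ≤ C * σ * (∫ y, ‖μ y‖) + C * D) ∧
    ∀ n : ℕ, 1 ≤ n → ∃ R : Set (E d), MeasurableSet R ∧
      volume (R ∩ ball z 3) ≤ ENNReal.ofReal (C * qq n ^ 2) ∧
      ∀ x ∈ ball z 3, ∀ σ : ℝ, 0 < σ → σ ≤ tau n →
        Dq e σ (gg u (n + 1)) x ≤ C * σ * (∫ y, ‖μ y‖) / dl (n + 1) + C * qq n * D ∨
        (∃ r : ℝ, (|r - 1| ≤ 3 * tau n ∨ |r - 4| ≤ 3 * tau n) ∧
          Dq e σ (gg u (n + 1)) x ≤ C * σ * (∫ y, ‖μ y‖) / dl (n + 1) + C * qq n * D +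
            (C * D + C * shsum m e z x r (dl (n + 1)) (lst n))) ∨
        Dq e σ (gg u (n + 1)) x ≤ C * σ * (∫ y, ‖μ y‖) / dl (n + 1) + C * qq n * D +
            Dq e (tau n) (gg u n) (x - tau n • e) ∨
        (x ∈ R ∧ Dq e σ (gg u (n + 1)) x ≤
          C * σ * (∫ y, ‖μ y‖) / dl (n + 1) + C * qq n * D + C * D / qq n)

def T2Stmt (d : ℕ) : Prop :=
  ∃ C : ℝ, 0 < C ∧ ∀ (u : E d → ℝ → ℝ) (m : ℕ → E d → E d) (μ : E d → E d) (K : ℕ) (e z : E d)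
    (D : ℝ), WinL m μ K e z D → Calc u μ z 10 → ∀ σ : ℝ, 0 < σ → σ ≤ 1 →
      ∫⁻ x in ball z 1, ENNReal.ofReal (Dq e σ (MM u 1 4) x) ≤ ENNReal.ofReal (C * D)

def H1Stmt (d : ℕ) : Prop :=
  ∃ C : ℝ≥0, ∀ (u : E d → ℝ → ℝ) (m : ℕ → E d → E d) (μ : E d → E d) (K : ℕ) (z x : E d)
    (R : ℝ), Lev m μ 1 K → Calc u μ z R → ‖x - z‖ + 4 ≤ R →
      ENNReal.ofReal (MM u 1 4 x - u x 4) ≤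
        C * ∑ l ∈ Finset.range (K + 1), (4 ^ l)⁻¹ * mass (m l) x 6

def ScaleStmt (d : ℕ) : Prop :=
  ∀ ℓ : ℝ, 0 < ℓ →
    (∀ (u : E d → ℝ → ℝ) (μ : E d → E d) (z : E d) (R : ℝ), Calc u μ z R →
      Calc (fun x s => ℓ⁻¹ * u (ℓ • x) (ℓ * s)) (fun y => μ (ℓ • y)) (ℓ⁻¹ • z) (R / ℓ)) ∧
    (∀ (m : ℕ → E d → E d) (μ : E d → E d) (K : ℕ), Lev m μ ℓ K →
      Lev (fun l y => m l (ℓ • y)) (fun y => μ (ℓ • y)) 1 K) ∧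
    (∀ (u : E d → ℝ → ℝ) (x : E d),
      MM (fun x s => ℓ⁻¹ * u (ℓ • x) (ℓ * s)) 1 4 x = ℓ⁻¹ * MM u ℓ (4 * ℓ) (ℓ • x)) ∧
    (∀ (g : E d → ℝ≥0∞) (z : E d) (R : ℝ),
      ∫⁻ y in ball z (R * ℓ), g y =
        ENNReal.ofReal (ℓ ^ d) * ∫⁻ y in ball (ℓ⁻¹ • z) R, g (ℓ • y))

def T2gStmt (d : ℕ) : Prop :=
  ∃ C : ℝ≥0, ∀ (u : E d → ℝ → ℝ) (m : ℕ → E d → E d) (μ : E d → E d) (K : ℕ) (e z : E d)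
    (ℓ : ℝ) (D : ℝ≥0∞), 0 < ℓ → ‖e‖ = 1 → Lev m μ ℓ K → Calc u μ z (10 * ℓ) →
      (∀ l, ∫⁻ y in ball z (10 * ℓ), ENNReal.ofReal (dfc e (m l y)) ≤
        ENNReal.ofReal (lam ^ l) * D) →
      ∫⁻ x in ball z ℓ, ENNReal.ofReal (-(fderiv ℝ (MM u ℓ (4 * ℓ)) x e)) ≤ C * D

def HStmt (d : ℕ) : Prop :=
  ∃ C : ℝ≥0, ∀ (u : E d → ℝ → ℝ) (m : ℕ → E d → E d) (μ : E d → E d) (K : ℕ) (z x : E d)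
    (ℓ R : ℝ), 0 < ℓ → Lev m μ ℓ K → Calc u μ z R → ‖x - z‖ + 4 * ℓ ≤ R →
      ENNReal.ofReal (MM u ℓ (4 * ℓ) x - u x (4 * ℓ)) ≤
        C * ENNReal.ofReal ℓ * ∑ l ∈ Finset.range (K + 1), (4 ^ l)⁻¹ * nm (m l) ℓ 6 x

/-! ### The multiscale argument -/

def FamStmt (d : ℕ) : Prop :=
  ∀ (μ : E d → E d) (L : ℝ) (N : ℕ), Measurable μ → Integrable μ → 0 < L →
    ∃ (m : ℕ → E d → E d) (D : ℕ → ℕ → E d → ℝ≥0∞), Fam μ L N m D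

def DirsStmt (d : ℕ) : Prop :=
  ∃ C₀ : ℝ≥0, ∀ (μ : E d → E d) (ℓ : ℝ) (K : ℕ) (m : ℕ → E d → E d)
    (D : ℕ → ℕ → E d → ℝ≥0∞), 0 < ℓ → Fam μ (64 * ℓ) (K + 3) m D →
    ∃ n : ℕ → E d → E d, Dirs C₀ ℓ K m D n

def WtsStmt (d : ℕ) : Prop :=
  ∀ ε : ℝ, 0 < ε → ε ≤ 1 → ∃ C₁ : ℝ≥0, ∀ (ζ : E d → ℝ) (n : ℕ → E d → E d), Continuous ζ →
    (∀ x, 0 ≤ ζ x ∧ ζ x ≤ 1) → (∀ k, Continuous (n k)) → (∀ k x, ‖n k x‖ ≤ 1) →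
    ∃ p : ℕ → ℕ → E d → ℝ, Wts C₁ ε ζ n p

def BetaStmt (d : ℕ) : Prop :=
  ∀ C₀ C₁ : ℝ≥0, ∃ C : ℝ≥0, ∀ (ℓ : ℝ) (K : ℕ) (x₀ : E d) (μ : E d → E d) (m : ℕ → E d → E d)
    (D : ℕ → ℕ → E d → ℝ≥0∞) (n : ℕ → E d → E d) (ζ : E d → ℝ) (p : ℕ → ℕ → E d → ℝ),
    Ctx C₀ C₁ ℓ K x₀ μ m D n ζ p → ∀ η : ℝ≥0, 0 < η → η ≤ 1 →
    ∀ (k : ℕ) (x y y' : E d), y ∈ ball x (16 * sc ℓ k) → y' ∈ ball x (16 * sc ℓ k) →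
      ENNReal.ofReal (dif p n k y y') ≤
        C * ENNReal.ofReal (‖y - y'‖ / sc ℓ k) * bet η ℓ n p k x

def SumStmt (d : ℕ) : Prop :=
  ∀ C₀ C₁ : ℝ≥0, ∃ C : ℝ≥0, ∀ (ℓ : ℝ) (K : ℕ) (x₀ : E d) (μ : E d → E d) (m : ℕ → E d → E d)
    (D : ℕ → ℕ → E d → ℝ≥0∞) (n : ℕ → E d → E d) (ζ : E d → ℝ) (p : ℕ → ℕ → E d → ℝ),
    Ctx C₀ C₁ ℓ K x₀ μ m D n ζ p → ∀ η : ℝ≥0, 0 < η → η ≤ 1 →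
    ∀ (l : ℕ) (A : ℝ), (A ≤ 14 ∨ (l = 0 ∧ A ≤ 16)) →
      ∑ k ∈ Finset.range (K + 1), ∫⁻ x, bet η ℓ n p k x * nm (m (k + 3 + l)) (sc ℓ k) A x ≤
        C * (η * SS ℓ K m p + (η : ℝ≥0∞)⁻¹ * (l + 1) * VV μ)

def PackStmt (d : ℕ) : Prop :=
  ∀ C₀ C₁ : ℝ≥0, ∃ C : ℝ≥0, ∀ (ℓ : ℝ) (K : ℕ) (x₀ : E d) (μ : E d → E d) (m : ℕ → E d → E d)
    (D : ℕ → ℕ → E d → ℝ≥0∞) (n : ℕ → E d → E d) (ζ : E d → ℝ) (p : ℕ → ℕ → E d → ℝ),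
    Ctx C₀ C₁ ℓ K x₀ μ m D n ζ p → SS ℓ K m p ≤ C * VV μ

def TreeStmt (d : ℕ) : Prop :=
  ∀ (K : ℕ) (c s₀ : ℝ) (U : Set (E d)) (ζ : E d → ℝ) (n : ℕ → E d → E d)
    (p : ℕ → ℕ → E d → ℝ) (g : ℕ → E d → ℝ) (G : E d → ℝ) (Hf Bf : ℕ → E d → ℝ≥0∞) (Lg : ℝ≥0),
    0 ≤ c → 0 < s₀ → MeasurableSet U → Bornology.IsBounded U →
    (∀ k, LipschitzWith Lg (g k)) →
    (∀ x, (∀ k, k ≤ K → g k x ≤ G x) ∧ ∃ k, k ≤ K ∧ G x = g k x) →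
    (∀ k, Continuous (n k)) → (∀ k x, ‖n k x‖ ≤ 1) →
    (∀ k i, Continuous (p k i)) → (∀ k i x, 0 ≤ p k i x) →
    (∀ k x, ∑ i ∈ Finset.range (k + 1), p k i x = ζ x) →
    (∀ k i x, i ≤ k → p (k + 1) i x ≤ p k i x) →
    (∀ k i x, i ≤ k → 0 < p k i x → ‖n k x - n i x‖ ≤ c) →
    (∀ x, ζ x ≠ 0 → ∀ h : E d, ‖h‖ ≤ s₀ → x + h ∈ U) →
    (∀ k x, k < K → x ∈ U → ENNReal.ofReal (g (k + 1) x - g k x) ≤ Hf (k + 1) x) →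
    (∀ k x (h : E d), k ≤ K → ‖h‖ ≤ s₀ →
      ENNReal.ofReal (dif p n k (x + h) x) ≤ ENNReal.ofReal ‖h‖ * Bf k x) →
    ENNReal.ofReal c * ∫⁻ x, ENNReal.ofReal (ζ x) * ‖fderiv ℝ G x‖ₑ ≤
      (∑ k ∈ Finset.range (K + 1), ∫⁻ x, ENNReal.ofReal (p k k x) * ‖fderiv ℝ (g k) x‖ₑ) +
      d * (∑ k ∈ Finset.range (K + 1), ∫⁻ x in U, Bf k x * Hf k x) +
      2 * (∑ k ∈ Finset.range (K + 1), ∫⁻ x, ENNReal.ofReal (ζ x) *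
        ENNReal.ofReal (2 * c * ‖fderiv ℝ (g k) x‖ - fderiv ℝ (g k) x (n k x)))

def ErrStmt (d : ℕ) : Prop :=
  ∀ C₀ C₁ : ℝ≥0, ∃ C : ℝ≥0, ∀ (ℓ : ℝ) (K : ℕ) (x₀ : E d) (μ : E d → E d) (m : ℕ → E d → E d)
    (D : ℕ → ℕ → E d → ℝ≥0∞) (n : ℕ → E d → E d) (ζ : E d → ℝ) (p : ℕ → ℕ → E d → ℝ),
    Ctx C₀ C₁ ℓ K x₀ μ m D n ζ p → ∀ u : E d → ℝ → ℝ, Calc u μ x₀ (13 * ℓ) →
      ∑ k ∈ Finset.range (K + 1), ∫⁻ x in ball x₀ (2 * ℓ),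
        ENNReal.ofReal (2 * cc d * ‖fderiv ℝ (MM u (sc ℓ k) (4 * sc ℓ k)) x‖ -
          fderiv ℝ (MM u (sc ℓ k) (4 * sc ℓ k)) x (n k x)) ≤ C * VV μ

def FirstStmt (d : ℕ) : Prop :=
  ∀ C₀ C₁ : ℝ≥0, ∃ C : ℝ≥0, ∀ (ℓ : ℝ) (K : ℕ) (x₀ : E d) (μ : E d → E d) (m : ℕ → E d → E d)
    (D : ℕ → ℕ → E d → ℝ≥0∞) (n : ℕ → E d → E d) (ζ : E d → ℝ) (p : ℕ → ℕ → E d → ℝ),
    Ctx C₀ C₁ ℓ K x₀ μ m D n ζ p → ∀ u : E d → ℝ → ℝ, Calc u μ x₀ (13 * ℓ) →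
      ∑ k ∈ Finset.range (K + 1), ∫⁻ x,
        ENNReal.ofReal (p k k x) * ‖fderiv ℝ (MM u (sc ℓ k) (4 * sc ℓ k)) x‖ₑ ≤
          C * (SS ℓ K m p + VV μ)

def SecondStmt (d : ℕ) : Prop :=
  ∀ C₀ C₁ : ℝ≥0, ∃ C : ℝ≥0, ∀ (ℓ : ℝ) (K : ℕ) (x₀ : E d) (μ : E d → E d) (m : ℕ → E d → E d)
    (D : ℕ → ℕ → E d → ℝ≥0∞) (n : ℕ → E d → E d) (ζ : E d → ℝ) (p : ℕ → ℕ → E d → ℝ),
    Ctx C₀ C₁ ℓ K x₀ μ m D n ζ p → ∀ u : E d → ℝ → ℝ, Calc u μ x₀ (13 * ℓ) →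
      ∑ k ∈ Finset.range (K + 1), ∫⁻ x in ball x₀ (3 * ℓ),
        ((ENNReal.ofReal (sc ℓ k))⁻¹ * bet 1 ℓ n p k x) *
          ENNReal.ofReal (MM u (sc ℓ k) (4 * sc ℓ k) x - u x (4 * sc ℓ k)) ≤
          C * (SS ℓ K m p + VV μ)

def MainStmt (d : ℕ) : Prop :=
  ∃ C : ℝ≥0, ∀ (u : E d → ℝ → ℝ) (μ : E d → E d) (x₀ : E d) (ℓ : ℝ) (K : ℕ), 0 < ℓ →
    Measurable μ → Calc u μ x₀ (13 * ℓ) →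
    ∫⁻ x in ball x₀ ℓ, ‖fderiv ℝ (MM u (sc ℓ K) (4 * ℓ)) x‖ₑ ≤ C * VV μ

/-! ### The end game -/

def FinAStmt (d : ℕ) : Prop :=
  ∃ C : ℝ≥0, ∀ (f : E d → ℝ) (F : E d → E d), (∀ x, 0 ≤ f x) → Integrable f → Integrable F →
    Measurable F → IsWeakGrad f F → ∀ K : ℕ,
      (∃ L : ℝ≥0, LipschitzWith L (gK f K)) ∧
      ∫⁻ x, ‖gradient (gK f K) x‖ₑ ≤ C * VV F ∧
      ∀ t : ℕ, (∃ L : ℝ≥0, LipschitzWith L (hK f K t)) ∧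
        ∀ x, gK f (K + t) x = max (gK f K x) (hK f K t x)

def FinBStmt (d : ℕ) : Prop :=
  ∀ (f : E d → ℝ) (F : E d → E d), Integrable f → Integrable F →
    Measurable F → IsWeakGrad f F → ∀ ε : ℝ≥0∞, 0 < ε → ∃ K₀ : ℕ, ∀ K, K₀ ≤ K → ∀ t : ℕ,
      ∫⁻ x, ‖gradient (hK f K t) x - F x‖ₑ ≤ ε

def LimStmt (d : ℕ) : Prop :=
  ∀ (g : ℕ → E d → ℝ) (h : ℕ → ℕ → E d → ℝ) (F : E d → E d) (A : ℝ≥0∞), A ≠ ∞ →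
    Measurable F → Integrable F →
    (∀ K, ∃ L : ℝ≥0, LipschitzWith L (g K)) → (∀ K t, ∃ L : ℝ≥0, LipschitzWith L (h K t)) →
    (∀ K t x, g (K + t) x = max (g K x) (h K t x)) →
    (∀ K, ∫⁻ x, ‖gradient (g K) x‖ₑ ≤ A) →
    (∀ ε : ℝ≥0∞, 0 < ε → ∃ K₀ : ℕ, ∀ K, K₀ ≤ K → ∀ t : ℕ,
      ∫⁻ x, ‖gradient (h K t) x - F x‖ₑ ≤ ε) →
    ∃ G : E d → E d, Measurable G ∧ ∫⁻ x, ‖G x‖ₑ ≤ A ∧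
      Tendsto (fun K => ∫⁻ x, ‖gradient (g K) x - G x‖ₑ) atTop (𝓝 0)

def MBStmt (d : ℕ) : Prop :=
  ∀ (f : E d → ℝ) (F : E d → E d), (∀ x, 0 ≤ f x) → Integrable f → Integrable F →
    Measurable F → IsWeakGrad f F →
    (∀ K x, 0 ≤ gK f K x ∧ gK f K x ≤ gK f (K + 1) x) ∧
    (∀ x, M f x = ⨆ K, ENNReal.ofReal (gK f K x)) ∧
    ∃ (A : ℝ≥0) (Φ : E d → ℝ≥0∞), Measurable Φ ∧ ∫⁻ x, Φ x < ∞ ∧ ∀ x, M f x ≤ A + Φ x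

def IBPStmt (d : ℕ) : Prop :=
  ∀ (g : E d → ℝ) (L : ℝ≥0), LipschitzWith L g → IsWeakGrad g (gradient g)

def FinalStmt (d : ℕ) : Prop :=
  ∃ C : ℝ, ∀ (f : E d → ℝ) (F : E d → E d), Integrable f → Integrable F → IsWeakGrad f F →
    (∀ᵐ x, M f x < ∞) ∧ LocallyIntegrable (fun x => (M f x).toReal) ∧
    ∃ G : E d → E d, IsWeakGrad (fun x => (M f x).toReal) G ∧ Integrable G ∧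
      ∫ x, ‖G x‖ ≤ C * ∫ x, ‖F x‖

end Vale.Agent.P137
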