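import Vale.Agent.P137.Basic
import Vale.Agent.P137.DefsU

open MeasureTheory Metric Set Filter
open scoped ENNReal NNReal Topology ContDiff

namespace Vale.Agent.P137

variable {d : ℕ}

/-- supremum over the balls of radius `r` whose closure contains `x` -/
noncomputable def ut (u : E d → ℝ → ℝ) (x : E d) (r : ℝ) : ℝ :=
  sSup ((fun y => u y r) '' closedBall x r)

/-- uncentered supremum over radii in `[a, b]` -/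
noncomputable def MU (u : E d → ℝ → ℝ) (a b : ℝ) : E d → ℝ := MM (ut u) a b

noncomputable def gU (f : E d → ℝ) (K : ℕ) (x : E d) : ℝ := sSup (ut (ua f) x '' Ici (sc 1 K))

noncomputable def hU (f : E d → ℝ) (K t : ℕ) : E d → ℝ :=
  MU (ua f) (sc (sc 1 K) t) (4 * sc 1 K)

def AMStmt (d : ℕ) : Prop :=
  ∃ C : ℝ, 0 < C ∧ ∀ (u : E d → ℝ → ℝ) (m : ℕ → E d → E d) (μ : E d → E d) (K : ℕ) (e z : E d)
    (D : ℝ), WinL m μ K e z D → Calc u μ z 10 →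
    ∀ (b y : E d) (r s : ℝ), ‖b‖ ≤ 1 → 1 ≤ r → r ≤ 4 → 0 ≤ s → s ≤ 1 → ‖y - z‖ + 3 * s ≤ 6 →
      u y r - u (y + s • ((2 : ℝ) • e + b)) r ≤ C * D

def AMgStmt (d : ℕ) : Prop :=
  ∃ C : ℝ≥0, ∀ (u : E d → ℝ → ℝ) (m : ℕ → E d → E d) (μ : E d → E d) (K : ℕ) (e z : E d)
    (ℓ : ℝ) (D : ℝ≥0∞), 0 < ℓ → ‖e‖ = 1 → Lev m μ ℓ K → Calc u μ z (10 * ℓ) →
      (∀ l, ∫⁻ y in ball z (10 * ℓ), ENNReal.ofReal (dfc e (m l y)) ≤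
        ENNReal.ofReal (lam ^ l) * D) →
      ∀ (b y : E d) (r s : ℝ), ‖b‖ ≤ 1 → ℓ ≤ r → r ≤ 4 * ℓ → 0 ≤ s → s ≤ ℓ →
        ‖y - z‖ + 3 * s ≤ 6 * ℓ →
        ENNReal.ofReal (u y r - u (y + s • ((2 : ℝ) • e + b)) r) ≤
          C * ENNReal.ofReal ℓ * (ENNReal.ofReal (ℓ ^ d))⁻¹ * D

def RunStmt (d : ℕ) : Prop :=
  ∀ (g : E d → ℝ) (Lg : ℝ≥0) (v xc : E d) (ρ Δ : ℝ), LipschitzWith Lg g → 0 < ρ →
    1 ≤ ‖v‖ → ‖v‖ ≤ 3 →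
    (∀ x ∈ ball xc (40 * ρ), ∀ s ∈ Icc (0 : ℝ) (9 * ρ), g x - g (x + s • v) ≤ Δ) →
    ∫⁻ x in ball xc ρ, {x | ∀ s ∈ Icc (0 : ℝ) (9 * ρ), g x ≤ g (x - s • v)}.indicator
        (fun x => ENNReal.ofReal (-(fderiv ℝ g x v))) x ≤
      ENNReal.ofReal (Δ / ρ) * volume (ball (0 : E d) (4 * ρ))

def T2gUStmt (d : ℕ) : Prop :=
  ∃ C : ℝ≥0, ∀ (u : E d → ℝ → ℝ) (m : ℕ → E d → E d) (μ : E d → E d) (K : ℕ) (e z : E d)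
    (ℓ : ℝ) (D : ℝ≥0∞), 0 < ℓ → ‖e‖ = 1 → Lev m μ ℓ K → Calc u μ z (10 * ℓ) →
      (∀ l, ∫⁻ y in ball z (10 * ℓ), ENNReal.ofReal (dfc e (m l y)) ≤
        ENNReal.ofReal (lam ^ l) * D) →
      ∫⁻ x in ball z ℓ, ENNReal.ofReal (-(fderiv ℝ (MU u ℓ (4 * ℓ)) x e)) ≤ C * D

def H1UStmt (d : ℕ) : Prop :=
  ∃ C : ℝ≥0, ∀ (u : E d → ℝ → ℝ) (m : ℕ → E d → E d) (μ : E d → E d) (K : ℕ) (z x y : E d)
    (R r : ℝ), Lev m μ 1 K → Calc u μ z R → ‖x - z‖ + 9 ≤ R → 1 ≤ r → r ≤ 4 → ‖y - x‖ ≤ r →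
      ENNReal.ofReal (u y r - u x 4) ≤
        C * ∑ l ∈ Finset.range (K + 1), (4 ^ l)⁻¹ * mass (m l) x 11

def HUStmt (d : ℕ) : Prop :=
  ∃ C : ℝ≥0, ∀ (u : E d → ℝ → ℝ) (m : ℕ → E d → E d) (μ : E d → E d) (K : ℕ) (z x : E d)
    (ℓ R : ℝ), 0 < ℓ → Lev m μ ℓ K → Calc u μ z R → ‖x - z‖ + 9 * ℓ ≤ R →
      ENNReal.ofReal (MU u ℓ (4 * ℓ) x - u x (4 * ℓ)) ≤
        C * ENNReal.ofReal ℓ * ∑ l ∈ Finset.range (K + 1), (4 ^ l)⁻¹ * nm (m l) ℓ 11 x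

def ErrUStmt (d : ℕ) : Prop :=
  ∀ C₀ C₁ : ℝ≥0, ∃ C : ℝ≥0, ∀ (ℓ : ℝ) (K : ℕ) (x₀ : E d) (μ : E d → E d) (m : ℕ → E d → E d)
    (D : ℕ → ℕ → E d → ℝ≥0∞) (n : ℕ → E d → E d) (ζ : E d → ℝ) (p : ℕ → ℕ → E d → ℝ),
    Ctx C₀ C₁ ℓ K x₀ μ m D n ζ p → ∀ u : E d → ℝ → ℝ, Calc u μ x₀ (13 * ℓ) →
      ∑ k ∈ Finset.range (K + 1), ∫⁻ x in ball x₀ (2 * ℓ),
        ENNReal.ofReal (2 * cc d * ‖fderiv ℝ (MU u (sc ℓ k) (4 * sc ℓ k)) x‖ -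
          fderiv ℝ (MU u (sc ℓ k) (4 * sc ℓ k)) x (n k x)) ≤ C * VV μ

def FirstUStmt (d : ℕ) : Prop :=
  ∀ C₀ C₁ : ℝ≥0, ∃ C : ℝ≥0, ∀ (ℓ : ℝ) (K : ℕ) (x₀ : E d) (μ : E d → E d) (m : ℕ → E d → E d)
    (D : ℕ → ℕ → E d → ℝ≥0∞) (n : ℕ → E d → E d) (ζ : E d → ℝ) (p : ℕ → ℕ → E d → ℝ),
    Ctx C₀ C₁ ℓ K x₀ μ m D n ζ p → ∀ u : E d → ℝ → ℝ, Calc u μ x₀ (13 * ℓ) →
      ∑ k ∈ Finset.range (K + 1), ∫⁻ x,
        ENNReal.ofReal (p k k x) * ‖fderiv ℝ (MU u (sc ℓ k) (4 * sc ℓ k)) x‖ₑ ≤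
          C * (SS ℓ K m p + VV μ)

def SecondUStmt (d : ℕ) : Prop :=
  ∀ C₀ C₁ : ℝ≥0, ∃ C : ℝ≥0, ∀ (ℓ : ℝ) (K : ℕ) (x₀ : E d) (μ : E d → E d) (m : ℕ → E d → E d)
    (D : ℕ → ℕ → E d → ℝ≥0∞) (n : ℕ → E d → E d) (ζ : E d → ℝ) (p : ℕ → ℕ → E d → ℝ),
    Ctx C₀ C₁ ℓ K x₀ μ m D n ζ p → ∀ u : E d → ℝ → ℝ, Calc u μ x₀ (13 * ℓ) →
      ∑ k ∈ Finset.range (K + 1), ∫⁻ x in ball x₀ (3 * ℓ),
        ((ENNReal.ofReal (sc ℓ k))⁻¹ * bet 1 ℓ n p k x) *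
          ENNReal.ofReal (MU u (sc ℓ k) (4 * sc ℓ k) x - u x (4 * sc ℓ k)) ≤
          C * (SS ℓ K m p + VV μ)

def MainUStmt (d : ℕ) : Prop :=
  ∃ C : ℝ≥0, ∀ (u : E d → ℝ → ℝ) (μ : E d → E d) (x₀ : E d) (ℓ : ℝ) (K : ℕ), 0 < ℓ →
    Measurable μ → Calc u μ x₀ (13 * ℓ) →
    ∫⁻ x in ball x₀ ℓ, ‖fderiv ℝ (MU u (sc ℓ K) (4 * ℓ)) x‖ₑ ≤ C * VV μ

def FinAUStmt (d : ℕ) : Prop :=
  ∃ C : ℝ≥0, ∀ (f : E d → ℝ) (F : E d → E d), (∀ x, 0 ≤ f x) → Integrable f → Integrable F →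
    Measurable F → IsWeakGrad f F → ∀ K : ℕ,
      (∃ L : ℝ≥0, LipschitzWith L (gU f K)) ∧
      ∫⁻ x, ‖gradient (gU f K) x‖ₑ ≤ C * VV F ∧
      ∀ t : ℕ, (∃ L : ℝ≥0, LipschitzWith L (hU f K t)) ∧
        (∀ x, gU f (K + t) x = max (gU f K x) (hU f K t x)) ∧
        ∀ x₀, ∫⁻ x in ball x₀ (sc 1 K), ‖gradient (hU f K t) x‖ₑ ≤
          C * ∫⁻ y in ball x₀ (13 * sc 1 K), ‖F y‖ₑ

def MBUStmt (d : ℕ) : Prop :=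
  ∀ (f : E d → ℝ) (F : E d → E d), (∀ x, 0 ≤ f x) → Integrable f → Integrable F →
    Measurable F → IsWeakGrad f F →
    (∀ K x, 0 ≤ gU f K x ∧ gU f K x ≤ gU f (K + 1) x) ∧
    (∀ x, Mu f x = ⨆ K, ENNReal.ofReal (gU f K x)) ∧
    ∃ (A : ℝ≥0) (Φ : E d → ℝ≥0∞), Measurable Φ ∧ ∫⁻ x, Φ x < ⊤ ∧ ∀ x, Mu f x ≤ A + Φ x

def RNStmt (d : ℕ) : Prop :=
  ∀ (g : E d → ℝ) (om : E d → ℝ≥0∞), Measurable om → ∫⁻ x, om x ≠ ⊤ →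
    (∀ φ : E d → ℝ, ContDiff ℝ ∞ φ → HasCompactSupport φ → ∀ v : E d,
      ENNReal.ofReal |∫ x, g x * fderiv ℝ φ x v| ≤ ‖v‖ₑ * ∫⁻ x, ‖φ x‖ₑ * om x) →
    LocallyIntegrable g →
    ∃ G : E d → E d, Integrable G ∧ IsWeakGrad g G ∧ ∫⁻ x, ‖G x‖ₑ ≤ d * ∫⁻ x, om x

def LimUStmt (d : ℕ) : Prop :=
  ∀ (g : ℕ → E d → ℝ) (h : ℕ → ℕ → E d → ℝ) (g' : E d → ℝ) (F : E d → E d) (A : ℝ≥0∞)
    (C : ℝ≥0), A ≠ ⊤ → Measurable F → Integrable F →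
    (∀ K, ∃ L : ℝ≥0, LipschitzWith L (g K)) → (∀ K t, ∃ L : ℝ≥0, LipschitzWith L (h K t)) →
    (∀ K t x, g (K + t) x = max (g K x) (h K t x)) →
    (∀ K, ∫⁻ x, ‖gradient (g K) x‖ₑ ≤ A) →
    (∀ K t x₀, ∫⁻ x in ball x₀ (sc 1 K), ‖gradient (h K t) x‖ₑ ≤
      C * ∫⁻ y in ball x₀ (13 * sc 1 K), ‖F y‖ₑ) →
    LocallyIntegrable g' → (∀ K, ∀ᵐ x, |g K x| ≤ g' x) →
    (∀ᵐ x, Tendsto (fun K => g K x) atTop (𝓝 (g' x))) →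
    ∃ om : E d → ℝ≥0∞, Measurable om ∧ ∫⁻ x, om x ≤ A + C * 13 ^ d * VV F ∧
      ∀ φ : E d → ℝ, ContDiff ℝ ∞ φ → HasCompactSupport φ → ∀ v : E d,
        ENNReal.ofReal |∫ x, g' x * fderiv ℝ φ x v| ≤ ‖v‖ₑ * ∫⁻ x, ‖φ x‖ₑ * om x

def FinalUStmt (d : ℕ) : Prop :=
  ∃ C : ℝ, ∀ (f : E d → ℝ) (F : E d → E d), Integrable f → Integrable F → IsWeakGrad f F →
    (∀ᵐ x, Mu f x < ⊤) ∧ LocallyIntegrable (fun x => (Mu f x).toReal) ∧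
    ∃ G : E d → E d, IsWeakGrad (fun x => (Mu f x).toReal) G ∧ Integrable G ∧
      ∫ x, ‖G x‖ ≤ C * ∫ x, ‖F x‖

/-! ### basic facts on the uncentered suprema -/

theorem ContStmt.ut_spec (hc : ContStmt d) {u : E d → ℝ → ℝ} {μ : E d → E d} {z : E d} {R : ℝ}
    (h : Calc u μ z R) {r : ℝ} (hr : 0 < r) {x : E d} (hx : ‖x - z‖ + 2 * r ≤ R) :
    (∃ y, ‖y - x‖ ≤ r ∧ ut u x r = u y r) ∧ ∀ y, ‖y - x‖ ≤ r → u y r ≤ ut u x r := by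
  have hL : 0 ≤ (vb d r)⁻¹ * ∫ y, ‖μ y‖ :=
    mul_nonneg (inv_nonneg.2 (vb_nonneg _)) (integral_nonneg fun _ => norm_nonneg _)
  have hb : ∀ y ∈ closedBall x r, ‖y - z‖ + r ≤ R := by
    intro y hy
    rw [mem_closedBall_iff_norm] at hy
    have := norm_sub_le_norm_sub_add_norm_sub y x z
    linarith
  have hco : ContinuousOn (fun y => u y r) (closedBall x r) := by
    refine (LipschitzOnWith.of_dist_le_mul (K := ⟨_, hL⟩) fun y hy y' hy' => ?_).continuousOn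
    have := hc u μ z R h r y' y r r hr le_rfl le_rfl (hb y' hy') (hb y hy)
    rw [sub_self, abs_zero, add_zero] at this
    rw [Real.dist_eq, dist_eq_norm]
    exact this
  obtain ⟨y, hy, h1, h2⟩ := (isCompact_closedBall x r).exists_sSup_image_eq_and_ge
    (nonempty_closedBall.2 hr.le) hco
  refine ⟨⟨y, mem_closedBall_iff_norm.1 hy, h1⟩, fun y' hy' => ?_⟩
  rw [ut, h1]; exact h2 y' (mem_closedBall_iff_norm.2 hy')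

theorem ContStmt.ut_sub_le (hc : ContStmt d) {u : E d → ℝ → ℝ} {μ : E d → E d} {z : E d} {R : ℝ}
    (h : Calc u μ z R) {a r r' : ℝ} (ha : 0 < a) (hr : a ≤ r) (hr' : a ≤ r') {x x' : E d}
    (hx : ‖x - z‖ + 2 * r ≤ R) (hx' : ‖x' - z‖ + 2 * r' ≤ R) :
    ut u x r - ut u x' r' ≤ (vb d a)⁻¹ * (∫ y, ‖μ y‖) * (‖x - x'‖ + 2 * |r - r'|) := by
  have hL : 0 ≤ (vb d a)⁻¹ * ∫ y, ‖μ y‖ :=
    mul_nonneg (inv_nonneg.2 (vb_nonneg _)) (integral_nonneg fun _ => norm_nonneg _)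
  have hr0 : 0 < r := ha.trans_le hr
  have hr0' : 0 < r' := ha.trans_le hr'
  obtain ⟨y, hy, e⟩ := (hc.ut_spec h hr0 hx).1
  have hn : ‖(r' / r) • (y - x)‖ ≤ r' := by
    rw [norm_smul, Real.norm_of_nonneg (by positivity), div_mul_eq_mul_div, div_le_iff₀ hr0]
    exact mul_le_mul_of_nonneg_left hy hr0'.le
  have hy' : ‖x' + (r' / r) • (y - x) - x'‖ ≤ r' := by simpa using hn
  have h1 := (hc.ut_spec h hr0' hx').2 _ hy'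
  have b1 : ‖y - z‖ + r ≤ R := by
    have := norm_sub_le_norm_sub_add_norm_sub y x z
    linarith
  have b2 : ‖x' + (r' / r) • (y - x) - z‖ + r' ≤ R := by
    have := norm_sub_le_norm_sub_add_norm_sub (x' + (r' / r) • (y - x)) x' z
    linarith
  have h2 := hc u μ z R h a _ y r' r ha hr' hr b2 b1
  have h3 : ‖y - (x' + (r' / r) • (y - x))‖ ≤ ‖x - x'‖ + |r - r'| := by
    have e1 : y - (x' + (r' / r) • (y - x)) = (x - x') + ((r - r') / r) • (y - x) := by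
      rw [sub_div, div_self hr0.ne']; module
    rw [e1]
    refine (norm_add_le _ _).trans (add_le_add le_rfl ?_)
    rw [norm_smul, Real.norm_eq_abs, abs_div, abs_of_pos hr0, div_mul_eq_mul_div,
      div_le_iff₀ hr0]
    exact mul_le_mul_of_nonneg_left hy (abs_nonneg _)
  have h4 := mul_le_mul_of_nonneg_left
    (show ‖y - (x' + (r' / r) • (y - x))‖ + |r - r'| ≤ ‖x - x'‖ + 2 * |r - r'| by linarith) hL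
  have h5 := le_abs_self (u y r - u (x' + (r' / r) • (y - x)) r')
  rw [e]; linarith

theorem ContStmt.ut_lip (hc : ContStmt d) {u : E d → ℝ → ℝ} {μ : E d → E d} {z : E d} {R : ℝ}
    (h : Calc u μ z R) {a r r' : ℝ} (ha : 0 < a) (hr : a ≤ r) (hr' : a ≤ r') {x x' : E d}
    (hx : ‖x - z‖ + 2 * r ≤ R) (hx' : ‖x' - z‖ + 2 * r' ≤ R) :
    |ut u x r - ut u x' r'| ≤ (vb d a)⁻¹ * (∫ y, ‖μ y‖) * (‖x - x'‖ + 2 * |r - r'|) := by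
  have h1 := hc.ut_sub_le h ha hr hr' hx hx'
  have h2 := hc.ut_sub_le h ha hr' hr hx' hx
  rw [norm_sub_rev, abs_sub_comm] at h2
  rw [abs_le]; constructor <;> linarith

theorem ContStmt.ut_continuousOn (hc : ContStmt d) {u : E d → ℝ → ℝ} {μ : E d → E d} {z : E d}
    {R : ℝ} (h : Calc u μ z R) {a b : ℝ} (ha : 0 < a) {x : E d} (hx : ‖x - z‖ + 2 * b ≤ R) :
    ContinuousOn (ut u x) (Icc a b) := by
  have hL : 0 ≤ (vb d a)⁻¹ * (∫ y, ‖μ y‖) * 2 :=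
    mul_nonneg (mul_nonneg (inv_nonneg.2 (vb_nonneg _))
      (integral_nonneg fun _ => norm_nonneg _)) zero_le_two
  refine (LipschitzOnWith.of_dist_le_mul (K := ⟨_, hL⟩) fun s hs s' hs' => ?_).continuousOn
  have := hc.ut_lip h ha hs.1 hs'.1 (x := x) (x' := x) (by linarith [hs.2]) (by linarith [hs'.2])
  rw [sub_self, norm_zero, zero_add, ← mul_assoc] at this
  exact this

theorem ContStmt.MU_spec (hc : ContStmt d) {u : E d → ℝ → ℝ} {μ : E d → E d} {z : E d} {R : ℝ}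
    (h : Calc u μ z R) {a b : ℝ} (ha : 0 < a) (hab : a ≤ b) {x : E d}
    (hx : ‖x - z‖ + 2 * b ≤ R) :
    (∃ y r, r ∈ Icc a b ∧ ‖y - x‖ ≤ r ∧ MU u a b x = u y r) ∧
      ∀ y r, r ∈ Icc a b → ‖y - x‖ ≤ r → u y r ≤ MU u a b x := by
  obtain ⟨⟨r, hr, e⟩, h2⟩ := MM_spec hab (hc.ut_continuousOn h ha hx)
  obtain ⟨y, hy, e'⟩ := (hc.ut_spec h (ha.trans_le hr.1) (x := x) (by linarith [hr.2])).1
  refine ⟨⟨y, r, hr, hy, e.trans e'⟩, fun y s hs hy => ?_⟩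
  exact ((hc.ut_spec h (ha.trans_le hs.1) (x := x) (by linarith [hs.2])).2 y hy).trans (h2 s hs)

theorem ContStmt.MU_lip (hc : ContStmt d) {u : E d → ℝ → ℝ} {μ : E d → E d} {z : E d}
    {R : ℝ} (h : Calc u μ z R) {a b : ℝ} (ha : 0 < a) (hab : a ≤ b) {x x' : E d}
    (hx : ‖x - z‖ + 2 * b ≤ R) (hx' : ‖x' - z‖ + 2 * b ≤ R) :
    |MU u a b x - MU u a b x'| ≤ (vb d a)⁻¹ * (∫ y, ‖μ y‖) * ‖x - x'‖ := by
  refine MM_sub_le hab (hc.ut_continuousOn h ha hx) (hc.ut_continuousOn h ha hx') fun s hs => ?_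
  have := hc.ut_lip h ha hs.1 hs.1 (x := x) (x' := x') (by linarith [hs.2]) (by linarith [hs.2])
  simpa using this

theorem ContStmt.MU_lipschitzOnWith (hc : ContStmt d) {u : E d → ℝ → ℝ} {μ : E d → E d}
    {z : E d} {R : ℝ} (h : Calc u μ z R) {a b : ℝ} (ha : 0 < a) (hab : a ≤ b) :
    LipschitzOnWith (Real.toNNReal ((vb d a)⁻¹ * ∫ y, ‖μ y‖)) (MU u a b) (ball z (R - 2 * b)) := by
  have hL : 0 ≤ (vb d a)⁻¹ * ∫ y, ‖μ y‖ :=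
    mul_nonneg (inv_nonneg.2 (vb_nonneg _)) (integral_nonneg fun _ => norm_nonneg _)
  refine LipschitzOnWith.of_dist_le_mul fun x hx x' hx' => ?_
  rw [mem_ball_iff_norm] at hx hx'
  rw [Real.coe_toNNReal _ hL, Real.dist_eq, dist_eq_norm]
  exact hc.MU_lip h ha hab (by linarith) (by linarith)

end Vale.Agent.P137
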